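import Crest.Agent.R66.CA

/-!
# Row 66: acyclicity of the coset complexes
-/

set_option autoImplicit false

namespace Crest.Agent.R66

open Finset CA

namespace CA

variable {F : Type} [Field F] {n K : ℕ} [NeZero n] {G : Type} [Group G] (S : Kap F n K G)

omit S [NeZero n] in
theorem single_mem_Fsp {s t : ZMod n} {A : Finset (ZMod n)} (ht : t ∈ A) {i : ℕ}
    (hi : i ≤ pos s t) : Pi.single t (1 : F) ∈ Fsp F s A i := by
  intro a ha
  refine Pi.single_eq_of_ne ?_ _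
  rintro rfl
  rcases ha with ha | ha
  · exact ha ht
  · omega

/-- Links of vertices, cut down by an upper bound `B`, are acyclic. -/
theorem ac_opp (hO : OStmt) (hD : DictStmt) (m : ℕ) : ∃ ρ : ℕ,
    ∀ (F k G : Type) [Field F] [Fintype F] [Field k] [CharP k 2] [Group G] (n K : ℕ) [NeZero n]
      (S : Kap F n K G), Odd (Fintype.card F) → n ≤ K →
      ∀ (s : ZMod n) (A I : Finset (ZMod n)) (B : Submodule F (ZMod n → F)), I ⊆ A →
        I.Nonempty → ρ ≤ I.card → (∀ i ∈ I, (S.phi s A i 1).C ≤ B) → ∀ m' ≤ m,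
        Ac k {τ | ∃ u ∈ S.U s ⊓ S.P A, τ ⊆ face S.U u I ∧ ∀ v ∈ τ, (S.Phi s A v).C ≤ B} m' := by
  obtain ⟨ρ, hO⟩ := hO m 1
  refine ⟨ρ, ?_⟩
  intro F k G _ _ _ _ _ n K _ S hF hK s A I B hIA hI hρ hB m' hm
  obtain ⟨-, -, d3, -, d5, -, d7⟩ := hD F G n K S hK s A
  obtain ⟨t₀, ht₀, hmax⟩ := I.exists_max_image (pos s) hI
  have hne : (Pi.single t₀ (1 : F) : ZMod n → F) ≠ 0 := fun h => by
    simpa using congrFun h t₀
  have key := d7 k I (Asp F A) B (Submodule.span F {Pi.single t₀ 1}) m' le_rfl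
    (hO F k _ hF _ _ _ _ _ (by rwa [Finset.card_image_of_injective _ (pos_inj s)]) ?_ ?_ ?_
      ((Asp_le_phi S s A t₀ 1).trans (hB t₀ ht₀)) ?_ (finrank_span_singleton hne).le m' hm)
  · convert key using 2
    ext τ
    refine exists_congr fun u => and_congr_right fun hu => and_congr_right fun hτ => ?_
    refine forall₂_congr fun v hv => ?_
    obtain ⟨h1, h2⟩ := mem_face.1 (hτ hv)
    rw [h2, d3]
    refine ⟨fun h => ⟨Asp_le_phi S _ _ _ _, h, fun hY => hne ?_⟩, fun h => h.2.1⟩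
    have := (d5 u hu.2 v.1).disjoint
    rw [Submodule.disjoint_def] at this
    exact this _ (hY (Submodule.mem_span_singleton_self _))
      (single_mem_Fsp (hIA ht₀) (hmax _ h1))
  · intro i hi j _ hij
    obtain ⟨t, ht, rfl⟩ := Finset.mem_image.1 hi
    refine lt_of_le_of_ne (fun v hv a ha => hv a (ha.imp_right fun h => h.trans hij)) fun e => ?_
    have h1 : Pi.single t (1 : F) ∈ Fsp F s A j := e ▸ single_mem_Fsp (hIA ht) le_rfl
    simpa using h1 t (Or.inr hij)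
  · intro i _
    rw [Submodule.disjoint_def]
    intro v h1 h2
    funext a
    by_cases ha : a ∈ A
    · exact h1 a ha
    · exact h2 a (Or.inl ha)
  · intro i hi
    obtain ⟨t, ht, rfl⟩ := Finset.mem_image.1 hi
    exact (d5 1 (one_mem _) t).codisjoint.mono_left (hB t ht)
  · intro h
    simpa using h (Submodule.mem_span_singleton_self _) t₀ (hIA ht₀)

/-- reduction along the row group -/
theorem red_row [Fintype F] [Fintype G] (hF : Odd (Fintype.card F)) {k : Type} [Field k]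
    [CharP k 2] {A J I : Finset (ZMod n)} (hJ : J ⊆ A) {Q₀ : Subgroup G}
    (hQ : S.P A ⊓ S.col J ≤ Q₀) {m : ℕ} {z : Finset (Vx S.U) →₀ k}
    (hz : z ∈ Ch k (Dl S.U (S.P A ⊓ S.col J) I) m) (hb : bd k z = 0)
    (htriv : ∀ a ∈ S.R A J, Bds k (Dl S.U (S.P A ⊓ S.col J) I) m (act k a z + z))
    (hred : ∀ z' ∈ Ch k (Dl S.U (S.P (A \ J)) I) m, bd k z' = 0 → Bds k (Dl S.U Q₀ I) m z') :
    Bds k (Dl S.U Q₀ I) m z := by
  obtain ⟨ρ, hρ, hmul⟩ := exists_row_hom S J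
  have hRQ : S.R A J ≤ S.P A ⊓ S.col J := fun g hg =>
    ⟨fun b h hh hne => ⟨(hg b h hh hne).1, hJ (hg b h hh hne).2.2⟩,
      fun b h hh hne => (hg b h hh hne).2.1⟩
  refine coset_norm (Q := S.P A ⊓ S.col J) (Q' := S.P (A \ J)) (hRQ.trans hQ) (odd_card S hF _) ρ
    (fun q hq q' hq' => hmul q hq.2 q' hq'.2) (fun s _ q hq hs => (hρ q hq.2).mem S hs)
    (fun q hq => ?_) (fun q hq => ?_) hz hb
    (fun a ha => Bds_mono (Dl_mono hQ I) (htriv a ha)) hred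
  · have hx : q * (ρ q)⁻¹ ∈ S.P A ⊓ S.col J :=
      mul_mem hq (inv_mem ⟨(hρ q hq.2).mem S hq.1, (hρ q hq.2).mem S hq.2⟩)
    intro b h hh hne
    exact ⟨(hx.1 b h hh hne).1, hx.2 b h hh hne,
      (tr_ker S hρ (fun q hq => (hρ q hq).mem S hq) hmul hq.2 hh hne).2⟩
  · intro b h hh hne
    obtain ⟨h1, h2⟩ := (hρ q hq.2).ne S hne
    exact ⟨Finset.mem_sdiff.2 ⟨(hq.1 b h hh h2).1, hq.2 b h hh h2⟩,
      Finset.mem_sdiff.2 ⟨(hq.1 b h hh h2).2, fun h => h1 ⟨hh, h⟩⟩⟩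

omit [NeZero n] in
theorem P_sdiff_le (A J : Finset (ZMod n)) : S.P (A \ J) ≤ S.P A ⊓ S.col J ⊓ S.row J :=
  fun _ hg => ⟨⟨fun b h hh hne => ⟨(Finset.mem_sdiff.1 (hg b h hh hne).1).1,
    (Finset.mem_sdiff.1 (hg b h hh hne).2).1⟩,
    fun b h hh hne => (Finset.mem_sdiff.1 (hg b h hh hne).1).2⟩,
    fun b h hh hne => (Finset.mem_sdiff.1 (hg b h hh hne).2).2⟩

/-- gluing of prescribed columns -/
theorem glue {A I J : Finset (ZMod n)} {a₀ : ZMod n} (haJ : a₀ ∉ J) (haA : a₀ ∈ A)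
    {x : Finset (Vx S.U)} {g₀ : G} (hg₀ : g₀ ∈ S.P A) (hx : x ⊆ face S.U g₀ I)
    (g : ZMod n → G) (hg : ∀ j ∈ J, g j ∈ S.P A ∧ x ⊆ face S.U (g j) I) :
    ∃ g' ∈ S.P A, x ⊆ face S.U g' I ∧ ∀ j ∈ J, S.κ g' j = S.κ (g j) j := by
  rcases x.eq_empty_or_nonempty with rfl | ⟨v₀, hv₀⟩
  · obtain ⟨g', h1, h2⟩ := S.exC (fun b h => if b ∈ J then S.κ (g b) b h else 0) a₀
    refine ⟨g', fun b h hh hne => ?_, Finset.empty_subset _, fun j hj => col_ext S fun h hh hK => ?_⟩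
    · by_cases hb : b = a₀
      · subst hb
        rw [h2 h hne, add_zero]
        exact ⟨haA, haA⟩
      · rw [h1 b h hb hh (lt_of_ne S hne)] at hne
        split_ifs at hne with hj
        · exact (hg b hj).1 b h hh hne
        · exact absurd rfl hne
    · rw [h1 j h (fun e => haJ (e ▸ hj)) hh hK, if_pos hj]
  · have hU : ∀ j ∈ J, ∀ v ∈ x, g₀⁻¹ * g j ∈ S.U v.1 := fun j hj v hv =>
      vtx_eq_iff.1 ((mem_face.1 (hx hv)).2.symm.trans (mem_face.1 ((hg j hj).2 hv)).2)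
    obtain ⟨u, hu⟩ := S.exH (fun b h => if b ∈ J then S.κ (g₀⁻¹ * g b) b h else 0) (pos v₀.1)
      (fun b h hh hne => by
        split_ifs at hne with hj
        · rw [Kap.pos_add _ b h (hU b hj v₀ hv₀ b h hh hne)]; omega
        · exact absurd rfl hne)
    have hu' : ∀ b h, 1 ≤ h → S.κ u b h ≠ 0 → b ∈ J ∧ S.κ (g₀⁻¹ * g b) b h ≠ 0 := by
      intro b h hh hne
      rw [hu b h hh (lt_of_ne S hne)] at hne
      split_ifs at hne with hj
      · exact ⟨hj, hne⟩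
      · exact absurd rfl hne
    refine ⟨g₀ * u, mul_mem hg₀ fun b h hh hne => ?_, fun v hv => ?_, fun j hj => ?_⟩
    · obtain ⟨h1, h2⟩ := hu' b h hh hne
      exact mul_mem (inv_mem hg₀) (hg b h1).1 b h hh h2
    · obtain ⟨h1, h2⟩ := mem_face.1 (hx hv)
      refine mem_face.2 ⟨h1, h2.trans (vtx_eq_iff.2 ?_)⟩
      rw [inv_mul_cancel_left]
      intro b h hh hne
      obtain ⟨h3, h4⟩ := hu' b h hh hne
      exact hU b h3 v hv b h hh h4
    · have : S.κ u j = S.κ (g₀⁻¹ * g j) j := col_ext S fun h hh hK => by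
        rw [hu j h hh hK, if_pos hj]
      rw [col_mul S g₀ this, mul_inv_cancel_left]

end CA

theorem gStmt_of (hN : NerveStmt) (hJ : JoinStmt) (hO : OStmt) (hD : DictStmt) (hG : GenStmt)
    (hB : DeltaStmt) (hB' : DeltaCStmt) : GStmt := by
  suffices H : ∀ m : ℕ, ∃ ρ β : ℕ, ∀ (F k G : Type) [Field F] [Fintype F] [Field k] [CharP k 2]
      [Group G] [Fintype G] (n K : ℕ) [NeZero n] (S : Kap F n K G) (ψ : AddChar F k),
      Odd (Fintype.card F) → ψ.IsPrimitive → n ≤ K →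
      ∀ (A Bk I : Finset (ZMod n)), I ⊆ A → Bk ⊆ A → ρ ≤ I.card → β ≤ Bk.card →
        (∀ s ∈ I, ∀ j ∈ Bk, s.val < j.val) → ∀ m' < m, Ac k (Dl S.U (S.P A) I) m' by
    intro m
    obtain ⟨ρ, β, h⟩ := H (m + 1)
    exact ⟨ρ, β, fun F k G _ _ _ _ _ _ n K _ S ψ h1 h2 h3 A Bk I h4 h5 h6 h7 h8 m' hm =>
      h F k G n K S ψ h1 h2 h3 A Bk I h4 h5 h6 h7 h8 m' (Nat.lt_succ_of_le hm)⟩
  intro m
  induction m with
  | zero => exact ⟨0, 0, fun _ _ _ _ _ _ _ _ _ _ _ _ _ _ _ _ _ _ _ _ _ _ _ _ _ _ h => absurd h (by omega)⟩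
  | succ m ih =>
  obtain ⟨ρ₀, β₀, ih⟩ := ih
  obtain ⟨ρ₁, hB⟩ := hB m (m + 1)
  obtain ⟨ρ₂, hB'⟩ := hB' m
  obtain ⟨ρ₃, hO⟩ := ac_opp hO hD m
  refine ⟨ρ₀ + ρ₁ + ρ₂ + ρ₃ + 1, β₀ + m + 1, ?_⟩
  intro F k G _ _ _ _ _ _ n K _ S ψ hF hψ hK A Bk I hIA hBA hρ hβ hlt m' hm'
  rcases (Nat.lt_succ_iff.1 hm').lt_or_eq with hm | rfl
  · exact ih F k G n K S ψ hF hψ hK A Bk I hIA hBA (by omega) (by omega) hlt m' hm
  classical
  obtain ⟨J, hJB, hJc⟩ := Finset.exists_subset_card_eq (s := Bk) (n := m' + 1) (by omega)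
  have hIB : ∀ s ∈ I, s ∉ Bk := fun s hs hs' => lt_irrefl _ (hlt s hs s hs')
  obtain ⟨a₀, ha₀⟩ : I.Nonempty := Finset.card_pos.1 (by omega)
  have hBJ : ∀ J' ⊆ J, ∀ r ≤ m', ∀ z ∈ Ch k (Dl S.U (S.P A ⊓ S.col J') I) r, bd k z = 0 →
      ∀ a ∈ S.R A J', Bds k (Dl S.U (S.P A ⊓ S.col J') I) r (act k a z + z) := fun J' hJ' =>
    hB F k G n K S ψ hF hψ hK A J' I (hJ'.trans (hJB.trans hBA))
      (hJc ▸ Finset.card_le_card hJ') (by omega) (fun s hs j hj => (hlt s hs j (hJB (hJ' hj))).le)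
      fun s hs s' _ hne => ⟨s, hIA hs, fun h => hIB s hs (hJB (hJ' h)), pos_self_lt hne⟩
  let Rel : Finset (Vx S.U) → Finset (ZMod n × (ℕ → F)) → Prop := fun x a =>
    ∃ g ∈ S.P A, x ⊆ face S.U g I ∧ ∀ w ∈ a, w.1 ∈ J ∧ w.2 = S.κ g w.1
  have hX : {x | Rel x ∅} = Dl S.U (S.P A) I := by
    ext x
    simp [Rel, Dl]
  have htr : ∀ (a : Finset (ZMod n × (ℕ → F))) (g₀ : G), g₀ ∈ S.P A →
      (∀ w ∈ a, w.1 ∈ J ∧ w.2 = S.κ g₀ w.1) →
      (∀ σ ∈ {x | Rel x a}, σ.image (g₀⁻¹ • ·) ∈ Dl S.U (S.P A ⊓ S.col (a.image Prod.fst)) I) ∧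
      ∀ σ ∈ Dl S.U (S.P A ⊓ S.col (a.image Prod.fst)) I, σ.image (g₀ • ·) ∈ {x | Rel x a} := by
    intro a g₀ hg₀ ha
    constructor
    · rintro σ ⟨g, hg, hσ, hw⟩
      refine ⟨g₀⁻¹ * g, ⟨(S.P A).mul_mem ((S.P A).inv_mem hg₀) hg,
        (mem_col_iff S).2 fun j hj => ?_⟩, image_sub hσ⟩
      obtain ⟨w, hw', rfl⟩ := Finset.mem_image.1 hj
      rw [← (hw w hw').2, (ha w hw').2]
    · rintro σ ⟨g, hg, hσ⟩
      refine ⟨g₀ * g, mul_mem hg₀ hg.1, image_sub hσ, fun w hw => ⟨(ha w hw).1, ?_⟩⟩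
      rw [(ha w hw).2]
      refine ((mem_col_iff S (J := a.image Prod.fst)).1 ?_ _ (Finset.mem_image_of_mem _ hw)).symm
      rw [inv_mul_cancel_left]
      exact hg.2
  rw [← hX]
  refine hN k _ _ Rel m' ?_ ?_ ?_ ?_
  · rintro x a ⟨g, hg, h1, h2⟩ x' hx' a' ha'
    exact ⟨g, hg, hx'.trans h1, fun w hw => h2 w (ha' hw)⟩
  · rintro x ⟨g₀, hg₀, hx, -⟩ r hr
    have := hJ k _ _ Prod.fst (fun w => Rel x {w}) J
      (fun j hj => ⟨(j, S.κ g₀ j), ⟨g₀, hg₀, hx, by simpa using hj⟩, rfl⟩) r (by omega)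
    convert this using 2
    ext a
    constructor
    · rintro ⟨g, hg, h1, h2⟩
      refine ⟨fun w hw => ⟨⟨g, hg, h1, by simpa using h2 w hw⟩, (h2 w hw).1⟩,
        fun w hw w' hw' e => Prod.ext e ?_⟩
      rw [(h2 w hw).2, (h2 w' hw').2, e]
    · rintro ⟨h1, h2⟩
      have : ∀ j ∈ a.image Prod.fst, ∃ g, (g ∈ S.P A ∧ x ⊆ face S.U g I) ∧
          ∀ w ∈ a, w.1 = j → w.2 = S.κ g j := by
        intro j hj
        obtain ⟨w, hw, rfl⟩ := Finset.mem_image.1 hj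
        obtain ⟨g, hg, h3, h4⟩ := (h1 w hw).1
        refine ⟨g, ⟨hg, h3⟩, fun w' hw' e => ?_⟩
        rw [h2 w' hw' w hw e]
        exact (h4 w (Finset.mem_singleton_self _)).2
      choose! g hg hg' using this
      obtain ⟨g', h3, h4, h5⟩ := glue S (J := a.image Prod.fst) (a₀ := a₀) (fun h => by
        obtain ⟨w, hw, e⟩ := Finset.mem_image.1 h
        exact hIB a₀ ha₀ (hJB (e ▸ (h1 w hw).2))) (hIA ha₀) hg₀ hx g hg
      refine ⟨g', h3, h4, fun w hw => ⟨(h1 w hw).2, ?_⟩⟩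
      rw [h5 _ (Finset.mem_image_of_mem _ hw), hg' _ (Finset.mem_image_of_mem _ hw) w hw rfl]
  · rintro a ⟨g₀, hg₀, -, ha⟩ h2 r hr
    obtain ⟨t1, t2⟩ := htr a g₀ hg₀ ha
    have hJ' : a.image Prod.fst ⊆ J := fun j hj => by
      obtain ⟨w, hw, rfl⟩ := Finset.mem_image.1 hj
      exact (ha w hw).1
    refine Bds_transport g₀ t1 t2 fun z hz hb => ?_
    refine red_row S hF (hJ'.trans (hJB.trans hBA)) le_rfl hz hb
      (hBJ _ hJ' r (by omega) z hz hb) fun z' hz' hb' => ?_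
    refine Bds_mono (Dl_mono ((P_sdiff_le S _ _).trans inf_le_left) I) ?_
    refine ih F k G n K S ψ hF hψ hK _ (Bk \ J) I
      (fun s hs => Finset.mem_sdiff.2 ⟨hIA hs, fun h => hIB s hs (hJB (hJ' h))⟩)
      (Finset.sdiff_subset_sdiff hBA hJ') (by omega) ?_
      (fun s hs j hj => hlt s hs j (Finset.mem_sdiff.1 hj).1) r (by omega) z' hz' hb'
    rw [Finset.card_sdiff_of_subset hJB]
    omega
  · intro w z hz hb
    by_cases hne : ∃ x, Rel x {w}
    swap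
    · have : z ∈ (⊥ : Submodule k _) := Ch_ind ⊥ (fun σ hσ _ => absurd ⟨σ, hσ⟩ hne) hz
      rw [(Submodule.mem_bot k).1 this]
      exact ⟨0, zero_mem _, map_zero _⟩
    obtain ⟨x, g₀, hg₀, -, ha⟩ := hne
    obtain ⟨t1, -⟩ := htr {w} g₀ hg₀ ha
    rw [Finset.image_singleton] at t1
    have hj : w.1 ∈ J := (ha w (Finset.mem_singleton_self _)).1
    have hjs : {w.1} ⊆ J := Finset.singleton_subset_iff.2 hj
    have hjA : w.1 ∈ A := hBA (hJB hj)
    rw [hX]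
    refine Bds_transport g₀ t1 (Dl_smul hg₀) (fun z hz hb => ?_) z hz hb
    generalize w.1 = j at *
    refine red_row S hF (hjs.trans (hJB.trans hBA)) inf_le_left hz hb
      (hBJ _ hjs m' le_rfl z hz hb) fun z' hz' hb' => ?_
    obtain ⟨ρ, hρ, hmul⟩ := exists_cut_hom S j
    have hle := P_sdiff_le S A {j}
    have hfix : S.R A {j} ⊔ S.C A {j} ≤ fixer (S.P A) I m' z' := by
      refine sup_le (fun a ha => ⟨fun b h hh hne => ⟨(ha b h hh hne).1, ?_⟩, ?_⟩)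
        (fun a ha => ⟨fun b h hh hne => ⟨?_, (ha b h hh hne).2.1⟩, ?_⟩)
      · rw [Finset.mem_singleton.1 (ha b h hh hne).2.2]; exact hjA
      · exact Bds_mono (Dl_mono inf_le_left I) (hBJ _ hjs m' le_rfl z'
          (Ch_mono (Dl_mono (hle.trans inf_le_left) I) _ hz') hb' a ha)
      · rw [Finset.mem_singleton.1 (ha b h hh hne).1]; exact hjA
      · refine Bds_mono (Dl_mono inf_le_left I) (hB' F k G n K S ψ hF hψ hK A I j hjA (by omega)
          (fun s hs s' _ hne => ⟨s, hIA hs, fun h => hIB s hs (hJB (h ▸ hj)), pos_self_lt hne⟩)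
          m' le_rfl z' (Ch_mono (Dl_mono ?_ I) _ hz') hb' a ha)
        exact hle.trans (inf_le_inf_right _ inf_le_left)
    have hPA : S.P (A \ {j}) ≤ S.P A := hle.trans (inf_le_left.trans inf_le_left)
    refine coset_norm (Q' := S.U j ⊓ S.P A) (fun a ha => (hfix ha).1) (odd_card S hF _) ρ
      (fun q _ q' _ => hmul q q') (fun s _ q _ hs => (hρ q).mem S hs) (fun q hq => ?_)
      (fun q hq => ⟨fun b h hh hne => not_le.1 ((hρ q).ne S hne).1, (hρ q).mem S (hPA hq)⟩)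
      hz' hb' (fun a ha => (hfix ha).2) fun z'' hz'' hb'' => ?_
    · refine (hG F G n K S).2 A j hjA _ (mul_mem (hPA hq) (inv_mem ((hρ q).mem S (hPA hq))))
        fun b h hh hlt => ?_
      by_contra hne
      have := tr_ker S (Q := ⊤) (fun q _ => hρ q) (fun _ _ => trivial) (fun q _ q' _ => hmul q q')
        trivial hh hne
      omega
    · have := hO F k G n K S hF hK j A I ⊤ hIA ⟨a₀, ha₀⟩ (by omega) (fun _ _ => le_top) m' le_rfl
      simp only [le_top, implies_true, and_true] at this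
      exact Bds_mono (Dl_mono inf_le_right I) (this z'' hz'' hb'')

theorem xStmt_of (hP : PushStmt) (hO : OStmt) (hD : DictStmt) (hG : GStmt) : XStmt := by
  intro m
  obtain ⟨ρ₀, β, hG⟩ := hG m
  obtain ⟨ρ₁, hO⟩ := ac_opp hO hD m
  refine ⟨ρ₀ + ρ₁ + 1 + β, ?_⟩
  intro F k G _ _ _ _ _ _ n K _ S ψ hF hψ hK hn m' hm z hz hb
  classical
  set ρ := ρ₀ + ρ₁ + 1 with hρ
  let I : Finset (ZMod n) := univ.filter fun s => s.val < ρ
  have hI : ∀ s, s ∈ I ↔ s.val < ρ := fun s => by simp [I]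
  have hIc : I.card = ρ := by
    rw [← Finset.card_range ρ]
    refine Finset.card_nbij' ZMod.val Nat.cast (fun s hs => ?_) (fun i hi => ?_)
      (fun s _ => ZMod.natCast_zmod_val s) (fun i hi => ?_)
    · simpa [I] using hs
    · have : i < ρ := by simpa using hi
      simp only [I, coe_filter, mem_univ, true_and, Set.mem_ofPred_eq]
      rwa [ZMod.val_cast_of_lt (by omega)]
    · have : i < ρ := by simpa using hi
      exact ZMod.val_cast_of_lt (by omega)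
  have hPU : S.P univ = ⊤ := eq_top_iff.2 fun g _ b h _ _ => ⟨mem_univ _, mem_univ _⟩
  have hGI := hG F k G n K S ψ hF hψ hK univ Iᶜ I (subset_univ _) (subset_univ _) (by omega)
    (by rw [Finset.card_compl, ZMod.card]; omega)
    (fun s hs j hj => by
      have h1 := (hI s).1 hs
      have h2 := mt (hI j).2 (Finset.mem_compl.1 hj)
      omega) m' hm
  rw [hPU] at hGI
  have hgl : gl (Dl S.U ⊤ univ) (fun v => v.1 ∉ I) ∅ = Dl S.U ⊤ I := by
    ext τ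
    simp only [gl, not_not, union_empty, Set.mem_ofPred_eq]
    constructor
    · rintro ⟨h1, g, hg, h2⟩
      exact ⟨g, hg, fun v hv => mem_face.2 ⟨h1 v hv, (mem_face.1 (h2 hv)).2⟩⟩
    · rintro ⟨g, hg, h⟩
      exact ⟨fun v hv => (mem_face.1 (h hv)).1, g, hg,
        fun v hv => mem_face.2 ⟨mem_univ _, (mem_face.1 (h hv)).2⟩⟩
  suffices hl : ∀ x ∈ Dl S.U ⊤ univ, x.Nonempty → (∀ v ∈ x, v.1 ∉ I) → ∀ r, r + x.card = m' →
      Ac k (gl (Dl S.U ⊤ univ) (fun v => v.1 ∉ I) x) r by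
    obtain ⟨w, hw, hw'⟩ := hP k _ (Dl S.U ⊤ univ) (fun v => v.1 ∉ I) m'
      (fun σ ⟨g, hg, h⟩ τ hτ => ⟨g, hg, hτ.trans h⟩) hl z hz (by rw [hb]; simp)
    rw [hgl] at hw'
    obtain ⟨w', h1, h2⟩ := hGI _ hw' (by rw [map_add, hb, bd_bd, add_zero])
    refine ⟨w' - w, sub_mem (Ch_mono ?_ _ h1) hw, by rw [map_sub, h2, add_sub_cancel_right]⟩
    rintro σ ⟨g, hg, h⟩
    exact ⟨g, hg, fun v hv => mem_face.2 ⟨mem_univ _, (mem_face.1 (h hv)).2⟩⟩
  rintro x ⟨g, -, hx⟩ hne hbad r hr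
  obtain ⟨v₀, hv₀, hmax⟩ := x.exists_max_image (fun v => v.1.val) hne
  set s := v₀.1 with hs
  obtain ⟨-, -, d3, d4, d5, d6, -⟩ := hD F G n K S hK s univ
  let T : Finset (ZMod n) := (x.image fun v => v.1).erase s
  have hT : ∀ i ∈ I, ∀ t ∈ T, pos s i < pos s t := by
    intro i hi t ht
    obtain ⟨h1, h2⟩ := Finset.mem_erase.1 ht
    obtain ⟨v, hv, rfl⟩ := Finset.mem_image.1 h2
    have h3 := (hI i).1 hi
    have h4 := mt (hI _).2 (hbad v hv)
    have h5 : v.1.val < s.val :=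
      lt_of_le_of_ne (hmax v hv) fun e => h1 (ZMod.val_injective n e)
    have h6 := ZMod.val_lt s
    have e : ∀ a : ZMod n, a.val < s.val → pos s a = n - s.val + a.val := by
      intro a ha
      unfold pos
      rw [sub_eq_neg_add, ZMod.val_add, ZMod.neg_val, if_neg (by rintro h; simp [h] at ha),
        Nat.mod_eq_of_lt (by omega)]
    rw [e _ h5, e i (by omega)]
    omega
  have hle : ∀ u, (∀ t ∈ T, u ∈ S.U t) → ∀ i ∈ I,
      (S.phi s univ i u).C ≤ ⨅ t ∈ T, (S.phi s univ t 1).C := by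
    intro u hu i hi
    refine le_iInf₂ fun t ht => (phi_mono S univ (hT i hi t ht).le u).trans (le_of_eq ?_)
    rw [← d3, ← d3, vtx_eq_iff.2 (show u⁻¹ * 1 ∈ S.U t by simpa using hu t ht)]
  refine Bds_transport g ?_ ?_ (hO F k G n K S hF hK s univ I (⨅ t ∈ T, (S.phi s univ t 1).C)
    (subset_univ _) (Finset.card_pos.1 (by omega)) (by omega)
    (hle 1 fun _ _ => one_mem _) r (by omega))
  · rintro τ ⟨h1, g', -, h2⟩
    have hU : ∀ v ∈ x, g⁻¹ * g' ∈ S.U v.1 := fun v hv =>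
      vtx_eq_iff.1 ((mem_face.1 (hx hv)).2.symm.trans
        (mem_face.1 (h2 (Finset.mem_union_right _ hv))).2)
    have h3 : τ.image (g⁻¹ • ·) ⊆ face S.U (g⁻¹ * g') I := image_sub fun v hv =>
      mem_face.2 ⟨not_not.1 (h1 v hv), (mem_face.1 (h2 (Finset.mem_union_left _ hv))).2⟩
    refine ⟨g⁻¹ * g', ⟨hU v₀ hv₀, hPU ▸ trivial⟩, h3, fun v hv => ?_⟩
    obtain ⟨h4, h5⟩ := mem_face.1 (h3 hv)
    rw [h5, d3]
    refine hle _ (fun t ht => ?_) _ h4
    obtain ⟨v', hv', rfl⟩ := Finset.mem_image.1 (Finset.mem_of_mem_erase ht)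
    exact hU v' hv'
  · rintro τ ⟨u, hu, h1, h2⟩
    have h3 : ∀ v ∈ τ, v.1 ∈ I ∧ S.Phi s univ v = S.phi s univ v.1 u := fun v hv => by
      obtain ⟨h4, h5⟩ := mem_face.1 (h1 hv)
      exact ⟨h4, by rw [← d3, ← h5]⟩
    refine (d6 (τ.image (fun v => S.phi s univ v.1 u) ∪ T.image fun t => S.phi s univ t 1)
      (fun v hv => ?_) (fun v hv v' hv' hvv => ?_)).elim fun u' ⟨hu', h4⟩ => ?_
    rotate_right
    · have h5 : ∀ v ∈ τ, v = vtx S.U v.1 u' := fun v hv => by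
        have := h4 _ (Finset.mem_union_left _ (Finset.mem_image_of_mem _ hv))
        exact (mem_face.1 (h1 hv)).2.trans ((d4 u hu u' hu' _ _ this).trans
          (congrArg (vtx S.U · u') (add_pos s v.1)))
      have h6 : ∀ t ∈ T, u' ∈ S.U t := fun t ht => by
        have := h4 _ (Finset.mem_union_right _ (Finset.mem_image_of_mem _ ht))
        have h7 := (d4 1 (one_mem _) u' hu' _ _ this).trans
          (congrArg (vtx S.U · u') (add_pos s t))
        simpa using vtx_eq_iff.1 h7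
      refine ⟨fun v hv => ?_, g * u', trivial, Finset.union_subset ?_ fun v hv => ?_⟩
      · obtain ⟨v', hv', rfl⟩ := Finset.mem_image.1 hv
        exact not_not.2 (h3 v' hv').1
      · exact image_sub fun v hv => mem_face.2 ⟨mem_univ _, h5 v hv⟩
      · refine mem_face.2 ⟨mem_univ _, (mem_face.1 (hx hv)).2.trans (vtx_eq_iff.2 ?_)⟩
        rw [inv_mul_cancel_left]
        by_cases h : v.1 = s
        · rw [h]; exact hu'.1
        · exact h6 _ (Finset.mem_erase.2 ⟨h, Finset.mem_image_of_mem _ hv⟩)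
    · rcases Finset.mem_union.1 hv with hv | hv
      · obtain ⟨v', -, rfl⟩ := Finset.mem_image.1 hv
        exact ⟨pos_lt _ _, d5 u hu.2 _, Asp_le_phi S _ _ _ _⟩
      · obtain ⟨t, -, rfl⟩ := Finset.mem_image.1 hv
        exact ⟨pos_lt _ _, d5 1 (one_mem _) _, Asp_le_phi S _ _ _ _⟩
    · rcases Finset.mem_union.1 hv with hv | hv <;> rcases Finset.mem_union.1 hv' with hv' | hv'
      · obtain ⟨a, -, rfl⟩ := Finset.mem_image.1 hv
        obtain ⟨b, -, rfl⟩ := Finset.mem_image.1 hv'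
        exact phi_mono S univ hvv u
      · obtain ⟨a, ha, rfl⟩ := Finset.mem_image.1 hv
        obtain ⟨t, ht, rfl⟩ := Finset.mem_image.1 hv'
        rw [← (h3 a ha).2]
        exact (h2 a ha).trans (iInf₂_le t ht)
      · obtain ⟨t, ht, rfl⟩ := Finset.mem_image.1 hv
        obtain ⟨a, ha, rfl⟩ := Finset.mem_image.1 hv'
        exact absurd hvv (not_le.2 (hT _ (h3 a ha).1 t ht))
      · obtain ⟨a, -, rfl⟩ := Finset.mem_image.1 hv
        obtain ⟨b, -, rfl⟩ := Finset.mem_image.1 hv'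
        exact phi_mono S univ hvv 1

end Crest.Agent.R66
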