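import Crest.Agent.R66.Defs

/-!
# Row 66: auxiliary lemmas for `C.lean` (chains, coset complexes, the norm trick)
-/

set_option autoImplicit false

namespace Crest.Agent.R66

open Finset

namespace CA

section chains
variable {k : Type} [Field k] {V : Type} [DecidableEq V]

theorem bd_single (σ : Finset V) (c : k) :
    bd k (Finsupp.single σ c) = c • ∑ v ∈ σ, Finsupp.single (σ.erase v) (1 : k) := by
  unfold bd
  rw [Finsupp.linearCombination_single]

omit [DecidableEq V] in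
theorem single_mem_Ch {X : Set (Finset V)} {m : ℕ} {σ : Finset V} (h : σ ∈ X) (hc : σ.card = m)
    (c : k) : Finsupp.single σ c ∈ Ch k X m :=
  Finsupp.single_mem_supported k c ⟨h, hc⟩

omit [DecidableEq V] in
theorem Ch_mono {X Y : Set (Finset V)} (h : X ⊆ Y) (m : ℕ) : Ch k X m ≤ Ch k Y m :=
  Finsupp.supported_mono fun _ hσ => ⟨h hσ.1, hσ.2⟩

omit [DecidableEq V] in
theorem Ch_ind {X : Set (Finset V)} {m : ℕ} (T : Submodule k (Finset V →₀ k))
    (h : ∀ σ ∈ X, σ.card = m → Finsupp.single σ (1 : k) ∈ T) : Ch k X m ≤ T := by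
  unfold Ch
  rw [Finsupp.supported_eq_span_single, Submodule.span_le]
  rintro _ ⟨σ, hσ, rfl⟩
  exact h σ hσ.1 hσ.2

omit [DecidableEq V] in
theorem eq_on_Ch {M : Type} [AddCommGroup M] [Module k M] {X : Set (Finset V)} {m : ℕ}
    (φ ψ : (Finset V →₀ k) →ₗ[k] M)
    (h : ∀ σ ∈ X, σ.card = m → φ (Finsupp.single σ 1) = ψ (Finsupp.single σ 1))
    {z : Finset V →₀ k} (hz : z ∈ Ch k X m) : φ z = ψ z :=
  Ch_ind (LinearMap.eqLocus φ ψ) h hz

theorem bd_bd [CharP k 2] (z : Finset V →₀ k) : bd k (bd k z) = 0 := by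
  have : (bd k ∘ₗ bd k : (Finset V →₀ k) →ₗ[k] (Finset V →₀ k)) = 0 := by
    refine Finsupp.lhom_ext' fun σ => LinearMap.ext_ring ?_
    simp only [LinearMap.comp_apply, Finsupp.lsingle_apply, bd_single, one_smul, map_sum,
      LinearMap.zero_apply]
    rw [Finset.sum_sigma']
    refine Finset.sum_involution (fun p _ => ⟨p.2, p.1⟩) (fun p _ => ?_) (fun p hp _ h => ?_)
      (fun p hp => ?_) (fun p _ => rfl)
    · rw [Finset.erase_right_comm, ← Finsupp.single_add, CharTwo.add_self_eq_zero,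
        Finsupp.single_zero]
    · have h1 : p.2 = p.1 := congrArg Sigma.fst h
      exact Finset.ne_of_mem_erase (Finset.mem_sigma.1 hp).2 h1
    · obtain ⟨h1, h2⟩ := Finset.mem_sigma.1 hp
      exact Finset.mem_sigma.2 ⟨Finset.mem_of_mem_erase h2,
        Finset.mem_erase.2 ⟨(Finset.ne_of_mem_erase h2).symm, h1⟩⟩
  exact LinearMap.congr_fun this z

omit [DecidableEq V] in
theorem mp_single {V' : Type} [DecidableEq V'] (f : V → V') (σ : Finset V) (c : k) :
    mp k f (Finsupp.single σ c) = Finsupp.single (σ.image f) c := by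
  unfold mp
  rw [Finsupp.lmapDomain_apply, Finsupp.mapDomain_single]

theorem bd_mp {V' : Type} [DecidableEq V'] {X : Set (Finset V)} {m : ℕ} {f : V → V'}
    (h : ∀ σ ∈ X, Set.InjOn f σ) {z : Finset V →₀ k} (hz : z ∈ Ch k X m) :
    bd k (mp k f z) = mp k f (bd k z) := by
  refine eq_on_Ch (bd k ∘ₗ mp k f) (mp k f ∘ₗ bd k) (fun σ hσ _ => ?_) hz
  simp only [LinearMap.comp_apply, mp_single, bd_single, one_smul, map_sum]
  rw [Finset.sum_image (h σ hσ)]
  refine Finset.sum_congr rfl fun v hv => ?_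
  congr 1
  ext x
  simp only [Finset.mem_erase, Finset.mem_image]
  constructor
  · rintro ⟨hx, y, hy, rfl⟩
    exact ⟨y, ⟨fun e => hx (by rw [e]), hy⟩, rfl⟩
  · rintro ⟨y, ⟨hy, hy'⟩, rfl⟩
    exact ⟨fun e => hy (h σ hσ hy' hv e), y, hy', rfl⟩

omit [DecidableEq V] in
theorem mp_mem {V' : Type} [DecidableEq V'] {X : Set (Finset V)} {Y : Set (Finset V')} {m : ℕ}
    {f : V → V'} (h : ∀ σ ∈ X, Set.InjOn f σ) (hY : ∀ σ ∈ X, σ.image f ∈ Y) {z : Finset V →₀ k}
    (hz : z ∈ Ch k X m) : mp k f z ∈ Ch k Y m := by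
  refine Ch_ind ((Ch k Y m).comap (mp k f)) (fun σ hσ hc => ?_) hz
  rw [Submodule.mem_comap, mp_single]
  exact single_mem_Ch (hY σ hσ) (by rw [Finset.card_image_of_injOn (h σ hσ), hc]) _

theorem Bds_mono {X Y : Set (Finset V)} (h : X ⊆ Y) {m : ℕ} {z : Finset V →₀ k}
    (hz : Bds k X m z) : Bds k Y m z := by
  obtain ⟨w, hw, e⟩ := hz
  exact ⟨w, Ch_mono h _ hw, e⟩

theorem Bds_iff {X : Set (Finset V)} {m : ℕ} {z : Finset V →₀ k} :
    Bds k X m z ↔ z ∈ (Ch k X (m + 1)).map (bd k) := Iff.rfl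

omit [DecidableEq V] in
theorem add_self [CharP k 2] (z : Finset V →₀ k) : z + z = 0 := by
  ext σ
  simp [CharTwo.add_self_eq_zero]

variable {Γ : Type} [Group Γ] [MulAction Γ V]

theorem act_single (g : Γ) (σ : Finset V) (c : k) :
    act k g (Finsupp.single σ c) = Finsupp.single (σ.image (g • ·)) c := mp_single _ _ _

theorem act_mul (g g' : Γ) (z : Finset V →₀ k) : act k (g * g') z = act k g (act k g' z) := by
  have : (act k (g * g') : (Finset V →₀ k) →ₗ[k] _) = act k g ∘ₗ act k g' := by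
    refine Finsupp.lhom_ext' fun σ => LinearMap.ext_ring ?_
    simp only [LinearMap.comp_apply, Finsupp.lsingle_apply, act_single, Finset.image_image]
    congr 2
    funext v
    exact mul_smul _ _ _
  exact LinearMap.congr_fun this z

theorem act_one (z : Finset V →₀ k) : act k (1 : Γ) z = z := by
  have : (act k (1 : Γ) : (Finset V →₀ k) →ₗ[k] _) = LinearMap.id := by
    refine Finsupp.lhom_ext' fun σ => LinearMap.ext_ring ?_
    simp [act_single]
  exact LinearMap.congr_fun this z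

theorem bd_act (g : Γ) (z : Finset V →₀ k) : bd k (act k g z) = act k g (bd k z) := by
  have : (bd k ∘ₗ act k g : (Finset V →₀ k) →ₗ[k] _) = act k g ∘ₗ bd k := by
    refine Finsupp.lhom_ext' fun σ => LinearMap.ext_ring ?_
    exact bd_mp (X := Set.univ) (m := σ.card) (fun _ _ => (MulAction.injective g).injOn)
      (single_mem_Ch (Set.mem_univ σ) rfl _)
  exact LinearMap.congr_fun this z

theorem act_mem {X Y : Set (Finset V)} {m : ℕ} (g : Γ) (hY : ∀ σ ∈ X, σ.image (g • ·) ∈ Y)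
    {z : Finset V →₀ k} (hz : z ∈ Ch k X m) : act k g z ∈ Ch k Y m :=
  mp_mem (fun _ _ => (MulAction.injective g).injOn) hY hz

theorem Bds_act {X Y : Set (Finset V)} {m : ℕ} (g : Γ) (hY : ∀ σ ∈ X, σ.image (g • ·) ∈ Y)
    {z : Finset V →₀ k} (hz : Bds k X m z) : Bds k Y m (act k g z) := by
  obtain ⟨w, hw, rfl⟩ := hz
  exact ⟨act k g w, act_mem g hY hw, bd_act g w⟩

/-- transport of a bounding statement along a group element -/
theorem Bds_transport {X Y X' Y' : Set (Finset V)} {m : ℕ} (g : Γ)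
    (h1 : ∀ σ ∈ Y, σ.image (g⁻¹ • ·) ∈ X) (h2 : ∀ σ ∈ X', σ.image (g • ·) ∈ Y')
    (h : ∀ z ∈ Ch k X m, bd k z = 0 → Bds k X' m z) :
    ∀ z ∈ Ch k Y m, bd k z = 0 → Bds k Y' m z := by
  intro z hz hb
  have := Bds_act g h2 (h _ (act_mem g⁻¹ h1 hz) (by rw [bd_act, hb, map_zero]))
  rwa [← act_mul, mul_inv_cancel, act_one] at this

end chains

section coset
variable {G 𝒯 : Type} [Group G] {U : 𝒯 → Subgroup G}

theorem smul_vtx (g : G) (s : 𝒯) (g' : G) : g • vtx U s g' = vtx U s (g * g') := rfl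

theorem vtx_eq_iff {s : 𝒯} {g g' : G} : vtx U s g = vtx U s g' ↔ g⁻¹ * g' ∈ U s := by
  rw [← QuotientGroup.eq]
  exact ⟨fun h => eq_of_heq (Sigma.mk.inj h).2, fun h => by unfold vtx; rw [h]⟩

theorem mem_face {g : G} {I : Finset 𝒯} {v : Vx U} :
    v ∈ face U g I ↔ v.1 ∈ I ∧ v = vtx U v.1 g := by
  unfold face
  rw [Finset.mem_image]
  constructor
  · rintro ⟨s, hs, rfl⟩
    exact ⟨hs, rfl⟩
  · rintro ⟨h1, h2⟩
    exact ⟨_, h1, h2.symm⟩

theorem image_face (g g' : G) (I : Finset 𝒯) :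
    (face U g' I).image (g • ·) = face U (g * g') I := by
  unfold face
  rw [Finset.image_image]
  rfl

theorem image_sub {g g' : G} {I : Finset 𝒯} {σ : Finset (Vx U)} (h : σ ⊆ face U g' I) :
    σ.image (g • ·) ⊆ face U (g * g') I := by
  rw [← image_face]
  exact Finset.image_subset_image h

theorem Dl_mono {Q Q' : Subgroup G} (h : Q ≤ Q') (I : Finset 𝒯) : Dl U Q I ⊆ Dl U Q' I :=
  fun _ ⟨g, hg, hσ⟩ => ⟨g, h hg, hσ⟩

theorem Dl_smul {Q : Subgroup G} {I : Finset 𝒯} {g : G} (hg : g ∈ Q) :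
    ∀ σ ∈ Dl U Q I, σ.image (g • ·) ∈ Dl U Q I :=
  fun _ ⟨_, hg', hσ⟩ => ⟨_, mul_mem hg hg', image_sub hσ⟩

theorem mem_UI {I : Finset 𝒯} {g : G} : g ∈ UI U I ↔ ∀ s ∈ I, g ∈ U s := by
  unfold UI
  simp only [Subgroup.mem_iInf]

variable {k : Type} [Field k] [CharP k 2]

/-- The norm trick for a retraction of chambers. -/
theorem coset_norm [Finite G] {Q₀ Q Q' N : Subgroup G} (hNQ : N ≤ Q₀) (hodd : Odd (Nat.card N))
    {I : Finset 𝒯} (ρ : G → G) (hmul : ∀ q ∈ Q, ∀ q' ∈ Q, ρ (q * q') = ρ q * ρ q')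
    (hU : ∀ s ∈ I, ∀ q ∈ Q, q ∈ U s → ρ q ∈ U s) (hN : ∀ q ∈ Q, q * (ρ q)⁻¹ ∈ N)
    (hQ' : ∀ q ∈ Q, ρ q ∈ Q') {m : ℕ} {z : Finset (Vx U) →₀ k} (hz : z ∈ Ch k (Dl U Q I) m)
    (hb : bd k z = 0) (htriv : ∀ a ∈ N, Bds k (Dl U Q₀ I) m (act k a z + z))
    (hred : ∀ z' ∈ Ch k (Dl U Q' I) m, bd k z' = 0 → Bds k (Dl U Q₀ I) m z') :
    Bds k (Dl U Q₀ I) m z := by
  classical
  have := Fintype.ofFinite N
  let f : Vx U → Vx U := fun v =>
    if h : ∃ q ∈ Q, v = vtx U v.1 q then vtx U v.1 (ρ h.choose) else v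
  have hf : ∀ s ∈ I, ∀ q ∈ Q, f (vtx U s q) = vtx U s (ρ q) := by
    intro s hs q hq
    have h : ∃ q' ∈ Q, vtx U s q = vtx U (vtx U s q).1 q' := ⟨q, hq, rfl⟩
    simp only [f]
    rw [dif_pos h]
    obtain ⟨h1, h2⟩ := h.choose_spec
    have h3 : q⁻¹ * h.choose ∈ U s := vtx_eq_iff.1 h2
    have h4 := hU s hs _ (mul_mem (inv_mem hq) h1) h3
    have h5 := hmul q hq _ (mul_mem (inv_mem hq) h1)
    rw [mul_inv_cancel_left] at h5
    refine (vtx_eq_iff.2 ?_).symm
    rwa [h5, inv_mul_cancel_left]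
  have hf' : ∀ q ∈ Q, ∀ v ∈ face U q I, f v = (ρ q * q⁻¹) • v := by
    intro q hq v hv
    obtain ⟨h1, h2⟩ := mem_face.1 hv
    rw [h2, hf _ h1 q hq, smul_vtx, inv_mul_cancel_right]
  have him : ∀ q ∈ Q, ∀ σ ⊆ face U q I, σ.image f = σ.image ((ρ q * q⁻¹) • ·) :=
    fun q hq σ hσ => Finset.image_congr fun v hv => hf' q hq v (hσ hv)
  have hinj : ∀ σ ∈ Dl U Q I, Set.InjOn f σ := by
    rintro σ ⟨q, hq, hσ⟩ v hv w hw e
    rw [hf' q hq v (hσ hv), hf' q hq w (hσ hw)] at e
    exact MulAction.injective _ e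
  have h1 : mp k f z ∈ Ch k (Dl U Q' I) m := by
    refine mp_mem hinj ?_ hz
    rintro σ ⟨q, hq, hσ⟩
    refine ⟨ρ q, hQ' q hq, ?_⟩
    rw [him q hq σ hσ]
    have := image_sub (g := ρ q * q⁻¹) hσ
    rwa [inv_mul_cancel_right] at this
  have h2 := hred _ h1 (by rw [bd_mp hinj hz, hb, map_zero])
  let nm : (Finset (Vx U) →₀ k) →ₗ[k] (Finset (Vx U) →₀ k) := ∑ a : N, act k (a : G)
  have h3 : nm z = nm (mp k f z) := by
    refine eq_on_Ch nm (nm ∘ₗ mp k f) ?_ hz
    rintro σ ⟨q, hq, hσ⟩ -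
    rw [LinearMap.comp_apply, mp_single, him q hq σ hσ, ← act_single]
    simp only [nm, LinearMap.sum_apply, ← act_mul]
    refine Fintype.sum_equiv (Equiv.mulRight ⟨_, hN q hq⟩) _ _ fun a => ?_
    simp [mul_assoc]
  have h4 : nm (mp k f z) ∈ (Ch k (Dl U Q₀ I) (m + 1)).map (bd k) := by
    simp only [nm, LinearMap.sum_apply]
    exact Submodule.sum_mem _ fun a _ => Bds_act (a : G) (Dl_smul (hNQ a.2)) h2
  have h5 : nm z + z ∈ (Ch k (Dl U Q₀ I) (m + 1)).map (bd k) := by
    have e : nm z + z = ∑ a : N, (act k (a : G) z + z) := by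
      rw [Finset.sum_add_distrib, Finset.sum_const, Finset.card_univ, ← Nat.card_eq_fintype_card]
      obtain ⟨c, hc⟩ := hodd
      rw [hc, add_smul, mul_comm, mul_smul, two_smul, add_self, smul_zero, zero_add, one_smul]
      simp only [nm, LinearMap.sum_apply]
    rw [e]
    exact Submodule.sum_mem _ fun a _ => htriv a a.2
  rw [h3] at h5
  have := Submodule.sub_mem _ h5 h4
  rwa [add_sub_cancel_left] at this

/-- the elements acting trivially on the class of a chain -/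
def fixer (Q : Subgroup G) (I : Finset 𝒯) (m : ℕ) (z : Finset (Vx U) →₀ k) : Subgroup G where
  carrier := {g | g ∈ Q ∧ Bds k (Dl U Q I) m (act k g z + z)}
  one_mem' := ⟨one_mem _, by rw [act_one, add_self]; exact ⟨0, zero_mem _, map_zero _⟩⟩
  mul_mem' := by
    rintro a b ⟨ha, ha'⟩ ⟨hb, hb'⟩
    refine ⟨mul_mem ha hb, ?_⟩
    have := Submodule.add_mem _ (Bds_iff.1 (Bds_act a (Dl_smul ha) hb')) (Bds_iff.1 ha')
    rwa [map_add, ← act_mul, add_assoc, ← add_assoc (act k a z), add_self, zero_add] at this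
  inv_mem' := by
    rintro a ⟨ha, ha'⟩
    refine ⟨inv_mem ha, ?_⟩
    have := Bds_act a⁻¹ (Dl_smul (inv_mem ha)) ha'
    rwa [map_add, ← act_mul, inv_mul_cancel, act_one, add_comm] at this

end coset

section kap
variable {F : Type} [Field F] {n K : ℕ} {G : Type} [Group G] (S : Kap F n K G)

theorem lt_of_ne {g : G} {b : ZMod n} {h : ℕ} (hne : S.κ g b h ≠ 0) : h < K := by
  by_contra hc
  exact hne (S.ge _ _ _ (not_lt.1 hc))

theorem col_ext {g g' : G} {b b' : ZMod n}
    (h : ∀ h, 1 ≤ h → h < K → S.κ g b h = S.κ g' b' h) : S.κ g b = S.κ g' b' := by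
  funext i
  rcases Nat.eq_zero_or_pos i with rfl | h0
  · rw [S.zero, S.zero]
  · rcases lt_or_ge i K with h1 | h1
    · exact h i h0 h1
    · rw [S.ge _ _ _ h1, S.ge _ _ _ h1]

theorem col_mul (g : G) {u u' : G} {b : ZMod n} (h : S.κ u b = S.κ u' b) :
    S.κ (g * u) b = S.κ (g * u') b :=
  col_ext S fun i _ hi => by rw [S.mul _ _ _ _ hi, S.mul _ _ _ _ hi, h]

theorem mem_col_iff {g g' : G} {J : Finset (ZMod n)} :
    g⁻¹ * g' ∈ S.col J ↔ ∀ j ∈ J, S.κ g' j = S.κ g j := by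
  constructor
  · intro h j hj
    have h1 : S.κ (g⁻¹ * g') j = S.κ 1 j := col_ext S fun i hi _ => by
      rw [S.one _ _ hi]
      by_contra hc
      exact h j i hi hc hj
    have := col_mul S g h1
    rwa [mul_inv_cancel_left, mul_one] at this
  · intro h b i hi hne hb
    rw [col_mul S g⁻¹ (h b hb), inv_mul_cancel] at hne
    exact hne (S.one _ _ hi)

include S in
theorem odd_card [Fintype F] [Finite G] (hF : Odd (Fintype.card F)) (N : Subgroup G) :
    Odd (Nat.card N) := by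
  by_contra hc
  have h2 : (2 : F) ≠ 0 := by
    intro h
    obtain ⟨c, hc⟩ := hF
    have := FiniteField.cast_card_eq_zero F
    rw [hc] at this
    push_cast at this
    rw [h, zero_mul, zero_add] at this
    exact one_ne_zero this
  obtain ⟨x, hx⟩ := exists_prime_orderOf_dvd_card' (G := N) 2
    (even_iff_two_dvd.1 (Nat.not_odd_iff_even.1 hc))
  have hx2 : (x : G) * x = 1 := by
    have := pow_orderOf_eq_one x
    rw [hx, sq] at this
    exact congrArg Subtype.val this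
  have hz : ∀ h, 1 ≤ h → ∀ b, S.κ x b h = 0 := by
    intro h
    induction h using Nat.strong_induction_on with
    | _ h ih =>
      intro hh b
      rcases lt_or_ge h K with hK | hK
      · have h1 := S.mul x x b h hK
        rw [hx2, S.one _ _ hh, ← Finset.sum_subset (s₁ := {(h, 0), (0, h)})] at h1
        · rw [Finset.sum_pair (by simp; omega)] at h1
          simp only [Nat.cast_zero, add_zero, S.zero, mul_one, one_mul, ← two_mul] at h1
          exact (mul_eq_zero.1 h1.symm).resolve_left h2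
        · intro p hp
          simp only [Finset.mem_insert, Finset.mem_singleton] at hp
          rcases hp with rfl | rfl <;> simp
        · intro p hp hp'
          have e := mem_antidiagonal.1 hp
          simp only [Finset.mem_insert, Finset.mem_singleton, Prod.ext_iff] at hp'
          rw [ih p.2 (by omega) (by omega), mul_zero]
      · exact S.ge _ _ _ hK
  have : x = 1 := by
    refine Subtype.ext (S.ext _ _ fun b h => ?_)
    rcases Nat.eq_zero_or_pos h with rfl | h0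
    · rw [S.zero, S.zero]
    · rw [hz h h0]; exact (S.one _ _ h0).symm
  rw [this, orderOf_one] at hx
  omega

open Classical in
/-- truncation: kill the coefficients of the paths in `D` -/
def IsTr (D : ZMod n → ℕ → Prop) (q r : G) : Prop :=
  ∀ b h, S.κ r b h = if D b h then 0 else S.κ q b h

theorem IsTr.ne {D : ZMod n → ℕ → Prop} {q r : G} (H : IsTr S D q r) {b : ZMod n} {h : ℕ}
    (hne : S.κ r b h ≠ 0) : ¬ D b h ∧ S.κ q b h ≠ 0 := by
  rw [H] at hne
  split_ifs at hne with h1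
  · exact absurd rfl hne
  · exact ⟨h1, hne⟩

theorem IsTr.mem {D : ZMod n → ℕ → Prop} {q r : G} (H : IsTr S D q r)
    {Pa : ZMod n → ℕ → Prop} {hP : Kap.Closed Pa} (hq : q ∈ S.pat Pa hP) : r ∈ S.pat Pa hP :=
  fun b h hh hne => hq b h hh (H.ne S hne).2

theorem IsTr.idem {D : ZMod n → ℕ → Prop} {q r r' : G} (H : IsTr S D q r) (H' : IsTr S D r r') :
    r' = r := by
  refine S.ext _ _ fun b h => ?_
  rw [H', H]
  split_ifs <;> rfl

theorem IsTr.mul {D : ZMod n → ℕ → Prop} {q q' r r' t : G} (hr : IsTr S D q r)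
    (hr' : IsTr S D q' r') (ht : IsTr S D (q * q') t)
    (h1 : ∀ b h₁ h₂, D b (h₁ + h₂) → D (b + (h₂ : ZMod n)) h₁ ∨ D b h₂)
    (h2 : ∀ b h₁ h₂, ¬ D b (h₁ + h₂) → D (b + (h₂ : ZMod n)) h₁ ∨ D b h₂ →
      S.κ q (b + (h₂ : ZMod n)) h₁ * S.κ q' b h₂ = 0) : t = r * r' := by
  refine S.ext _ _ fun b h => ?_
  rcases lt_or_ge h K with hK | hK
  · rw [ht, S.mul _ _ _ _ hK, S.mul _ _ _ _ hK]
    split_ifs with hD
    · refine (Finset.sum_eq_zero fun p hp => ?_).symm
      rw [← mem_antidiagonal.1 hp] at hD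
      rw [hr, hr']
      rcases h1 _ _ _ hD with h | h
      · rw [if_pos h, zero_mul]
      · rw [if_pos h, mul_zero]
    · refine Finset.sum_congr rfl fun p hp => ?_
      rw [← mem_antidiagonal.1 hp] at hD
      rw [hr, hr']
      split_ifs with ha hb hb
      · rw [zero_mul]; exact h2 _ _ _ hD (Or.inl ha)
      · rw [zero_mul]; exact h2 _ _ _ hD (Or.inl ha)
      · rw [mul_zero]; exact h2 _ _ _ hD (Or.inr hb)
      · rfl
  · rw [S.ge _ _ _ hK, S.ge _ _ _ hK]

/-- the quotient of an element by its truncation is supported on the killed paths -/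
theorem tr_ker {D : ZMod n → ℕ → Prop} {Q : Subgroup G} {ρ : G → G}
    (hρ : ∀ q ∈ Q, IsTr S D q (ρ q)) (hQ : ∀ q ∈ Q, ρ q ∈ Q)
    (hmul : ∀ q ∈ Q, ∀ q' ∈ Q, ρ (q * q') = ρ q * ρ q') {q : G} (hq : q ∈ Q) {b : ZMod n} {h : ℕ}
    (hh : 1 ≤ h) (hne : S.κ (q * (ρ q)⁻¹) b h ≠ 0) : D b h := by
  have hx : q * (ρ q)⁻¹ ∈ Q := mul_mem hq (inv_mem (hQ q hq))
  have h1 := hmul _ hx _ (hQ q hq)
  rw [inv_mul_cancel_right, (hρ q hq).idem S (hρ _ (hQ q hq)), right_eq_mul] at h1
  have h2 := hρ _ hx b h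
  rw [h1, S.one _ _ hh] at h2
  by_contra hD
  rw [if_neg hD] at h2
  exact hne h2.symm

theorem exists_row (J : Finset (ZMod n)) {q : G} (hq : q ∈ S.col J) :
    ∃ r, IsTr S (fun b h => 1 ≤ h ∧ b + (h : ZMod n) ∈ J) q r := by
  classical
  obtain ⟨α, hα⟩ := S.exH (fun b h => if b + (h : ZMod n) ∈ J then -S.κ q b h else 0)
    (fun b => if b ∈ J then 1 else 0) (fun b h hh hne => by
      split_ifs at hne with h1
      · rw [if_neg (hq b h hh (neg_ne_zero.1 hne)), if_pos h1]; omega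
      · exact absurd rfl hne)
  refine ⟨q * α, fun b h => ?_⟩
  rcases Nat.eq_zero_or_pos h with rfl | h0
  · rw [if_neg (by simp), S.zero, S.zero]
  rcases lt_or_ge h K with hK | hK
  · rw [S.mul _ _ _ _ hK, ← Finset.sum_subset (s₁ := {(h, 0), (0, h)})]
    · rw [Finset.sum_pair (by simp; omega)]
      simp only [Nat.cast_zero, add_zero, S.zero, mul_one, one_mul, hα b h h0 hK]
      by_cases h1 : b + (h : ZMod n) ∈ J
      · rw [if_pos h1, if_pos ⟨h0, h1⟩, add_neg_cancel]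
      · rw [if_neg h1, if_neg fun h => h1 h.2, add_zero]
    · intro p hp
      simp only [Finset.mem_insert, Finset.mem_singleton] at hp
      rcases hp with rfl | rfl <;> simp
    · intro p hp hp'
      have e := mem_antidiagonal.1 hp
      simp only [Finset.mem_insert, Finset.mem_singleton, Prod.ext_iff] at hp'
      rw [hα b p.2 (by omega) (by omega)]
      split_ifs with h1
      · have : S.κ q (b + (p.2 : ZMod n)) p.1 = 0 := by
          by_contra hc
          exact hq _ _ (by omega) hc h1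
        rw [this, zero_mul]
      · rw [mul_zero]
  · rw [S.ge _ _ _ hK, S.ge _ _ _ hK, ite_self]

theorem exists_row_hom (J : Finset (ZMod n)) : ∃ ρ : G → G,
    (∀ q ∈ S.col J, IsTr S (fun b h => 1 ≤ h ∧ b + (h : ZMod n) ∈ J) q (ρ q)) ∧
    ∀ q ∈ S.col J, ∀ q' ∈ S.col J, ρ (q * q') = ρ q * ρ q' := by
  choose! ρ hρ using fun q (hq : q ∈ S.col J) => exists_row S J hq
  refine ⟨ρ, hρ, fun q hq q' hq' => (hρ q hq).mul S (hρ q' hq') (hρ _ (mul_mem hq hq')) ?_ ?_⟩
  · intro b h₁ h₂ h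
    rcases Nat.eq_zero_or_pos h₁ with rfl | h0
    · right; simpa using h
    · left
      refine ⟨h0, ?_⟩
      have := h.2
      rwa [Nat.cast_add, add_comm (h₁ : ZMod n), ← add_assoc] at this
  · intro b h₁ h₂ h h'
    rcases h' with h' | h'
    · refine absurd ⟨by omega, ?_⟩ h
      rw [Nat.cast_add, add_comm (h₁ : ZMod n), ← add_assoc]
      exact h'.2
    · rcases Nat.eq_zero_or_pos h₁ with rfl | h0
      · exact absurd (by simpa using h') h
      · have : S.κ q (b + (h₂ : ZMod n)) h₁ = 0 := by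
          by_contra hc
          exact hq _ _ h0 hc h'.2
        rw [this, zero_mul]

variable [NeZero n]

omit S in
theorem pos_lt (s a : ZMod n) : pos s a < n := ZMod.val_lt _

omit S in
theorem add_pos (s a : ZMod n) : s + (pos s a : ZMod n) = a := by
  unfold pos
  rw [ZMod.natCast_zmod_val, add_sub_cancel]

omit S in
theorem pos_inj (s : ZMod n) : Function.Injective (pos s) := fun a b h => by
  rw [← add_pos s a, h, add_pos]

omit S in
theorem pos_self_lt {s s' : ZMod n} (h : s ≠ s') : pos s s < pos s s' := by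
  have h0 : pos s s = 0 := by simp [pos]
  refine lt_of_le_of_ne (by omega) fun e => h (pos_inj s e)

theorem exists_cut_hom (j : ZMod n) : ∃ ρ : G → G,
    (∀ q, IsTr S (fun b h => n ≤ pos j b + h) q (ρ q)) ∧ ∀ q q', ρ (q * q') = ρ q * ρ q' := by
  classical
  have : ∀ q, ∃ r, IsTr S (fun b h => n ≤ pos j b + h) q r := by
    intro q
    obtain ⟨r, hr⟩ := S.exH (fun b h => if n ≤ pos j b + h then 0 else S.κ q b h) (pos j)
      (fun b h hh hne => by
        split_ifs at hne with h1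
        · exact absurd rfl hne
        · rw [Kap.pos_add j b h (not_le.1 h1)]; omega)
    refine ⟨r, fun b h => ?_⟩
    rcases Nat.eq_zero_or_pos h with rfl | h0
    · rw [if_neg (by have := pos_lt j b; omega), S.zero, S.zero]
    rcases lt_or_ge h K with hK | hK
    · rw [hr b h h0 hK]
      congr
    · rw [S.ge _ _ _ hK, S.ge _ _ _ hK, ite_self]
  choose ρ hρ using this
  refine ⟨ρ, hρ, fun q q' => (hρ q).mul S (hρ q') (hρ _) ?_ ?_⟩
  · intro b h₁ h₂ h
    rcases lt_or_ge (pos j b + h₂) n with h1 | h1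
    · left
      rw [Kap.pos_add j b h₂ h1]; omega
    · right; exact h1
  · intro b h₁ h₂ h h'
    exfalso
    rcases h' with h' | h'
    · rw [Kap.pos_add j b h₂ (by omega)] at h'; omega
    · omega

theorem phi_mono {s : ZMod n} (A : Finset (ZMod n)) {i t : ZMod n} (h : pos s i ≤ pos s t)
    (u : G) : (S.phi s A i u).C ≤ (S.phi s A t u).C :=
  sup_le_sup_right (Submodule.map_mono
    (show Esp F s (pos s i) ≤ Esp F s (pos s t) from fun _ hv a ha => hv a (h.trans ha))) _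

theorem Asp_le_phi (s : ZMod n) (A : Finset (ZMod n)) (t : ZMod n) (u : G) :
    Asp F A ≤ (S.phi s A t u).C := le_sup_right

end kap

end CA

end Crest.Agent.R66
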