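import Crest.Agent.R66.Defs

/-! # Chain toolkit for row 66 -/

set_option autoImplicit false

namespace Crest.Agent.R66

open Finset

section basic
variable {k : Type} [Field k] {V : Type} [DecidableEq V]

theorem bd_single (σ : Finset V) (c : k) :
    bd k (Finsupp.single σ c) = ∑ v ∈ σ, Finsupp.single (σ.erase v) c := by
  simp only [bd, Finsupp.linearCombination_single, Finset.smul_sum, Finsupp.smul_single,
    smul_eq_mul, mul_one]

omit [DecidableEq V] in
theorem mem_Ch {X : Set (Finset V)} {m : ℕ} {z : Finset V →₀ k} :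
    z ∈ Ch k X m ↔ ∀ σ ∈ z.support, σ ∈ X ∧ σ.card = m := by
  unfold Ch
  rw [Finsupp.mem_supported]
  exact ⟨fun h σ hσ => h hσ, fun h σ hσ => h σ hσ⟩

omit [DecidableEq V] in
theorem single_mem_Ch {X : Set (Finset V)} {m : ℕ} {σ : Finset V} (h : σ ∈ X) (hc : σ.card = m)
    (c : k) : Finsupp.single σ c ∈ Ch k X m :=
  Finsupp.single_mem_supported k c (show σ ∈ {σ | σ ∈ X ∧ σ.card = m} from ⟨h, hc⟩)

omit [DecidableEq V] in
theorem Ch_mono {X X' : Set (Finset V)} (h : X ⊆ X') {m : ℕ} {z : Finset V →₀ k}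
    (hz : z ∈ Ch k X m) : z ∈ Ch k X' m :=
  mem_Ch.2 fun σ hσ => ⟨h (mem_Ch.1 hz σ hσ).1, (mem_Ch.1 hz σ hσ).2⟩

omit [DecidableEq V] in
/-- Decomposition of a chain along its support. -/
theorem eq_sum_single (z : Finset V →₀ k) : z = ∑ σ ∈ z.support, Finsupp.single σ (z σ) :=
  (Finsupp.sum_single z).symm

omit [DecidableEq V] in
/-- A linear map is determined on `z` by the simplices of the support. -/
theorem map_eq_sum {M : Type*} [AddCommMonoid M] [Module k M] (f : (Finset V →₀ k) →ₗ[k] M)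
    (z : Finset V →₀ k) : f z = ∑ σ ∈ z.support, f (Finsupp.single σ (z σ)) := by
  conv_lhs => rw [eq_sum_single z]
  rw [map_sum]

omit [DecidableEq V] in
theorem map_congr_supp {M : Type*} [AddCommMonoid M] [Module k M]
    (f g : (Finset V →₀ k) →ₗ[k] M) (z : Finset V →₀ k)
    (h : ∀ σ ∈ z.support, ∀ c, f (Finsupp.single σ c) = g (Finsupp.single σ c)) : f z = g z := by
  rw [map_eq_sum f, map_eq_sum g]
  exact Finset.sum_congr rfl fun σ hσ => h σ hσ _

omit [DecidableEq V] in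
theorem map_mem_of_supp {M : Type*} [AddCommMonoid M] [Module k M]
    (f : (Finset V →₀ k) →ₗ[k] M) (z : Finset V →₀ k) (p : Submodule k M)
    (h : ∀ σ ∈ z.support, ∀ c, f (Finsupp.single σ c) ∈ p) : f z ∈ p := by
  rw [map_eq_sum f]
  exact p.sum_mem fun σ hσ => h σ hσ _

theorem bd_mem_Ch {X : Set (Finset V)} (hX : DC X) {m : ℕ} {z : Finset V →₀ k}
    (hz : z ∈ Ch k X (m + 1)) : bd k z ∈ Ch k X m := by
  refine map_mem_of_supp _ _ _ fun σ hσ c => ?_
  obtain ⟨h1, h2⟩ := mem_Ch.1 hz σ hσ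
  rw [bd_single]
  refine Submodule.sum_mem _ fun v hv => single_mem_Ch (hX σ h1 _ (erase_subset _ _)) ?_ c
  rw [card_erase_of_mem hv, h2]; rfl

theorem bd_of_card_zero {X : Set (Finset V)} {z : Finset V →₀ k} (hz : z ∈ Ch k X 0) :
    bd k z = 0 := by
  rw [map_eq_sum]
  refine Finset.sum_eq_zero fun σ hσ => ?_
  rw [bd_single, card_eq_zero.1 (mem_Ch.1 hz σ hσ).2, sum_empty]

/-- Every simplex in the support of a boundary is a facet of a simplex of the support. -/
theorem exists_of_mem_supp_bd {z : Finset V →₀ k} {τ : Finset V} (h : τ ∈ (bd k z).support) :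
    ∃ σ ∈ z.support, ∃ v ∈ σ, τ = σ.erase v := by
  classical
  rw [map_eq_sum] at h
  obtain ⟨σ, hσ, h⟩ := Finset.mem_biUnion.1 (Finsupp.support_finsetSum h)
  rw [bd_single] at h
  obtain ⟨v, hv, h⟩ := Finset.mem_biUnion.1 (Finsupp.support_finsetSum h)
  exact ⟨σ, hσ, v, hv, Finset.mem_singleton.1 (Finsupp.support_single_subset h)⟩

theorem card_supp_sum_le {ι α : Type*} (s : Finset ι) (f : ι → (α →₀ k)) :
    (∑ i ∈ s, f i).support.card ≤ ∑ i ∈ s, (f i).support.card := by
  classical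
  exact (card_le_card Finsupp.support_finsetSum).trans card_biUnion_le

theorem card_supp_add_le {α : Type*} (f g : α →₀ k) :
    (f + g).support.card ≤ f.support.card + g.support.card := by
  classical
  exact (card_le_card Finsupp.support_add).trans (card_union_le _ _)

theorem card_supp_single_le {α : Type*} (a : α) (c : k) :
    (Finsupp.single a c).support.card ≤ 1 :=
  (card_le_card Finsupp.support_single_subset).trans (by simp)

omit [DecidableEq V] in
theorem card_supp_map_le {α : Type*} (f : (Finset V →₀ k) →ₗ[k] (α →₀ k)) (z : Finset V →₀ k)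
    (N : ℕ) (h : ∀ σ ∈ z.support, ∀ c, (f (Finsupp.single σ c)).support.card ≤ N) :
    (f z).support.card ≤ z.support.card * N := by
  rw [map_eq_sum]
  refine (card_supp_sum_le _ _).trans ?_
  exact (Finset.sum_le_card_nsmul _ _ N fun σ hσ => h σ hσ _).trans (by simp)

theorem card_supp_bd_le {X : Set (Finset V)} {m : ℕ} {z : Finset V →₀ k} (hz : z ∈ Ch k X m) :
    (bd k z).support.card ≤ z.support.card * m := by
  refine card_supp_map_le _ _ _ fun σ hσ c => ?_
  rw [bd_single]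
  refine (card_supp_sum_le _ _).trans ?_
  refine (Finset.sum_le_card_nsmul _ _ 1 fun v _ => card_supp_single_le _ _).trans ?_
  simp [(mem_Ch.1 hz σ hσ).2]

theorem add_self2 [CharP k 2] {α : Type*} (z : α →₀ k) : z + z = 0 := by
  ext a
  simp [CharTwo.add_self_eq_zero]

theorem add_add_cancel2 [CharP k 2] {α : Type*} (z w : α →₀ k) : z + w + w = z := by
  rw [add_assoc, add_self2, add_zero]

theorem eq_of_add_eq_zero2 [CharP k 2] {α : Type*} {z w : α →₀ k} (h : z + w = 0) : z = w := by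
  rw [← add_add_cancel2 z w, h, zero_add]

/-- A symmetric double sum off the diagonal vanishes in characteristic two. -/
theorem sum_erase_symm [CharP k 2] {α : Type*} (σ : Finset V) (f : V → V → (α →₀ k))
    (hf : ∀ a b, f a b = f b a) : ∑ v ∈ σ, ∑ w ∈ σ.erase v, f v w = 0 := by
  induction σ using Finset.induction_on with
  | empty => simp
  | insert a s ha ih =>
    rw [sum_insert ha, erase_insert ha]
    have : ∑ v ∈ s, ∑ w ∈ (insert a s).erase v, f v w =
        ∑ v ∈ s, f a v + ∑ v ∈ s, ∑ w ∈ s.erase v, f v w := by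
      rw [← sum_add_distrib]
      refine sum_congr rfl fun v hv => ?_
      have hne : a ≠ v := fun h => ha (h ▸ hv)
      rw [erase_insert_of_ne hne, sum_insert (fun h => ha (mem_of_mem_erase h)), hf v a]
    rw [this, ih, add_zero, add_self2]

theorem bd_bd [CharP k 2] (z : Finset V →₀ k) : bd k (bd k z) = 0 := by
  rw [map_eq_sum (bd k) z, map_sum]
  refine Finset.sum_eq_zero fun σ _ => ?_
  rw [bd_single, map_sum]
  simp only [bd_single]
  exact sum_erase_symm σ (fun v w => Finsupp.single ((σ.erase v).erase w) (z σ))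
    fun a b => by rw [erase_right_comm]

namespace Bds
variable {X X' : Set (Finset V)} {m : ℕ} {z z' : Finset V →₀ k}

theorem zero : Bds k X m 0 := ⟨0, Submodule.zero_mem _, map_zero _⟩

theorem add (h : Bds k X m z) (h' : Bds k X m z') : Bds k X m (z + z') := by
  obtain ⟨w, hw, rfl⟩ := h
  obtain ⟨w', hw', rfl⟩ := h'
  exact ⟨w + w', Submodule.add_mem _ hw hw', map_add _ _ _⟩

theorem smul (c : k) (h : Bds k X m z) : Bds k X m (c • z) := by
  obtain ⟨w, hw, rfl⟩ := h
  exact ⟨c • w, Submodule.smul_mem _ _ hw, map_smul _ _ _⟩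

theorem sum {ι : Type*} (s : Finset ι) (f : ι → (Finset V →₀ k))
    (h : ∀ i ∈ s, Bds k X m (f i)) : Bds k X m (∑ i ∈ s, f i) :=
  Finset.sum_induction f (Bds k X m) (fun _ _ => add) zero h

theorem mono (hX : X ⊆ X') (h : Bds k X m z) : Bds k X' m z := by
  obtain ⟨w, hw, rfl⟩ := h
  exact ⟨w, Ch_mono hX hw, rfl⟩

theorem of_bd {w : Finset V →₀ k} (hw : w ∈ Ch k X (m + 1)) : Bds k X m (bd k w) := ⟨w, hw, rfl⟩

/-- Homologous chains bound simultaneously. -/
theorem of_add [CharP k 2] (h : Bds k X m (z + z')) (h' : Bds k X m z') : Bds k X m z := by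
  have := h.add h'
  rwa [add_add_cancel2] at this

theorem of_add_bd [CharP k 2] {w : Finset V →₀ k} (hw : w ∈ Ch k X (m + 1))
    (h : Bds k X m (z + bd k w)) : Bds k X m z := h.of_add (of_bd hw)

theorem cycle [CharP k 2] (h : Bds k X m z) : bd k z = 0 := by
  obtain ⟨w, _, rfl⟩ := h
  exact bd_bd w

end Bds

theorem Ac.congr {X X' : Set (Finset V)} {m : ℕ} (h : X = X') (hX : Ac k X m) : Ac k X' m :=
  h ▸ hX

/-- A complex with a vertex is acyclic in the empty degree. -/
theorem ac_zero {X : Set (Finset V)} {v : V} (hv : {v} ∈ X) : Ac k X 0 := by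
  intro z hz _
  refine ⟨Finsupp.single {v} (z ∅), single_mem_Ch hv (by simp) _, ?_⟩
  rw [bd_single, sum_singleton, erase_singleton]
  ext σ
  by_cases hσ : σ = ∅
  · subst hσ; simp
  · rw [Finsupp.single_eq_of_ne hσ]
    by_contra h
    exact hσ (card_eq_zero.1 (mem_Ch.1 hz σ (Finsupp.mem_support_iff.2 (Ne.symm h))).2)

end basic

section maps
variable {k : Type} [Field k] {V V' V'' : Type} [DecidableEq V] [DecidableEq V'] [DecidableEq V'']

omit [DecidableEq V] in
theorem mp_single (f : V → V') (σ : Finset V) (c : k) :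
    mp k f (Finsupp.single σ c) = Finsupp.single (σ.image f) c := by
  simp [mp, Finsupp.mapDomain_single]

omit [DecidableEq V] in
theorem mp_mem_Ch {f : V → V'} {X' : Set (Finset V')} {m : ℕ} {z : Finset V →₀ k}
    (h : ∀ σ ∈ z.support, σ.image f ∈ X' ∧ (σ.image f).card = m) : mp k f z ∈ Ch k X' m := by
  refine map_mem_of_supp _ _ _ fun σ hσ c => ?_
  rw [mp_single]
  exact single_mem_Ch (h σ hσ).1 (h σ hσ).2 c

omit [DecidableEq V] in
theorem mp_mem_Ch' {f : V → V'} {X : Set (Finset V)} {X' : Set (Finset V')} {m : ℕ}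
    {z : Finset V →₀ k} (hz : z ∈ Ch k X m)
    (h : ∀ σ ∈ X, σ.image f ∈ X' ∧ Set.InjOn f σ) : mp k f z ∈ Ch k X' m :=
  mp_mem_Ch fun σ hσ => ⟨(h σ (mem_Ch.1 hz σ hσ).1).1, by
    rw [card_image_of_injOn (h σ (mem_Ch.1 hz σ hσ).1).2, (mem_Ch.1 hz σ hσ).2]⟩

theorem image_erase_of_injOn {f : V → V'} {σ : Finset V} (h : Set.InjOn f σ) {v : V}
    (hv : v ∈ σ) : (σ.erase v).image f = (σ.image f).erase (f v) := by
  ext x
  simp only [mem_image, mem_erase]
  constructor
  · rintro ⟨a, ⟨h1, h2⟩, rfl⟩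
    exact ⟨fun h' => h1 (h h2 hv h'), a, h2, rfl⟩
  · rintro ⟨h1, a, h2, rfl⟩
    exact ⟨a, ⟨fun h' => h1 (h' ▸ rfl), h2⟩, rfl⟩

theorem bd_mp {f : V → V'} {z : Finset V →₀ k} (h : ∀ σ ∈ z.support, Set.InjOn f σ) :
    bd k (mp k f z) = mp k f (bd k z) := by
  refine map_congr_supp ((bd k).comp (mp k f)) ((mp k f).comp (bd k)) z fun σ hσ c => ?_
  simp only [LinearMap.comp_apply, mp_single, bd_single, map_sum]
  rw [sum_image (h σ hσ)]
  exact sum_congr rfl fun v hv => by rw [image_erase_of_injOn (h σ hσ) hv]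

omit [DecidableEq V] in
theorem mp_mp (f : V → V') (g : V' → V'') (z : Finset V →₀ k) :
    mp k g (mp k f z) = mp k (g ∘ f) z :=
  map_congr_supp ((mp k g).comp (mp k f)) (mp k (g ∘ f)) z fun σ _ c => by
    simp only [LinearMap.comp_apply, mp_single, image_image]

omit [DecidableEq V] in
theorem mp_congr {f g : V → V'} {z : Finset V →₀ k} (h : ∀ σ ∈ z.support, σ.image f = σ.image g) :
    mp k f z = mp k g z :=
  map_congr_supp _ _ z fun σ hσ c => by rw [mp_single, mp_single, h σ hσ]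

theorem mp_eq_self {f : V → V} {z : Finset V →₀ k} (h : ∀ σ ∈ z.support, σ.image f = σ) :
    mp k f z = z :=
  map_congr_supp (mp k f) LinearMap.id z fun σ hσ c => by rw [mp_single, h σ hσ]; rfl

theorem mp_eq_self' {f : V → V} {z : Finset V →₀ k} (h : ∀ σ ∈ z.support, ∀ v ∈ σ, f v = v) :
    mp k f z = z :=
  mp_eq_self fun σ hσ => by
    rw [image_congr (g := id) (fun v hv => h σ hσ v hv), image_id]

omit [DecidableEq V] in
theorem card_supp_mp_le (f : V → V') (z : Finset V →₀ k) :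
    (mp k f z).support.card ≤ z.support.card := by
  have := card_supp_map_le (mp k f) z 1 fun σ _ c => by
    rw [mp_single]; exact card_supp_single_le _ _
  simpa using this

theorem Bds.map {f : V → V'} {X : Set (Finset V)} {X' : Set (Finset V')} {m : ℕ}
    {z : Finset V →₀ k} (hz : Bds k X m z) (h : ∀ σ ∈ X, σ.image f ∈ X' ∧ Set.InjOn f σ) :
    Bds k X' m (mp k f z) := by
  obtain ⟨w, hw, rfl⟩ := hz
  exact ⟨mp k f w, mp_mem_Ch' hw h, bd_mp fun σ hσ => (h σ (mem_Ch.1 hw σ hσ).1).2⟩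

/-- Acyclicity passes to retracts. -/
theorem Ac.of_retract {X : Set (Finset V)} {X' : Set (Finset V')} {m : ℕ} (f : V → V')
    (g : V' → V) (hf : ∀ σ ∈ X, σ.image f ∈ X') (hg : ∀ σ ∈ X', σ.image g ∈ X ∧ Set.InjOn g σ)
    (hgf : ∀ σ ∈ X, ∀ v ∈ σ, g (f v) = v) (h : Ac k X' m) : Ac k X m := by
  intro z hz hbd
  have hinj : ∀ σ ∈ X, Set.InjOn f σ := fun σ hσ a ha b hb hab => by
    rw [← hgf σ hσ a ha, hab, hgf σ hσ b hb]
  have h1 := h (mp k f z) (mp_mem_Ch' hz fun σ hσ => ⟨hf σ hσ, hinj σ hσ⟩)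
    (by rw [bd_mp fun σ hσ => hinj σ (mem_Ch.1 hz σ hσ).1, hbd, map_zero])
  have h2 := h1.map hg
  rwa [mp_mp, mp_eq_self' (f := g ∘ f) fun σ hσ v hv => hgf σ (mem_Ch.1 hz σ hσ).1 v hv] at h2

/-- Acyclicity is invariant under isomorphism: `f` maps `X` onto `X'` and is injective on the
vertices of `X`. -/
theorem Ac.of_iso {X : Set (Finset V)} {X' : Set (Finset V')} {m : ℕ} (f : V → V')
    (hf : ∀ σ ∈ X, σ.image f ∈ X')
    (hinj : ∀ σ ∈ X, ∀ τ ∈ X, ∀ v ∈ σ, ∀ w ∈ τ, f v = f w → v = w)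
    (hsurj : ∀ σ' ∈ X', ∃ σ ∈ X, σ.image f = σ') (h : Ac k X' m) : Ac k X m := by
  classical
  by_cases hV : Nonempty V
  swap
  · intro z hz hbd
    have hE : ∀ σ : Finset V, σ = ∅ := fun σ =>
      eq_empty_of_forall_notMem fun v _ => hV ⟨v⟩
    have h1 := h (mp k f z) (mp_mem_Ch' hz fun σ hσ => ⟨hf σ hσ, fun v _ => absurd ⟨v⟩ hV⟩)
      (by rw [bd_mp fun σ _ v _ => absurd ⟨v⟩ hV, hbd, map_zero])
    obtain ⟨w, hw, hbw⟩ := h1
    have hw0 : w = 0 := by
      ext σ'
      by_contra hne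
      obtain ⟨h2, h3⟩ := mem_Ch.1 hw σ' (Finsupp.mem_support_iff.2 hne)
      obtain ⟨σ, _, rfl⟩ := hsurj σ' h2
      rw [hE σ] at h3
      simp at h3
    rw [hw0, map_zero] at hbw
    have hz0 : z = 0 := by
      have hz1 : z = Finsupp.single ∅ (z ∅) := by
        ext σ; rw [hE σ]; simp
      rw [hz1, mp_single] at hbw
      have := congrArg (fun x => x (image f ∅)) hbw
      simp only [Finsupp.coe_zero, Pi.zero_apply, Finsupp.single_eq_same] at this
      rw [hz1, ← this, Finsupp.single_zero]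
    rw [hz0]; exact Bds.zero
  obtain ⟨v₀⟩ := hV
  let g : V' → V := fun x => if H : ∃ σ ∈ X, ∃ v ∈ σ, f v = x then H.choose_spec.2.choose else v₀
  have hgf : ∀ σ ∈ X, ∀ v ∈ σ, g (f v) = v := by
    intro σ hσ v hv
    have H : ∃ σ ∈ X, ∃ v' ∈ σ, f v' = f v := ⟨σ, hσ, v, hv, rfl⟩
    simp only [g, dif_pos H]
    exact hinj _ H.choose_spec.1 _ hσ _ H.choose_spec.2.choose_spec.1 _ hv
      H.choose_spec.2.choose_spec.2
  refine Ac.of_retract f g hf ?_ hgf h
  intro σ' hσ'
  obtain ⟨σ, hσ, rfl⟩ := hsurj σ' hσ'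
  refine ⟨?_, ?_⟩
  · rw [image_image, image_congr (f := g ∘ f) (g := id) (fun v hv => hgf σ hσ v hv), image_id]
    exact hσ
  · intro a ha b hb hab
    obtain ⟨a, ha', rfl⟩ := mem_image.1 ha
    obtain ⟨b, hb', rfl⟩ := mem_image.1 hb
    rw [hgf σ hσ a ha', hgf σ hσ b hb'] at hab
    rw [hab]

end maps

section cone
variable {k : Type} [Field k] {V : Type} [DecidableEq V]

variable (k) in
/-- Cone operator with apex `a`. -/
noncomputable def cone (a : V) : (Finset V →₀ k) →ₗ[k] (Finset V →₀ k) :=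
  Finsupp.linearCombination k
    (fun σ : Finset V => if a ∈ σ then 0 else Finsupp.single (insert a σ) (1 : k))

theorem cone_single (a : V) (σ : Finset V) (c : k) :
    cone k a (Finsupp.single σ c) = if a ∈ σ then 0 else Finsupp.single (insert a σ) c := by
  simp only [cone, Finsupp.linearCombination_single]
  split_ifs <;> simp

theorem bd_cone_add [CharP k 2] (a : V) (z : Finset V →₀ k) :
    bd k (cone k a z) + cone k a (bd k z) = z := by
  refine map_congr_supp ((bd k).comp (cone k a) + (cone k a).comp (bd k)) LinearMap.id z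
    fun σ _ c => ?_
  simp only [LinearMap.add_apply, LinearMap.comp_apply, cone_single, bd_single, map_sum,
    LinearMap.id_apply]
  by_cases ha : a ∈ σ
  · rw [if_pos ha, map_zero, zero_add, ← add_sum_erase _ _ ha, if_neg (notMem_erase _ _),
      insert_erase ha, sum_eq_zero, add_zero]
    intro v hv
    rw [if_pos (mem_erase.2 ⟨(ne_of_mem_erase hv).symm, ha⟩)]
  · rw [if_neg ha, bd_single, sum_insert ha, erase_insert ha, add_assoc, ← sum_add_distrib,
      sum_eq_zero, add_zero]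
    intro v hv
    have hne : a ≠ v := fun h => ha (h ▸ hv)
    rw [if_neg (fun h => ha (mem_of_mem_erase h)), erase_insert_of_ne hne, add_self2]

theorem cone_mem_Ch {X : Set (Finset V)} {m : ℕ} (a : V) {z : Finset V →₀ k}
    (h : ∀ σ ∈ z.support, insert a σ ∈ X ∧ σ.card = m) : cone k a z ∈ Ch k X (m + 1) := by
  refine map_mem_of_supp _ _ _ fun σ hσ c => ?_
  rw [cone_single]
  split_ifs with ha
  · exact Submodule.zero_mem _
  · exact single_mem_Ch (h σ hσ).1 (by rw [card_insert_of_notMem ha, (h σ hσ).2]) c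

theorem card_supp_cone_le (a : V) (z : Finset V →₀ k) :
    (cone k a z).support.card ≤ z.support.card := by
  have := card_supp_map_le (cone k a) z 1 fun σ _ c => by
    rw [cone_single]
    split_ifs
    · simp
    · exact card_supp_single_le _ _
  simpa using this

/-- A cycle all of whose simplices can be coned off from `a` inside `X` bounds in `X`
(with a bound on the size of the filling). -/
theorem exists_fill_of_cone [CharP k 2] {X : Set (Finset V)} {m : ℕ} (a : V)
    {z : Finset V →₀ k} (h : ∀ σ ∈ z.support, insert a σ ∈ X ∧ σ.card = m) (hz : bd k z = 0) :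
    ∃ w ∈ Ch k X (m + 1), bd k w = z ∧ w.support.card ≤ z.support.card := by
  refine ⟨cone k a z, cone_mem_Ch a h, ?_, card_supp_cone_le a z⟩
  have := bd_cone_add a z
  rwa [hz, map_zero, add_zero] at this

theorem Bds.of_cone [CharP k 2] {X : Set (Finset V)} {m : ℕ} (a : V)
    {z : Finset V →₀ k} (h : ∀ σ ∈ z.support, insert a σ ∈ X ∧ σ.card = m) (hz : bd k z = 0) :
    Bds k X m z := by
  obtain ⟨w, h1, h2, _⟩ := exists_fill_of_cone a h hz
  exact ⟨w, h1, h2⟩

end cone

section action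
variable {k : Type} [Field k] {V : Type} [DecidableEq V] {Γ : Type} [Group Γ] [MulAction Γ V]

theorem act_single (g : Γ) (σ : Finset V) (c : k) :
    act k g (Finsupp.single σ c) = Finsupp.single (σ.image (fun v => g • v)) c :=
  mp_single _ _ _

theorem act_mul (g g' : Γ) (z : Finset V →₀ k) : act k (g * g') z = act k g (act k g' z) := by
  unfold act
  rw [mp_mp]
  congr 2
  funext v
  simp [mul_smul]

theorem act_one (z : Finset V →₀ k) : act k (1 : Γ) z = z :=
  mp_eq_self' fun _ _ v _ => one_smul _ v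

theorem bd_act (g : Γ) (z : Finset V →₀ k) : bd k (act k g z) = act k g (bd k z) :=
  bd_mp fun _ _ => (MulAction.injective g).injOn

theorem act_mem_Ch {X X' : Set (Finset V)} {m : ℕ} {z : Finset V →₀ k} (g : Γ)
    (hz : z ∈ Ch k X m) (h : ∀ σ ∈ X, σ.image (fun v => g • v) ∈ X') : act k g z ∈ Ch k X' m :=
  mp_mem_Ch' hz fun σ hσ => ⟨h σ hσ, (MulAction.injective g).injOn⟩

theorem Bds.act {X X' : Set (Finset V)} {m : ℕ} {z : Finset V →₀ k} (g : Γ)
    (hz : Bds k X m z) (h : ∀ σ ∈ X, σ.image (fun v => g • v) ∈ X') :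
    Bds k X' m (act k g z) :=
  hz.map fun σ hσ => ⟨h σ hσ, (MulAction.injective g).injOn⟩

/-- Translation invariance of acyclicity. -/
theorem Ac.of_smul {X X' : Set (Finset V)} {m : ℕ} (g : Γ)
    (h1 : ∀ σ ∈ X, σ.image (fun v => g⁻¹ • v) ∈ X')
    (h2 : ∀ σ ∈ X', σ.image (fun v => g • v) ∈ X) (h : Ac k X' m) : Ac k X m :=
  Ac.of_retract (fun v => g⁻¹ • v) (fun v => g • v) h1
    (fun σ hσ => ⟨h2 σ hσ, (MulAction.injective g).injOn⟩) (fun _ _ v _ => smul_inv_smul g v) h

/-- The elements of an invariance group of `X` fixing the class of `z` form a subgroup. -/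
def fixCl [CharP k 2] (X : Set (Finset V)) (m : ℕ) (z : Finset V →₀ k) (H : Subgroup Γ)
    (hH : ∀ g ∈ H, ∀ σ ∈ X, σ.image (fun v => g • v) ∈ X) : Subgroup Γ where
  carrier := {g | g ∈ H ∧ Bds k X m (act k g z + z)}
  one_mem' := ⟨H.one_mem, by rw [act_one, add_self2]; exact Bds.zero⟩
  mul_mem' := by
    rintro a b ⟨ha, ha'⟩ ⟨hb, hb'⟩
    refine ⟨H.mul_mem ha hb, ?_⟩
    have := (hb'.act a (hH a ha)).add ha'
    rwa [map_add, ← act_mul, ← add_assoc, add_add_cancel2] at this
  inv_mem' := by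
    rintro a ⟨ha, ha'⟩
    refine ⟨H.inv_mem ha, ?_⟩
    have := ha'.act a⁻¹ (hH _ (H.inv_mem ha))
    rwa [map_add, ← act_mul, inv_mul_cancel, act_one, add_comm] at this

theorem mem_fixCl [CharP k 2] {X : Set (Finset V)} {m : ℕ} {z : Finset V →₀ k} {H : Subgroup Γ}
    {hH : ∀ g ∈ H, ∀ σ ∈ X, σ.image (fun v => g • v) ∈ X} {g : Γ} :
    g ∈ fixCl X m z H hH ↔ g ∈ H ∧ Bds k X m (act k g z + z) := Iff.rfl

end action

section norm
variable {k : Type} [Field k] [CharP k 2] {V : Type} [DecidableEq V]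

theorem odd_smul {α : Type*} {N : ℕ} (hN : Odd N) (z : α →₀ k) : N • z = z := by
  obtain ⟨a, rfl⟩ := hN
  rw [add_smul, one_smul, mul_comm, mul_smul, two_smul, add_self2, smul_zero, zero_add]

/-- Norm trick, index form. `t i` is an odd family of injective self-maps of `X` fixing the
class of `z`; every simplex of `z` has the same family of images as its retraction. -/
theorem Bds.of_norm' {ι : Type*} [Fintype ι] (hι : Odd (Fintype.card ι)) {X : Set (Finset V)}
    {m : ℕ} (t : ι → V → V) (ht : ∀ i, ∀ σ ∈ X, σ.image (t i) ∈ X ∧ Set.InjOn (t i) σ)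
    (ρ : V → V) {z : Finset V →₀ k}
    (hρ : ∀ σ ∈ z.support, ∃ e : ι ≃ ι, ∀ i, (σ.image ρ).image (t (e i)) = σ.image (t i))
    (hfix : ∀ i, Bds k X m (mp k (t i) z + z)) (hb : Bds k X m (mp k ρ z)) : Bds k X m z := by
  have h1 : Bds k X m (∑ i, (mp k (t i) z + z)) := Bds.sum _ _ fun i _ => hfix i
  have h2 : Bds k X m (∑ i, mp k (t i) (mp k ρ z)) := Bds.sum _ _ fun i _ => hb.map (ht i)
  have h3 : ∑ i, mp k (t i) (mp k ρ z) = ∑ i, mp k (t i) z := by
    have := map_congr_supp (∑ i, (mp k (t i)).comp (mp k ρ)) (∑ i, mp k (t i)) z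
      fun σ hσ c => by
        obtain ⟨e, he⟩ := hρ σ hσ
        simp only [LinearMap.sum_apply, LinearMap.comp_apply, mp_single]
        rw [← e.sum_comp]
        exact sum_congr rfl fun i _ => by rw [he]
    simpa only [LinearMap.sum_apply, LinearMap.comp_apply] using this
  rw [sum_add_distrib, sum_const, card_univ, odd_smul hι, add_comm] at h1
  rw [h3] at h2
  exact h1.of_add h2

/-- Norm trick for a subgroup `N` of odd order. -/
theorem Bds.of_norm {Γ : Type} [Group Γ] [MulAction Γ V] (N : Subgroup Γ) [Finite N]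
    (hN : Odd (Nat.card N)) {X : Set (Finset V)} {m : ℕ}
    (hX : ∀ g ∈ N, ∀ σ ∈ X, σ.image (fun v => g • v) ∈ X) (ρ : V → V) {z : Finset V →₀ k}
    (hρ : ∀ σ ∈ z.support, ∃ ν ∈ N, (σ.image ρ).image (fun v => ν • v) = σ)
    (hfix : ∀ g ∈ N, Bds k X m (R66.act k g z + z)) (hb : Bds k X m (mp k ρ z)) :
    Bds k X m z := by
  classical
  have := Fintype.ofFinite N
  refine Bds.of_norm' (ι := N) (by rwa [← Nat.card_eq_fintype_card]) (fun g v => (g : Γ) • v)
    (fun g σ hσ => ⟨hX g g.2 σ hσ, (MulAction.injective (g : Γ)).injOn⟩) ρ ?_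
    (fun g => hfix g g.2) hb
  intro σ hσ
  obtain ⟨ν, hν, h⟩ := hρ σ hσ
  refine ⟨Equiv.mulRight ⟨ν, hν⟩, fun g => ?_⟩
  conv_rhs => rw [← h]
  rw [image_image (s := σ.image ρ)]
  congr 1
  funext v
  simp [mul_smul]

end norm

end Crest.Agent.R66
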