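import Crest.Agent.R66.Chain

/-! # Row 66: bounded cones on links in the building -/

set_option autoImplicit false
set_option maxHeartbeats 400000

namespace Crest.Agent.R66

open Finset Module

namespace Cone

section lin
variable {F W : Type} [Field F] [AddCommGroup W] [Module F W] [FiniteDimensional F W]

theorem exists_between (S B : Submodule F W) (hSB : S ≤ B) (d : ℕ) (h1 : finrank F S ≤ d)
    (h2 : d ≤ finrank F B) : ∃ D, S ≤ D ∧ D ≤ B ∧ finrank F D = d := by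
  induction d, h1 using Nat.le_induction with
  | base => exact ⟨S, le_rfl, hSB, rfl⟩
  | succ d _ ih =>
    obtain ⟨D, h3, h4, h5⟩ := ih (by omega)
    have hlt : D < B := lt_of_le_of_ne h4 fun h => by rw [h] at h5; omega
    obtain ⟨v, hvB, hvD⟩ := SetLike.exists_of_lt hlt
    refine ⟨D ⊔ Submodule.span F {v}, h3.trans le_sup_left,
      sup_le h4 ((Submodule.span_singleton_le_iff_mem _ _).2 hvB), ?_⟩
    rw [Submodule.finrank_sup_span_singleton hvD, h5]

theorem exists_hull (A B : Submodule F W) (hAB : A ≤ B) (a : ℕ) (T : Finset (OV F W))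
    (hT : ∀ v ∈ T, A ≤ v.C ∧ v.C ≤ B ∧ finrank F v.C ≤ finrank F A + a) :
    ∃ S, A ≤ S ∧ S ≤ B ∧ (∀ v ∈ T, v.C ≤ S) ∧ finrank F S ≤ finrank F A + T.card * a := by
  induction T using Finset.induction_on with
  | empty => exact ⟨A, le_rfl, hAB, by simp, by simp⟩
  | insert v T hv ih =>
    obtain ⟨S, h1, h2, h3, h4⟩ := ih fun w hw => hT w (mem_insert_of_mem hw)
    obtain ⟨k1, k2, k3⟩ := hT v (mem_insert_self _ _)
    refine ⟨S ⊔ v.C, h1.trans le_sup_left, sup_le h2 k2, fun w hw => ?_, ?_⟩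
    · rcases mem_insert.1 hw with rfl | hw
      · exact le_sup_right
      · exact (h3 w hw).trans le_sup_left
    · have e1 := Submodule.finrank_sup_add_finrank_inf_eq S v.C
      have e2 : finrank F A ≤ finrank F (S ⊓ v.C : Submodule F W) :=
        Submodule.finrank_mono (le_inf h1 k1)
      rw [card_insert_of_notMem hv, add_mul, one_mul]
      omega

end lin

section cx
variable {F W : Type} [Field F] [AddCommGroup W] [Module F W]

/-- Chains of subspaces between `A` and `B` of dimension at most `finrank A + a`. -/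
def Bl (A B : Submodule F W) (a : ℕ) : Set (Finset (OV F W)) :=
  {σ | (∀ v ∈ σ, A ≤ v.C ∧ v.C ≤ B ∧ finrank F v.C = v.t ∧ finrank F A < v.t ∧
      v.t ≤ finrank F A + a) ∧ IsCh σ}

theorem isCh_mono {σ τ : Finset (OV F W)} (h : IsCh σ) (hτ : τ ⊆ σ) : IsCh τ :=
  fun v hv w hw => h v (hτ hv) w (hτ hw)

theorem dc_Bl (A B : Submodule F W) (a : ℕ) : DC (Bl A B a) :=
  fun _ hσ _ hτ => ⟨fun v hv => hσ.1 v (hτ hv), isCh_mono hσ.2 hτ⟩

theorem dc_Bcx (n : ℕ) (E : ℕ → Submodule F W) (I₀ : Finset ℕ) : DC (Bcx n E I₀) :=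
  fun _ hσ _ hτ => ⟨fun v hv => hσ.1 v (hτ hv), isCh_mono hσ.2 hτ⟩

theorem gl_Bl {A B : Submodule F W} {a a' : ℕ} (haa : a' ≤ a) {x : Finset (OV F W)}
    (hx : x ∈ Bl A B a) (hbad : ∀ v ∈ x, finrank F A + a' < v.t) {v₀ : OV F W} (hv₀ : v₀ ∈ x)
    (hmin : ∀ w ∈ x, v₀.t ≤ w.t) :
    gl (Bl A B a) (fun v => finrank F A + a' < v.t) x = Bl A v₀.C a' := by
  ext τ
  constructor
  · rintro ⟨h1, h2, h3⟩
    refine ⟨fun v hv => ?_, isCh_mono h3 subset_union_left⟩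
    obtain ⟨k1, -, k3, k4, -⟩ := h2 v (mem_union_left _ hv)
    have k5 := not_lt.1 (h1 v hv)
    have k6 := hbad v₀ hv₀
    exact ⟨k1, h3 v (mem_union_left _ hv) v₀ (mem_union_right _ hv₀) (by omega), k3, k4, k5⟩
  · rintro ⟨h1, h2⟩
    refine ⟨fun v hv => not_lt.2 (h1 v hv).2.2.2.2, fun v hv => ?_, fun v hv w hw hvw => ?_⟩
    · rcases mem_union.1 hv with hv | hv
      · obtain ⟨k1, k2, k3, k4, k5⟩ := h1 v hv
        exact ⟨k1, k2.trans (hx.1 v₀ hv₀).2.1, k3, k4, by omega⟩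
      · exact hx.1 v hv
    · rcases mem_union.1 hv with hv | hv <;> rcases mem_union.1 hw with hw | hw
      · exact h2 v hv w hw hvw
      · exact (h1 v hv).2.1.trans (hx.2 v₀ hv₀ w hw (hmin w hw))
      · have := hbad v hv
        have := (h1 w hw).2.2.2.2
        omega
      · exact hx.2 v hv w hw hvw

theorem gl_Bcx [FiniteDimensional F W] {n : ℕ} (hW : finrank F W = n) {E : ℕ → Submodule F W}
    (hE : Monotone E) (hEm : ∀ m ≤ n, finrank F (E m) = m) {I₀ : Finset ℕ} {m₁ m₂ : ℕ}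
    (h₁ : m₁ ∈ I₀ ∨ m₁ = 0) (h₂ : m₂ ∈ I₀ ∨ m₂ = n) (h12 : m₁ < m₂) (h2n : m₂ ≤ n)
    (hgap : ∀ m ∈ I₀, m ≤ m₁ ∨ m₂ ≤ m) {x : Finset (OV F W)} (hx : x ∈ Bcx n E I₀)
    (hbad : ∀ v ∈ x, v.t ≤ m₁ ∨ m₂ ≤ v.t) :
    gl (Bcx n E I₀) (fun v => v.t ≤ m₁ ∨ m₂ ≤ v.t) x = Bl (E m₁) (E m₂) (m₂ - m₁ - 1) := by
  have e1 : finrank F (E m₁) = m₁ := hEm m₁ (by omega)
  ext τ
  constructor
  · rintro ⟨h1, h2, h3⟩
    refine ⟨fun v hv => ?_, isCh_mono h3 subset_union_left⟩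
    obtain ⟨-, -, -, k4, k5⟩ := h2 v (mem_union_left _ hv)
    have k6 := h1 v hv
    refine ⟨?_, ?_, k4, by omega, by omega⟩
    · rcases h₁ with h₁ | h₁
      · exact (k5 m₁ h₁).1 (by omega)
      · rw [h₁] at e1 ⊢
        rw [Submodule.finrank_eq_zero.1 e1]
        exact bot_le
    · rcases h₂ with h₂ | h₂
      · exact (k5 m₂ h₂).2 (by omega)
      · rw [h₂, Submodule.eq_top_of_finrank_eq ((hEm n le_rfl).trans hW.symm)]
        exact le_top
  · rintro ⟨h1, h2⟩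
    rw [e1] at h1
    refine ⟨fun v hv => ?_, fun v hv => ?_, fun v hv w hw hvw => ?_⟩
    · have := h1 v hv
      omega
    · rcases mem_union.1 hv with hv | hv
      · obtain ⟨k1, k2, k3, k4, k5⟩ := h1 v hv
        refine ⟨by omega, by omega, fun h => ?_, k3, fun m hm => ⟨fun h => ?_, fun h => ?_⟩⟩
        · have := hgap _ h
          omega
        · have := hgap _ hm
          exact (hE (by omega)).trans k1
        · have := hgap _ hm
          exact k2.trans (hE (by omega))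
      · exact hx.1 v hv
    · rcases mem_union.1 hv with hv | hv <;> rcases mem_union.1 hw with hw | hw
      · exact h2 v hv w hw hvw
      · obtain ⟨k1, k2, k3, k4, k5⟩ := h1 v hv
        obtain ⟨l1, l2, -, -, l5⟩ := hx.1 w hw
        have := hbad w hw
        rcases h₂ with h₂ | h₂
        · exact k2.trans ((l5 m₂ h₂).1 (by omega))
        · omega
      · obtain ⟨k1, k2, k3, k4, k5⟩ := h1 w hw
        obtain ⟨l1, l2, -, -, l5⟩ := hx.1 v hv
        have := hbad v hv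
        rcases h₁ with h₁ | h₁
        · exact ((l5 m₁ h₁).2 (by omega)).trans k1
        · omega
      · exact hx.2 v hv w hw hvw

end cx

theorem fill_mono {k V : Type} [Field k] [DecidableEq V] {X : Set (Finset V)} {m L L' L'' : ℕ}
    (h : Fill k X m L L') (hL : L' ≤ L'') : Fill k X m L L'' := fun z hz h1 h2 => by
  obtain ⟨w, k1, k2, k3⟩ := h z hz h1 h2
  exact ⟨w, k1, k2, k3.trans hL⟩

theorem fill_of_push {V : Type} [DecidableEq V] {X : Set (Finset V)} {m L₂ L₃ : ℕ}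
    {z w w' : Finset V →₀ ZMod 2} (hw : w ∈ Ch (ZMod 2) X (m + 1)) (hc : w.support.card ≤ L₂)
    (hw' : w' ∈ Ch (ZMod 2) X (m + 1)) (hb : bd (ZMod 2) w' = z + bd (ZMod 2) w)
    (hc' : w'.support.card ≤ L₃) :
    ∃ w ∈ Ch (ZMod 2) X (m + 1), bd (ZMod 2) w = z ∧ w.support.card ≤ L₂ + L₃ := by
  refine ⟨w' + w, Submodule.add_mem _ hw' hw, ?_, (card_supp_add_le _ _).trans (by omega)⟩
  rw [map_add, hb, add_add_cancel2]

/-- bounded fillings in the truncated buildings -/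
def Claim (r : ℕ) : Prop :=
  ∀ l : ℕ, ∃ L' a₀ : ℕ, ∀ r' < r, ∀ a, a₀ ≤ a → ∀ (F W : Type) [Field F] [AddCommGroup W]
    [Module F W] [FiniteDimensional F W] (A B : Submodule F W), A ≤ B →
    finrank F A + a ≤ finrank F B → Fill (ZMod 2) (Bl A B a) r' l L'

theorem claim (hP : PushQStmt) (r : ℕ) : Claim r := by
  induction r with
  | zero => exact fun l => ⟨0, 0, fun r' h => absurd h (Nat.not_lt_zero _)⟩
  | succ r ih =>
    intro l
    choose Φ α hΦ using ih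
    obtain ⟨L₁, L₂, hpush⟩ := hP r Φ l
    set a' := (range (L₁ + 1)).sup α with ha'
    refine ⟨max (Φ l) (L₂ + L₂), max (α l) (L₂ * r * a' + a' + 1), fun r' hr' a ha => ?_⟩
    intro F W _ _ _ _ A B hAB hdim
    rcases Nat.lt_succ_iff_lt_or_eq.1 hr' with hr' | rfl
    · exact fill_mono (hΦ l r' hr' a (le_of_max_le_left ha) F W A B hAB hdim) (le_max_left _ _)
    have ha2 := le_of_max_le_right ha
    refine fill_mono ?_ (le_max_right _ _)
    intro z hz hzl hbd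
    obtain ⟨w, hw, hwc, hz', hz'c⟩ := hpush (ZMod 2) (OV F W) (Bl A B a)
      (fun v => finrank F A + a' < v.t) (dc_Bl A B a) (by
        intro x hx hne hbad r'' hr'' l' hl'
        obtain ⟨v₀, hv₀, hmin⟩ := exists_min_image x (fun v => v.t) hne
        rw [gl_Bl (by omega) hx hbad hv₀ hmin]
        have hc := hne.card_pos
        obtain ⟨k1, -, k3, -, -⟩ := hx.1 v₀ hv₀
        have := hbad v₀ hv₀
        exact hΦ l' r'' (by omega) a' (le_sup (f := α) (mem_range.2 (by omega))) F W A v₀.C k1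
          (by omega)) z hz hzl (by simp [hbd])
    set z' := z + bd (ZMod 2) w with hz'def
    have hbd' : bd (ZMod 2) z' = 0 := by rw [hz'def, map_add, hbd, bd_bd, add_zero]
    have hmem : ∀ σ ∈ z'.support, (∀ v ∈ σ, v.t ≤ finrank F A + a') ∧ σ ∈ Bl A B a ∧
        σ.card = r' := by
      intro σ hσ
      obtain ⟨⟨h1, h2⟩, h3⟩ := mem_Ch.1 hz' σ hσ
      exact ⟨fun v hv => not_lt.1 (h1 v hv), by simpa using h2, h3⟩
    obtain ⟨S, s1, s2, s3, s4⟩ := exists_hull A B hAB a' (z'.support.biUnion id) (by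
      intro v hv
      obtain ⟨σ, hσ, hv⟩ := mem_biUnion.1 hv
      obtain ⟨h1, h2, -⟩ := hmem σ hσ
      obtain ⟨k1, k2, k3, -, -⟩ := h2.1 v hv
      exact ⟨k1, k2, k3 ▸ h1 v hv⟩)
    have hT : (z'.support.biUnion id).card ≤ L₂ * r' := by
      refine card_biUnion_le.trans ((sum_le_card_nsmul _ _ r' fun σ hσ => ?_).trans ?_)
      · exact (hmem σ hσ).2.2.le
      · exact Nat.mul_le_mul_right _ hz'c
    have hT' := Nat.mul_le_mul_right a' hT
    obtain ⟨D, d1, d2, d3⟩ := exists_between S B s2 (finrank F A + a) (by omega) hdim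
    obtain ⟨w', hw', hb', hc'⟩ := exists_fill_of_cone (k := ZMod 2) (X := Bl A B a) (m := r')
      (⟨finrank F A + a, D⟩ : OV F W) (z := z') (by
        intro σ hσ
        obtain ⟨h1, h2, h3⟩ := hmem σ hσ
        refine ⟨⟨fun v hv => ?_, fun v hv u hu hvu => ?_⟩, h3⟩
        · rcases mem_insert.1 hv with rfl | hv
          · exact ⟨s1.trans d1, d2, d3, by dsimp only; omega, le_rfl⟩
          · exact h2.1 v hv
        · rcases mem_insert.1 hv with rfl | hv <;> rcases mem_insert.1 hu with rfl | hu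
          · exact le_rfl
          · have := h1 u hu
            dsimp only at hvu
            omega
          · exact (s3 v (mem_biUnion.2 ⟨σ, hσ, hv⟩)).trans d1
          · exact h2.2 v hv u hu hvu) hbd'
    exact fill_of_push hw hwc hw' hb' (hc'.trans hz'c)

theorem exists_gap (l a n : ℕ) (hn : (l + 1) * (a + 1) ≤ n) (I₀ : Finset ℕ) (hI : I₀.card ≤ l) :
    ∃ m₁ m₂, (m₁ ∈ I₀ ∨ m₁ = 0) ∧ (m₂ ∈ I₀ ∨ m₂ = n) ∧ m₁ + a < m₂ ∧ m₂ ≤ n ∧
      ∀ m ∈ I₀, m ≤ m₁ ∨ m₂ ≤ m := by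
  obtain ⟨j, hj, hj'⟩ : ∃ j ∈ range (l + 1), j ∉ I₀.image (· / (a + 1)) :=
    exists_mem_notMem_of_card_lt_card (by
      rw [card_range]
      exact Nat.lt_succ_of_le (card_image_le.trans hI))
  have hjn : (j + 1) * (a + 1) ≤ n :=
    (Nat.mul_le_mul_right _ (mem_range.1 hj)).trans hn
  have hwin : ∀ m ∈ I₀, m < j * (a + 1) ∨ (j + 1) * (a + 1) ≤ m := by
    intro m hm
    by_contra hc
    push Not at hc
    exact hj' (mem_image.2 ⟨m, hm, Nat.div_eq_of_lt_le hc.1 hc.2⟩)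
  obtain ⟨m₁, h1, h1'⟩ := exists_max_image ((insert 0 I₀).filter (· ≤ j * (a + 1))) id
    ⟨0, by simp⟩
  obtain ⟨m₂, h2, h2'⟩ := exists_min_image ((insert n I₀).filter ((j + 1) * (a + 1) ≤ ·)) id
    ⟨n, by simp [hjn]⟩
  simp only [mem_filter, mem_insert, id] at h1 h2 h1' h2'
  refine ⟨m₁, m₂, h1.1.symm, h2.1.symm, ?_, h2' n ⟨Or.inl rfl, hjn⟩, fun m hm => ?_⟩
  · have e : (j + 1) * (a + 1) = j * (a + 1) + (a + 1) := by ring
    omega
  · rcases hwin m hm with h | h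
    · exact Or.inl (h1' m ⟨Or.inr hm, h.le⟩)
    · exact Or.inr (h2' m ⟨Or.inr hm, h⟩)

theorem fill_Bcx (hP : PushQStmt) (r l L : ℕ) :
    ∃ L' n₀ : ℕ, ∀ n, n₀ ≤ n → ∀ (F W : Type) [Field F] [AddCommGroup W] [Module F W]
      [FiniteDimensional F W], Module.finrank F W = n →
      ∀ (E : ℕ → Submodule F W), Monotone E → (∀ m ≤ n, Module.finrank F (E m) = m) →
      ∀ I₀ : Finset ℕ, I₀.card ≤ l → Fill (ZMod 2) (Bcx n E I₀) r L L' := by
  choose Φ α hΦ using claim hP (r + 1)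
  obtain ⟨L₁, L₂, hpush⟩ := hP r Φ L
  set a := max (α L₂) ((range (L₁ + 1)).sup α) with ha
  refine ⟨L₂ + Φ L₂, (l + 1) * (a + 1), fun n hn => ?_⟩
  intro F W _ _ _ _ hW E hE hEm I₀ hI
  obtain ⟨m₁, m₂, h₁, h₂, h12, h2n, hgap⟩ := exists_gap l a n hn I₀ hI
  have e1 : finrank F (E m₁) = m₁ := hEm m₁ (by omega)
  have e2 : finrank F (E m₂) = m₂ := hEm m₂ h2n
  have hfill : ∀ l', α l' ≤ a → ∀ r' ≤ r,
      Fill (ZMod 2) (Bl (E m₁) (E m₂) (m₂ - m₁ - 1)) r' l' (Φ l') := fun l' hl' r' hr' =>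
    hΦ l' r' (by omega) _ (by omega) F W _ _ (hE (by omega)) (by omega)
  intro z hz hzl hbd
  obtain ⟨w, hw, hwc, hz', hz'c⟩ := hpush (ZMod 2) (OV F W) (Bcx n E I₀)
    (fun v => v.t ≤ m₁ ∨ m₂ ≤ v.t) (dc_Bcx n E I₀) (by
      intro x hx _ hbad r'' hr'' l' hl'
      rw [gl_Bcx hW hE hEm h₁ h₂ (by omega) h2n hgap hx hbad]
      exact hfill l' ((le_sup (f := α) (mem_range.2 (by omega))).trans (le_max_right _ _)) r''
        (by omega)) z hz hzl (by simp [hbd])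
  have hgl := gl_Bcx hW hE hEm h₁ h₂ (by omega) h2n hgap (x := ∅)
    ⟨by simp, fun v hv => by simp at hv⟩ (by simp)
  rw [hgl] at hz'
  obtain ⟨w', hw', hb', hc'⟩ := hfill L₂ (le_max_left _ _) r le_rfl _ hz' hz'c
    (by rw [map_add, hbd, bd_bd, add_zero])
  refine fill_of_push hw hwc (Ch_mono ?_ hw') hb' hc'
  rw [← hgl]
  intro τ hτ
  simpa using hτ.2

/-- one more layer of a cone -/
theorem cone_step {V : Type} [DecidableEq V] {X : Set (Finset V)} (hX : DC X) {r K K' : ℕ}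
    (hF : Fill (ZMod 2) X r (1 + r * K) K') (c : Finset V → (Finset V →₀ ZMod 2))
    (hc : ∀ σ ∈ X, σ.card < r → c σ ∈ Ch (ZMod 2) X (σ.card + 1) ∧ (c σ).support.card ≤ K ∧
      bd (ZMod 2) (c σ) + ∑ v ∈ σ, c (σ.erase v) = Finsupp.single σ 1) :
    ∃ c' : Finset V → (Finset V →₀ ZMod 2), ∀ σ ∈ X, σ.card < r + 1 →
      c' σ ∈ Ch (ZMod 2) X (σ.card + 1) ∧ (c' σ).support.card ≤ max K K' ∧
      bd (ZMod 2) (c' σ) + ∑ v ∈ σ, c' (σ.erase v) = Finsupp.single σ 1 := by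
  have key : ∀ σ : Finset V, ∃ w : Finset V →₀ ZMod 2, σ ∈ X → σ.card = r →
      w ∈ Ch (ZMod 2) X (r + 1) ∧
        bd (ZMod 2) w = Finsupp.single σ 1 + ∑ v ∈ σ, c (σ.erase v) ∧ w.support.card ≤ K' := by
    intro σ
    by_cases h : σ ∈ X ∧ σ.card = r
    swap
    · exact ⟨0, fun h1 h2 => absurd ⟨h1, h2⟩ h⟩
    obtain ⟨h1, h2⟩ := h
    have he : ∀ v ∈ σ, (σ.erase v).card + 1 = r := fun v hv => by
      rw [card_erase_add_one hv, h2]
    have hv : ∀ v ∈ σ, _ := fun v hv => hc (σ.erase v) (hX σ h1 _ (erase_subset _ _))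
      (by have := he v hv; omega)
    obtain ⟨w, k1, k2, k3⟩ := hF (Finsupp.single σ 1 + ∑ v ∈ σ, c (σ.erase v))
      (Submodule.add_mem _ (single_mem_Ch h1 h2 _)
        (Submodule.sum_mem _ fun v hv' => he v hv' ▸ (hv v hv').1))
      ((card_supp_add_le _ _).trans (add_le_add (card_supp_single_le _ _)
        ((card_supp_sum_le _ _).trans ((sum_le_card_nsmul _ _ K fun v hv' =>
          (hv v hv').2.1).trans (by rw [h2, smul_eq_mul])))))
      (by
        rw [map_add, map_sum, bd_single, ← sum_add_distrib,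
          ← sum_erase_symm (k := ZMod 2) σ (fun v u => c ((σ.erase v).erase u))
            fun a b => by rw [erase_right_comm]]
        refine sum_congr rfl fun v hv' => ?_
        rw [← (hv v hv').2.2, add_right_comm, add_self2, zero_add])
    exact ⟨w, fun _ _ => ⟨k1, k2, k3⟩⟩
  choose w hw using key
  refine ⟨fun σ => if σ.card = r then w σ else c σ, fun σ hσ hcard => ?_⟩
  have he : ∑ v ∈ σ, (if (σ.erase v).card = r then w (σ.erase v) else c (σ.erase v)) =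
      ∑ v ∈ σ, c (σ.erase v) := by
    refine sum_congr rfl fun v hv => if_neg ?_
    have := card_erase_add_one hv
    omega
  dsimp only
  rw [he]
  by_cases h : σ.card = r
  · obtain ⟨k1, k2, k3⟩ := hw σ hσ h
    rw [if_pos h, h]
    exact ⟨k1, k3.trans (le_max_right _ _), by rw [k2, add_add_cancel2]⟩
  · obtain ⟨k1, k2, k3⟩ := hc σ hσ (by omega)
    rw [if_neg h]
    exact ⟨k1, k2.trans (le_max_left _ _), k3⟩

theorem main (hP : PushQStmt) (l r : ℕ) :
    ∃ K₀ n₀ : ℕ, ∀ n, n₀ ≤ n → ∀ (F W : Type) [Field F] [AddCommGroup W] [Module F W]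
    [FiniteDimensional F W], Module.finrank F W = n →
    ∀ (E : ℕ → Submodule F W), Monotone E → (∀ m ≤ n, Module.finrank F (E m) = m) →
    ∀ I₀ : Finset ℕ, I₀.card ≤ l →
    ∃ c : Finset (OV F W) → (Finset (OV F W) →₀ ZMod 2), ∀ σ ∈ Bcx n E I₀, σ.card < r →
      c σ ∈ Ch (ZMod 2) (Bcx n E I₀) (σ.card + 1) ∧ (c σ).support.card ≤ K₀ ∧
      bd (ZMod 2) (c σ) + ∑ v ∈ σ, c (σ.erase v) = Finsupp.single σ 1 := by
  induction r with
  | zero =>
    refine ⟨0, 0, fun n _ => ?_⟩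
    intro F W _ _ _ _ _ E _ _ I₀ _
    exact ⟨0, fun σ _ h => absurd h (Nat.not_lt_zero _)⟩
  | succ r ih =>
    obtain ⟨K, n₀, h⟩ := ih
    obtain ⟨K', n₁, h'⟩ := fill_Bcx hP r l (1 + r * K)
    refine ⟨max K K', max n₀ n₁, fun n hn => ?_⟩
    intro F W _ _ _ _ hW E hE hEm I₀ hI
    obtain ⟨c, hc⟩ := h n (le_of_max_le_left hn) F W hW E hE hEm I₀ hI
    exact cone_step (dc_Bcx n E I₀) (h' n (le_of_max_le_right hn) F W hW E hE hEm I₀ hI) c hc

end Cone

theorem coneStmt_of (hP : PushQStmt) : ConeStmt := by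
  intro r l
  obtain ⟨K, n₀, h⟩ := Cone.main hP l (r + 1)
  refine ⟨K, n₀, fun n hn => ?_⟩
  intro F W _ _ _ _ hW E hE hEm I₀ hI
  obtain ⟨c, hc⟩ := h n hn F W hW E hE hEm I₀ hI
  exact ⟨c, fun σ hσ hcard => hc σ hσ (Nat.lt_succ_of_le hcard)⟩

end Crest.Agent.R66
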