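import Crest.Agent.R66.Chain

/-! # Coset complexes and basic facts about `Kap` -/

set_option autoImplicit false

namespace Crest.Agent.R66

open Finset

section coset
variable {G 𝒯 : Type} [Group G] {U : 𝒯 → Subgroup G}

theorem vtx_fst (s : 𝒯) (g : G) : (vtx U s g).1 = s := rfl

theorem vtx_eq_iff {s s' : 𝒯} {g g' : G} :
    vtx U s g = vtx U s' g' ↔ s = s' ∧ g⁻¹ * g' ∈ U s := by
  constructor
  · intro h
    have h1 : s = s' := congrArg Sigma.fst h
    subst h1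
    refine ⟨rfl, QuotientGroup.eq.1 ?_⟩
    exact eq_of_heq (Sigma.mk.inj h).2
  · rintro ⟨rfl, h⟩
    unfold vtx
    rw [QuotientGroup.eq.2 h]

theorem vtx_mul {s : 𝒯} (g : G) {u : G} (hu : u ∈ U s) : vtx U s (g * u) = vtx U s g :=
  (vtx_eq_iff.2 ⟨rfl, by simpa using hu⟩).symm

theorem exists_vtx (v : Vx U) : ∃ g, v = vtx U v.1 g := by
  obtain ⟨s, x⟩ := v
  obtain ⟨g, rfl⟩ := QuotientGroup.mk_surjective x
  exact ⟨g, rfl⟩

theorem vtx_out (v : Vx U) : vtx U v.1 (Quotient.out v.2) = v := by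
  obtain ⟨s, x⟩ := v
  unfold vtx
  simp

theorem smul_vtx (a : G) (s : 𝒯) (g : G) : a • vtx U s g = vtx U s (a * g) := rfl

theorem smul_fst (a : G) (v : Vx U) : (a • v).1 = v.1 := rfl

instance [Finite G] [Finite 𝒯] : Finite (Vx U) :=
  inferInstanceAs (Finite (Σ s : 𝒯, G ⧸ U s))

theorem mem_face {g : G} {J : Finset 𝒯} {v : Vx U} :
    v ∈ face U g J ↔ ∃ s ∈ J, vtx U s g = v := mem_image

theorem mem_face' {g : G} {J : Finset 𝒯} {v : Vx U} :
    v ∈ face U g J ↔ v.1 ∈ J ∧ v = vtx U v.1 g := by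
  rw [mem_face]
  constructor
  · rintro ⟨s, hs, rfl⟩; exact ⟨hs, rfl⟩
  · rintro ⟨h1, h2⟩; exact ⟨_, h1, h2.symm⟩

theorem vtx_mem_face {g g' : G} {J : Finset 𝒯} {s : 𝒯} :
    vtx U s g' ∈ face U g J ↔ s ∈ J ∧ g'⁻¹ * g ∈ U s := by
  rw [mem_face', vtx_fst, vtx_eq_iff]; simp

theorem vtx_injective (g : G) : Function.Injective (fun s => vtx U s g) :=
  fun _ _ h => (vtx_eq_iff.1 h).1

theorem card_face (g : G) (J : Finset 𝒯) : (face U g J).card = J.card :=
  card_image_of_injective _ (vtx_injective g)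

theorem face_mono (g : G) {J J' : Finset 𝒯} (h : J ⊆ J') : face U g J ⊆ face U g J' :=
  image_subset_image h

theorem face_empty (g : G) : face U g ∅ = ∅ := image_empty _

theorem face_erase [DecidableEq 𝒯] (g : G) (J : Finset 𝒯) (s : 𝒯) :
    face U g (J.erase s) = (face U g J).erase (vtx U s g) :=
  image_erase (vtx_injective g) _ _

theorem face_union [DecidableEq 𝒯] (g : G) (J J' : Finset 𝒯) :
    face U g (J ∪ J') = face U g J ∪ face U g J' := image_union _ _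

theorem smul_face (a g : G) (J : Finset 𝒯) :
    (face U g J).image (fun v => a • v) = face U (a * g) J := by
  unfold face
  rw [image_image]; rfl

theorem eq_of_mem_face {g : G} {J : Finset 𝒯} {v w : Vx U} (hv : v ∈ face U g J)
    (hw : w ∈ face U g J) (h : v.1 = w.1) : v = w := by
  rw [(mem_face'.1 hv).2, (mem_face'.1 hw).2, h]

theorem mem_UI {I : Finset 𝒯} {g : G} : g ∈ UI U I ↔ ∀ s ∈ I, g ∈ U s := by
  simp [UI, Subgroup.mem_iInf]

theorem UI_empty : UI U ∅ = ⊤ := by simp [UI]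

theorem UI_anti {I I' : Finset 𝒯} (h : I ⊆ I') : UI U I' ≤ UI U I :=
  fun _ hg => mem_UI.2 fun s hs => mem_UI.1 hg s (h hs)

theorem face_mul (g : G) {J : Finset 𝒯} {u : G} (hu : u ∈ UI U J) :
    face U (g * u) J = face U g J :=
  image_congr fun s hs => vtx_mul g (mem_UI.1 hu s hs)

theorem face_eq_iff {g g' : G} {J J' : Finset 𝒯} :
    face U g J = face U g' J' ↔ J = J' ∧ g⁻¹ * g' ∈ UI U J := by
  constructor
  · intro h
    have h1 : ∀ s ∈ J, s ∈ J' ∧ g⁻¹ * g' ∈ U s := fun s hs =>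
      vtx_mem_face.1 (h ▸ mem_face.2 ⟨s, hs, rfl⟩)
    have h2 : ∀ s ∈ J', s ∈ J := fun s hs =>
      (vtx_mem_face.1 (h ▸ mem_face.2 ⟨s, hs, rfl⟩ : vtx U s g' ∈ face U g J)).1
    exact ⟨Finset.Subset.antisymm (fun s hs => (h1 s hs).1) h2, mem_UI.2 fun s hs => (h1 s hs).2⟩
  · rintro ⟨rfl, h⟩
    rw [← face_mul g h]; simp

/-- A subset of a face is the face of its set of types. -/
theorem eq_face_of_subset [DecidableEq 𝒯] {g : G} {I : Finset 𝒯} {σ : Finset (Vx U)}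
    (h : σ ⊆ face U g I) : σ.image (fun v => v.1) ⊆ I ∧ σ = face U g (σ.image (fun v => v.1)) := by
  refine ⟨fun s hs => ?_, ?_⟩
  · obtain ⟨v, hv, rfl⟩ := mem_image.1 hs
    exact (mem_face'.1 (h hv)).1
  · ext v
    rw [mem_face']
    constructor
    · intro hv
      exact ⟨mem_image_of_mem _ hv, (mem_face'.1 (h hv)).2⟩
    · rintro ⟨h1, h2⟩
      obtain ⟨w, hw, hw'⟩ := mem_image.1 h1
      rw [h2, ← hw', ← (mem_face'.1 (h hw)).2]; exact hw

theorem mem_Dl {Q : Subgroup G} {I : Finset 𝒯} {σ : Finset (Vx U)} :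
    σ ∈ Dl U Q I ↔ ∃ g ∈ Q, σ ⊆ face U g I := Iff.rfl

theorem mem_Dl' [DecidableEq 𝒯] {Q : Subgroup G} {I : Finset 𝒯} {σ : Finset (Vx U)} :
    σ ∈ Dl U Q I ↔ ∃ g ∈ Q, ∃ J ⊆ I, σ = face U g J :=
  ⟨fun ⟨g, hg, h⟩ => ⟨g, hg, _, (eq_face_of_subset h).1, (eq_face_of_subset h).2⟩,
    fun ⟨g, hg, _, hJ, h⟩ => ⟨g, hg, h ▸ face_mono g hJ⟩⟩

theorem dc_Dl (Q : Subgroup G) (I : Finset 𝒯) : DC (Dl U Q I) :=
  fun _ ⟨g, hg, h⟩ _ hτ => ⟨g, hg, hτ.trans h⟩

theorem Dl_mono {Q Q' : Subgroup G} (h : Q ≤ Q') {I I' : Finset 𝒯} (hI : I ⊆ I') :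
    Dl U Q I ⊆ Dl U Q' I' :=
  fun _ ⟨g, hg, hσ⟩ => ⟨g, h hg, hσ.trans (face_mono g hI)⟩

theorem smul_mem_Dl {Q : Subgroup G} {I : Finset 𝒯} {a : G} (ha : a ∈ Q) :
    ∀ σ ∈ Dl U Q I, σ.image (fun v => a • v) ∈ Dl U Q I :=
  fun _ ⟨g, hg, hσ⟩ => ⟨a * g, Q.mul_mem ha hg, smul_face a g I ▸ image_subset_image hσ⟩

/-- The vertex map induced by a map `ρ` on the chambers in `Q`. -/
noncomputable def vmap (U : 𝒯 → Subgroup G) (Q : Subgroup G) (ρ : G → G) (v : Vx U) : Vx U :=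
  open Classical in
  if H : ∃ g ∈ Q, v = vtx U v.1 g then vtx U v.1 (ρ H.choose) else v

theorem vmap_vtx {Q : Subgroup G} {ρ : G → G}
    (hρ : ∀ s, ∀ q ∈ Q, ∀ q' ∈ Q, q⁻¹ * q' ∈ U s → (ρ q)⁻¹ * ρ q' ∈ U s) (s : 𝒯) {q : G}
    (hq : q ∈ Q) : vmap U Q ρ (vtx U s q) = vtx U s (ρ q) := by
  have H : ∃ g ∈ Q, vtx U s q = vtx U (vtx U s q).1 g := ⟨q, hq, rfl⟩
  unfold vmap
  rw [dif_pos H]
  exact (vtx_eq_iff.2 ⟨rfl, hρ s q hq _ H.choose_spec.1 (vtx_eq_iff.1 H.choose_spec.2).2⟩).symm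

theorem image_vmap_face {Q : Subgroup G} {ρ : G → G}
    (hρ : ∀ s, ∀ q ∈ Q, ∀ q' ∈ Q, q⁻¹ * q' ∈ U s → (ρ q)⁻¹ * ρ q' ∈ U s) {q : G}
    (hq : q ∈ Q) (J : Finset 𝒯) : (face U q J).image (vmap U Q ρ) = face U (ρ q) J := by
  unfold face
  rw [image_image]
  exact image_congr fun s _ => vmap_vtx hρ s hq

/-- Norm trick for coset complexes: `ρ : Q → Q'` is compatible with the vertex stabilisers and
`q ∈ N · ρ q`. If `N` (odd order, preserving `X`) fixes the class of the cycle `z` of `Dl Q I`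
and every cycle of `Dl Q' I` bounds in `X`, then `z` bounds in `X`. -/
theorem Bds.of_coset_norm {k : Type} [Field k] [CharP k 2] [Finite G] {Q Q' N : Subgroup G}
    (hN : Odd (Nat.card N)) (ρ : G → G) (hρQ : ∀ q ∈ Q, ρ q ∈ Q')
    (hρ : ∀ s, ∀ q ∈ Q, ∀ q' ∈ Q, q⁻¹ * q' ∈ U s → (ρ q)⁻¹ * ρ q' ∈ U s)
    (hρN : ∀ q ∈ Q, q * (ρ q)⁻¹ ∈ N) {X : Set (Finset (Vx U))}
    (hX : ∀ g ∈ N, ∀ σ ∈ X, σ.image (fun v => g • v) ∈ X) {I : Finset 𝒯} {m : ℕ}
    {z : Finset (Vx U) →₀ k} (hz : z ∈ Ch k (Dl U Q I) m) (hbd : bd k z = 0)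
    (hfix : ∀ g ∈ N, Bds k X m (R66.act k g z + z))
    (hQ' : ∀ z' ∈ Ch k (Dl U Q' I) m, bd k z' = 0 → Bds k X m z') : Bds k X m z := by
  classical
  have key : ∀ σ ∈ Dl U Q I, σ.image (vmap U Q ρ) ∈ Dl U Q' I ∧ Set.InjOn (vmap U Q ρ) σ := by
    intro σ hσ
    obtain ⟨q, hq, J, hJ, rfl⟩ := mem_Dl'.1 hσ
    refine ⟨mem_Dl'.2 ⟨ρ q, hρQ q hq, J, hJ, image_vmap_face hρ hq J⟩, ?_⟩
    rw [← card_image_iff, image_vmap_face hρ hq, card_face, card_face]
  refine Bds.of_norm N hN hX (vmap U Q ρ) ?_ hfix (hQ' _ (mp_mem_Ch' hz key) ?_)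
  · intro σ hσ
    obtain ⟨q, hq, J, _, rfl⟩ := mem_Dl'.1 (mem_Ch.1 hz σ hσ).1
    refine ⟨_, hρN q hq, ?_⟩
    rw [image_vmap_face hρ hq, smul_face, inv_mul_cancel_right]
  · rw [bd_mp fun σ hσ => (key σ (mem_Ch.1 hz σ hσ).1).2, hbd, map_zero]

end coset

section elems
variable {G : Type} [Group G] [Fintype G]

@[simp] theorem mem_elems {H : Subgroup G} {g : G} : g ∈ elems H ↔ g ∈ H := by simp [elems]

theorem card_elems (H : Subgroup G) : (elems H).card = Nat.card H := by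
  unfold elems
  rw [← Set.ncard_eq_toFinset_card]
  rfl

theorem card_elems_pos (H : Subgroup G) : 0 < (elems H).card :=
  card_pos.2 ⟨1, mem_elems.2 H.one_mem⟩

theorem elems_top : elems (⊤ : Subgroup G) = univ := by ext; simp

end elems

theorem ind_zero : ind 0 = 0 := if_pos rfl

theorem ind_nonneg (x : ZMod 2) : 0 ≤ ind x := by unfold ind; split_ifs <;> norm_num

theorem ind_le_one (x : ZMod 2) : ind x ≤ 1 := by unfold ind; split_ifs <;> norm_num

theorem ind_add_le (x y : ZMod 2) : ind (x + y) ≤ ind x + ind y := by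
  unfold ind
  by_cases hx : x = 0
  · simp [hx]
  · by_cases hy : y = 0
    · simp [hy]
    · rw [if_neg hx, if_neg hy]; split_ifs <;> norm_num

theorem ind_sum_le {ι : Type*} (s : Finset ι) (f : ι → ZMod 2) :
    ind (∑ i ∈ s, f i) ≤ ∑ i ∈ s, ind (f i) :=
  Finset.le_sum_of_subadditive ind ind_zero.le ind_add_le s f

section pos
variable {n : ℕ} [NeZero n]

theorem pos_lt (s a : ZMod n) : pos s a < n := ZMod.val_lt _

omit [NeZero n] in
theorem pos_self (s : ZMod n) : pos s s = 0 := by simp [pos]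

theorem add_pos_eq (s a : ZMod n) : s + (pos s a : ZMod n) = a := by simp [pos]

theorem cast_pos (s a : ZMod n) : (pos s a : ZMod n) = a - s := by simp [pos]

theorem pos_injective (s : ZMod n) : Function.Injective (pos s) := fun a b h => by
  rw [← add_pos_eq s a, h, add_pos_eq]

omit [NeZero n] in
theorem pos_add_nat (s : ZMod n) {m : ℕ} (hm : m < n) : pos s (s + (m : ZMod n)) = m := by
  simp [pos, ZMod.val_natCast, Nat.mod_eq_of_lt hm]

theorem pos_add_mod (s b : ZMod n) (h : ℕ) : pos s (b + (h : ZMod n)) = (pos s b + h) % n := by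
  unfold pos
  rw [show b + (h : ZMod n) - s = (b - s) + h by ring, ZMod.val_add, ZMod.val_natCast,
    Nat.add_mod_mod]

theorem pos_eq_zero {s a : ZMod n} : pos s a = 0 ↔ a = s := by
  rw [← pos_self s]; exact (pos_injective s).eq_iff

theorem pos_change (s t b : ZMod n) :
    pos t b = if pos s t ≤ pos s b then pos s b - pos s t else n + pos s b - pos s t := by
  have h1 := pos_lt s t
  have h2 := pos_lt s b
  have key : ∀ m : ℕ, m < n → ((m + pos s t : ℕ) : ZMod n) = (pos s b : ZMod n) → pos t b = m := by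
    intro m hm h
    rw [Nat.cast_add, cast_pos, cast_pos] at h
    rw [show b = t + (m : ZMod n) by linear_combination -h, pos_add_nat t hm]
  split_ifs with h
  · exact key _ (by omega) (by rw [Nat.sub_add_cancel h])
  · exact key _ (by omega) (by rw [Nat.sub_add_cancel (by omega)]; simp)

omit [NeZero n] in
theorem pos_zero (a : ZMod n) : pos 0 a = a.val := by simp [pos]

/-- `pos` in terms of representatives. -/
theorem pos_of_val_le {s a : ZMod n} (h : s.val ≤ a.val) : pos s a = a.val - s.val := by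
  rw [pos_change 0 s a, pos_zero, pos_zero, if_pos h]

theorem pos_of_val_lt {s a : ZMod n} (h : a.val < s.val) : pos s a = n + a.val - s.val := by
  rw [pos_change 0 s a, pos_zero, pos_zero, if_neg (by omega)]

end pos

namespace Kap
variable {F : Type} [Field F] {n K : ℕ} {G : Type} [Group G] (S : Kap F n K G)

theorem lt_of_ne_zero {g : G} {b : ZMod n} {h : ℕ} (hne : S.κ g b h ≠ 0) : h < K := by
  by_contra hc
  exact hne (S.ge _ _ _ (not_lt.1 hc))

include S in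
theorem one_le_K : 1 ≤ K := S.lt_of_ne_zero (g := 1) (b := 0) (h := 0) (by simp [S.zero])

/-- Extensionality using only lengths in `[1, K)`. -/
theorem ext' {g g' : G} (h : ∀ b h, 1 ≤ h → h < K → S.κ g b h = S.κ g' b h) : g = g' := by
  refine S.ext _ _ fun b l => ?_
  rcases Nat.eq_zero_or_pos l with rfl | h0
  · rw [S.zero, S.zero]
  · by_cases hK : l < K
    · exact h b l h0 hK
    · rw [S.ge _ _ _ (not_lt.1 hK), S.ge _ _ _ (not_lt.1 hK)]

theorem eq_one {g : G} (h : ∀ b h, 1 ≤ h → S.κ g b h = 0) : g = 1 :=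
  S.ext' fun b l h1 _ => by rw [h b l h1, S.one b l h1]

theorem mem_U [NeZero n] {s : ZMod n} {g : G} :
    g ∈ S.U s ↔ ∀ b h, 1 ≤ h → S.κ g b h ≠ 0 → pos s b + h < n := Iff.rfl

theorem mem_P {A : Finset (ZMod n)} {g : G} :
    g ∈ S.P A ↔ ∀ b h, 1 ≤ h → S.κ g b h ≠ 0 → b ∈ A ∧ b + (h : ZMod n) ∈ A := Iff.rfl

theorem mem_col {J : Finset (ZMod n)} {g : G} :
    g ∈ S.col J ↔ ∀ b h, 1 ≤ h → S.κ g b h ≠ 0 → b ∉ J := Iff.rfl

theorem mem_row {J : Finset (ZMod n)} {g : G} :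
    g ∈ S.row J ↔ ∀ b h, 1 ≤ h → S.κ g b h ≠ 0 → b + (h : ZMod n) ∉ J := Iff.rfl

theorem mem_R {A J : Finset (ZMod n)} {g : G} :
    g ∈ S.R A J ↔ ∀ b h, 1 ≤ h → S.κ g b h ≠ 0 → b ∈ A ∧ b ∉ J ∧ b + (h : ZMod n) ∈ J := Iff.rfl

theorem mem_C {A J : Finset (ZMod n)} {g : G} :
    g ∈ S.C A J ↔ ∀ b h, 1 ≤ h → S.κ g b h ≠ 0 →
      b ∈ J ∧ b + (h : ZMod n) ∈ A ∧ b + (h : ZMod n) ∉ J := Iff.rfl

theorem P_univ [NeZero n] : S.P univ = ⊤ := by
  ext g; simp [mem_P]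

theorem P_mono {A A' : Finset (ZMod n)} (h : A ⊆ A') : S.P A ≤ S.P A' :=
  fun _ hg b l h1 h2 => ⟨h (hg b l h1 h2).1, h (hg b l h1 h2).2⟩

theorem P_sdiff_le (A J : Finset (ZMod n)) : S.P (A \ J) ≤ S.P A ⊓ S.col J ⊓ S.row J :=
  fun _ hg => ⟨⟨S.P_mono sdiff_subset hg, fun b l h1 h2 => (mem_sdiff.1 (hg b l h1 h2).1).2⟩,
    fun b l h1 h2 => (mem_sdiff.1 (hg b l h1 h2).2).2⟩

theorem R_le {A J : Finset (ZMod n)} (h : J ⊆ A) : S.R A J ≤ S.P A ⊓ S.col J :=
  fun _ hg => ⟨fun b l h1 h2 => ⟨(hg b l h1 h2).1, h (hg b l h1 h2).2.2⟩,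
    fun b l h1 h2 => (hg b l h1 h2).2.1⟩

theorem C_le {A J : Finset (ZMod n)} (h : J ⊆ A) : S.C A J ≤ S.P A ⊓ S.row J :=
  fun _ hg => ⟨fun b l h1 h2 => ⟨h (hg b l h1 h2).1, (hg b l h1 h2).2.1⟩,
    fun b l h1 h2 => (hg b l h1 h2).2.2⟩

/-- If every term of the product formula other than the `(h, 0)` term vanishes. -/
theorem mul_eq_left {g g' : G} {b : ZMod n} {h : ℕ}
    (H : ∀ h₁ h₂, h₁ + h₂ = h → 1 ≤ h₂ →
      S.κ g (b + (h₂ : ZMod n)) h₁ = 0 ∨ S.κ g' b h₂ = 0) : S.κ (g * g') b h = S.κ g b h := by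
  by_cases hK : h < K
  · rw [S.mul _ _ _ _ hK, sum_eq_single (h, 0)]
    · simp [S.zero]
    · intro p hp hne
      have hp' := mem_antidiagonal.1 hp
      have : 1 ≤ p.2 := by
        by_contra hc
        exact hne (Prod.ext (by simp; omega) (by simp; omega))
      exact mul_eq_zero.2 (H _ _ hp' this)
    · intro hh; simp at hh
  · rw [S.ge _ _ _ (not_lt.1 hK), S.ge _ _ _ (not_lt.1 hK)]

/-- If every term of the product formula other than the `(0, h)` term vanishes. -/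
theorem mul_eq_right {g g' : G} {b : ZMod n} {h : ℕ}
    (H : ∀ h₁ h₂, h₁ + h₂ = h → 1 ≤ h₁ →
      S.κ g (b + (h₂ : ZMod n)) h₁ = 0 ∨ S.κ g' b h₂ = 0) : S.κ (g * g') b h = S.κ g' b h := by
  by_cases hK : h < K
  · rw [S.mul _ _ _ _ hK, sum_eq_single (0, h)]
    · simp [S.zero]
    · intro p hp hne
      have hp' := mem_antidiagonal.1 hp
      have : 1 ≤ p.1 := by
        by_contra hc
        exact hne (Prod.ext (by simp; omega) (by simp; omega))
      exact mul_eq_zero.2 (H _ _ hp' this)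
    · intro hh; simp at hh
  · rw [S.ge _ _ _ (not_lt.1 hK), S.ge _ _ _ (not_lt.1 hK)]

/-- If only the two extreme terms of the product formula survive. -/
theorem mul_eq_add {g g' : G} {b : ZMod n} {h : ℕ} (h1 : 1 ≤ h)
    (H : ∀ h₁ h₂, h₁ + h₂ = h → 1 ≤ h₁ → 1 ≤ h₂ →
      S.κ g (b + (h₂ : ZMod n)) h₁ = 0 ∨ S.κ g' b h₂ = 0) :
    S.κ (g * g') b h = S.κ g b h + S.κ g' b h := by
  by_cases hK : h < K
  · rw [S.mul _ _ _ _ hK, sum_eq_add_of_mem (h, 0) (0, h) (by simp) (by simp)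
      (by simp; omega)]
    · simp [S.zero]
    · intro p hp hne
      have hp' := mem_antidiagonal.1 hp
      have h2 : 1 ≤ p.1 := by
        by_contra hc
        exact hne.2 (Prod.ext (by simp; omega) (by simp; omega))
      have h3 : 1 ≤ p.2 := by
        by_contra hc
        exact hne.1 (Prod.ext (by simp; omega) (by simp; omega))
      exact mul_eq_zero.2 (H _ _ hp' h2 h3)
  · rw [S.ge _ _ _ (not_lt.1 hK), S.ge _ _ _ (not_lt.1 hK), S.ge _ _ _ (not_lt.1 hK), add_zero]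

include S in
/-- No involutions in odd characteristic. -/
theorem eq_one_of_sq (h2 : (2 : F) ≠ 0) {g : G} (hg : g * g = 1) : g = 1 := by
  refine S.eq_one fun b h => ?_
  induction h using Nat.strong_induction_on generalizing b with
  | _ h ih =>
    intro h1
    have := S.mul_eq_add (g := g) (g' := g) (b := b) h1
      fun h₁ h₂ e _ h4 => Or.inr (ih h₂ (by omega) b h4)
    rw [hg, S.one b h h1, ← two_mul] at this
    exact (mul_eq_zero.1 this.symm).resolve_left h2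

include S in
theorem odd_card [Fintype F] [Finite G] (hF : Odd (Fintype.card F)) (H : Subgroup G) :
    Odd (Nat.card H) := by
  have h2 : (2 : F) ≠ 0 := by
    intro h
    have hc : ringChar F = 2 := by
      have : ringChar F ∣ 2 := (ringChar.spec F 2).1 (by exact_mod_cast h)
      exact ((Nat.dvd_prime Nat.prime_two).1 this).resolve_left CharP.ringChar_ne_one
    have := FiniteField.even_card_of_char_two hc
    exact absurd hF (Nat.not_odd_iff_even.2 (Nat.even_iff.2 this))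
  by_contra hodd
  have hdvd : 2 ∣ Nat.card H := (Nat.not_odd_iff_even.1 hodd).two_dvd
  obtain ⟨x, hx⟩ := exists_prime_orderOf_dvd_card' (G := H) 2 (hp := ⟨Nat.prime_two⟩) hdvd
  have h1 : x ^ 2 = 1 := hx ▸ pow_orderOf_eq_one x
  have h3 : (x : G) = 1 := S.eq_one_of_sq h2 (by
    have := congrArg Subtype.val h1
    simpa [pow_two] using this)
  have h4 : x = 1 := Subtype.ext h3
  rw [h4, orderOf_one] at hx
  exact absurd hx (by norm_num)

end Kap

end Crest.Agent.R66
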