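import Crest.Agent.R66.Defs

/-! Row 66: local to global cocycle expansion. -/

set_option autoImplicit false
set_option linter.unusedSectionVars false

namespace Crest.Agent.R66

open Finset

namespace D1

lemma ind_nonneg (x : ZMod 2) : 0 ≤ ind x := by unfold ind; split_ifs <;> norm_num
lemma ind_le_one (x : ZMod 2) : ind x ≤ 1 := by unfold ind; split_ifs <;> norm_num
lemma ind_sq (x : ZMod 2) : ind x ^ 2 = ind x := by unfold ind; split_ifs <;> norm_num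

lemma ind_add_le (x y : ZMod 2) : ind (x + y) ≤ ind x + ind y := by
  by_cases hx : x = 0
  · simp [hx, ind]
  · have := ind_le_one (x + y)
    have := ind_nonneg y
    have : ind x = 1 := if_neg hx
    linarith

lemma ind_sum_le {ι : Type} (s : Finset ι) (f : ι → ZMod 2) :
    ind (∑ i ∈ s, f i) ≤ ∑ i ∈ s, ind (f i) :=
  le_sum_of_subadditive ind (by simp [ind]) ind_add_le s f

variable {G 𝒯 : Type} [Group G] [Fintype G] [Fintype 𝒯] [DecidableEq 𝒯] {U : 𝒯 → Subgroup G}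

lemma mem_elems {H : Subgroup G} {g : G} : g ∈ elems H ↔ g ∈ H := by simp [elems]

lemma mem_UI {I : Finset 𝒯} {g : G} : g ∈ UI U I ↔ ∀ s ∈ I, g ∈ U s := by
  simp [UI, Subgroup.mem_iInf]

lemma UI_mono {I J : Finset 𝒯} (h : I ⊆ J) {g : G} (hg : g ∈ UI U J) : g ∈ UI U I :=
  mem_UI.2 fun s hs => mem_UI.1 hg s (h hs)

lemma elems_pos (H : Subgroup G) : (0 : ℝ) < #(elems H) := by
  exact_mod_cast card_pos.2 ⟨1, mem_elems.2 H.one_mem⟩

lemma elems_empty : elems (UI U ∅) = univ := eq_univ_of_forall fun _ => mem_elems.2 (by simp [mem_UI])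

lemma avg_nonneg (H : Subgroup G) {a : G → ℝ} (ha : ∀ g, 0 ≤ a g) (g : G) : 0 ≤ avg H a g :=
  div_nonneg (sum_nonneg fun _ _ => ha _) (Nat.cast_nonneg _)

lemma linv_empty {φ : Finset 𝒯 → G → ZMod 2} :
    LInv U ∅ φ ↔ ∀ J g, ∀ w ∈ UI U J, φ J (g * w) = φ J g := by
  simp [LInv, mem_UI (I := ∅)]

lemma dl_inv {φ : Finset 𝒯 → G → ZMod 2} (h : LInv U ∅ φ) (J : Finset 𝒯) (g : G) {w : G}
    (hw : w ∈ UI U J) : dl φ J (g * w) = dl φ J g :=
  sum_congr rfl fun s _ => linv_empty.1 h _ _ _ (UI_mono (erase_subset s J) hw)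

lemma dl_add (φ ψ : Finset 𝒯 → G → ZMod 2) : dl (φ + ψ) = dl φ + dl ψ := by
  funext J g; simp [dl, sum_add_distrib]

lemma dl_dl (φ : Finset 𝒯 → G → ZMod 2) (J : Finset 𝒯) (g : G) : dl (dl φ) J g = 0 := by
  unfold dl
  rw [sum_sigma']
  refine sum_involution (fun p _ => ⟨p.2, p.1⟩) (fun p _ => ?_) (fun p hp _ h => ?_)
    (fun p hp => ?_) (fun _ _ => rfl)
  · rw [erase_right_comm]; exact CharTwo.add_self_eq_zero _
  · exact (mem_erase.1 (mem_sigma.1 hp).2).1 (congrArg Sigma.fst h)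
  · obtain ⟨h1, h2⟩ := mem_sigma.1 hp
    exact mem_sigma.2 ⟨(mem_erase.1 h2).2, mem_erase.2 ⟨(mem_erase.1 h2).1.symm, h1⟩⟩

/-- support size in degree `r` -/
noncomputable def Sn (r : ℕ) (ψ : Finset 𝒯 → G → ZMod 2) : ℕ :=
  ∑ J ∈ powersetCard r univ, #{g | ψ J g ≠ 0}

lemma card_ind (f : G → ZMod 2) : (#{g | f g ≠ 0} : ℝ) = ∑ g, ind (f g) := by
  rw [card_filter]
  push_cast
  exact sum_congr rfl fun g _ => by unfold ind; split_ifs <;> simp_all

lemma Sn_cast (r : ℕ) (ψ : Finset 𝒯 → G → ZMod 2) :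
    (Sn r ψ : ℝ) = ∑ J ∈ powersetCard r univ, ∑ g, ind (ψ J g) := by
  rw [Sn, Nat.cast_sum]
  exact sum_congr rfl fun J _ => card_ind _

lemma Sn_add (r : ℕ) (φ ψ : Finset 𝒯 → G → ZMod 2) : Sn r (φ + ψ) ≤ Sn r φ + Sn r ψ := by
  have : (Sn r (φ + ψ) : ℝ) ≤ Sn r φ + Sn r ψ := by
    simp only [Sn_cast, ← sum_add_distrib]
    exact sum_le_sum fun _ _ => sum_le_sum fun _ _ => ind_add_le _ _
  exact_mod_cast this

lemma lnrm_empty (r : ℕ) (ψ : Finset 𝒯 → G → ZMod 2) :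
    lnrm U ∅ r ψ = Sn r ψ / Fintype.card G := by
  rw [lnrm, Sn_cast, sum_div, elems_empty, compl_empty, card_univ]

lemma card_pc (s : Finset 𝒯) (r : ℕ) : #(powersetCard r s) ≤ 2 ^ Fintype.card 𝒯 :=
  (card_le_univ _).trans (by simp)

lemma exists_min (r B : ℕ) {φ : Finset 𝒯 → G → ZMod 2} (h : LInv U ∅ φ) :
    ∃ φ', LInv U ∅ φ' ∧ Sn (r + 1) (dl φ') ≤ Sn (r + 1) (dl φ) ∧
      Sn r (φ + φ') ≤ (B + 1) * Sn (r + 1) (dl φ) ∧
      ∀ ψ, LInv U ∅ ψ → Sn r ψ ≤ B → Sn (r + 1) (dl φ') ≤ Sn (r + 1) (dl (φ' + ψ)) := by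
  obtain ⟨φ', h1, h2⟩ := Set.exists_min_image {φ' | LInv U ∅ φ'}
    (fun φ' => (B + 1) * Sn (r + 1) (dl φ') + Sn r (φ + φ')) (Set.toFinite _) ⟨φ, h⟩
  have h3 := h2 φ h
  have h4 : Sn r (φ + φ) = 0 := by simp [Sn, CharTwo.add_self_eq_zero]
  refine ⟨φ', h1, Nat.le_of_mul_le_mul_left (c := B + 1) (by omega) (by omega), by omega,
    fun ψ hψ hB => ?_⟩
  have h5 := h2 (φ' + ψ) (fun J u hu w hw => by
    simp only [Pi.add_apply, h1 J u hu w hw, hψ J u hu w hw])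
  have h6 := Sn_add r (φ + φ') ψ
  rw [add_assoc] at h6
  by_contra hcon
  have := Nat.mul_le_mul_left (B + 1) (Nat.succ_le_of_lt (not_le.1 hcon))
  rw [Nat.succ_eq_add_one, mul_add] at this
  omega

open Classical in
/-- extension by zero of a cochain on a link -/
noncomputable def ext (U : 𝒯 → Subgroup G) (I : Finset 𝒯) (g₀ : G) (η : Finset 𝒯 → G → ZMod 2) :
    Finset 𝒯 → G → ZMod 2 :=
  fun J g => if I ⊆ J ∧ g₀⁻¹ * g ∈ UI U I then η (J \ I) (g₀⁻¹ * g) else 0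

lemma ext_inv {I : Finset 𝒯} (g₀ : G) {η : Finset 𝒯 → G → ZMod 2} (h : LInv U I η) :
    LInv U ∅ (ext U I g₀ η) := linv_empty.2 fun J g w hw => by
  unfold ext
  by_cases hI : I ⊆ J
  · have hw' := UI_mono hI hw
    rw [← mul_assoc]
    by_cases hg : g₀⁻¹ * g ∈ UI U I
    · rw [if_pos ⟨hI, mul_mem hg hw'⟩, if_pos ⟨hI, hg⟩]
      exact h _ _ hg _ (by rwa [union_sdiff_of_subset hI])
    · rw [if_neg fun h => hg ((Subgroup.mul_mem_cancel_right _ hw').1 h.2), if_neg fun h => hg h.2]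
  · simp [hI]

lemma Sn_ext {M : ℕ} (hM : ∀ s, #(elems (U s)) ≤ M) {I : Finset 𝒯} (hI : I.Nonempty) (g₀ : G)
    (η : Finset 𝒯 → G → ZMod 2) (r : ℕ) : Sn r (ext U I g₀ η) ≤ 2 ^ Fintype.card 𝒯 * M := by
  obtain ⟨s, hs⟩ := hI
  refine (sum_le_card_nsmul _ _ M fun J _ => le_trans ?_ (hM s)).trans
    (Nat.mul_le_mul_right _ (card_pc _ _))
  refine card_le_card_of_injOn (fun g => g₀⁻¹ * g) (fun g hg => ?_)
    (fun _ _ _ _ h => mul_left_cancel h)
  have := (mem_filter.1 (mem_coe.1 hg)).2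
  exact mem_coe.2 (mem_elems.2 (mem_UI.1 (of_not_not fun h => this (if_neg h) :
    I ⊆ J ∧ g₀⁻¹ * g ∈ UI U I).2 s hs))

open Classical in
lemma dl_ext (I : Finset 𝒯) (g₀ : G) (η : Finset 𝒯 → G → ZMod 2) (J : Finset 𝒯) (g : G) :
    dl (ext U I g₀ η) J g =
      if I ⊆ J ∧ g₀⁻¹ * g ∈ UI U I then dl η (J \ I) (g₀⁻¹ * g) else 0 := by
  unfold dl ext
  split_ifs with h
  · rw [← sum_subset (sdiff_subset (s := J) (t := I))]
    · refine sum_congr rfl fun s hs => ?_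
      rw [if_pos ⟨subset_erase.2 ⟨h.1, (mem_sdiff.1 hs).2⟩, h.2⟩, erase_sdiff_comm]
    · intro s hs hs'
      exact if_neg fun h' => (subset_erase.1 h'.1).2 (of_not_not fun h'' => hs' (mem_sdiff.2 ⟨hs, h''⟩))
  · exact sum_eq_zero fun s _ => if_neg fun h' => h ⟨h'.1.trans (erase_subset _ _), h'.2⟩

lemma loc_min {I : Finset 𝒯} (g₀ : G) (η φ : Finset 𝒯 → G → ZMod 2) (ρ : ℕ)
    (h : Sn (#I + ρ) (dl φ) ≤ Sn (#I + ρ) (dl (φ + ext U I g₀ η))) :
    lnrm U I ρ (fun J u => dl φ (I ∪ J) (g₀ * u)) ≤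
      lnrm U I ρ ((fun J u => dl φ (I ∪ J) (g₀ * u)) + dl η) := by
  classical
  have h1 : (0 : ℝ) ≤ Sn (#I + ρ) (dl (φ + ext U I g₀ η)) - Sn (#I + ρ) (dl φ) :=
    sub_nonneg.2 (by exact_mod_cast h)
  have e : (Sn (#I + ρ) (dl (φ + ext U I g₀ η)) - Sn (#I + ρ) (dl φ) : ℝ) =
      ∑ J ∈ powersetCard ρ Iᶜ, ∑ u ∈ elems (UI U I),
        (ind (dl φ (I ∪ J) (g₀ * u) + dl η J u) - ind (dl φ (I ∪ J) (g₀ * u))) := by
    simp only [Sn_cast, ← sum_sub_distrib, dl_add, Pi.add_apply, dl_ext]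
    rw [← sum_filter_of_ne (p := fun J => I ⊆ J) fun J _ hJ => of_not_not fun h => hJ (by simp [h])]
    refine sum_nbij' (· \ I) (I ∪ ·) (fun J hJ => ?_) (fun J hJ => ?_) (fun J hJ => ?_)
      (fun J hJ => ?_) (fun J hJ => ?_)
    · obtain ⟨a1, a2⟩ := mem_filter.1 hJ
      refine mem_powersetCard.2 ⟨fun s hs => mem_compl.2 (mem_sdiff.1 hs).2, ?_⟩
      rw [card_sdiff_of_subset a2, (mem_powersetCard.1 a1).2]; omega
    · obtain ⟨a1, a2⟩ := mem_powersetCard.1 hJ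
      refine mem_filter.2 ⟨mem_powersetCard.2 ⟨subset_univ _, ?_⟩, subset_union_left⟩
      rw [card_union_of_disjoint (disjoint_left.2 fun s hs hs' => mem_compl.1 (a1 hs') hs), a2]
    · exact union_sdiff_of_subset (mem_filter.1 hJ).2
    · exact union_sdiff_cancel_left (disjoint_left.2 fun s hs hs' =>
        mem_compl.1 ((mem_powersetCard.1 hJ).1 hs') hs)
    · have a2 := (mem_filter.1 hJ).2
      rw [union_sdiff_of_subset a2, ← sum_filter_of_ne (p := fun g => g₀⁻¹ * g ∈ UI U I)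
        fun g _ hg => of_not_not fun h => hg (by simp [h])]
      refine sum_nbij' (g₀⁻¹ * ·) (g₀ * ·) (fun g hg => mem_elems.2 (mem_filter.1 hg).2)
        (fun u hu => mem_filter.2 ⟨mem_univ _, by simpa using mem_elems.1 hu⟩)
        (fun _ _ => by simp) (fun _ _ => by simp) (fun g hg => ?_)
      rw [if_pos ⟨a2, (mem_filter.1 hg).2⟩, mul_inv_cancel_left]
  rw [e] at h1
  simp only [sum_sub_distrib, sub_nonneg] at h1
  simp only [lnrm, ← sum_div]
  exact div_le_div_of_nonneg_right h1 (Nat.cast_nonneg _)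

/-- local density -/
noncomputable def den (U : 𝒯 → Subgroup G) (φ : Finset 𝒯 → G → ZMod 2) (I I' : Finset 𝒯)
    (T : Finset (Finset 𝒯)) (g : G) : ℝ :=
  ∑ J ∈ T, avg (UI U I) (fun g => ind (dl φ (I' ∪ J) g)) g

lemma den_le {k : ℕ} {Kc ε : ℝ} (hK : 0 ≤ Kc) (hL : LinkExp U k Kc ε) {I : Finset 𝒯}
    (hI : I.Nonempty) {ρ : ℕ} (hk : #I + ρ ≤ k) {φ : Finset 𝒯 → G → ZMod 2} (hφ : LInv U ∅ φ)
    (g : G) (hmin : ∀ η, LInv U I η → Sn (#I + ρ) (dl φ) ≤ Sn (#I + ρ) (dl (φ + ext U I g η))) :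
    den U φ I I (powersetCard ρ Iᶜ) g ≤
      Kc * ∑ s ∈ I, den U φ I (I.erase s) (powersetCard (ρ + 1) Iᶜ) g + ε := by
  obtain ⟨η, h1, h2⟩ := hL I hI (by omega) ρ (by omega) (fun J u => dl φ (I ∪ J) (g * u))
    (fun J u _ w hw => (congrArg _ (mul_assoc g u w).symm).trans (dl_inv hφ _ _ hw))
  refine ((loc_min g η φ ρ (hmin η h1)).trans h2).trans (add_le_add_left
    (mul_le_mul_of_nonneg_left ?_ hK) _)
  simp only [den, avg, lnrm]
  rw [sum_comm]
  refine sum_le_sum fun J hJ => ?_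
  rw [← sum_div, sum_comm]
  refine div_le_div_of_nonneg_right (sum_le_sum fun u _ => le_trans (le_of_eq ?_)
    (ind_sum_le _ _)) (Nat.cast_nonneg _)
  have hd : Disjoint I J := disjoint_left.2 fun s hs hs' =>
    mem_compl.1 ((mem_powersetCard.1 hJ).1 hs') hs
  have h3 : ∑ s ∈ I ∪ J, dl φ ((I ∪ J).erase s) (g * u) = 0 := dl_dl φ (I ∪ J) (g * u)
  rw [sum_union hd, CharTwo.add_eq_zero] at h3
  congr 1
  calc _ = ∑ s ∈ J, dl φ ((I ∪ J).erase s) (g * u) := sum_congr rfl fun s hs => by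
        rw [erase_union_distrib, erase_eq_of_notMem (disjoint_right.1 hd hs)]
    _ = ∑ s ∈ I, dl φ ((I ∪ J).erase s) (g * u) := h3.symm
    _ = _ := sum_congr rfl fun s hs => by
        rw [erase_union_distrib, erase_eq_of_notMem (disjoint_left.1 hd hs)]

lemma heavy_step {k : ℕ} {Kc t : ℝ} (hK : 0 < Kc) (ht0 : 0 < t) (ht1 : t ≤ 1)
    (ht : 4 * Kc * (k + 1) * t ≤ 1) {I : Finset 𝒯} {ρ : ℕ} (hk : #I ≤ k)
    {φ : Finset 𝒯 → G → ZMod 2} (g : G)
    (h : den U φ I I (powersetCard ρ Iᶜ) g ≤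
      Kc * ∑ s ∈ I, den U φ I (I.erase s) (powersetCard (ρ + 1) Iᶜ) g + t ^ k / 2) :
    (if t ^ (k - #I) ≤ den U φ I I (powersetCard ρ Iᶜ) g then (1 : ℝ) else 0) ≤
      ∑ s ∈ I, ((if t ^ (k - #(I.erase s)) ≤ den U φ (I.erase s) (I.erase s)
          (powersetCard (ρ + 1) (I.erase s)ᶜ) g then (1 : ℝ) else 0) +
        (2 ^ Fintype.card 𝒯 / t ^ k) ^ 2 * ∑ J ∈ powersetCard (ρ + 1) Iᶜ,
          (avg (UI U I) (fun g => ind (dl φ (I.erase s ∪ J) g)) g -
            avg (UI U (I.erase s)) (fun g => ind (dl φ (I.erase s ∪ J) g)) g) ^ 2) := by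
  have hn : ∀ s ∈ I, 0 ≤ (if t ^ (k - #(I.erase s)) ≤ den U φ (I.erase s) (I.erase s)
          (powersetCard (ρ + 1) (I.erase s)ᶜ) g then (1 : ℝ) else 0) +
        (2 ^ Fintype.card 𝒯 / t ^ k) ^ 2 * ∑ J ∈ powersetCard (ρ + 1) Iᶜ,
          (avg (UI U I) (fun g => ind (dl φ (I.erase s ∪ J) g)) g -
            avg (UI U (I.erase s)) (fun g => ind (dl φ (I.erase s ∪ J) g)) g) ^ 2 :=
    fun _ _ => by positivity
  split_ifs with hh
  swap
  · exact sum_nonneg hn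
  have a1 : t ^ k ≤ t ^ (k - #I) := pow_le_pow_of_le_one ht0.le ht1 (Nat.sub_le _ _)
  have a0 : 0 < t ^ (k - #I) := pow_pos ht0 _
  obtain ⟨s, hs, a2⟩ : ∃ s ∈ I, 2 * (t ^ (k - #I) * t) ≤
      den U φ I (I.erase s) (powersetCard (ρ + 1) Iᶜ) g := by
    by_contra hcon
    push Not at hcon
    have b1 := sum_le_card_nsmul _ _ _ fun s hs => (hcon s hs).le
    rw [nsmul_eq_mul] at b1
    have b2 : (#I : ℝ) ≤ k := by exact_mod_cast hk
    have b3 : (#I : ℝ) * (2 * (t ^ (k - #I) * t)) ≤ k * (2 * (t ^ (k - #I) * t)) :=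
      mul_le_mul_of_nonneg_right b2 (by positivity)
    have b4 := mul_le_mul_of_nonneg_left (b1.trans b3) hK.le
    have b5 := mul_le_mul_of_nonneg_left ht a0.le
    nlinarith [mul_pos (mul_pos hK a0) ht0]
  refine le_trans ?_ (single_le_sum hn hs)
  have a3 : k - #(I.erase s) = k - #I + 1 := by
    have := card_pos.2 ⟨s, hs⟩
    rw [card_erase_of_mem hs]; omega
  split_ifs with h'
  · exact le_add_of_nonneg_right (by positivity)
  rw [zero_add]
  have a4 : den U φ (I.erase s) (I.erase s) (powersetCard (ρ + 1) Iᶜ) g ≤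
      den U φ (I.erase s) (I.erase s) (powersetCard (ρ + 1) (I.erase s)ᶜ) g :=
    sum_le_sum_of_subset_of_nonneg (powersetCard_mono (compl_subset_compl.2 (erase_subset _ _)))
      fun _ _ _ => avg_nonneg _ (fun _ => ind_nonneg _) _
  have a5 : t ^ k ≤ t ^ (k - #I) * t := by
    rw [← pow_succ, ← a3]; exact pow_le_pow_of_le_one ht0.le ht1 (Nat.sub_le _ _)
  rw [a3, pow_succ, not_le] at h'
  obtain ⟨J, hJ, a6⟩ : ∃ J ∈ powersetCard (ρ + 1) Iᶜ, t ^ k / 2 ^ Fintype.card 𝒯 ≤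
      avg (UI U I) (fun g => ind (dl φ (I.erase s ∪ J) g)) g -
        avg (UI U (I.erase s)) (fun g => ind (dl φ (I.erase s ∪ J) g)) g := by
    by_contra hcon
    push Not at hcon
    have b1 := sum_le_card_nsmul _ _ _ fun J hJ => (hcon J hJ).le
    rw [nsmul_eq_mul, sum_sub_distrib] at b1
    have b2 : (#(powersetCard (ρ + 1) Iᶜ) : ℝ) ≤ 2 ^ Fintype.card 𝒯 := by
      exact_mod_cast card_pc _ _
    have b3 := mul_le_mul_of_nonneg_right b2
      (by positivity : (0 : ℝ) ≤ t ^ k / 2 ^ Fintype.card 𝒯)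
    rw [mul_div_cancel₀ _ (by positivity)] at b3
    unfold den at a2 a4 h'
    linarith
  calc (1 : ℝ) = (2 ^ Fintype.card 𝒯 / t ^ k) ^ 2 * (t ^ k / 2 ^ Fintype.card 𝒯) ^ 2 := by
        field_simp
    _ ≤ _ := mul_le_mul_of_nonneg_left ((pow_le_pow_left₀ (by positivity) a6 2).trans
        (single_le_sum (f := fun J => (avg (UI U I) (fun g => ind (dl φ (I.erase s ∪ J) g)) g -
          avg (UI U (I.erase s)) (fun g => ind (dl φ (I.erase s ∪ J) g)) g) ^ 2)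
          (fun _ _ => sq_nonneg _) hJ)) (by positivity)

lemma heavy {k r M : ℕ} {Kc t lam : ℝ} (hK : 0 < Kc) (ht0 : 0 < t) (ht1 : t ≤ 1)
    (ht : 4 * Kc * (k + 1) * t ≤ 1) (hlam : 0 ≤ lam) (hM : ∀ s, #(elems (U s)) ≤ M)
    (hS : Spec U lam) (hL : LinkExp U k Kc (t ^ k / 2)) (hr : r + 1 ≤ k)
    {φ : Finset 𝒯 → G → ZMod 2} (hφ : LInv U ∅ φ)
    (hmin : ∀ ψ, LInv U ∅ ψ → Sn r ψ ≤ 2 ^ Fintype.card 𝒯 * M →
      Sn (r + 1) (dl φ) ≤ Sn (r + 1) (dl (φ + ψ)))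
    (hsm : (Sn (r + 1) (dl φ) : ℝ) / Fintype.card G < t ^ k) (j : ℕ) :
    ∀ (I : Finset 𝒯) (ρ : ℕ), #I = j → #I + ρ = r + 1 →
      ∑ g, (if t ^ (k - #I) ≤ den U φ I I (powersetCard ρ Iᶜ) g then (1 : ℝ) else 0) ≤
        (2 * (k + 1)) ^ j * ((2 ^ Fintype.card 𝒯 / t ^ k) ^ 2 *
          (2 ^ Fintype.card 𝒯 * (lam * Sn (r + 1) (dl φ)))) := by
  obtain ⟨D, hD⟩ : ∃ D : ℝ, D = (2 ^ Fintype.card 𝒯 / t ^ k) ^ 2 *
    (2 ^ Fintype.card 𝒯 * (lam * Sn (r + 1) (dl φ))) := ⟨_, rfl⟩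
  have hD0 : 0 ≤ D := by rw [hD]; positivity
  rw [← hD]
  induction j with
  | zero =>
    intro I ρ hI hρ
    obtain rfl := card_eq_zero.1 hI
    obtain rfl : ρ = r + 1 := by simpa using hρ
    rw [card_empty, Nat.sub_zero,
      sum_eq_zero fun g _ => if_neg (not_le.2 (lt_of_eq_of_lt ?_ hsm))]
    · positivity
    · simp only [den, avg, elems_empty, compl_empty, empty_union, card_univ, Sn_cast, sum_div]
      refine sum_congr rfl fun J _ => ?_
      rw [← sum_div, ← sum_div]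
      congr 1
      exact Equiv.sum_comp (Equiv.mulLeft g) fun g => ind (dl φ J g)
  | succ j ih =>
    intro I ρ hI hρ
    have hne : I.Nonempty := card_pos.1 (by omega)
    refine (sum_le_sum fun g _ => heavy_step hK ht0 ht1 ht (by omega) g
      (den_le hK.le hL hne (by omega) hφ g fun η hη => by
        rw [hρ]; exact hmin _ (ext_inv g hη) (Sn_ext hM hne g η r))).trans ?_
    rw [sum_comm]
    refine (sum_le_card_nsmul _ _ ((2 * (k + 1)) ^ j * D + D) fun s hs => ?_).trans ?_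
    · rw [sum_add_distrib]
      have hc : #(I.erase s) = j := by rw [card_erase_of_mem hs]; omega
      refine add_le_add (ih _ _ hc (by omega)) ?_
      rw [← mul_sum, sum_comm, hD]
      refine mul_le_mul_of_nonneg_left ((sum_le_card_nsmul _ _ (lam * Sn (r + 1) (dl φ))
        fun J hJ => ?_).trans ?_) (by positivity)
      · obtain ⟨a1, a2⟩ := mem_powersetCard.1 hJ
        refine (hS I s hs _ fun g x hx => ?_).trans (mul_le_mul_of_nonneg_left ?_ hlam)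
        · rw [dl_inv hφ _ _ (UI_mono (fun y hy => mem_erase.2 ⟨?_, mem_univ _⟩) hx)]
          rintro rfl
          rcases mem_union.1 hy with h | h
          exacts [notMem_erase _ _ h, mem_compl.1 (a1 h) hs]
        · simp only [ind_sq, Sn_cast]
          refine single_le_sum (f := fun J => ∑ g, ind (dl φ J g))
            (fun _ _ => sum_nonneg fun _ _ => ind_nonneg _) (mem_powersetCard.2 ⟨subset_univ _, ?_⟩)
          rw [card_union_of_disjoint (disjoint_left.2 fun y hy hy' =>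
            mem_compl.1 (a1 hy') (mem_of_mem_erase hy)), hc, a2]
          omega
      · rw [nsmul_eq_mul]
        exact mul_le_mul_of_nonneg_right (by exact_mod_cast card_pc _ _) (by positivity)
    · have b1 : (#I : ℝ) ≤ k + 1 := by exact_mod_cast (by omega : #I ≤ k + 1)
      have b2 : (1 : ℝ) ≤ (2 * (k + 1)) ^ j := one_le_pow₀ (by linarith [Nat.cast_nonneg (α := ℝ) k])
      have b3 : D ≤ (2 * (k + 1)) ^ j * D := le_mul_of_one_le_left hD0 b2
      rw [nsmul_eq_mul]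
      calc _ ≤ (k + 1 : ℝ) * ((2 * (k + 1)) ^ j * D + (2 * (k + 1)) ^ j * D) := by gcongr
        _ = _ := by ring

end D1

open D1 in
theorem d1Stmt : D1Stmt := by
  intro N k Kc hK
  obtain ⟨t, ht0, ht1, ht⟩ : ∃ t : ℝ, 0 < t ∧ t ≤ 1 ∧ 4 * Kc * (k + 1) * t ≤ 1 :=
    ⟨min 1 (1 / (4 * Kc * (k + 1))), by positivity, min_le_left _ _,
      (le_div_iff₀' (by positivity)).1 (min_le_right _ _)⟩
  obtain ⟨c, hc⟩ : ∃ c : ℝ, c = 2 ^ N * ((2 * (k + 1)) ^ k * ((2 ^ N / t ^ k) ^ 2 * 2 ^ N)) :=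
    ⟨_, rfl⟩
  have hc0 : 0 < c := by rw [hc]; positivity
  refine ⟨1 / (2 * c), by positivity, t ^ k / 2, by positivity, fun M =>
    ⟨(2 ^ N * M + 1 : ℕ) + 2 ^ N / t ^ k, by positivity, ?_⟩⟩
  intro G 𝒯 _ _ _ _ U hN hM hS hL r hr φ hφ
  subst hN
  have hG : (0 : ℝ) < Fintype.card G := by exact_mod_cast Fintype.card_pos
  simp only [lnrm_empty]
  by_cases hbig : t ^ k ≤ (Sn (r + 1) (dl φ) : ℝ) / Fintype.card G
  · refine ⟨0, fun _ _ _ _ _ => rfl, fun _ _ _ => by simp [dl], ?_⟩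
    have a1 : (Sn r (φ + 0) : ℝ) / Fintype.card G ≤ 2 ^ Fintype.card 𝒯 := by
      rw [div_le_iff₀ hG]
      exact_mod_cast (sum_le_card_nsmul _ _ (Fintype.card G) fun _ _ => card_le_univ _).trans
        (Nat.mul_le_mul_right _ (card_pc _ _))
    calc _ ≤ 2 ^ Fintype.card 𝒯 / t ^ k * t ^ k := by rwa [div_mul_cancel₀ _ (by positivity)]
      _ ≤ _ := mul_le_mul (le_add_of_nonneg_left (Nat.cast_nonneg _)) hbig (by positivity)
          (by positivity)
  obtain ⟨φ', h1, h2, h3, h4⟩ := exists_min r (2 ^ Fintype.card 𝒯 * M) hφ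
  have hz : Sn (r + 1) (dl φ') = 0 := by
    have hH := heavy hK ht0 ht1 ht (by positivity) hM hS hL hr h1 h4
      (lt_of_le_of_lt (div_le_div_of_nonneg_right (by exact_mod_cast h2) hG.le) (not_le.1 hbig))
      (r + 1)
    have a1 : (Sn (r + 1) (dl φ') : ℝ) ≤ c * (1 / (2 * c) * Sn (r + 1) (dl φ')) := by
      conv_lhs => rw [Sn_cast]
      refine (sum_le_card_nsmul _ _ _ fun J hJ => le_trans (sum_le_sum fun g _ => ?_)
        (hH J 0 (mem_powersetCard.1 hJ).2 (mem_powersetCard.1 hJ).2)).trans ?_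
      · have e : den U φ' J J (powersetCard 0 Jᶜ) g = ind (dl φ' J g) := by
          simp only [den, powersetCard_zero, sum_singleton, union_empty, avg]
          rw [sum_congr rfl fun u hu => by rw [dl_inv h1 J g (mem_elems.1 hu)], sum_const,
            nsmul_eq_mul, mul_div_cancel_left₀ _ (elems_pos _).ne']
        rw [e]
        split_ifs with h
        · exact ind_le_one _
        · unfold ind at h ⊢
          split_ifs at h ⊢
          exacts [le_rfl, absurd (pow_le_one₀ ht0.le ht1) h]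
      · have b1 : (#(powersetCard (r + 1) (univ : Finset 𝒯)) : ℝ) ≤ 2 ^ Fintype.card 𝒯 := by
          exact_mod_cast card_pc _ _
        have b2 : (2 * (k + 1) : ℝ) ^ (r + 1) ≤ (2 * (k + 1)) ^ k :=
          pow_le_pow_right₀ (by linarith [Nat.cast_nonneg (α := ℝ) k]) hr
        rw [nsmul_eq_mul]
        calc _ ≤ 2 ^ Fintype.card 𝒯 * ((2 * (k + 1) : ℝ) ^ k * ((2 ^ Fintype.card 𝒯 / t ^ k) ^ 2 *
              (2 ^ Fintype.card 𝒯 * (1 / (2 * c) * Sn (r + 1) (dl φ'))))) := by gcongr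
          _ = _ := by generalize 1 / (2 * c) = y; rw [hc]; ring
    have a2 : c * (1 / (2 * c) * Sn (r + 1) (dl φ')) = Sn (r + 1) (dl φ') / 2 := by field_simp
    have a3 : (Sn (r + 1) (dl φ') : ℝ) ≤ 0 := by linarith
    exact_mod_cast le_antisymm a3 (Nat.cast_nonneg _)
  refine ⟨φ', h1, fun J hJ g => ?_, ?_⟩
  · have := sum_eq_zero_iff.1 hz J (mem_powersetCard.2 ⟨subset_univ _, hJ⟩)
    rw [card_eq_zero, filter_eq_empty_iff] at this
    exact of_not_not (this (mem_univ g))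
  · rw [← mul_div_assoc]
    refine div_le_div_of_nonneg_right (le_trans (by exact_mod_cast h3)
      (mul_le_mul_of_nonneg_right (le_add_of_nonneg_right (by positivity))
        (Nat.cast_nonneg _))) hG.le

end Crest.Agent.R66
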