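import Mathlib

/-!
# Row 66 (S0088): bounded degree coboundary expanders — interface

Chains are finitely supported functions on `Finset V` with values in a field `k` of characteristic
two; a complex is a set of finsets; `m` always counts vertices (`m = dimension + 1`), the empty
simplex is included (reduced homology).
-/

set_option autoImplicit false

namespace Crest.Agent.R66

open Finset

/-! ## 1. Chains -/

section chains
variable (k : Type) [Field k] {V : Type} [DecidableEq V]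

/-- Boundary (unsigned; a differential in characteristic two). -/
noncomputable def bd : (Finset V →₀ k) →ₗ[k] (Finset V →₀ k) :=
  Finsupp.linearCombination k (fun σ : Finset V => ∑ v ∈ σ, Finsupp.single (σ.erase v) (1 : k))

/-- Chains supported on the `m`-vertex simplices of `X`. -/
def Ch (X : Set (Finset V)) (m : ℕ) : Submodule k (Finset V →₀ k) :=
  Finsupp.supported k k {σ | σ ∈ X ∧ σ.card = m}

/-- `z` bounds in `X`. -/
def Bds (X : Set (Finset V)) (m : ℕ) (z : Finset V →₀ k) : Prop :=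
  ∃ w ∈ Ch k X (m + 1), bd k w = z

/-- Every cycle on `m`-vertex simplices of `X` bounds. -/
def Ac (X : Set (Finset V)) (m : ℕ) : Prop :=
  ∀ z ∈ Ch k X m, bd k z = 0 → Bds k X m z

/-- Cycles with at most `L` simplices bound chains with at most `L'` simplices. -/
def Fill (X : Set (Finset V)) (m L L' : ℕ) : Prop :=
  ∀ z ∈ Ch k X m, z.support.card ≤ L → bd k z = 0 →
    ∃ w ∈ Ch k X (m + 1), bd k w = z ∧ w.support.card ≤ L'

/-- Push-forward of chains along a vertex map. -/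
noncomputable def mp {V' : Type} [DecidableEq V'] (f : V → V') :
    (Finset V →₀ k) →ₗ[k] (Finset V' →₀ k) :=
  Finsupp.lmapDomain k k (Finset.image f)

/-- Action of a group element on chains. -/
noncomputable def act {Γ : Type} [Group Γ] [MulAction Γ V] (g : Γ) :
    (Finset V →₀ k) →ₗ[k] (Finset V →₀ k) :=
  mp k (fun v => g • v)

end chains

/-- Down-closed. -/
def DC {V : Type} (X : Set (Finset V)) : Prop := ∀ σ ∈ X, ∀ τ ⊆ σ, τ ∈ X

/-- The good link of `x`. -/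
def gl {V : Type} [DecidableEq V] (X : Set (Finset V)) (bad : V → Prop) (x : Finset V) :
    Set (Finset V) :=
  {τ | (∀ v ∈ τ, ¬ bad v) ∧ τ ∪ x ∈ X}

/-- Pushing a chain with good boundary off the bad vertices. -/
def PushStmt : Prop :=
  ∀ (k V : Type) [Field k] [CharP k 2] [DecidableEq V] (X : Set (Finset V)) (bad : V → Prop)
    (m : ℕ), DC X →
    (∀ x ∈ X, x.Nonempty → (∀ v ∈ x, bad v) → ∀ r, r + x.card = m → Ac k (gl X bad x) r) →
    ∀ z ∈ Ch k X m, (∀ σ ∈ (bd k z).support, ∀ v ∈ σ, ¬ bad v) →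
      ∃ w ∈ Ch k X (m + 1), z + bd k w ∈ Ch k (gl X bad ∅) m

/-- Quantitative pushing. -/
def PushQStmt : Prop :=
  ∀ (m : ℕ) (Φ : ℕ → ℕ) (L : ℕ), ∃ L₁ L₂ : ℕ,
    ∀ (k V : Type) [Field k] [CharP k 2] [DecidableEq V] (X : Set (Finset V)) (bad : V → Prop),
    DC X →
    (∀ x ∈ X, x.Nonempty → (∀ v ∈ x, bad v) → ∀ r, r + x.card = m → ∀ l ≤ L₁,
      Fill k (gl X bad x) r l (Φ l)) →
    ∀ z ∈ Ch k X m, z.support.card ≤ L → (∀ σ ∈ (bd k z).support, ∀ v ∈ σ, ¬ bad v) →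
      ∃ w ∈ Ch k X (m + 1), w.support.card ≤ L₂ ∧ z + bd k w ∈ Ch k (gl X bad ∅) m ∧
        (z + bd k w).support.card ≤ L₂

/-- A join of `J.card` nonempty sets is acyclic below `J.card` vertices. -/
def JoinStmt : Prop :=
  ∀ (k W ι : Type) [Field k] [CharP k 2] [DecidableEq W] (ty : W → ι) (adm : W → Prop)
    (J : Finset ι), (∀ j ∈ J, ∃ w, adm w ∧ ty w = j) → ∀ r < J.card,
    Ac k {a : Finset W | (∀ w ∈ a, adm w ∧ ty w ∈ J) ∧ ∀ w ∈ a, ∀ w' ∈ a, ty w = ty w' → w = w'} r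

/-- Nerve type lemma (Charney's argument). -/
def NerveStmt : Prop :=
  ∀ (k V W : Type) [Field k] [CharP k 2] [DecidableEq V] [DecidableEq W]
    (Rel : Finset V → Finset W → Prop) (m : ℕ),
    (∀ x a, Rel x a → ∀ x' ⊆ x, ∀ a' ⊆ a, Rel x' a') →
    (∀ x, Rel x ∅ → ∀ r, r + x.card = m → Ac k {a | Rel x a} r) →
    (∀ a, Rel ∅ a → 2 ≤ a.card → ∀ r, r + a.card = m + 1 → Ac k {x | Rel x a} r) →
    (∀ w, ∀ z ∈ Ch k {x | Rel x {w}} m, bd k z = 0 → Bds k {x | Rel x ∅} m z) →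
    Ac k {x | Rel x ∅} m

/-! ## 2. Complexes of subspaces -/

/-- A typed subspace. -/
@[ext] structure OV (F W : Type) [Field F] [AddCommGroup W] [Module F W] where
  t : ℕ
  C : Submodule F W

noncomputable instance (F W : Type) [Field F] [AddCommGroup W] [Module F W] :
    DecidableEq (OV F W) := Classical.decEq _

section sub
variable {F W : Type} [Field F] [AddCommGroup W] [Module F W]

/-- The typed subspaces form a chain (hence have distinct types). -/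
def IsCh (σ : Finset (OV F W)) : Prop := ∀ v ∈ σ, ∀ w ∈ σ, v.t ≤ w.t → v.C ≤ w.C

/-- Chains of subspaces opposite to the flag `Fl`, between `A` and `B`, not containing `Y`. -/
def Ocx (Fl : ℕ → Submodule F W) (A B Y : Submodule F W) (T : Finset ℕ) :
    Set (Finset (OV F W)) :=
  {σ | (∀ v ∈ σ, v.t ∈ T ∧ IsCompl v.C (Fl v.t) ∧ A ≤ v.C ∧ v.C ≤ B ∧ ¬ Y ≤ v.C) ∧ IsCh σ}

/-- Link in the building of the partial flag `(E m)_{m ∈ I₀}`. -/
def Bcx (n : ℕ) (E : ℕ → Submodule F W) (I₀ : Finset ℕ) : Set (Finset (OV F W)) :=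
  {σ | (∀ v ∈ σ, 0 < v.t ∧ v.t < n ∧ v.t ∉ I₀ ∧ Module.finrank F v.C = v.t ∧
      ∀ m ∈ I₀, (m ≤ v.t → E m ≤ v.C) ∧ (v.t ≤ m → v.C ≤ E m)) ∧ IsCh σ}

end sub

/-- (A) The opposition complexes are highly acyclic. -/
def OStmt : Prop :=
  ∀ m y : ℕ, ∃ ρ : ℕ, ∀ (F k W : Type) [Field F] [Fintype F] [Field k] [CharP k 2]
    [AddCommGroup W] [Module F W] [FiniteDimensional F W], Odd (Fintype.card F) →
    ∀ (Fl : ℕ → Submodule F W) (A B Y : Submodule F W) (T : Finset ℕ),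
      ρ ≤ T.card → (∀ i ∈ T, ∀ j ∈ T, i < j → Fl j < Fl i) →
      (∀ i ∈ T, Disjoint A (Fl i)) → (∀ i ∈ T, Codisjoint B (Fl i)) → A ≤ B → ¬ Y ≤ A →
      Module.finrank F Y ≤ y → ∀ m' ≤ m, Ac k (Ocx Fl A B Y T) m'

/-- Bounded cones on links in the building. -/
def ConeStmt : Prop :=
  ∀ r l : ℕ, ∃ K₀ n₀ : ℕ, ∀ n, n₀ ≤ n → ∀ (F W : Type) [Field F] [AddCommGroup W] [Module F W]
    [FiniteDimensional F W], Module.finrank F W = n →
    ∀ (E : ℕ → Submodule F W), Monotone E → (∀ m ≤ n, Module.finrank F (E m) = m) →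
    ∀ I₀ : Finset ℕ, I₀.card ≤ l →
    ∃ c : Finset (OV F W) → (Finset (OV F W) →₀ ZMod 2), ∀ σ ∈ Bcx n E I₀, σ.card ≤ r →
      c σ ∈ Ch (ZMod 2) (Bcx n E I₀) (σ.card + 1) ∧ (c σ).support.card ≤ K₀ ∧
      bd (ZMod 2) (c σ) + ∑ v ∈ σ, c (σ.erase v) = Finsupp.single σ 1

/-! ## 3. Coset complexes -/

section coset
variable {G 𝒯 : Type} [Group G] (U : 𝒯 → Subgroup G)

/-- Vertices of the coset complex. -/
def Vx : Type := Σ s : 𝒯, G ⧸ U s

noncomputable instance : DecidableEq (Vx U) := Classical.decEq _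

instance : MulAction G (Vx U) := inferInstanceAs (MulAction G (Σ s : 𝒯, G ⧸ U s))

/-- The vertex of type `s` of the chamber `g`. -/
def vtx (s : 𝒯) (g : G) : Vx U := ⟨s, (g : G ⧸ U s)⟩

/-- The face of type `J` of the chamber `g`. -/
noncomputable def face (g : G) (J : Finset 𝒯) : Finset (Vx U) := J.image (fun s => vtx U s g)

/-- Faces with types in `I` of the chambers in `Q`. -/
def Dl (Q : Subgroup G) (I : Finset 𝒯) : Set (Finset (Vx U)) := {σ | ∃ g ∈ Q, σ ⊆ face U g I}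

/-- Stabiliser of the standard face of type `I`. -/
def UI (I : Finset 𝒯) : Subgroup G := ⨅ s ∈ I, U s

end coset

/-! ## 4. Typed cochains, norms, expansion -/

/-- Elements of a subgroup as a finset. -/
noncomputable def elems {G : Type} [Group G] [Fintype G] (H : Subgroup G) : Finset G :=
  (H : Set G).toFinite.toFinset

/-- Indicator of being nonzero. -/
noncomputable def ind (x : ZMod 2) : ℝ := if x = 0 then 0 else 1

/-- Averaging over a right coset action. -/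
noncomputable def avg {G : Type} [Group G] [Fintype G] (H : Subgroup G) (a : G → ℝ) (g : G) : ℝ :=
  (∑ u ∈ elems H, a (g * u)) / (elems H).card

section typed
variable {G 𝒯 : Type} [Group G] [Fintype G] [Fintype 𝒯] [DecidableEq 𝒯] (U : 𝒯 → Subgroup G)

/-- Coboundary of a typed cochain. -/
def dl (φ : Finset 𝒯 → G → ZMod 2) : Finset 𝒯 → G → ZMod 2 :=
  fun J g => ∑ s ∈ J, φ (J.erase s) g

/-- Typed cochain on the link of the standard face of type `I` (`I = ∅`: the whole complex). -/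
def LInv (I : Finset 𝒯) (φ : Finset 𝒯 → G → ZMod 2) : Prop :=
  ∀ J, ∀ u ∈ UI U I, ∀ w ∈ UI U (I ∪ J), φ J (u * w) = φ J u

/-- Norm on `r`-vertex faces of the link of the standard face of type `I`. -/
noncomputable def lnrm (I : Finset 𝒯) (r : ℕ) (φ : Finset 𝒯 → G → ZMod 2) : ℝ :=
  ∑ J ∈ Iᶜ.powersetCard r, (∑ u ∈ elems (UI U I), ind (φ J u)) / (elems (UI U I)).card

/-- Spectral condition. -/
def Spec (lam : ℝ) : Prop :=
  ∀ (I : Finset 𝒯), ∀ s ∈ I, ∀ a : G → ℝ,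
    (∀ g, ∀ x ∈ UI U (univ.erase s), a (g * x) = a g) →
    ∑ g, (avg (UI U I) a g - avg (UI U (I.erase s)) a g) ^ 2 ≤ lam * ∑ g, (a g) ^ 2

/-- Approximate coboundary expansion of proper links. -/
def LinkExp (k : ℕ) (Kc ε : ℝ) : Prop :=
  ∀ I : Finset 𝒯, I.Nonempty → I.card ≤ k → ∀ r ≤ k, ∀ η, LInv U I η →
    ∃ η', LInv U I η' ∧ lnrm U I r (η + dl η') ≤ Kc * lnrm U I (r + 1) (dl η) + ε

/-- Cocycle expansion. -/
def Cosys (k : ℕ) (C : ℝ) : Prop :=
  ∀ r, r + 1 ≤ k → ∀ φ, LInv U ∅ φ → ∃ φ', LInv U ∅ φ' ∧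
    (∀ J : Finset 𝒯, J.card = r + 1 → ∀ g, dl φ' J g = 0) ∧
    lnrm U ∅ r (φ + φ') ≤ C * lnrm U ∅ (r + 1) (dl φ)

end typed

/-- (D1) Local to global. -/
def D1Stmt : Prop :=
  ∀ (N k : ℕ) (Kc : ℝ), 0 < Kc → ∃ lam > (0 : ℝ), ∃ ε > (0 : ℝ), ∀ M : ℕ, ∃ C > (0 : ℝ),
    ∀ (G 𝒯 : Type) [Group G] [Fintype G] [Fintype 𝒯] [DecidableEq 𝒯] (U : 𝒯 → Subgroup G),
      Fintype.card 𝒯 = N → (∀ s, (elems (U s)).card ≤ M) → Spec U lam → LinkExp U k Kc ε →
      Cosys U k C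

/-- Symmetrising a bounded cone over a group. -/
def SymStmt : Prop :=
  ∀ (Γ W 𝒯 : Type) [Group Γ] [Fintype Γ] [MulAction Γ W] [DecidableEq W] [DecidableEq 𝒯]
    (T₀ : Finset 𝒯) (e : 𝒯 → W) (r K₀ : ℕ) (c : Finset W → (Finset W →₀ ZMod 2)),
    (∀ (γ : Γ), ∀ J ⊆ T₀, J.card ≤ r →
      (∀ ρ ∈ (c (J.image fun t => γ • e t)).support,
        ∃ γ' : Γ, ∃ J' ⊆ T₀, J'.card = J.card + 1 ∧ ρ = J'.image fun t => γ' • e t) ∧
      (c (J.image fun t => γ • e t)).support.card ≤ K₀ ∧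
      bd (ZMod 2) (c (J.image fun t => γ • e t)) +
        ∑ v ∈ J.image (fun t => γ • e t), c ((J.image fun t => γ • e t).erase v) =
        Finsupp.single (J.image fun t => γ • e t) 1) →
    ∀ h : Finset W → ZMod 2, ∃ h' : Finset W → ZMod 2,
      ∑ J ∈ T₀.powersetCard r, ∑ γ : Γ, ind (h (J.image fun t => γ • e t) +
          ∑ v ∈ J.image (fun t => γ • e t), h' ((J.image fun t => γ • e t).erase v)) ≤
        2 ^ T₀.card * K₀ * ∑ J ∈ T₀.powersetCard (r + 1), ∑ γ : Γ,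
          ind (∑ v ∈ J.image (fun t => γ • e t), h ((J.image fun t => γ • e t).erase v))

/-! ## 5. The group -/

/-- Position of `a` in the linear order of `ZMod n` starting at `s`. -/
def pos {n : ℕ} (s a : ZMod n) : ℕ := (a - s).val

/-- `G` is the group of determinant one elements of `1 + rad` in the path algebra of the cyclic
quiver truncated at length `K`; `κ g b h` is the coefficient of the path from `b` to `b + h`. -/
structure Kap (F : Type) [Field F] (n K : ℕ) (G : Type) [Group G] where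
  κ : G → ZMod n → ℕ → F
  ext : ∀ g g', (∀ b h, κ g b h = κ g' b h) → g = g'
  zero : ∀ g b, κ g b 0 = 1
  ge : ∀ g b h, K ≤ h → κ g b h = 0
  one : ∀ b h, 1 ≤ h → κ 1 b h = 0
  mul : ∀ g g' b h, h < K →
    κ (g * g') b h = ∑ p ∈ antidiagonal h, κ g (b + (p.2 : ZMod n)) p.1 * κ g' b p.2
  exH : ∀ (c : ZMod n → ℕ → F) (φ : ZMod n → ℕ),
    (∀ b h, 1 ≤ h → c b h ≠ 0 → φ b < φ (b + (h : ZMod n))) →
    ∃ g, ∀ b h, 1 ≤ h → h < K → κ g b h = c b h
  exC : ∀ (c : ZMod n → ℕ → F) (a : ZMod n),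
    ∃ g, (∀ b h, b ≠ a → 1 ≤ h → h < K → κ g b h = c b h) ∧
      ∀ h, κ g a h ≠ 0 → (h : ZMod n) = 0
  gen : ∀ (A : Finset (ZMod n)) (g : G),
    (∀ b h, 1 ≤ h → κ g b h ≠ 0 → b ∈ A ∧ b + (h : ZMod n) ∈ A) →
    g ∈ Subgroup.closure {x | ∃ b, ∃ h : ℕ, b ∈ A ∧ b + (h : ZMod n) ∈ A ∧ (h : ZMod n) ≠ 0 ∧
      ∀ b' h', 1 ≤ h' → κ x b' h' ≠ 0 → b' = b ∧ h' = h}
  rev : ∀ (c : ZMod n) (g : G), ∃ g', ∀ b h, κ g' b h = κ g (c - b - (h : ZMod n)) h

namespace Kap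
variable {F : Type} [Field F] {n K : ℕ} {G : Type} [Group G] (S : Kap F n K G)

/-- A set of paths closed under composition. -/
def Closed (Pa : ZMod n → ℕ → Prop) : Prop :=
  ∀ b h₁ h₂, 1 ≤ h₁ → 1 ≤ h₂ → Pa b h₂ → Pa (b + (h₂ : ZMod n)) h₁ → Pa b (h₁ + h₂)

/-- Pattern subgroup. -/
def pat (Pa : ZMod n → ℕ → Prop) (hP : Closed Pa) : Subgroup G where
  carrier := {g | ∀ b h, 1 ≤ h → S.κ g b h ≠ 0 → Pa b h}
  one_mem' := fun b h hh hne => absurd (S.one b h hh) hne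
  mul_mem' := by
    intro g g' hg hg' b h hh hne
    have hK : h < K := by
      by_contra hc
      exact hne (S.ge _ _ _ (not_lt.1 hc))
    rw [S.mul g g' b h hK] at hne
    obtain ⟨p, hp, hne⟩ := Finset.exists_ne_zero_of_sum_ne_zero hne
    have hp' : p.1 + p.2 = h := mem_antidiagonal.1 hp
    have h1 := left_ne_zero_of_mul hne
    have h2 := right_ne_zero_of_mul hne
    rcases Nat.eq_zero_or_pos p.2 with h0 | h0
    · have : p.1 = h := by omega
      rw [h0, this] at h1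
      simpa using hg _ _ hh (by simpa using h1)
    · rcases Nat.eq_zero_or_pos p.1 with h0' | h0'
      · have : p.2 = h := by omega
        rw [this] at h2
        exact hg' _ _ hh h2
      · rw [← hp']
        exact hP b _ _ h0' h0 (hg' _ _ h0 h2) (hg _ _ h0' h1)
  inv_mem' := by
    intro g hg b h
    induction h using Nat.strong_induction_on generalizing b with
    | _ h ih =>
      intro hh hne
      have hK : h < K := by
        by_contra hc
        exact hne (S.ge _ _ _ (not_lt.1 hc))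
      have h1 := S.mul g⁻¹ g b h hK
      rw [inv_mul_cancel, S.one b h hh] at h1
      have hmem : (h, 0) ∈ antidiagonal h := by simp
      rw [← Finset.add_sum_erase _ _ hmem] at h1
      simp only [Nat.cast_zero, add_zero, S.zero, mul_one] at h1
      have h2 : ∑ p ∈ (antidiagonal h).erase (h, 0),
          S.κ g⁻¹ (b + (p.2 : ZMod n)) p.1 * S.κ g b p.2 ≠ 0 := by
        intro h0
        rw [h0, add_zero] at h1
        exact hne h1.symm
      obtain ⟨p, hp, hne'⟩ := Finset.exists_ne_zero_of_sum_ne_zero h2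
      have hp' : p.1 + p.2 = h := mem_antidiagonal.1 (mem_of_mem_erase hp)
      have hp0 : 1 ≤ p.2 := by
        by_contra hc
        apply ne_of_mem_erase hp
        ext <;> simp <;> omega
      have h3 := hg _ _ hp0 (right_ne_zero_of_mul hne')
      rcases Nat.eq_zero_or_pos p.1 with h0' | h0'
      · have : p.2 = h := by omega
        rwa [this] at h3
      · rw [← hp']
        exact hP b _ _ h0' hp0 h3 (ih p.1 (by omega) _ h0' (left_ne_zero_of_mul hne'))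

theorem mem_pat {Pa : ZMod n → ℕ → Prop} {hP : Closed Pa} {g : G} :
    g ∈ S.pat Pa hP ↔ ∀ b h, 1 ≤ h → S.κ g b h ≠ 0 → Pa b h := Iff.rfl

theorem pos_add [NeZero n] (s b : ZMod n) (h : ℕ) (hh : pos s b + h < n) :
    pos s (b + (h : ZMod n)) = pos s b + h := by
  unfold pos at *
  have hn : h < n := by omega
  rw [show b + (h : ZMod n) - s = (b - s) + h by ring, ZMod.val_add, ZMod.val_natCast,
    Nat.mod_eq_of_lt hn, Nat.mod_eq_of_lt hh]

/-- Paths not crossing the cut between `s - 1` and `s`. -/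
def U [NeZero n] (s : ZMod n) : Subgroup G :=
  S.pat (fun b h => pos s b + h < n) (by
    intro b h₁ h₂ _ _ h3 h4
    rw [pos_add s b h₂ h3] at h4
    omega)

/-- Paths between active indices. -/
def P (A : Finset (ZMod n)) : Subgroup G :=
  S.pat (fun b h => b ∈ A ∧ b + (h : ZMod n) ∈ A) (by
    intro b h₁ h₂ _ _ h3 h4
    refine ⟨h3.1, ?_⟩
    have := h4.2
    rwa [add_assoc, add_comm (h₂ : ZMod n), ← Nat.cast_add] at this)

/-- Trivial columns `J`. -/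
def col (J : Finset (ZMod n)) : Subgroup G :=
  S.pat (fun b _ => b ∉ J) (fun _ _ _ _ _ h3 _ => h3)

/-- Trivial rows `J`. -/
def row (J : Finset (ZMod n)) : Subgroup G :=
  S.pat (fun b h => b + (h : ZMod n) ∉ J) (by
    intro b h₁ h₂ _ _ _ h4
    rwa [add_assoc, add_comm (h₂ : ZMod n), ← Nat.cast_add] at h4)

/-- Row group: paths from `A \ J` into `J`. -/
def R (A J : Finset (ZMod n)) : Subgroup G :=
  S.pat (fun b h => b ∈ A ∧ b ∉ J ∧ b + (h : ZMod n) ∈ J)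
    (fun _ _ _ _ _ h3 h4 => absurd h3.2.2 h4.2.1)

/-- Column group: paths from `J` into `A \ J`. -/
def C (A J : Finset (ZMod n)) : Subgroup G :=
  S.pat (fun b h => b ∈ J ∧ b + (h : ZMod n) ∈ A ∧ b + (h : ZMod n) ∉ J)
    (fun _ _ _ _ _ h3 h4 => absurd h4.1 h3.2.2)

/-- Elementary element `1 + c · (path from b of length h)` (meaningful for `(h : ZMod n) ≠ 0`). -/
noncomputable def el (b : ZMod n) (h : ℕ) (c : F) : G :=
  open Classical in
  if H : ∃ g, ∀ b' h', 1 ≤ h' → h' < K → S.κ g b' h' = if b' = b ∧ h' = h then c else 0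
  then H.choose else 1

/-- The unitriangular matrix of `g` in the order starting at `s`. -/
def pim (s : ZMod n) (g : G) : Matrix (ZMod n) (ZMod n) F :=
  fun a b => if pos s b ≤ pos s a then S.κ g b (pos s a - pos s b) else 0

end Kap

section spaces
variable (F : Type) [Field F] {n : ℕ}

/-- Span of the first `m` coordinates (order starting at `s`). -/
def Esp (s : ZMod n) (m : ℕ) : Submodule F (ZMod n → F) where
  carrier := {v | ∀ a, m ≤ pos s a → v a = 0}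
  zero_mem' := fun _ _ => rfl
  add_mem' := fun hv hw a ha => by simp [hv a ha, hw a ha]
  smul_mem' := fun c v hv a ha => by simp [hv a ha]

/-- Span of the inactive coordinates. -/
def Asp (A : Finset (ZMod n)) : Submodule F (ZMod n → F) where
  carrier := {v | ∀ a ∈ A, v a = 0}
  zero_mem' := fun _ _ => rfl
  add_mem' := fun hv hw a ha => by simp [hv a ha, hw a ha]
  smul_mem' := fun c v hv a ha => by simp [hv a ha]

/-- Span of the active coordinates at positions `≥ m`. -/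
def Fsp (s : ZMod n) (A : Finset (ZMod n)) (m : ℕ) : Submodule F (ZMod n → F) where
  carrier := {v | ∀ a, (a ∉ A ∨ pos s a < m) → v a = 0}
  zero_mem' := fun _ _ => rfl
  add_mem' := fun hv hw a ha => by simp [hv a ha, hw a ha]
  smul_mem' := fun c v hv a ha => by simp [hv a ha]

end spaces

namespace Kap
variable {F : Type} [Field F] {n K : ℕ} [NeZero n] {G : Type} [Group G] (S : Kap F n K G)

/-- The subspace attached to the type `t` vertex of the chamber `g`. -/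
noncomputable def phi (s : ZMod n) (A : Finset (ZMod n)) (t : ZMod n) (g : G) :
    OV F (ZMod n → F) :=
  ⟨pos s t, (Esp F s (pos s t)).map (Matrix.toLin' (S.pim s g)) ⊔ Asp F A⟩

/-- The same, as a map on vertices. -/
noncomputable def Phi (s : ZMod n) (A : Finset (ZMod n)) (v : Vx S.U) : OV F (ZMod n → F) :=
  S.phi s A v.1 (Quotient.out v.2)

end Kap

/-- Existence of the group. -/
def GrpStmt : Prop :=
  ∀ (F : Type) [Field F] [Fintype F] (n K : ℕ) [NeZero n], 1 ≤ K →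
    ∃ (G : Type) (_ : Group G) (_ : Fintype G), Nonempty (Kap F n K G)

/-- Calculus of elementary elements. -/
def ElStmt : Prop :=
  ∀ (F G : Type) [Field F] [Group G] (n K : ℕ) [NeZero n] (S : Kap F n K G),
    (∀ b (h : ℕ) c, (h : ZMod n) ≠ 0 → ∀ b' h', 1 ≤ h' → h' < K →
      S.κ (S.el b h c) b' h' = if b' = b ∧ h' = h then c else 0) ∧
    (∀ b (h : ℕ) c c', (h : ZMod n) ≠ 0 → S.el b h c * S.el b h c' = S.el b h (c + c')) ∧
    (∀ b₁ (h₁ : ℕ) c₁ b₂ (h₂ : ℕ) c₂, (h₁ : ZMod n) ≠ 0 → (h₂ : ZMod n) ≠ 0 →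
      b₁ + (h₁ : ZMod n) ≠ b₂ → b₂ + (h₂ : ZMod n) ≠ b₁ →
      S.el b₁ h₁ c₁ * S.el b₂ h₂ c₂ = S.el b₂ h₂ c₂ * S.el b₁ h₁ c₁) ∧
    (∀ b (h₁ : ℕ) c₁ (h₂ : ℕ) c₂, (h₁ : ZMod n) ≠ 0 → (h₂ : ZMod n) ≠ 0 →
      ((h₁ + h₂ : ℕ) : ZMod n) ≠ 0 →
      S.el (b + (h₂ : ZMod n)) h₁ c₁ * S.el b h₂ c₂ =
        S.el b h₂ c₂ * S.el (b + (h₂ : ZMod n)) h₁ c₁ * S.el b (h₁ + h₂) (c₁ * c₂))

/-- Generation lemmas. -/
def GenStmt : Prop :=
  ∀ (F G : Type) [Field F] [Group G] (n K : ℕ) [NeZero n] (S : Kap F n K G),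
    (3 ≤ n → ∀ I : Finset (ZMod n), UI S.U I ≤ ⨆ t ∈ Iᶜ, UI S.U (univ.erase t)) ∧
    (∀ (A : Finset (ZMod n)), ∀ j ∈ A, ∀ g ∈ S.P A,
      (∀ b h, 1 ≤ h → pos j b + h < n → S.κ g b h = 0) → g ∈ S.R A {j} ⊔ S.C A {j})

/-- Dictionary between links of vertices and opposition complexes. -/
def DictStmt : Prop :=
  ∀ (F G : Type) [Field F] [Group G] (n K : ℕ) [NeZero n] (S : Kap F n K G), n ≤ K →
    ∀ (s : ZMod n) (A : Finset (ZMod n)),
    S.pim s 1 = 1 ∧ (∀ g g', S.pim s (g * g') = S.pim s g * S.pim s g') ∧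
    (∀ t g, S.Phi s A (vtx S.U t g) = S.phi s A t g) ∧
    (∀ u ∈ S.U s ⊓ S.P A, ∀ u' ∈ S.U s ⊓ S.P A, ∀ t t',
      S.phi s A t u = S.phi s A t' u' → vtx S.U t u = vtx S.U t' u') ∧
    (∀ u ∈ S.P A, ∀ t, IsCompl (S.phi s A t u).C (Fsp F s A (pos s t))) ∧
    (∀ σ : Finset (OV F (ZMod n → F)),
      (∀ v ∈ σ, v.t < n ∧ IsCompl v.C (Fsp F s A v.t) ∧ Asp F A ≤ v.C) → IsCh σ →
      ∃ u ∈ S.U s ⊓ S.P A, ∀ v ∈ σ, v = S.phi s A (s + (v.t : ZMod n)) u) ∧
    (∀ (k : Type) [Field k] (T : Finset (ZMod n)) (A' B Y : Submodule F (ZMod n → F)) (m : ℕ),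
      Asp F A ≤ A' → Ac k (Ocx (Fsp F s A) A' B Y (T.image (pos s))) m →
      Ac k {τ | ∃ u ∈ S.U s ⊓ S.P A, τ ⊆ face S.U u T ∧ ∀ v ∈ τ,
        A' ≤ (S.Phi s A v).C ∧ (S.Phi s A v).C ≤ B ∧ ¬ Y ≤ (S.Phi s A v).C} m)

/-- (B) The row group acts trivially on the homology of the column stabiliser complex. -/
def DeltaStmt : Prop :=
  ∀ m y : ℕ, ∃ ρ : ℕ, ∀ (F k G : Type) [Field F] [Fintype F] [Field k] [CharP k 2] [Group G]
    [Fintype G] (n K : ℕ) [NeZero n] (S : Kap F n K G) (ψ : AddChar F k),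
    Odd (Fintype.card F) → ψ.IsPrimitive → n ≤ K →
    ∀ (A J I : Finset (ZMod n)), J ⊆ A → J.card ≤ y → ρ ≤ I.card →
      (∀ s ∈ I, ∀ j ∈ J, s.val ≤ j.val) →
      (∀ s ∈ I, ∀ s' ∈ I, s ≠ s' → ∃ a ∈ A, a ∉ J ∧ pos s a < pos s s') →
      ∀ m' ≤ m, ∀ z ∈ Ch k (Dl S.U (S.P A ⊓ S.col J) I) m', bd k z = 0 → ∀ a ∈ S.R A J,
        Bds k (Dl S.U (S.P A ⊓ S.col J) I) m' (act k a z + z)

/-- (B') The dual statement for one row. -/
def DeltaCStmt : Prop :=
  ∀ m : ℕ, ∃ ρ : ℕ, ∀ (F k G : Type) [Field F] [Fintype F] [Field k] [CharP k 2] [Group G]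
    [Fintype G] (n K : ℕ) [NeZero n] (S : Kap F n K G) (ψ : AddChar F k),
    Odd (Fintype.card F) → ψ.IsPrimitive → n ≤ K →
    ∀ (A I : Finset (ZMod n)) (j : ZMod n), j ∈ A → ρ ≤ I.card →
      (∀ s ∈ I, ∀ s' ∈ I, s ≠ s' → ∃ a ∈ A, a ≠ j ∧ pos s a < pos s s') →
      ∀ m' ≤ m, ∀ z ∈ Ch k (Dl S.U (S.P A ⊓ S.row {j}) I) m', bd k z = 0 → ∀ a ∈ S.C A {j},
        Bds k (Dl S.U (S.P A ⊓ S.row {j}) I) m' (act k a z + z)

/-- (C) Acyclicity for type sets leaving a long free block. -/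
def GStmt : Prop :=
  ∀ m : ℕ, ∃ ρ β : ℕ, ∀ (F k G : Type) [Field F] [Fintype F] [Field k] [CharP k 2] [Group G]
    [Fintype G] (n K : ℕ) [NeZero n] (S : Kap F n K G) (ψ : AddChar F k),
    Odd (Fintype.card F) → ψ.IsPrimitive → n ≤ K →
    ∀ (A Bk I : Finset (ZMod n)), I ⊆ A → Bk ⊆ A → ρ ≤ I.card → β ≤ Bk.card →
      (∀ s ∈ I, ∀ j ∈ Bk, s.val < j.val) → ∀ m' ≤ m, Ac k (Dl S.U (S.P A) I) m'

/-- (C') Acyclicity of the whole coset complex. -/
def XStmt : Prop :=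
  ∀ m : ℕ, ∃ n₀ : ℕ, ∀ (F k G : Type) [Field F] [Fintype F] [Field k] [CharP k 2] [Group G]
    [Fintype G] (n K : ℕ) [NeZero n] (S : Kap F n K G) (ψ : AddChar F k),
    Odd (Fintype.card F) → ψ.IsPrimitive → n ≤ K → n₀ ≤ n →
      ∀ m' ≤ m, Ac k (Dl S.U ⊤ univ) m'

/-- (D3) Spectral estimate. -/
def SpecStmt : Prop :=
  ∀ (n : ℕ) [NeZero n], 3 ≤ n → ∀ lam > (0 : ℝ), ∃ q₀ : ℕ,
    ∀ (F G : Type) [Field F] [Fintype F] [Group G] [Fintype G] (K : ℕ) (S : Kap F n K G),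
      q₀ ≤ Fintype.card F → n ≤ K → Spec S.U lam

/-- (D2) Link expansion. -/
def LinkStmt : Prop :=
  ∀ k : ℕ, ∃ n₀ : ℕ, ∀ (n : ℕ) [NeZero n], n₀ ≤ n → ∃ Kc > (0 : ℝ), ∀ ε > (0 : ℝ), ∃ q₀ : ℕ,
    ∀ (F G : Type) [Field F] [Fintype F] [Group G] [Fintype G] (K : ℕ) (S : Kap F n K G),
      q₀ ≤ Fintype.card F → n ≤ K → LinkExp S.U k Kc ε

end Crest.Agent.R66
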