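import Crest.Agent.R66.Defs

/-!
# Row 66: calculus of elementary elements
-/

set_option autoImplicit false

namespace Crest.Agent.R66

open Finset

namespace El
variable {F : Type} [Field F] {n K : ℕ} {G : Type} [Group G] (S : Kap F n K G)

theorem ext' {g g' : G} (h : ∀ b h, 1 ≤ h → h < K → S.κ g b h = S.κ g' b h) : g = g' :=
  S.ext g g' fun b k => by
    rcases Nat.eq_zero_or_pos k with rfl | h0
    · rw [S.zero, S.zero]
    rcases lt_or_ge k K with h1 | h1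
    · exact h b k h0 h1
    · rw [S.ge _ _ _ h1, S.ge _ _ _ h1]

theorem mul' (g g' : G) (b : ZMod n) {h : ℕ} (hh : h < K) :
    S.κ (g * g') b h = ∑ k ∈ range (h + 1), S.κ g (b + (k : ZMod n)) (h - k) * S.κ g' b k := by
  rw [S.mul g g' b h hh, ← Finset.Nat.sum_antidiagonal_swap,
    Finset.Nat.sum_antidiagonal_eq_sum_range_succ_mk]
  rfl

theorem ne_zero {h : ℕ} (hh : (h : ZMod n) ≠ 0) : h ≠ 0 := fun e => hh (by simp [e])

theorem spec (b : ZMod n) {h : ℕ} (c : F) (hh : (h : ZMod n) ≠ 0) (b' : ZMod n) (h' : ℕ)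
    (h1 : 1 ≤ h') (h2 : h' < K) : S.κ (S.el b h c) b' h' = if b' = b ∧ h' = h then c else 0 := by
  classical
  have H : ∃ g, ∀ b' h', 1 ≤ h' → h' < K → S.κ g b' h' = if b' = b ∧ h' = h then c else 0 :=
    S.exH _ (fun x => if x = b + h then 1 else 0) fun b' h' _ hne => by
      have e : b' = b ∧ h' = h := by_contra fun e => hne (if_neg e)
      rw [e.1, e.2, if_neg (by simpa using hh), if_pos rfl]
      exact one_pos
  rw [Kap.el, dif_pos H]
  exact H.choose_spec b' h' h1 h2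

theorem spec' (b : ZMod n) {h : ℕ} (c : F) (hh : (h : ZMod n) ≠ 0) (b' : ZMod n) {h' : ℕ}
    (h2 : h' < K) :
    S.κ (S.el b h c) b' h' = (if h' = 0 then 1 else 0) + if b' = b ∧ h' = h then c else 0 := by
  rcases Nat.eq_zero_or_pos h' with rfl | h0
  · simp [S.zero, (ne_zero hh).symm]
  · rw [spec S b c hh b' h' h0 h2, if_neg h0.ne', zero_add]

theorem mul_el (g : G) (b : ZMod n) {h : ℕ} (c : F) (hh : (h : ZMod n) ≠ 0) (b' : ZMod n) {h' : ℕ}
    (h2 : h' < K) : S.κ (g * S.el b h c) b' h' =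
      S.κ g b' h' + if b' = b ∧ h ≤ h' then S.κ g (b + h) (h' - h) * c else 0 := by
  rw [mul' S _ _ _ h2, sum_congr rfl fun k hk => by
    rw [spec' S b c hh b' ((Nat.lt_succ_iff.1 (mem_range.1 hk)).trans_lt h2)]]
  simp only [mul_add, sum_add_distrib, mul_ite, mul_one, mul_zero, sum_ite_eq', mem_range,
    Nat.succ_pos, if_true, Nat.cast_zero, add_zero, Nat.sub_zero]
  by_cases e : b' = b
  · simp only [e, true_and, sum_ite_eq', mem_range, Nat.lt_succ_iff]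
  · simp [e]

/-- the support of an elementary element -/
theorem supp {b : ZMod n} {h : ℕ} {c : F} (hh : (h : ZMod n) ≠ 0) {b' : ZMod n} {h' : ℕ}
    (h1 : 1 ≤ h') (hne : S.κ (S.el b h c) b' h' ≠ 0) : b' = b ∧ h' = h :=
  by_contra fun e => hne (by
    rcases lt_or_ge h' K with h2 | h2
    · rw [spec S b c hh b' h' h1 h2, if_neg e]
    · exact S.ge _ _ _ h2)

theorem mem_pat {Pa : ZMod n → ℕ → Prop} {hP : Kap.Closed Pa} {b : ZMod n} {h : ℕ} (c : F)
    (hh : (h : ZMod n) ≠ 0) (H : Pa b h) : S.el b h c ∈ S.pat Pa hP := fun _ _ h1 hne =>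
  (supp S hh h1 hne).1 ▸ (supp S hh h1 hne).2 ▸ H

theorem eq_el {x : G} {b : ZMod n} {h : ℕ} (hh : (h : ZMod n) ≠ 0)
    (H : ∀ b' h', 1 ≤ h' → S.κ x b' h' ≠ 0 → b' = b ∧ h' = h) : x = S.el b h (S.κ x b h) :=
  ext' S fun b' h' h1 h2 => by
    rw [spec S b _ hh b' h' h1 h2]
    split_ifs with e
    · rw [e.1, e.2]
    · exact by_contra fun hne => e (H b' h' h1 hne)

theorem el_el {b₁ b₂ : ZMod n} {h₁ h₂ : ℕ} (c₁ c₂ : F) (e₁ : (h₁ : ZMod n) ≠ 0)
    (e₂ : (h₂ : ZMod n) ≠ 0) (b' : ZMod n) {h' : ℕ} (h2 : h' < K) :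
    S.κ (S.el b₁ h₁ c₁ * S.el b₂ h₂ c₂) b' h' = (if h' = 0 then 1 else 0) +
      (if b' = b₁ ∧ h' = h₁ then c₁ else 0) + (if b' = b₂ ∧ h' = h₂ then c₂ else 0) +
      if b₂ + h₂ = b₁ ∧ b' = b₂ ∧ h' = h₁ + h₂ then c₁ * c₂ else 0 := by
  rw [mul_el S _ _ _ e₂ _ h2, spec' S _ _ e₁ _ h2,
    spec' S _ _ e₁ _ ((Nat.sub_le _ _).trans_lt h2), add_assoc (_ + _)]
  congr 1
  have := ne_zero e₁
  by_cases a1 : b' = b₂ <;> by_cases a2 : b₂ + h₂ = b₁ <;>
    simp only [a1, a2, true_and, false_and, and_false, if_false, add_zero]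
  all_goals split_ifs <;> first | omega | simp

end El

open El in
theorem elStmt : ElStmt := by
  intro F G _ _ n K _ S
  refine ⟨fun b h c hh => spec S b c hh, fun b h c c' hh => ext' S fun b' h' h1 h2 => ?_,
    fun b₁ h₁ c₁ b₂ h₂ c₂ e₁ e₂ a1 a2 => ext' S fun b' h' h1 h2 => ?_,
    fun b h₁ c₁ h₂ c₂ e₁ e₂ e₃ => ext' S fun b' h' h1 h2 => ?_⟩
  · rw [el_el S _ _ hh hh _ h2, spec' S _ _ hh _ h2, if_neg (c := _ ∧ _ ∧ _) (by simp [hh])]
    split_ifs <;> ring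
  · rw [el_el S _ _ e₁ e₂ _ h2, el_el S _ _ e₂ e₁ _ h2, if_neg (c := _ ∧ _ ∧ _) (by simp [a2]),
      if_neg (c := _ ∧ _ ∧ _) (by simp [a1])]
    ring
  · have a1 : ¬b + (h₂ : ZMod n) + h₁ = b := by
      rw [add_assoc, add_eq_left, add_comm, ← Nat.cast_add]; exact e₃
    have a2 : ¬b + ((h₁ + h₂ : ℕ) : ZMod n) = b := by simpa using e₃
    have a3 : ¬b + ((h₁ + h₂ : ℕ) : ZMod n) = b + h₂ := by simpa using e₁
    rw [mul_el S _ _ _ e₃ _ h2, el_el S _ _ e₁ e₂ _ h2, el_el S _ _ e₂ e₁ _ h2,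
      el_el S _ _ e₂ e₁ _ ((Nat.sub_le _ _).trans_lt h2)]
    simp only [a1, a2, a3, false_and, true_and, if_false, add_zero]
    rw [add_right_comm (if h' = 0 then _ else _)]
    congr 1
    by_cases a4 : b' = b <;> simp only [a4, true_and, false_and, if_false]
    split_ifs <;> first | omega | simp

end Crest.Agent.R66
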