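import Crest.Agent.R66.Dict
import Crest.Agent.R66.El

/-! # The dual action and the pairing with the row group -/

set_option autoImplicit false

namespace Crest.Agent.R66

open Finset

namespace DeltaB

theorem sum_range_antidiag {M : Type*} [AddCommMonoid M] (K : ℕ) (f : ℕ → ℕ → M)
    (hf : ∀ a b, K ≤ a + b → f a b = 0) :
    ∑ l ∈ range K, ∑ p ∈ antidiagonal l, f p.1 p.2 = ∑ a ∈ range K, ∑ b ∈ range K, f a b := by
  rw [sum_sigma', ← sum_product',
    ← sum_filter_of_ne (s := range K ×ˢ range K) (p := fun p => p.1 + p.2 < K)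
      (fun p _ h => not_le.1 fun h' => h (hf _ _ h'))]
  refine sum_nbij' (fun x => x.2) (fun p => ⟨p.1 + p.2, p⟩) (fun x hx => ?_) (fun p hp => ?_)
    (fun x hx => ?_) (fun p _ => rfl) (fun _ _ => rfl)
  · simp only [mem_sigma, mem_range, HasAntidiagonal.mem_antidiagonal] at hx
    simp only [mem_filter, mem_product, mem_range]
    omega
  · simp only [mem_filter, mem_product, mem_range] at hp
    simp only [mem_sigma, mem_range, HasAntidiagonal.mem_antidiagonal, and_true]
    exact hp.2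
  · simp only [mem_sigma, mem_range, HasAntidiagonal.mem_antidiagonal] at hx
    obtain ⟨l, p⟩ := x
    simp only at hx
    simp [hx.2]

variable {F G : Type} [Field F] [Group G] {n K : ℕ} (S : Kap F n K G)

/-- Dual action. -/
def st (g : G) (y : ZMod n → ℕ → F) : ZMod n → ℕ → F :=
  fun j h => ∑ l ∈ range K, S.κ g (j - (h : ZMod n) - (l : ZMod n)) l * y j (h + l)

/-- Vanishing beyond the truncation. -/
def Van (K : ℕ) (y : ZMod n → ℕ → F) : Prop := ∀ j h, K ≤ h → y j h = 0

theorem st_van (g : G) {y : ZMod n → ℕ → F} (hy : Van K y) : Van K (st S g y) :=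
  fun j h hh => sum_eq_zero fun l _ => by rw [hy j _ (by omega), mul_zero]

theorem st_one {y : ZMod n → ℕ → F} : st S 1 y = y := by
  funext j h
  unfold st
  rw [sum_eq_single 0]
  · simp [S.zero]
  · intro l _ hl
    rw [S.one _ _ (Nat.one_le_iff_ne_zero.2 hl), zero_mul]
  · intro h
    exact absurd (mem_range.2 S.one_le_K) h

theorem st_mul (g g' : G) {y : ZMod n → ℕ → F} (hy : Van K y) :
    st S (g * g') y = st S g (st S g' y) := by
  funext j h
  unfold st
  have := sum_range_antidiag K (fun a b => S.κ g (j - (h : ZMod n) - (a : ZMod n)) a *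
    (S.κ g' (j - ((h + a : ℕ) : ZMod n) - (b : ZMod n)) b * y j (h + a + b)))
    fun a b hab => by rw [hy j _ (by omega), mul_zero, mul_zero]
  simp only [← mul_sum] at this
  rw [← this]
  refine sum_congr rfl fun l hl => ?_
  rw [S.mul _ _ _ _ (mem_range.1 hl), sum_mul]
  refine sum_congr rfl fun p hp => ?_
  rw [← mem_antidiagonal.1 hp, mul_assoc, add_assoc h]
  push_cast
  congr 3 <;> ring

/-- Pairing of the rows `J` with `y`. -/
def pair (J : Finset (ZMod n)) (a : G) (y : ZMod n → ℕ → F) : F :=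
  ∑ j ∈ J, ∑ h ∈ range K, (if h = 0 then 0 else S.κ a (j - (h : ZMod n)) h) * y j h

variable {A J : Finset (ZMod n)}

theorem kap_mul_R {a a' : G} (ha : a ∈ S.R A J) (ha' : a' ∈ S.R A J) (b : ZMod n) {h : ℕ}
    (hh : 1 ≤ h) : S.κ (a * a') b h = S.κ a b h + S.κ a' b h :=
  S.mul_eq_add hh fun h₁ h₂ _ h1 h2 => by
    by_contra hc
    push Not at hc
    exact (ha _ _ h1 hc.1).2.1 (ha' _ _ h2 hc.2).2.2

theorem pair_mul {a a' : G} (ha : a ∈ S.R A J) (ha' : a' ∈ S.R A J) (y : ZMod n → ℕ → F) :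
    pair S J (a * a') y = pair S J a y + pair S J a' y := by
  unfold pair
  rw [← sum_add_distrib]
  refine sum_congr rfl fun j _ => ?_
  rw [← sum_add_distrib]
  refine sum_congr rfl fun h _ => ?_
  split_ifs with h0
  · simp
  · rw [kap_mul_R S ha ha' _ (Nat.one_le_iff_ne_zero.2 h0), add_mul]

theorem pair_one (y : ZMod n → ℕ → F) : pair S J 1 y = 0 :=
  sum_eq_zero fun j _ => sum_eq_zero fun h _ => by
    split_ifs with h0
    · simp
    · rw [S.one _ _ (Nat.one_le_iff_ne_zero.2 h0), zero_mul]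

theorem pair_conj {g : G} (hg : g ∈ S.row J) (a : G) {y : ZMod n → ℕ → F} (hy : Van K y) :
    pair S J (g⁻¹ * (a * g)) y = pair S J a (st S g y) := by
  unfold pair st
  refine sum_congr rfl fun j hj => ?_
  have := sum_range_antidiag K (fun p q => (if p = 0 then 0 else S.κ a (j - (p : ZMod n)) p) *
    (S.κ g (j - (p : ZMod n) - (q : ZMod n)) q * y j (p + q)))
    fun a b hab => by rw [hy j _ hab, mul_zero, mul_zero]
  simp only [← mul_sum] at this
  rw [← this]
  refine sum_congr rfl fun h hh => ?_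
  split_ifs with h0
  · subst h0; simp
  · rw [S.mul_eq_right fun h₁ h₂ e h1 => Or.inl (by
      by_contra hne
      refine (S.row J).inv_mem hg _ _ h1 hne ?_
      rw [← e]; push_cast
      rwa [show j - ((h₁ : ZMod n) + h₂) + h₂ + h₁ = j by ring]),
      S.mul _ _ _ _ (mem_range.1 hh), sum_mul]
    refine sum_congr rfl fun p hp => ?_
    have e := mem_antidiagonal.1 hp
    split_ifs with h1
    · have h2 : p.2 = h := by omega
      have : S.κ g (j - (h : ZMod n)) p.2 = 0 := by
        by_contra hne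
        refine hg _ _ (by omega) hne ?_
        rwa [h2, sub_add_cancel]
      rw [this]; simp
    · rw [← e, mul_assoc]
      push_cast
      congr 3 <;> ring

theorem exists_of_pair_ne {a : G} {y : ZMod n → ℕ → F} (h : pair S J a y ≠ 0) :
    ∃ j ∈ J, ∃ h : ℕ, 1 ≤ h ∧ S.κ a (j - (h : ZMod n)) h ≠ 0 ∧ y j h ≠ 0 := by
  obtain ⟨j, hj, h⟩ := exists_ne_zero_of_sum_ne_zero h
  obtain ⟨l, _, h⟩ := exists_ne_zero_of_sum_ne_zero h
  split_ifs at h with h0
  · simp at h
  · exact ⟨j, hj, l, Nat.one_le_iff_ne_zero.2 h0, left_ne_zero_of_mul h, right_ne_zero_of_mul h⟩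

theorem kap_mul_R_right {q a : G} (hq : q ∈ S.col J) (ha : a ∈ S.R A J) {b : ZMod n} {h : ℕ}
    (hb : b + (h : ZMod n) ∉ J) : S.κ (q * a) b h = S.κ q b h :=
  S.mul_eq_left fun h₁ h₂ e h2 => by
    by_contra hc
    push Not at hc
    have h3 := (ha _ _ h2 hc.2).2.2
    rcases Nat.eq_zero_or_pos h₁ with h0 | h0
    · exact hb (by rw [← e, h0, zero_add]; exact h3)
    · exact hq _ _ h0 hc.1 h3

theorem conj_R (hJ : J ⊆ A) {q a : G} (hq : q ∈ S.P A ⊓ S.col J) (ha : a ∈ S.R A J) :
    q * a * q⁻¹ ∈ S.R A J := by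
  intro b h hh hne
  have hm : q * a * q⁻¹ ∈ S.P A ⊓ S.col J :=
    mul_mem (mul_mem hq (S.R_le hJ ha)) (inv_mem hq)
  refine ⟨(hm.1 b h hh hne).1, hm.2 b h hh hne, ?_⟩
  by_contra hb
  apply hne
  have hK := S.lt_of_ne_zero hne
  rw [S.mul _ _ _ _ hK, ← S.one b h hh, ← mul_inv_cancel q, S.mul _ _ _ _ hK]
  refine sum_congr rfl fun p hp => ?_
  rw [kap_mul_R_right S hq.2 ha]
  rw [← mem_antidiagonal.1 hp] at hb
  push_cast at hb
  rwa [add_assoc, add_comm (p.2 : ZMod n)]

/-- Semidirect decomposition. -/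
theorem exists_decomp (hJ : J ⊆ A) {q : G} (hq : q ∈ S.P A ⊓ S.col J) :
    ∃ a ∈ S.R A J, ∃ r ∈ S.P (A \ J), q = a * r := by
  classical
  obtain ⟨α, hα⟩ := S.exH (fun b h => if b + (h : ZMod n) ∈ J then S.κ q b h else 0)
    (fun b => if b ∈ J then 1 else 0) fun b h hh hne => by
      split_ifs at hne with h1
      · rw [if_neg (hq.2 b h hh hne), if_pos h1]; norm_num
      · exact absurd rfl hne
  have hαR : α ∈ S.R A J := fun b h hh hne => by
    rw [hα b h hh (S.lt_of_ne_zero hne)] at hne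
    split_ifs at hne with h1
    · exact ⟨(hq.1 b h hh hne).1, hq.2 b h hh hne, h1⟩
    · exact absurd rfl hne
  have hr : q * α⁻¹ ∈ S.P A ⊓ S.col J := mul_mem hq (S.R_le hJ (inv_mem hαR))
  have hr' : q * α⁻¹ ∈ S.P (A \ J) := fun b h hh hne => by
    refine ⟨mem_sdiff.2 ⟨(hr.1 b h hh hne).1, hr.2 b h hh hne⟩,
      mem_sdiff.2 ⟨(hr.1 b h hh hne).2, fun hb => hne ?_⟩⟩
    have := S.mul_eq_add (g := q * α⁻¹) (g' := α) (b := b) hh fun h₁ h₂ _ h1 h2 => by
      by_contra hc
      push Not at hc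
      exact hr.2 _ _ h1 hc.1 (hαR _ _ h2 hc.2).2.2
    rw [inv_mul_cancel_right, hα b h hh (S.lt_of_ne_zero hne), if_pos hb] at this
    exact (add_eq_right.1 this.symm)
  exact ⟨_, conj_R S hJ hr hαR, _, hr', by group⟩

theorem mem_U_of_mul_R [NeZero n] {g a : G} (hg : g ∈ S.P (A \ J)) (ha : a ∈ S.R A J)
    {s : ZMod n} (h : g * a ∈ S.U s) : g ∈ S.U s := fun b l hl hne =>
  h b l hl (by
    rwa [kap_mul_R_right S (S.P_sdiff_le A J hg).1.2 ha (mem_sdiff.1 (hg b l hl hne).2).2])

/-- Visible nonzero coefficient at position `≥ s - e n`. -/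
def Lv (A J : Finset (ZMod n)) (y : ZMod n → ℕ → F) (s : ZMod n) (e : ℕ) : Prop :=
  ∃ j ∈ J, ∃ h : ℕ, 1 ≤ h ∧ j - (h : ZMod n) ∈ A \ J ∧ h + s.val ≤ j.val + e * n ∧ y j h ≠ 0

theorem Lv.mono {y : ZMod n → ℕ → F} {s : ZMod n} {e e' : ℕ} (h : Lv A J y s e) (he : e ≤ e') :
    Lv A J y s e' := by
  obtain ⟨j, hj, l, h1, h2, h3, h4⟩ := h
  exact ⟨j, hj, l, h1, h2, h3.trans (by gcongr), h4⟩

variable [NeZero n]

theorem pos_sub_eq {s j : ZMod n} {h e x : ℕ} (hx : x + h + s.val = j.val + e * n) :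
    pos s (j - (h : ZMod n)) = x % n := by
  have : j - (h : ZMod n) = s + (x : ZMod n) := by
    have := congrArg (Nat.cast : ℕ → ZMod n) hx
    push_cast at this
    simp only [ZMod.natCast_val, ZMod.cast_id', id_eq, ZMod.natCast_self, mul_zero,
      add_zero] at this
    linear_combination -this
  rw [this, pos_add_mod, pos_self, zero_add]

theorem Lv.of_st {u : G} {s : ZMod n} (hu : u ∈ S.U s ⊓ S.P (A \ J)) {y : ZMod n → ℕ → F}
    {e : ℕ} (h : Lv A J (st S u y) s e) : Lv A J y s e := by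
  obtain ⟨j, hj, h, h1, h2, h3, h4⟩ := h
  obtain ⟨l, _, h5⟩ := exists_ne_zero_of_sum_ne_zero h4
  rcases Nat.eq_zero_or_pos l with rfl | hl
  · exact ⟨j, hj, h, h1, h2, h3, right_ne_zero_of_mul h5⟩
  have h6 := left_ne_zero_of_mul h5
  refine ⟨j, hj, h + l, by omega, ?_, ?_, right_ne_zero_of_mul h5⟩
  · have := (hu.2 _ _ hl h6).1
    push_cast
    rwa [← sub_sub]
  · have h7 : pos s (j - (h : ZMod n) - (l : ZMod n)) + l < n := hu.1 _ _ hl h6
    have h8 := Kap.pos_add s _ _ h7
    rw [sub_add_cancel, pos_sub_eq (x := j.val + e * n - s.val - h) (e := e) (by omega)] at h8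
    have := Nat.mod_le (j.val + e * n - s.val - h) n
    omega

theorem lv_st_iff {u : G} {s : ZMod n} (hu : u ∈ S.U s ⊓ S.P (A \ J)) {y : ZMod n → ℕ → F}
    (hy : Van K y) {e : ℕ} : Lv A J (st S u y) s e ↔ Lv A J y s e :=
  ⟨Lv.of_st S hu, fun h => Lv.of_st S (inv_mem hu) (by
    rwa [← st_mul S _ _ hy, inv_mul_cancel, st_one])⟩

/-- The window of length `n` ending `H` steps before `j`. -/
def win (B : Finset (ZMod n)) (s : ZMod n) (H : ℕ) (y : ℕ → F) : ZMod n → F :=
  fun a => if a ∈ B then y (H - pos s a) else 0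

theorem win_st (hK : n ≤ K) {B : Finset (ZMod n)} {u : G} {s : ZMod n}
    (hu : u ∈ S.U s ⊓ S.P B) (y : ZMod n → ℕ → F) {j : ZMod n} {H : ℕ} (hH : n ≤ H)
    (hj : j = s + (H : ZMod n)) :
    win B s H (st S u y j) = Dict.lin S s u (win B s H (y j)) := by
  funext a
  rw [Dict.lin_apply]
  have hpa := pos_lt s a
  unfold win
  split_ifs with ha
  · have ea : j - ((H - pos s a : ℕ) : ZMod n) = a := by
      rw [Nat.cast_sub (by omega), hj, cast_pos]; ring
    unfold st
    rw [ea, ← sum_subset (s₁ := range (pos s a + 1)) (range_subset_range.2 (by omega)),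
      ← sum_filter_of_ne (s := univ) (p := fun b => pos s b ≤ pos s a)]
    · have key : ∀ l, l ≤ pos s a → pos s (a - (l : ZMod n)) = pos s a - l := by
        intro l hl
        have : a - (l : ZMod n) = s + ((pos s a - l : ℕ) : ZMod n) := by
          rw [Nat.cast_sub hl, cast_pos]; ring
        rw [this, pos_add_nat s (by omega)]
      refine sum_nbij' (fun l => a - (l : ZMod n)) (fun b => pos s a - pos s b)
        (fun l hl => ?_) (fun b _ => ?_) (fun l hl => ?_) (fun b hb => ?_) (fun l hl => ?_)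
      · have := mem_range.1 hl
        rw [mem_filter, key l (by omega)]
        exact ⟨mem_univ _, by omega⟩
      · exact mem_range.2 (by omega)
      · have := mem_range.1 hl
        rw [key l (by omega)]; omega
      · rw [Nat.cast_sub (mem_filter.1 hb).2, cast_pos, cast_pos]; ring
      · have := mem_range.1 hl
        simp only [Kap.pim]
        rw [key l (by omega), if_pos (by omega), show pos s a - (pos s a - l) = l by omega,
          show H - (pos s a - l) = H - pos s a + l by omega]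
        split_ifs with hb
        · rfl
        · have : S.κ u (a - (l : ZMod n)) l = 0 := by
            by_contra hne
            rcases Nat.eq_zero_or_pos l with rfl | hl0
            · exact hb (by simpa using ha)
            · exact hb (hu.2 _ _ hl0 hne).1
          rw [this, zero_mul, zero_mul]
    · intro b _ hne
      by_contra hc
      exact left_ne_zero_of_mul hne (if_neg hc)
    · intro l _ hl
      have hl' : pos s a < l := by simpa using hl
      have : S.κ u (a - (l : ZMod n)) l = 0 := by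
        by_contra hne
        have h7 : pos s (a - (l : ZMod n)) + l < n := hu.1 _ _ (by omega) hne
        have h8 := Kap.pos_add s _ _ h7
        rw [sub_add_cancel] at h8
        omega
      rw [this, zero_mul]
  · refine (sum_eq_zero fun b _ => ?_).symm
    split_ifs with hb
    · have hab : a ≠ b := fun e => ha (e ▸ hb)
      have : S.pim s u a b = 0 := by
        by_contra hne
        obtain ⟨h2, h3⟩ := Dict.pim_ne S s hab hne
        have h4 := (hu.2 _ _ (by omega) h3).2
        rw [Dict.add_pos_sub h2.le] at h4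
        exact ha h4
      rw [this, zero_mul]
    · rw [mul_zero]

end DeltaB

end Crest.Agent.R66
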