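import Crest.Agent.R66.Chain

/-! # Pushing lemmas, joins and the nerve lemma -/

set_option autoImplicit false

namespace Crest.Agent.R66

open Finset

section inj
variable {k : Type} [Field k] {V V' : Type} [DecidableEq V] [DecidableEq V']

omit [DecidableEq V] in
theorem mp_injective {f : V → V'} (hf : Function.Injective f) : Function.Injective (mp k f) :=
  Finsupp.mapDomain_injective (image_injective hf)

omit [DecidableEq V] in
theorem exists_mp_eq {f : V → V'} (hf : Function.Injective f) {X : Set (Finset V)}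
    {X' : Set (Finset V')} (hs : ∀ σ' ∈ X', ∃ σ ∈ X, σ.image f = σ') {m : ℕ}
    {z' : Finset V' →₀ k} (hz : z' ∈ Ch k X' m) : ∃ z ∈ Ch k X m, mp k f z = z' := by
  have : z' ∈ (Ch k X m).map (mp k f) := by
    refine map_mem_of_supp LinearMap.id z' _ fun σ' hσ' c => ?_
    obtain ⟨h1, h2⟩ := mem_Ch.1 hz σ' hσ'
    obtain ⟨σ, hσ, rfl⟩ := hs σ' h1
    exact ⟨_, single_mem_Ch hσ (by rwa [card_image_of_injective _ hf] at h2) c, mp_single _ _ _⟩
  exact this

theorem Bds.of_map_inj {f : V → V'} (hf : Function.Injective f) {X : Set (Finset V)}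
    {X' : Set (Finset V')} (hs : ∀ σ' ∈ X', ∃ σ ∈ X, σ.image f = σ') {m : ℕ}
    {z : Finset V →₀ k} (h : Bds k X' m (mp k f z)) : Bds k X m z := by
  obtain ⟨w', hw', hb⟩ := h
  obtain ⟨w, hw, rfl⟩ := exists_mp_eq hf hs hw'
  rw [bd_mp fun _ _ => hf.injOn] at hb
  exact ⟨w, hw, mp_injective hf hb⟩

theorem Ac.map_inj {f : V → V'} (hf : Function.Injective f) {X : Set (Finset V)}
    {X' : Set (Finset V')} (hm : ∀ σ ∈ X, σ.image f ∈ X')
    (hs : ∀ σ' ∈ X', ∃ σ ∈ X, σ.image f = σ') {m : ℕ} (h : Ac k X m) : Ac k X' m := by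
  intro z' hz' hb
  obtain ⟨z, hz, rfl⟩ := exists_mp_eq hf hs hz'
  rw [bd_mp fun _ _ => hf.injOn] at hb
  exact (h z hz (mp_injective hf (by rw [hb, map_zero]))).map fun σ hσ => ⟨hm σ hσ, hf.injOn⟩

end inj

namespace Push
variable {k : Type} [Field k] {V : Type} [DecidableEq V] (bad : V → Prop) [DecidablePred bad]

/-- Bad part. -/
def bp (σ : Finset V) : Finset V := σ.filter bad
/-- Good part. -/
def gp (σ : Finset V) : Finset V := σ.filter (fun v => ¬ bad v)

theorem gp_union_bp (σ : Finset V) : gp bad σ ∪ bp bad σ = σ := by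
  ext v; simp only [gp, bp, mem_union, mem_filter]; tauto

omit [DecidableEq V] in
theorem card_gp_add (σ : Finset V) : (gp bad σ).card + (bp bad σ).card = σ.card := by
  rw [add_comm]; exact card_filter_add_card_filter_not _

theorem bp_erase (σ : Finset V) (v : V) : bp bad (σ.erase v) = (bp bad σ).erase v :=
  filter_erase _ _ _

theorem gp_erase (σ : Finset V) (v : V) : gp bad (σ.erase v) = (gp bad σ).erase v :=
  filter_erase _ _ _

theorem bp_union {τ x : Finset V} (hτ : ∀ v ∈ τ, ¬ bad v) (hx : ∀ v ∈ x, bad v) :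
    bp bad (τ ∪ x) = x := by
  ext v
  simp only [bp, mem_filter, mem_union]
  exact ⟨fun h => h.1.resolve_left fun h' => hτ v h' h.2, fun h => ⟨Or.inr h, hx v h⟩⟩

variable (k) in
/-- Component along the bad simplex `x`. -/
noncomputable def comp (x : Finset V) : (Finset V →₀ k) →ₗ[k] (Finset V →₀ k) :=
  Finsupp.linearCombination k
    (fun σ : Finset V => if bp bad σ = x then Finsupp.single (gp bad σ) (1 : k) else 0)

theorem comp_single (x σ : Finset V) (c : k) :
    comp k bad x (Finsupp.single σ c) =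
      if bp bad σ = x then Finsupp.single (gp bad σ) c else 0 := by
  simp only [comp, Finsupp.linearCombination_single]
  split_ifs <;> simp

variable (k) in
/-- Join with the simplex `x`. -/
noncomputable def jn (x : Finset V) : (Finset V →₀ k) →ₗ[k] (Finset V →₀ k) :=
  Finsupp.lmapDomain k k (fun τ => τ ∪ x)

theorem jn_single (x τ : Finset V) (c : k) :
    jn k x (Finsupp.single τ c) = Finsupp.single (τ ∪ x) c := by
  simp [jn, Finsupp.mapDomain_single]

theorem comp_mem {X : Set (Finset V)} {m r : ℕ} {z : Finset V →₀ k} (hz : z ∈ Ch k X m)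
    {x : Finset V} (hr : r + x.card = m) : comp k bad x z ∈ Ch k (gl X bad x) r := by
  refine map_mem_of_supp _ _ _ fun σ hσ c => ?_
  obtain ⟨h1, h2⟩ := mem_Ch.1 hz σ hσ
  rw [comp_single]
  split_ifs with h
  · subst h
    refine single_mem_Ch (And.intro (fun v hv => (mem_filter.1 hv).2) (by rwa [gp_union_bp])) ?_ c
    have := card_gp_add bad σ
    omega
  · exact Submodule.zero_mem _

theorem card_comp_le (x : Finset V) (z : Finset V →₀ k) :
    (comp k bad x z).support.card ≤ z.support.card := by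
  have := card_supp_map_le (comp k bad x) z 1 fun σ _ c => by
    rw [comp_single]
    split_ifs
    · exact card_supp_single_le _ _
    · simp
  simpa using this

theorem comp_eq_zero {x : Finset V} {z : Finset V →₀ k} (h : ∀ σ ∈ z.support, bp bad σ ≠ x) :
    comp k bad x z = 0 := by
  rw [map_eq_sum]
  exact sum_eq_zero fun σ hσ => by rw [comp_single, if_neg (h σ hσ)]

theorem comp_bd_single (x σ : Finset V) (c : k) :
    comp k bad x (bd k (Finsupp.single σ c)) = bd k (comp k bad x (Finsupp.single σ c)) +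
      ∑ v ∈ bp bad σ, if (bp bad σ).erase v = x then Finsupp.single (gp bad σ) c else 0 := by
  rw [bd_single, map_sum, ← sum_filter_add_sum_filter_not σ bad, add_comm]
  congr 1
  · rw [comp_single]
    split_ifs with h
    · rw [bd_single]
      refine sum_congr rfl fun v hv => ?_
      rw [comp_single, bp_erase, gp_erase, erase_eq_of_notMem, if_pos h]
      exact fun h' => (mem_filter.1 hv).2 (mem_filter.1 h').2
    · rw [map_zero]
      refine sum_eq_zero fun v hv => ?_
      rw [comp_single, bp_erase, erase_eq_of_notMem, if_neg h]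
      exact fun h' => (mem_filter.1 hv).2 (mem_filter.1 h').2
  · refine sum_congr rfl fun v hv => ?_
    rw [comp_single, bp_erase, gp_erase, erase_eq_of_notMem (s := gp bad σ)]
    exact fun h' => (mem_filter.1 h').2 (mem_filter.1 hv).2

theorem comp_bd {x : Finset V} {z : Finset V →₀ k}
    (h : ∀ σ ∈ z.support, (bp bad σ).card ≤ x.card) :
    comp k bad x (bd k z) = bd k (comp k bad x z) :=
  map_congr_supp ((comp k bad x).comp (bd k)) ((bd k).comp (comp k bad x)) z fun σ hσ c => by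
    simp only [LinearMap.comp_apply]
    rw [comp_bd_single, sum_eq_zero, add_zero]
    intro v hv
    rw [if_neg]
    intro h'
    have h1 := h σ hσ
    have h2 := card_erase_add_one hv
    rw [h'] at h2
    omega

theorem bd_jn {x : Finset V} {w : Finset V →₀ k} (h : ∀ τ ∈ w.support, Disjoint τ x) :
    bd k (jn k x w) = jn k x (bd k w) + ∑ v ∈ x, jn k (x.erase v) w := by
  have := map_congr_supp ((bd k).comp (jn k x))
    ((jn k x).comp (bd k) + ∑ v ∈ x, jn k (x.erase v)) w fun τ hτ c => by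
      simp only [LinearMap.comp_apply, LinearMap.add_apply, LinearMap.sum_apply, jn_single,
        bd_single, map_sum]
      rw [sum_union (h τ hτ)]
      congr 1
      · refine sum_congr rfl fun v hv => ?_
        rw [erase_union_distrib, erase_eq_of_notMem (disjoint_left.1 (h τ hτ) hv)]
      · refine sum_congr rfl fun v hv => ?_
        rw [erase_union_distrib, erase_eq_of_notMem (disjoint_right.1 (h τ hτ) hv)]
  simpa only [LinearMap.comp_apply, LinearMap.add_apply, LinearMap.sum_apply] using this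

variable (k) in
/-- Chains whose simplices have fewer than `r` bad vertices. -/
def Lo (r : ℕ) : Submodule k (Finset V →₀ k) :=
  Finsupp.supported k k {σ | (bp bad σ).card < r}

omit [DecidableEq V] in
theorem mem_Lo {r : ℕ} {z : Finset V →₀ k} :
    z ∈ Lo k bad r ↔ ∀ σ ∈ z.support, (bp bad σ).card < r := by
  unfold Lo
  rw [Finsupp.mem_supported]
  exact ⟨fun h σ hσ => h hσ, fun h σ hσ => h σ hσ⟩

omit [DecidableEq V] in
theorem single_mem_Lo {r : ℕ} {σ : Finset V} (h : (bp bad σ).card < r) (c : k) :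
    Finsupp.single σ c ∈ Lo k bad r :=
  Finsupp.single_mem_supported k c (show σ ∈ {σ | (bp bad σ).card < r} from h)

/-- One step: remove the simplices with exactly `r` bad vertices. -/
theorem step [CharP k 2] {X : Set (Finset V)} (hX : DC X) {m r : ℕ} {z : Finset V →₀ k}
    (hz : z ∈ Ch k X m) (hzr : z ∈ Lo k bad (r + 1)) (hb : bd k z ∈ Lo k bad r)
    (Q : (Finset V →₀ k) → Prop)
    (hl : ∀ x ∈ X, (∀ v ∈ x, bad v) → x.card = r → ∀ r', r' + x.card = m →
      ∀ y ∈ Ch k (gl X bad x) r', y.support.card ≤ z.support.card → bd k y = 0 →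
        ∃ w ∈ Ch k (gl X bad x) (r' + 1), bd k w = y ∧ Q w) (hr : 1 ≤ r) :
    ∃ W ∈ Ch k X (m + 1), z + bd k W ∈ Lo k bad r ∧
      ∀ N, (∀ w, Q w → w.support.card ≤ N) → W.support.card ≤ z.support.card * N := by
  let S := (z.support.image (bp bad)).filter (fun x => x.card = r)
  have hS : ∀ x ∈ S, (∀ v ∈ x, bad v) ∧ x.card = r ∧ x ∈ X ∧ (m - r) + x.card = m := by
    intro x hx
    obtain ⟨h1, h2⟩ := mem_filter.1 hx
    obtain ⟨σ, hσ, rfl⟩ := mem_image.1 h1
    obtain ⟨h3, h4⟩ := mem_Ch.1 hz σ hσ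
    have := card_gp_add bad σ
    exact ⟨fun v hv => (mem_filter.1 hv).2, h2, hX σ h3 _ (filter_subset _ _), by omega⟩
  have hex : ∀ x ∈ S, ∃ w ∈ Ch k (gl X bad x) (m - r + 1), bd k w = comp k bad x z ∧ Q w := by
    intro x hx
    obtain ⟨h1, h2, h3, h4⟩ := hS x hx
    refine hl x h3 h1 h2 _ h4 _ (comp_mem bad hz h4) (card_comp_le bad x z) ?_
    rw [← comp_bd bad fun σ hσ => by have := (mem_Lo bad).1 hzr σ hσ; omega]
    refine comp_eq_zero bad fun σ hσ h => ?_
    have := (mem_Lo bad).1 hb σ hσ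
    rw [h] at this
    omega
  choose! w hw hbw hQ using hex
  have hdisj : ∀ x ∈ S, ∀ τ ∈ (w x).support, Disjoint τ x := fun x hx τ hτ =>
    disjoint_left.2 fun v hv hv' => (mem_Ch.1 (hw x hx) τ hτ).1.1 v hv ((hS x hx).1 v hv')
  refine ⟨∑ x ∈ S, jn k x (w x), Submodule.sum_mem _ fun x hx => ?_, ?_, fun N hN => ?_⟩
  · refine map_mem_of_supp _ _ _ fun τ hτ c => ?_
    obtain ⟨h1, h2⟩ := mem_Ch.1 (hw x hx) τ hτ
    rw [jn_single]
    refine single_mem_Ch h1.2 ?_ c
    rw [card_union_of_disjoint (hdisj x hx τ hτ)]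
    have := (hS x hx).2.2.2
    omega
  · rw [map_sum, sum_congr rfl fun x hx => bd_jn (hdisj x hx), sum_add_distrib, ← add_assoc]
    refine Submodule.add_mem _ ?_ (Submodule.sum_mem _ fun x hx =>
      Submodule.sum_mem _ fun v hv => ?_)
    · rw [sum_congr rfl fun x hx => by rw [hbw x hx]]
      have := map_mem_of_supp (LinearMap.id + ∑ x ∈ S, (jn k x).comp (comp k bad x)) z
        (Lo k bad r) fun σ hσ c => by
          simp only [LinearMap.add_apply, LinearMap.id_apply, LinearMap.sum_apply,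
            LinearMap.comp_apply, comp_single]
          by_cases hmem : bp bad σ ∈ S
          · rw [sum_eq_single (bp bad σ), if_pos rfl, jn_single, gp_union_bp, add_self2]
            · exact Submodule.zero_mem _
            · intro x _ hne; rw [if_neg hne.symm, map_zero]
            · intro h; exact absurd hmem h
          · rw [sum_eq_zero, add_zero]
            · refine single_mem_Lo bad ?_ c
              have h1 := (mem_Lo bad).1 hzr σ hσ
              have h2 : (bp bad σ).card ≠ r := fun h =>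
                hmem (mem_filter.2 ⟨mem_image_of_mem _ hσ, h⟩)
              omega
            · intro x hx
              rw [if_neg (fun h : bp bad σ = x => hmem (h ▸ hx)), map_zero]
      simpa only [LinearMap.add_apply, LinearMap.id_apply, LinearMap.sum_apply,
        LinearMap.comp_apply] using this
    · refine map_mem_of_supp _ _ _ fun τ hτ c => ?_
      rw [jn_single]
      refine single_mem_Lo bad ?_ c
      rw [bp_union bad (mem_Ch.1 (hw x hx) τ hτ).1.1
        fun u hu => (hS x hx).1 u (mem_of_mem_erase hu), card_erase_of_mem hv, (hS x hx).2.1]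
      omega
  · refine (card_supp_sum_le _ _).trans ((sum_le_card_nsmul _ _ N fun x hx => ?_).trans ?_)
    · refine le_trans ?_ (hN _ (hQ x hx))
      have := card_supp_map_le (jn k x) (w x) 1 fun τ _ c => by
        rw [jn_single]; exact card_supp_single_le _ _
      simpa using this
    · exact Nat.mul_le_mul_right _ ((card_filter_le _ _).trans card_image_le)

omit [DecidableEq V] in
theorem Lo_mono {r r' : ℕ} (h : r ≤ r') {z : Finset V →₀ k} (hz : z ∈ Lo k bad r) :
    z ∈ Lo k bad r' := (mem_Lo bad).2 fun σ hσ => ((mem_Lo bad).1 hz σ hσ).trans_le h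

omit [DecidableEq V] in
theorem mem_Lo_of_Ch {X : Set (Finset V)} {m : ℕ} {z : Finset V →₀ k} (hz : z ∈ Ch k X m) :
    z ∈ Lo k bad (m + 1) := (mem_Lo bad).2 fun σ hσ => by
  have := card_gp_add bad σ
  have := (mem_Ch.1 hz σ hσ).2
  omega

theorem gen [CharP k 2] {X : Set (Finset V)} (hX : DC X) {m : ℕ} (t : ℕ)
    (hl : ∀ x ∈ X, (∀ v ∈ x, bad v) → t < x.card → ∀ r, r + x.card = m → Ac k (gl X bad x) r)
    (j : ℕ) : ∀ z ∈ Ch k X m, z ∈ Lo k bad (t + j + 1) → bd k z ∈ Lo k bad (t + 1) →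
      ∃ w ∈ Ch k X (m + 1), z + bd k w ∈ Lo k bad (t + 1) := by
  induction j with
  | zero => exact fun z _ h _ => ⟨0, Submodule.zero_mem _, by simpa using h⟩
  | succ j ih =>
    intro z hz h hb
    obtain ⟨W, hW, h1, -⟩ := step bad hX (r := t + j + 1) hz h (Lo_mono bad (by omega) hb)
      (fun _ => True) (fun x hx h1 h2 r' h3 y hy _ hy' => by
        obtain ⟨w, hw, hw'⟩ := hl x hx h1 (by omega) r' h3 y hy hy'
        exact ⟨w, hw, hw', trivial⟩) (by omega)
    obtain ⟨W', hW', h2⟩ := ih (z + bd k W) (Submodule.add_mem _ hz (bd_mem_Ch hX hW)) h1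
      (by rwa [map_add, bd_bd, add_zero])
    exact ⟨W + W', Submodule.add_mem _ hW hW', by rwa [map_add, ← add_assoc]⟩

theorem mem_gl_empty {X : Set (Finset V)} {m : ℕ} {z : Finset V →₀ k} (hz : z ∈ Ch k X m)
    (h : z ∈ Lo k bad (0 + 1)) : z ∈ Ch k (gl X bad ∅) m := by
  refine mem_Ch.2 fun σ hσ => ⟨⟨fun v hv hb => ?_, ?_⟩, (mem_Ch.1 hz σ hσ).2⟩
  · have h1 := (mem_Lo bad).1 h σ hσ
    have h2 : 0 < (bp bad σ).card := card_pos.2 ⟨v, mem_filter.2 ⟨hv, hb⟩⟩
    omega
  · rw [union_empty]; exact (mem_Ch.1 hz σ hσ).1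

omit [DecidableEq V] in
theorem mem_Lo_one {z : Finset V →₀ k} (h : ∀ σ ∈ z.support, ∀ v ∈ σ, ¬ bad v) :
    z ∈ Lo k bad (0 + 1) := (mem_Lo bad).2 fun σ hσ => by
  rw [bp, filter_eq_empty_iff.2 (h σ hσ)]; simp

end Push

open Push in
theorem pushStmt : PushStmt := by
  intro k V _ _ _ X bad m hX hl z hz hb
  classical
  obtain ⟨w, hw, h⟩ := gen bad hX 0 (fun x hx h1 h2 => hl x hx (card_pos.1 h2) h1) m z hz
    (by simpa using mem_Lo_of_Ch bad hz) (mem_Lo_one bad hb)
  exact ⟨w, hw, mem_gl_empty bad (Submodule.add_mem _ hz (bd_mem_Ch hX hw)) h⟩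

open Push in
theorem pushQ_aux (m : ℕ) (Φ : ℕ → ℕ) (j : ℕ) : ∀ L : ℕ, ∃ L₁ L₂ : ℕ,
    ∀ (k V : Type) [Field k] [CharP k 2] [DecidableEq V] (X : Set (Finset V)) (bad : V → Prop)
      [DecidablePred bad], DC X →
    (∀ x ∈ X, x.Nonempty → (∀ v ∈ x, bad v) → ∀ r, r + x.card = m → ∀ l ≤ L₁,
      Fill k (gl X bad x) r l (Φ l)) →
    ∀ z ∈ Ch k X m, z.support.card ≤ L → z ∈ Lo k bad (j + 1) → bd k z ∈ Lo k bad (0 + 1) →
      ∃ w ∈ Ch k X (m + 1), w.support.card ≤ L₂ ∧ z + bd k w ∈ Lo k bad (0 + 1) ∧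
        (z + bd k w).support.card ≤ L₂ := by
  induction j with
  | zero =>
    intro L
    exact ⟨0, L, fun k V _ _ _ X bad _ _ _ z _ hL h _ =>
      ⟨0, Submodule.zero_mem _, by simp, by simpa using h, by simpa using hL⟩⟩
  | succ j ih =>
    intro L
    obtain ⟨L₁, L₂, H⟩ := ih (L + L * Φ L * (m + 1))
    refine ⟨max L L₁, L₂ + L * Φ L, ?_⟩
    intro k V _ _ _ X bad _ hX hl z hz hL h hb
    obtain ⟨W, hW, h1, h2⟩ := step bad hX (r := j + 1) hz h (Lo_mono bad (by omega) hb)
      (fun w => w.support.card ≤ Φ L) (fun x hx h1 h2 r' h3 y hy hy1 hy2 =>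
        hl x hx (card_pos.1 (by omega)) h1 r' h3 L (le_max_left _ _) y hy (hy1.trans hL) hy2)
      (by omega)
    have h3 : W.support.card ≤ L * Φ L :=
      (h2 (Φ L) fun _ h => h).trans (Nat.mul_le_mul_right _ hL)
    obtain ⟨W', hW', h4, h5, h6⟩ := H k V X bad hX
      (fun x hx h1 h2 r hr l hl' => hl x hx h1 h2 r hr l (hl'.trans (le_max_right _ _)))
      (z + bd k W) (Submodule.add_mem _ hz (bd_mem_Ch hX hW))
      ((card_supp_add_le _ _).trans (add_le_add hL
        ((card_supp_bd_le hW).trans (Nat.mul_le_mul_right _ h3)))) h1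
      (by rwa [map_add, bd_bd, add_zero])
    refine ⟨W + W', Submodule.add_mem _ hW hW', (card_supp_add_le _ _).trans (by omega), ?_, ?_⟩
    · rwa [map_add, ← add_assoc]
    · rw [map_add, ← add_assoc]; omega

open Push in
theorem pushQStmt : PushQStmt := by
  intro m Φ L
  obtain ⟨L₁, L₂, H⟩ := pushQ_aux m Φ m L
  refine ⟨L₁, L₂, ?_⟩
  intro k V _ _ _ X bad hX hl z hz hL hb
  classical
  obtain ⟨w, hw, h1, h2, h3⟩ := H k V X bad hX hl z hz hL (mem_Lo_of_Ch bad hz)
    (mem_Lo_one bad hb)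
  exact ⟨w, hw, h1, mem_gl_empty bad (Submodule.add_mem _ hz (bd_mem_Ch hX hw)) h2, h3⟩

/-- Convenient corollary: if all good links (including that of the empty simplex) are acyclic in
the relevant degrees, so is the complex. -/
theorem ac_of_links {k V : Type} [Field k] [CharP k 2] [DecidableEq V] {X : Set (Finset V)}
    (bad : V → Prop) {m : ℕ} (hX : DC X)
    (hl : ∀ x ∈ X, x.Nonempty → (∀ v ∈ x, bad v) → ∀ r, r + x.card = m → Ac k (gl X bad x) r)
    (h0 : ∀ z ∈ Ch k (gl X bad ∅) m, bd k z = 0 → Bds k X m z) : Ac k X m := by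
  intro z hz hb
  obtain ⟨w, hw, h⟩ := pushStmt k V X bad m hX hl z hz (by simp [hb])
  exact Bds.of_add_bd hw (h0 _ h (by rw [map_add, hb, bd_bd, add_zero]))

theorem joinStmt : JoinStmt := by
  intro k W ι _ _ _ ty adm J
  classical
  induction J using Finset.induction_on with
  | empty => intro _ r hr; simp at hr
  | insert j₀ J hj ih =>
    intro hJ r hr
    obtain ⟨w₀, hw₀, ht₀⟩ := hJ j₀ (mem_insert_self _ _)
    refine ac_of_links (fun v => ty v = j₀ ∧ v ≠ w₀) ?_ ?_ ?_
    · rintro σ ⟨h1, h2⟩ τ hτ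
      exact ⟨fun w hw => h1 w (hτ hw), fun w hw w' hw' => h2 w (hτ hw) w' (hτ hw')⟩
    · rintro x ⟨h1, h2⟩ ⟨v, hv⟩ hb r' hr'
      have hx : x = {v} := eq_singleton_iff_unique_mem.2
        ⟨hv, fun w hw => h2 w hw v hv ((hb w hw).1.trans (hb v hv).1.symm)⟩
      subst hx
      rw [card_insert_of_notMem hj] at hr
      rw [card_singleton] at hr'
      refine Ac.congr ?_ (ih (fun j hj => hJ j (mem_insert_of_mem hj)) r' (by omega))
      ext τ
      simp only [gl, Set.mem_ofPred_eq, mem_union, mem_singleton, mem_insert]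
      constructor
      · rintro ⟨h3, h4⟩
        have hne : ∀ w ∈ τ, ty w ≠ j₀ := fun w hw h => hj (h ▸ (h3 w hw).2)
        refine ⟨fun w hw h => hne w hw h.1, ?_, ?_⟩
        · rintro w (hw | rfl)
          · exact ⟨(h3 w hw).1, Or.inr (h3 w hw).2⟩
          · exact ⟨(h1 w hv).1, Or.inl (hb w hv).1⟩
        · rintro w (hw | rfl) w' (hw' | rfl) h
          · exact h4 w hw w' hw' h
          · exact absurd (h.trans (hb _ hv).1) (hne w hw)
          · exact absurd (h.symm.trans (hb _ hv).1) (hne w' hw')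
          · rfl
      · rintro ⟨h3, h4, h5⟩
        refine ⟨fun w hw => ⟨(h4 w (Or.inl hw)).1, (h4 w (Or.inl hw)).2.resolve_left fun h => ?_⟩,
          fun w hw w' hw' => h5 w (Or.inl hw) w' (Or.inl hw')⟩
        have := h5 w (Or.inl hw) v (Or.inr rfl) (h.trans (hb v hv).1.symm)
        exact h3 w hw (this ▸ hb v hv)
    · intro z hz hb
      refine Bds.of_cone w₀ (fun σ hσ => ⟨?_, (mem_Ch.1 hz σ hσ).2⟩) hb
      obtain ⟨h1, h2, h3⟩ := (mem_Ch.1 hz σ hσ).1
      rw [union_empty] at h2 h3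
      have key : ∀ w ∈ σ, ty w = j₀ → w = w₀ := fun w hw h => by
        by_contra hne; exact h1 w hw ⟨h, hne⟩
      refine ⟨fun w hw => ?_, fun w hw w' hw' h => ?_⟩
      · rcases mem_insert.1 hw with rfl | hw
        · exact ⟨hw₀, ht₀ ▸ mem_insert_self _ _⟩
        · exact h2 w hw
      · rcases mem_insert.1 hw with e | hw1 <;> rcases mem_insert.1 hw' with e' | hw1'
        · rw [e, e']
        · rw [e] at h ⊢; exact (key w' hw1' (h.symm.trans ht₀)).symm
        · rw [e'] at h ⊢; exact key w hw1 (h.trans ht₀)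
        · exact h3 w hw1 w' hw1' h

open Push in
theorem nerveStmt : NerveStmt := by
  intro k V W _ _ _ _ Rel m hmono h1 h2 h3 z hz hbz
  classical
  by_cases h0 : Rel ∅ ∅
  swap
  · have : z = 0 := by
      ext σ
      by_contra hne
      exact h0 (hmono _ _ (mem_Ch.1 hz σ (Finsupp.mem_support_iff.2 hne)).1 ∅ (empty_subset _) ∅
        (empty_subset _))
    rw [this]; exact Bds.zero
  let Z : Set (Finset (V ⊕ W)) := {σ | Rel σ.toLeft σ.toRight}
  have hZ : DC Z := fun σ hσ τ hτ =>
    hmono _ _ hσ _ (toLeft_subset_toLeft hτ) _ (toRight_subset_toRight hτ)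
  let bL : V ⊕ W → Prop := fun v => v.isLeft = true
  let bR : V ⊕ W → Prop := fun v => v.isRight = true
  have tl1 : ∀ x : Finset V, (x.image (Sum.inl : V → V ⊕ W)).toLeft = x := fun x => by
    ext v; simp
  have tl2 : ∀ x : Finset V, (x.image (Sum.inl : V → V ⊕ W)).toRight = ∅ := fun x => by
    ext v; simp
  have tr1 : ∀ x : Finset W, (x.image (Sum.inr : W → V ⊕ W)).toRight = x := fun x => by
    ext v; simp
  have tr2 : ∀ x : Finset W, (x.image (Sum.inr : W → V ⊕ W)).toLeft = ∅ := fun x => by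
    ext v; simp
  have eL : ∀ σ : Finset (V ⊕ W), (∀ v ∈ σ, ¬ bR v) → σ.toLeft.image Sum.inl = σ := by
    intro σ h
    ext v
    cases v with
    | inl v => simp
    | inr v => simpa using fun hv => h _ hv rfl
  have eR : ∀ σ : Finset (V ⊕ W), (∀ v ∈ σ, ¬ bL v) → σ.toRight.image Sum.inr = σ := by
    intro σ h
    ext v
    cases v with
    | inl v => simpa using fun hv => h _ hv rfl
    | inr v => simp
  have nLR : ∀ v, bL v → ¬ bR v := by rintro (v | v) <;> simp [bL, bR]
  have nRL : ∀ v, bR v → ¬ bL v := fun v h h' => nLR v h' h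
  -- links of left simplices
  have lkL1 : ∀ x : Finset V, ∀ a ∈ {a | Rel x a},
      a.image (Sum.inr : W → V ⊕ W) ∈ gl Z bL (x.image Sum.inl) := by
    intro x a ha
    refine ⟨fun v hv => ?_, ?_⟩
    · obtain ⟨w, _, rfl⟩ := mem_image.1 hv; simp [bL]
    · change Rel _ _
      rw [toLeft_union, toRight_union, tl1, tl2, tr1, tr2, empty_union, union_empty]; exact ha
  have lkL2 : ∀ x : Finset V, ∀ σ ∈ gl Z bL (x.image Sum.inl),
      ∃ a ∈ {a | Rel x a}, a.image (Sum.inr : W → V ⊕ W) = σ := by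
    rintro x σ ⟨h4, h5⟩
    refine ⟨σ.toRight, ?_, eR σ h4⟩
    change Rel _ _ at h5
    rw [toLeft_union, toRight_union, tl1, tl2, union_empty] at h5
    exact hmono _ _ h5 _ subset_union_right _ Subset.rfl
  have lkR1 : ∀ a : Finset W, ∀ x ∈ {x | Rel x a},
      x.image (Sum.inl : V → V ⊕ W) ∈ gl Z bR (a.image Sum.inr) := by
    intro a x hx
    refine ⟨fun v hv => ?_, ?_⟩
    · obtain ⟨w, _, rfl⟩ := mem_image.1 hv; simp [bR]
    · change Rel _ _
      rw [toLeft_union, toRight_union, tl1, tl2, tr1, tr2, empty_union, union_empty]; exact hx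
  have lkR2 : ∀ a : Finset W, ∀ σ ∈ gl Z bR (a.image Sum.inr),
      ∃ x ∈ {x | Rel x a}, x.image (Sum.inl : V → V ⊕ W) = σ := by
    rintro a σ ⟨h4, h5⟩
    refine ⟨σ.toLeft, ?_, eL σ h4⟩
    change Rel _ _ at h5
    rw [toLeft_union, toRight_union, tr1, tr2, union_empty] at h5
    exact hmono _ _ h5 _ Subset.rfl _ subset_union_right
  have acL : ∀ x, Rel x ∅ → ∀ r, r + x.card = m → Ac k (gl Z bL (x.image Sum.inl)) r :=
    fun x hx r hr => (h1 x hx r hr).map_inj Sum.inr_injective (lkL1 x) (lkL2 x)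
  set z₁ := mp k (Sum.inl : V → V ⊕ W) z with hz₁
  have hz₁g : z₁ ∈ Ch k (gl Z bR ((∅ : Finset W).image Sum.inr)) m :=
    mp_mem_Ch' hz fun σ hσ => ⟨lkR1 ∅ σ hσ, Sum.inl_injective.injOn⟩
  have hz₁Z : z₁ ∈ Ch k Z m := Ch_mono (fun σ hσ => by simpa using hσ.2) hz₁g
  have hbz₁ : bd k z₁ = 0 := by rw [hz₁, bd_mp fun _ _ => Sum.inl_injective.injOn, hbz, map_zero]
  -- Step A
  have hA : Bds k Z m z₁ := by
    obtain ⟨w, hw, h⟩ := pushStmt k _ Z bL m hZ (fun x hx _ hb r hr => by
      have e := eL x fun v hv => nLR v (hb v hv)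
      rw [← e] at hr ⊢
      rw [card_image_of_injective _ Sum.inl_injective] at hr
      exact acL _ (hmono _ _ hx _ Subset.rfl _ (empty_subset _)) r hr) z₁ hz₁Z (by simp [hbz₁])
    refine Bds.of_add_bd hw ?_
    have := acL ∅ h0 m (by simp) _ (by simpa using h) (by rw [map_add, hbz₁, bd_bd, add_zero])
    exact this.mono fun σ hσ => by simpa using hσ.2
  obtain ⟨W₀, hW₀, hbW₀⟩ := hA
  have hz₁lo : z₁ ∈ Lo k bR (0 + 1) := mem_Lo_one bR fun σ hσ => (mem_Ch.1 hz₁g σ hσ).1.1
  -- Step B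
  obtain ⟨w, hw, hlo⟩ := gen bR hZ (m := m + 1) 1 (fun a ha hb hc r hr => by
      have e := eR a fun v hv => nRL v (hb v hv)
      rw [← e] at hr hc ⊢
      rw [card_image_of_injective _ Sum.inr_injective] at hr hc
      exact (h2 _ (hmono _ _ ha _ (empty_subset _) _ Subset.rfl) hc r hr).map_inj
        Sum.inl_injective (lkR1 _) (lkR2 _)) (m + 1) W₀ hW₀
    (Lo_mono bR (by omega) (mem_Lo_of_Ch bR hW₀)) (hbW₀ ▸ Lo_mono bR (by omega) hz₁lo)
  set W₁ := W₀ + bd k w with hW₁
  have hW₁Z : W₁ ∈ Ch k Z (m + 1) := Submodule.add_mem _ hW₀ (bd_mem_Ch hZ hw)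
  have hbW₁ : bd k W₁ = z₁ := by rw [hW₁, map_add, bd_bd, add_zero, hbW₀]
  -- Step C
  let S := (W₁.support.image (bp bR)).filter (fun x => x.card = 1)
  have hdec : comp k bR ∅ (bd k W₁) = bd k (comp k bR ∅ W₁) + ∑ x ∈ S, comp k bR x W₁ := by
    have := map_congr_supp ((comp k bR ∅).comp (bd k))
      ((bd k).comp (comp k bR ∅) + ∑ x ∈ S, comp k bR x) W₁ fun σ hσ c => by
        simp only [LinearMap.comp_apply, LinearMap.add_apply, LinearMap.sum_apply]
        rw [comp_bd_single]
        congr 1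
        simp only [comp_single]
        have hc := (mem_Lo bR).1 hlo σ hσ
        by_cases hmem : (bp bR σ).card = 1
        · rw [sum_eq_single (bp bR σ), if_pos rfl]
          · obtain ⟨v, hv⟩ := card_eq_one.1 hmem
            rw [hv]; simp
          · intro x _ hne; rw [if_neg hne.symm]
          · intro h; exact absurd (mem_filter.2 ⟨mem_image_of_mem _ hσ, hmem⟩) h
        · have he : bp bR σ = ∅ := card_eq_zero.1 (by omega)
          rw [he, sum_empty, sum_eq_zero]
          intro x hx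
          rw [if_neg]
          rintro rfl
          simpa using (mem_filter.1 hx).2
    simpa only [LinearMap.comp_apply, LinearMap.add_apply, LinearMap.sum_apply] using this
  have hc0 : comp k bR ∅ z₁ = z₁ :=
    map_congr_supp (comp k bR ∅) LinearMap.id z₁ fun σ hσ c => by
      have hg := (mem_Ch.1 hz₁g σ hσ).1.1
      rw [comp_single, if_pos (show bp bR σ = ∅ from filter_eq_empty_iff.2 hg), gp,
        filter_true_of_mem hg]; rfl
  rw [hbW₁, hc0] at hdec
  refine Bds.of_map_inj Sum.inl_injective (lkR2 ∅) ?_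
  rw [← hz₁, hdec]
  refine Bds.add (Bds.of_bd (comp_mem bR hW₁Z (by simp))) (Bds.sum _ _ fun x hx => ?_)
  obtain ⟨h4, h5⟩ := mem_filter.1 hx
  obtain ⟨σ, hσ, rfl⟩ := mem_image.1 h4
  obtain ⟨v, hv⟩ := card_eq_one.1 h5
  have hvb : bR v := (mem_filter.1 (hv ▸ mem_singleton_self v : v ∈ bp bR σ)).2
  obtain ⟨w', rfl⟩ : ∃ w', v = Sum.inr w' := by
    cases v with
    | inl v => simp [bR] at hvb
    | inr v => exact ⟨v, rfl⟩
  rw [hv]
  have h6 : comp k bR {Sum.inr w'} W₁ ∈
      Ch k (gl Z bR (({w'} : Finset W).image Sum.inr)) m := by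
    rw [image_singleton]; exact comp_mem bR hW₁Z (by simp)
  have h7 : bd k (comp k bR {Sum.inr w'} W₁) = 0 := by
    rw [← comp_bd bR fun σ hσ => by have := (mem_Lo bR).1 hlo σ hσ; simp; omega, hbW₁]
    refine comp_eq_zero bR fun σ hσ h => ?_
    have := (mem_Lo bR).1 hz₁lo σ hσ
    rw [h] at this
    simp at this
  obtain ⟨y, hy, hy'⟩ := exists_mp_eq Sum.inl_injective (lkR2 {w'}) h6
  rw [← hy'] at h7 ⊢
  rw [bd_mp fun _ _ => Sum.inl_injective.injOn] at h7
  exact (h3 w' y hy (mp_injective Sum.inl_injective (by rw [h7, map_zero]))).map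
    fun σ hσ => ⟨lkR1 ∅ σ hσ, Sum.inl_injective.injOn⟩

end Crest.Agent.R66
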