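import Crest.Agent.R66.DeltaA
import Crest.Agent.R66.DeltaB
import Crest.Agent.R66.Push

/-! # The row group acts trivially on the homology of the column stabiliser complex -/

set_option autoImplicit false

namespace Crest.Agent.R66

open Finset

namespace Delta
open DeltaB

variable {F G : Type} [Field F] [Group G] {n K : ℕ} [NeZero n] (S : Kap F n K G)
  {A J : Finset (ZMod n)}

theorem exists_win {y : ZMod n → ℕ → F} {s t : ZMod n} {e e' : ℕ} (hnot : ¬ Lv A J y s e)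
    (hle : e' * n + s.val ≤ (e + 1) * n + t.val) (hL : Lv A J y t e') :
    ∃ j ∈ J, ∃ a ∈ A \ J, pos s t ≤ pos s a ∧
      win (A \ J) s (j.val + (e + 1) * n - s.val) (y j) a ≠ 0 := by
  obtain ⟨j, hj, h, h1, h2, h3, h4⟩ := hL
  have h5 : ¬ h + s.val ≤ j.val + e * n := fun h5 => hnot ⟨j, hj, h, h1, h2, h5, h4⟩
  have h6 : (e + 1) * n = e * n + n := by ring
  have h7 : pos s (j - (h : ZMod n)) = j.val + (e + 1) * n - s.val - h := by
    rw [pos_sub_eq (x := j.val + (e + 1) * n - s.val - h) (e := e + 1) (by omega),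
      Nat.mod_eq_of_lt (by omega)]
  have h8 : pos s t ≤ (e + 1) * n + t.val - s.val - e' * n := by
    have := pos_sub_eq (s := s) (j := t) (h := e' * n) (e := e + 1)
      (x := (e + 1) * n + t.val - s.val - e' * n) (by omega)
    rw [show t - ((e' * n : ℕ) : ZMod n) = t by simp] at this
    rw [this]; exact Nat.mod_le _ _
  refine ⟨j, hj, _, h2, by omega, ?_⟩
  unfold win
  rw [if_pos h2, h7, show j.val + (e + 1) * n - s.val - (j.val + (e + 1) * n - s.val - h) = h by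
    omega]
  exact h4

theorem lv_of_win {y : ZMod n → ℕ → F} {s t j a : ZMod n} {e : ℕ} (hj : j ∈ J)
    (hsj : s.val ≤ j.val) (hts : t ≠ s) (hta : pos s t ≤ pos s a)
    (hw : win (A \ J) s (j.val + (e + 1) * n - s.val) (y j) a ≠ 0) :
    ∃ e', Lv A J y t e' ∧ e' * n + s.val < (e + 1) * n + t.val := by
  unfold win at hw
  split_ifs at hw with ha
  swap
  · exact absurd rfl hw
  have h6 : (e + 1) * n = e * n + n := by ring
  have h1 := pos_lt s a
  have h2 := ZMod.val_lt s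
  have ea : j - ((j.val + (e + 1) * n - s.val - pos s a : ℕ) : ZMod n) = a := by
    rw [Nat.cast_sub (by omega), Nat.cast_sub (by omega), cast_pos]
    simp
  rcases lt_trichotomy s.val t.val with h | h | h
  · have := pos_of_val_le h.le
    exact ⟨e + 1, ⟨j, hj, _, by omega, ea.symm ▸ ha, by omega, hw⟩, by omega⟩
  · exact absurd (ZMod.val_injective n h).symm hts
  · have := pos_of_val_lt h
    exact ⟨e, ⟨j, hj, _, by omega, ea.symm ▸ ha, by omega, hw⟩, by omega⟩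

variable (A J) in
/-- Level of a vertex. -/
def LvV (y : ZMod n → ℕ → F) (v : Vx S.U) (e : ℕ) : Prop :=
  ∃ g ∈ S.P (A \ J), v = vtx S.U v.1 g ∧ Lv A J (st S g⁻¹ y) v.1 e

theorem lvV_vtx {y : ZMod n → ℕ → F} (hy : Van K y) {s : ZMod n} {g : G} (hg : g ∈ S.P (A \ J))
    {e : ℕ} : LvV S A J y (vtx S.U s g) e ↔ Lv A J (st S g⁻¹ y) s e := by
  refine ⟨?_, fun h => ⟨g, hg, rfl, h⟩⟩
  rintro ⟨g', hg', h1, h2⟩
  have hu : (g⁻¹ * g')⁻¹ ∈ S.U s ⊓ S.P (A \ J) :=
    inv_mem ⟨(vtx_eq_iff.1 h1).2, (S.P _).mul_mem ((S.P _).inv_mem hg) hg'⟩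
  rw [← lv_st_iff S hu (st_van S _ hy), ← st_mul S _ _ hy]
  rw [vtx_fst] at h2
  simpa using h2

variable (A J) in
/-- Depth at most `D`. -/
def Le (y : ZMod n → ℕ → F) (v : Vx S.U) (D : ℕ) : Prop :=
  ∃ e, LvV S A J y v e ∧ e * n + (n - 1 - v.1.val) ≤ D

theorem Le.mono {y : ZMod n → ℕ → F} {v : Vx S.U} {D D' : ℕ} (h : Le S A J y v D) (hD : D ≤ D') :
    Le S A J y v D' := by
  obtain ⟨e, h1, h2⟩ := h
  exact ⟨e, h1, h2.trans hD⟩

variable (A J) in
open Classical in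
/-- Span of the windows. -/
noncomputable def Ysp (y : ZMod n → ℕ → F) (s : ZMod n) (e : ℕ) : Submodule F (ZMod n → F) :=
  Submodule.span F
    ((J.image fun j => win (A \ J) s (j.val + (e + 1) * n - s.val) (y j) : Finset _) : Set _)

theorem finrank_Ysp (y : ZMod n → ℕ → F) (s : ZMod n) (e : ℕ) :
    Module.finrank F (Ysp A J y s e) ≤ J.card := by
  classical
  exact (finrank_span_finset_le_card _).trans card_image_le

theorem Ysp_le {y : ZMod n → ℕ → F} {s : ZMod n} {e : ℕ} {C : Submodule F (ZMod n → F)} :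
    Ysp A J y s e ≤ C ↔ ∀ j ∈ J, win (A \ J) s (j.val + (e + 1) * n - s.val) (y j) ∈ C := by
  classical
  unfold Ysp
  rw [Submodule.span_le]
  constructor
  · intro h j hj
    exact h (mem_coe.2 (mem_image_of_mem _ hj))
  · intro h x hx
    obtain ⟨j, hj, rfl⟩ := mem_image.1 (mem_coe.1 hx)
    exact h j hj

theorem le_iff (hK : n ≤ K) {y : ZMod n → ℕ → F} (hy : Van K y) {s t : ZMod n} {e D : ℕ}
    (hs : ∀ j ∈ J, s.val ≤ j.val) (hts : t ≠ s) {g u : G} (hg : g ∈ S.P (A \ J))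
    (hu : u ∈ S.U s ⊓ S.P (A \ J)) (hD : D + 1 = (e + 1) * n + (n - 1 - s.val))
    (hnot : ¬ Lv A J (st S g⁻¹ y) s e) :
    Le S A J y (vtx S.U t (g * u)) D ↔ ¬ Ysp A J (st S g⁻¹ y) s e ≤ (S.phi s (A \ J) t u).C := by
  have hy' := st_van S g⁻¹ hy
  have h1 := ZMod.val_lt s
  have h2 := ZMod.val_lt t
  have hw : ∀ j ∈ J, win (A \ J) s (j.val + (e + 1) * n - s.val) (st S (g * u)⁻¹ y j) =
      Dict.lin S s u⁻¹ (win (A \ J) s (j.val + (e + 1) * n - s.val) (st S g⁻¹ y j)) := by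
    intro j hj
    have := hs j hj
    have h6 : (e + 1) * n = e * n + n := by ring
    rw [mul_inv_rev, st_mul S _ _ hy]
    refine win_st S hK (inv_mem hu) _ (by omega) ?_
    rw [Nat.cast_sub (by omega)]
    simp
  have hmem : ∀ j ∈ J, (win (A \ J) s (j.val + (e + 1) * n - s.val) (st S g⁻¹ y j) ∈
      (S.phi s (A \ J) t u).C ↔ ∀ a ∈ A \ J, pos s t ≤ pos s a →
        win (A \ J) s (j.val + (e + 1) * n - s.val) (st S (g * u)⁻¹ y j) a = 0) := by
    intro j hj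
    rw [Dict.mem_phi S s _ hu.2, hw j hj]
    constructor
    · rintro ⟨v, hv, e⟩
      rw [← e, ← Dict.lin_mul S s hK, inv_mul_cancel, Dict.lin_one]
      exact hv
    · intro h
      exact ⟨_, h, by rw [← Dict.lin_mul S s hK, mul_inv_cancel, Dict.lin_one]⟩
  have hnot' : ¬ Lv A J (st S (g * u)⁻¹ y) s e := by
    rwa [mul_inv_rev, st_mul S _ _ hy, lv_st_iff S (inv_mem hu) hy']
  rw [Ysp_le]
  constructor
  · rintro ⟨e', h3, h4⟩ h5
    rw [lvV_vtx S hy (mul_mem hg hu.2)] at h3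
    rw [vtx_fst] at h4
    obtain ⟨j, hj, a, ha, h6, h7⟩ := exists_win hnot' (by omega) h3
    exact h7 ((hmem j hj).1 (h5 j hj) a ha h6)
  · intro h
    push Not at h
    obtain ⟨j, hj, h⟩ := h
    rw [hmem j hj] at h
    push Not at h
    obtain ⟨a, _, h6, h7⟩ := h
    obtain ⟨e', h8, h9⟩ := lv_of_win hj (hs j hj) hts h6 h7
    exact ⟨e', (lvV_vtx S hy (mul_mem hg hu.2)).2 h8, by rw [vtx_fst]; omega⟩

variable (A J) in
/-- Sublevel complexes. -/
def XD (I : Finset (ZMod n)) (y : ZMod n → ℕ → F) (D : ℕ) : Set (Finset (Vx S.U)) :=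
  {σ | σ ∈ Dl S.U (S.P (A \ J)) I ∧ ∀ v ∈ σ, Le S A J y v D}

theorem dc_XD (I : Finset (ZMod n)) (y : ZMod n → ℕ → F) (D : ℕ) : DC (XD S A J I y D) :=
  fun σ hσ τ hτ => ⟨dc_Dl _ _ σ hσ.1 τ hτ, fun v hv => hσ.2 v (hτ hv)⟩

theorem link_ac {k : Type} [Field k] (hK : n ≤ K) {I : Finset (ZMod n)}
    (hord : ∀ s ∈ I, ∀ j ∈ J, s.val ≤ j.val) {y : ZMod n → ℕ → F} (hy : Van K y) {m : ℕ}
    (hO : ∀ s ∈ I, ∀ Y : Submodule F (ZMod n → F), ¬ Y ≤ Asp F (A \ J) →
      Module.finrank F Y ≤ J.card → ∀ r ≤ m,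
      Ac k (Ocx (Fsp F s (A \ J)) (Asp F (A \ J)) ⊤ Y ((I.erase s).image (pos s))) r)
    {D : ℕ} (hD : n - 1 ≤ D) {x : Finset (Vx S.U)} (hx : x ∈ XD S A J I y (D + 1))
    (hne : x.Nonempty) (hb : ∀ v ∈ x, ¬ Le S A J y v D) {r : ℕ} (hr : r ≤ m) :
    Ac k (gl (XD S A J I y (D + 1)) (fun v => ¬ Le S A J y v D) x) r := by
  obtain ⟨v, hv⟩ := hne
  obtain ⟨⟨g, hg, hxg⟩, hx2⟩ := hx
  have hlev : ∀ w ∈ x, ∃ e, LvV S A J y w e ∧ D + 1 = e * n + (n - 1 - w.1.val) := by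
    intro w hw
    obtain ⟨e, h1, h2⟩ := hx2 w hw
    refine ⟨e, h1, le_antisymm ?_ h2⟩
    by_contra hc
    exact hb w hw ⟨e, h1, by omega⟩
  have hxv : x = {v} := by
    refine eq_singleton_iff_unique_mem.2 ⟨hv, fun w hw => eq_of_mem_face (hxg hw) (hxg hv) ?_⟩
    obtain ⟨e, _, h1⟩ := hlev w hw
    obtain ⟨e', _, h2⟩ := hlev v hv
    have h3 := congrArg (· % n) (h1.symm.trans h2)
    have h4 := ZMod.val_lt w.1
    have h5 := ZMod.val_lt v.1
    simp only [Nat.mul_add_mod'] at h3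
    rw [Nat.mod_eq_of_lt (by omega), Nat.mod_eq_of_lt (by omega)] at h3
    exact ZMod.val_injective n (by omega)
  obtain ⟨hs, hvg⟩ := mem_face'.1 (hxg hv)
  obtain ⟨e, h1, h2⟩ := hlev v hv
  have hbv := hb v hv
  have hLe := hx2 v hv
  generalize v.1 = s at hs hvg h2
  subst hvg hxv
  obtain ⟨e, rfl⟩ : ∃ e', e = e' + 1 := by
    refine ⟨e - 1, ?_⟩
    rcases Nat.eq_zero_or_pos e with rfl | h
    · omega
    · omega
  rw [lvV_vtx S hy hg] at h1
  have hnot : ¬ Lv A J (st S g⁻¹ y) s e := fun h => hbv ⟨e, (lvV_vtx S hy hg).2 h, by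
    have h6 : (e + 1) * n = e * n + n := by ring
    have := ZMod.val_lt s
    rw [vtx_fst]; omega⟩
  have hY : ¬ Ysp A J (st S g⁻¹ y) s e ≤ Asp F (A \ J) := by
    intro h
    obtain ⟨j, hj, a, ha, _, h7⟩ := exists_win hnot le_rfl h1
    exact h7 (Ysp_le.1 h j hj a ha)
  have hAc := (dictStmt F G n K S hK s (A \ J)).2.2.2.2.2.2 k (I.erase s) _ ⊤ _ r le_rfl
    (hO s hs _ hY (finrank_Ysp _ s e) r hr)
  refine Ac.of_smul g ?_ ?_ hAc
  · rintro σ ⟨h3, ⟨g', hg', h4⟩, _⟩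
    have h5 : g⁻¹ * g' ∈ S.U s ⊓ S.P (A \ J) :=
      ⟨(vtx_mem_face.1 (h4 (mem_union_right _ (mem_singleton_self _)))).2,
        (S.P _).mul_mem ((S.P _).inv_mem hg) hg'⟩
    have h6 : ∀ w ∈ σ, w.1 ∈ I.erase s ∧ w = vtx S.U w.1 g' := by
      intro w hw
      obtain ⟨h7, h8⟩ := mem_face'.1 (h4 (mem_union_left _ hw))
      refine ⟨mem_erase.2 ⟨fun h => h3 w hw ?_, h7⟩, h8⟩
      rwa [eq_of_mem_face (h4 (mem_union_left _ hw))
        (h4 (mem_union_right _ (mem_singleton_self _))) h]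
    refine ⟨_, h5, fun w₁ hw₁ => ?_, fun w₁ hw₁ => ?_⟩
    · obtain ⟨w, hw, rfl⟩ := mem_image.1 hw₁
      rw [(h6 w hw).2, smul_vtx]
      exact mem_face.2 ⟨_, (h6 w hw).1, rfl⟩
    · obtain ⟨w, hw, rfl⟩ := mem_image.1 hw₁
      have h7 := not_not.1 (h3 w hw)
      rw [(h6 w hw).2] at h7 ⊢
      rw [smul_vtx, Dict.Phi_vtx S s _ hK]
      refine ⟨le_sup_right, le_top, ?_⟩
      rw [← le_iff S hK hy (hord s hs) (mem_erase.1 (h6 w hw).1).1 hg h5 h2 hnot,
        mul_inv_cancel_left]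
      exact h7
  · rintro τ ⟨u, hu, h3, h4⟩
    have h5 : ∀ w ∈ τ.image (fun v => g • v), Le S A J y w D := by
      intro w₁ hw₁
      obtain ⟨w, hw, rfl⟩ := mem_image.1 hw₁
      obtain ⟨h6, h7⟩ := mem_face'.1 (h3 hw)
      have h8 := (h4 w hw).2.2
      rw [h7] at h8 ⊢
      rw [Dict.Phi_vtx S s _ hK] at h8
      rw [smul_vtx, le_iff S hK hy (hord s hs) (mem_erase.1 h6).1 hg hu h2 hnot]
      exact h8
    refine ⟨fun w hw => not_not.2 (h5 w hw), ⟨g * u, mul_mem hg hu.2, ?_⟩, fun w hw => ?_⟩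
    · refine union_subset ((image_subset_image h3).trans ?_) ?_
      · rw [smul_face]; exact face_mono _ (erase_subset _ _)
      · rw [singleton_subset_iff, ← vtx_mul g hu.1]
        exact mem_face.2 ⟨s, hs, rfl⟩
    · rcases mem_union.1 hw with hw | hw
      · exact (h5 w hw).mono S (by omega)
      · rw [mem_singleton.1 hw]; exact hLe

theorem push_top {k : Type} [Field k] [CharP k 2] (hK : n ≤ K) {I : Finset (ZMod n)}
    (hord : ∀ s ∈ I, ∀ j ∈ J, s.val ≤ j.val) {y : ZMod n → ℕ → F} (hy : Van K y) {m : ℕ}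
    (hO : ∀ s ∈ I, ∀ Y : Submodule F (ZMod n → F), ¬ Y ≤ Asp F (A \ J) →
      Module.finrank F Y ≤ J.card → ∀ r ≤ m,
      Ac k (Ocx (Fsp F s (A \ J)) (Asp F (A \ J)) ⊤ Y ((I.erase s).image (pos s))) r) (d : ℕ) :
    ∀ c ∈ Ch k (XD S A J I y (n - 1 + d)) m,
      (∀ τ ∈ (bd k c).support, ∀ v ∈ τ, Le S A J y v (n - 1)) →
      ∃ w ∈ Ch k (Dl S.U (S.P (A \ J)) I) (m + 1),
        ∀ τ ∈ (c + bd k w).support, ∀ v ∈ τ, Le S A J y v (n - 1) := by
  induction d with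
  | zero =>
    intro c hc _
    refine ⟨0, Submodule.zero_mem _, fun τ hτ => ?_⟩
    rw [map_zero, add_zero] at hτ
    exact (mem_Ch.1 hc τ hτ).1.2
  | succ d ih =>
    intro c hc hb
    obtain ⟨w, hw, h⟩ := pushStmt k _ (XD S A J I y (n - 1 + d + 1))
      (fun v => ¬ Le S A J y v (n - 1 + d)) m (dc_XD S I y _)
      (fun x hx hne hbad r hr => link_ac S hK hord hy hO (by omega) hx hne hbad (by omega)) c hc
      (fun τ hτ v hv => not_not.2 ((hb τ hτ v hv).mono S (by omega)))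
    obtain ⟨w', hw', h'⟩ := ih (c + bd k w)
      (Ch_mono (fun σ hσ => And.intro (by simpa using hσ.2.1)
        fun v hv => not_not.1 (hσ.1 v hv)) h)
      (by rwa [map_add, bd_bd, add_zero])
    exact ⟨w + w', Submodule.add_mem _ (Ch_mono (fun σ hσ => hσ.1) hw) hw',
      by rwa [map_add, ← add_assoc]⟩

omit [NeZero n] in
theorem pair_eq {y : ZMod n → ℕ → F} (hy : Van K y) {g : G} (hg : g ∈ S.P (A \ J)) (a : G) :
    pair S J (g⁻¹ * (a * g)) (st S g⁻¹ y) = pair S J a y := by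
  rw [pair_conj S (S.P_sdiff_le A J hg).2 a (st_van S _ hy), ← st_mul S _ _ hy, mul_inv_cancel,
    st_one]

omit [NeZero n] in
theorem exists_vis (hJ : J ⊆ A) {y : ZMod n → ℕ → F} (hy : Van K y) {g a : G}
    (hg : g ∈ S.P (A \ J)) (ha : a ∈ S.R A J) (hne : pair S J a y ≠ 0) :
    ∃ j ∈ J, ∃ h : ℕ, 1 ≤ h ∧ j - (h : ZMod n) ∈ A \ J ∧
      S.κ (g⁻¹ * (a * g)) (j - (h : ZMod n)) h ≠ 0 ∧ st S g⁻¹ y j h ≠ 0 := by
  rw [← pair_eq S hy hg] at hne
  obtain ⟨j, hj, h, h1, h2, h3⟩ := exists_of_pair_ne S hne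
  have := conj_R S hJ (inv_mem (S.P_sdiff_le A J hg).1) ha
  rw [inv_inv, mul_assoc] at this
  exact ⟨j, hj, h, h1, mem_sdiff.2 ⟨(this _ _ h1 h2).1, (this _ _ h1 h2).2.1⟩, h2, h3⟩

omit [NeZero n] in
theorem pair_el {j : ZMod n} (hj : j ∈ J) {h : ℕ} (h1 : 1 ≤ h) (hK : h < K)
    (hh : (h : ZMod n) ≠ 0) (c : F) (y : ZMod n → ℕ → F) :
    pair S J (S.el (j - (h : ZMod n)) h c) y = c * y j h := by
  unfold pair
  rw [sum_eq_single j, sum_eq_single h, if_neg (by omega), El.spec S _ c hh _ _ h1 hK,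
    if_pos ⟨rfl, rfl⟩]
  · intro l hl hne
    split_ifs with h0
    · simp
    · rw [El.spec S _ c hh _ _ (by omega) (mem_range.1 hl), if_neg (fun h => hne h.2), zero_mul]
  · intro h; exact absurd (mem_range.2 hK) h
  · intro j' _ hne
    refine sum_eq_zero fun l hl => ?_
    split_ifs with h0
    · simp
    · rw [El.spec S _ c hh _ _ (by omega) (mem_range.1 hl), if_neg, zero_mul]
      rintro ⟨h2, rfl⟩
      exact hne (sub_left_injective h2)
  · intro h; exact absurd hj h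

theorem exists_ne_one {k : Type} [Field k] {ψ : AddChar F k} (hψ : ψ.IsPrimitive) {x : F}
    (hx : x ≠ 0) : ∃ c, ψ (c * x) ≠ 1 := by
  obtain ⟨c, hc⟩ := AddChar.ne_one_iff.1 (hψ hx)
  exact ⟨c, by rwa [AddChar.mulShift_apply, mul_comm] at hc⟩

theorem bds_nontriv {k : Type} [Field k] [CharP k 2] [Fintype F] [Fintype G]
    (hF : Odd (Fintype.card F)) {ψ : AddChar F k} (hψ : ψ.IsPrimitive) (hK : n ≤ K)
    (hJ : J ⊆ A) {I : Finset (ZMod n)} (hord : ∀ s ∈ I, ∀ j ∈ J, s.val ≤ j.val)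
    {y : ZMod n → ℕ → F} (hy : Van K y) {m : ℕ}
    (hO : ∀ s ∈ I, ∀ Y : Submodule F (ZMod n → F), ¬ Y ≤ Asp F (A \ J) →
      Module.finrank F Y ≤ J.card → ∀ r ≤ m,
      Ac k (Ocx (Fsp F s (A \ J)) (Asp F (A \ J)) ⊤ Y ((I.erase s).image (pos s))) r)
    {a₀ : G} (ha₀ : a₀ ∈ S.R A J) (hne : ψ (pair S J a₀ y) ≠ 1) {z : Finset (Vx S.U) →₀ k}
    (hz : z ∈ Ch k (Dl S.U (S.P A ⊓ S.col J) I) m) (hb : bd k z = 0) :
    Bds k (Dl S.U (S.P A ⊓ S.col J) I) m
      (DeltaA.E k (S.R A J) (fun a => ψ (pair S J a y)) z) := by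
  have nz : ∀ x : F, ψ x ≠ 1 → x ≠ 0 := fun x h h0 => h (by rw [h0, AddChar.map_zero_eq_one])
  have hle : S.P (A \ J) ≤ S.P A ⊓ S.col J := fun g hg => (S.P_sdiff_le A J hg).1
  refine DeltaA.bds_E (S.odd_card hF) (fun a ha b hb => ?_)
    (fun g hg => smul_mem_Dl (S.R_le hJ hg)) (Dl_mono hle Subset.rfl) (dc_Dl _ _) ?_ ?_
    (fun v => Le S A J y v (n - 1)) ?_ ?_ ?_ hz hb
  · simp only [pair_mul S ha hb, AddChar.map_add_eq_mul]
  · intro σ hσ
    obtain ⟨q, hq, T, hT, rfl⟩ := mem_Dl'.1 hσ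
    obtain ⟨a, ha, r, hr, rfl⟩ := exists_decomp S hJ hq
    exact ⟨a, ha, _, mem_Dl'.2 ⟨r, hr, T, hT, rfl⟩, smul_face _ _ _⟩
  · intro u hu τ hτ h
    obtain ⟨r, hr, T, _, rfl⟩ := mem_Dl'.1 hτ
    obtain ⟨r', hr', T', _, h'⟩ := mem_Dl'.1 h
    rw [h']
    rw [smul_face] at h'
    obtain ⟨rfl, h1⟩ := face_eq_iff.1 h'.symm
    refine face_eq_iff.2 ⟨rfl, mem_UI.2 fun s hs => ?_⟩
    have h2 := conj_R S hJ (inv_mem (hle hr)) hu
    refine mem_U_of_mul_R S (mul_mem (inv_mem hr') hr) h2 ?_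
    have := mem_UI.1 h1 s hs
    rwa [show r'⁻¹ * (u * r) = r'⁻¹ * r * (r⁻¹ * u * r⁻¹⁻¹) by group] at this
  · rintro τ ⟨g, hg, hτ⟩ a ha hst hχ v hv
    obtain ⟨hs, hvg⟩ := mem_face'.1 (hτ hv)
    have h1 : a • v = v :=
      eq_of_mem_face (hτ (hst ▸ mem_image_of_mem _ hv)) (hτ hv) (smul_fst a v)
    generalize v.1 = s at hs hvg
    subst hvg
    rw [smul_vtx] at h1
    have h2 := (vtx_eq_iff.1 h1.symm).2
    obtain ⟨j, hj, h, h3, h4, h5, h6⟩ := exists_vis S hJ hy hg ha (nz _ hχ)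
    have h7 : pos s (j - (h : ZMod n)) + h < n := h2 _ _ h3 h5
    have h8 := Kap.pos_add s _ _ h7
    have h9 := hord s hs j hj
    rw [sub_add_cancel, pos_of_val_le h9] at h8
    exact ⟨0, (lvV_vtx S hy hg).2 ⟨j, hj, h, h3, h4, by omega, h6⟩, by omega⟩
  · rintro τ ⟨g, hg, hτ⟩ htop
    rcases τ.eq_empty_or_nonempty with rfl | hne'
    · exact ⟨a₀, ha₀, by simp, hne⟩
    obtain ⟨v, hv, hmax⟩ := exists_max_image τ (fun v => v.1.val) hne'
    obtain ⟨e, h1, h2⟩ := htop v hv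
    have hn : 0 < n := Nat.pos_of_ne_zero (NeZero.ne n)
    obtain rfl : e = 0 := by
      by_contra h0
      have : n ≤ e * n := Nat.le_mul_of_pos_left _ (by omega)
      omega
    rw [(mem_face'.1 (hτ hv)).2, lvV_vtx S hy hg] at h1
    obtain ⟨j, hj, h, h3, h4, h5, h6⟩ := h1
    have hhK : h < K := by
      by_contra hc
      exact h6 (st_van S _ hy j h (not_lt.1 hc))
    have hh : (h : ZMod n) ≠ 0 := fun h0 => (mem_sdiff.1 h4).2 (by rwa [h0, sub_zero])
    obtain ⟨c, hc⟩ := exists_ne_one hψ h6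
    have hR : S.el (j - (h : ZMod n)) h c ∈ S.R A J :=
      El.mem_pat S c hh ⟨(mem_sdiff.1 h4).1, (mem_sdiff.1 h4).2, by rwa [sub_add_cancel]⟩
    refine ⟨_, conj_R S hJ (hle hg) hR, ?_, ?_⟩
    · rw [image_congr (g := id), image_id]
      intro w hw
      have hw' := (mem_face'.1 (hτ hw)).2
      have h7 := hmax w hw
      have h8 := ZMod.val_lt j
      have hU : S.el (j - (h : ZMod n)) h c ∈ S.U w.1 := El.mem_pat S c hh (by
        rw [pos_sub_eq (x := j.val - w.1.val - h) (e := 0) (by omega)]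
        have := Nat.mod_le (j.val - w.1.val - h) n
        omega)
      simp only [id_eq]
      conv_lhs => rw [hw', smul_vtx, inv_mul_cancel_right, vtx_mul g hU]
      exact hw'.symm
    · rw [← pair_eq S hy hg, show g⁻¹ * (g * S.el (j - (h : ZMod n)) h c * g⁻¹ * g) =
        S.el (j - (h : ZMod n)) h c by group, pair_el S hj h3 hhK hh]
      exact hc
  · intro c hc hb
    refine push_top S hK hord hy hO ((K + 1) * n) c (Ch_mono ?_ hc) hb
    rintro σ ⟨g, hg, hσ⟩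
    refine ⟨⟨g, hg, hσ⟩, fun v hv => ⟨K + 1, ⟨g, hg, (mem_face'.1 (hσ hv)).2, ?_⟩, by omega⟩⟩
    obtain ⟨j, hj, h, h3, h4, h5, h6⟩ := exists_vis S hJ hy hg ha₀ (nz _ hne)
    have h7 := S.lt_of_ne_zero h5
    have h8 := ZMod.val_lt v.1
    have h9 : K ≤ K * n := Nat.le_mul_of_pos_right _ (by omega)
    have h10 : (K + 1) * n = K * n + n := by ring
    exact ⟨j, hj, h, h3, h4, by omega, h6⟩

/-- Extension by zero. -/
def ext (K : ℕ) (y : ZMod n → Fin K → F) : ZMod n → ℕ → F :=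
  fun j h => if hh : h < K then y j ⟨h, hh⟩ else 0

omit [NeZero n] in
theorem ext_van (y : ZMod n → Fin K → F) : Van K (ext K y) :=
  fun _ _ hh => dif_neg (not_lt.2 hh)

/-- The pairing as an additive map in `y`. -/
def pairHom (J : Finset (ZMod n)) (a : G) : (ZMod n → Fin K → F) →+ F where
  toFun y := pair S J a (ext K y)
  map_zero' := sum_eq_zero fun j _ => sum_eq_zero fun h _ => by simp [ext]
  map_add' y y' := by
    unfold pair
    rw [← sum_add_distrib]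
    refine sum_congr rfl fun j _ => ?_
    rw [← sum_add_distrib]
    refine sum_congr rfl fun h hh => ?_
    simp only [ext, dif_pos (mem_range.1 hh), Pi.add_apply, mul_add]

theorem sum_char {k : Type} [Field k] [CharP k 2] [Fintype F] [DecidableEq G]
    (hF : Odd (Fintype.card F)) {ψ : AddChar F k} (hψ : ψ.IsPrimitive) {u : G}
    (hu : u ∈ S.R A J) :
    ∑ y : ZMod n → Fin K → F, ψ (pair S J u (ext K y)) = if u = 1 then 1 else 0 := by
  classical
  split_ifs with h1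
  · subst h1
    simp only [pair_one, AddChar.map_zero_eq_one, sum_const, card_univ, nsmul_eq_mul, mul_one]
    have : Odd (Fintype.card (ZMod n → Fin K → F)) := by
      rw [Fintype.card_fun, Fintype.card_fun]
      exact hF.pow.pow
    obtain ⟨a, ha⟩ := this
    rw [ha]
    push_cast
    rw [CharTwo.two_eq_zero, zero_mul, zero_add]
  · have : ∃ b h, 1 ≤ h ∧ S.κ u b h ≠ 0 := by
      by_contra hc
      push Not at hc
      exact h1 (S.eq_one hc)
    obtain ⟨b, h, h2, h3⟩ := this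
    have hK := S.lt_of_ne_zero h3
    obtain ⟨c, hc⟩ := exists_ne_one hψ h3
    refine (AddChar.sum_eq_ite (ψ.compAddMonoidHom (pairHom S J u))).trans (if_neg
      (AddChar.ne_one_iff.2 ⟨Pi.single (b + (h : ZMod n)) (Pi.single ⟨h, hK⟩ c), ?_⟩))
    have : pairHom S J u (Pi.single (b + (h : ZMod n)) (Pi.single ⟨h, hK⟩ c)) =
        c * S.κ u b h := by
      change pair S J u (ext K _) = _
      unfold pair
      rw [sum_eq_single (b + (h : ZMod n)), sum_eq_single h, if_neg (by omega)]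
      · simp [ext, hK, mul_comm]
      · intro l hl hne
        have : (⟨l, mem_range.1 hl⟩ : Fin K) ≠ ⟨h, hK⟩ := fun e => hne (Fin.mk.inj e)
        simp [ext, mem_range.1 hl, this]
      · intro h; exact absurd (mem_range.2 hK) h
      · intro j _ hne
        refine sum_eq_zero fun l hl => ?_
        simp [ext, mem_range.1 hl, hne]
      · intro h; exact absurd (hu _ _ h2 h3).2.2 h
    rw [AddChar.compAddMonoidHom_apply, this]
    exact hc

end Delta

open Delta DeltaB in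
theorem deltaStmt_of (hO : OStmt) : DeltaStmt := by
  intro m y₀
  obtain ⟨ρ, hρ⟩ := hO m y₀
  refine ⟨ρ + 1, ?_⟩
  intro F k G _ _ _ _ _ _ n K _ S ψ hF hψ hK A J I hJ hJy hI hord harc m' hm' z hz hb a ha
  classical
  have hO' : ∀ s ∈ I, ∀ Y : Submodule F (ZMod n → F), ¬ Y ≤ Asp F (A \ J) →
      Module.finrank F Y ≤ J.card → ∀ r ≤ m',
      Ac k (Ocx (Fsp F s (A \ J)) (Asp F (A \ J)) ⊤ Y ((I.erase s).image (pos s))) r := by
    intro s hs Y hY hY' r hr
    refine hρ F k _ hF _ _ _ _ _ ?_ ?_ ?_ (fun _ _ => codisjoint_top_left) le_top hY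
      (hY'.trans hJy) r (hr.trans hm')
    · rw [card_image_of_injective _ (pos_injective s), card_erase_of_mem hs]; omega
    · intro i hi j hj hij
      obtain ⟨t, ht, rfl⟩ := mem_image.1 hi
      obtain ⟨t', ht', rfl⟩ := mem_image.1 hj
      obtain ⟨b, hb1, hb2, hb3⟩ := harc t (mem_of_mem_erase ht) t' (mem_of_mem_erase ht')
        (fun e => by subst e; omega)
      have h1 := Dict.pos_of_le hij.le
      have h2 := pos_lt s t'
      have h3 : pos s t ≤ pos s b ∧ pos s b < pos s t' := by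
        rcases le_or_gt (pos s t) (pos s b) with h | h
        · have := Dict.pos_of_le h; omega
        · have := Dict.pos_of_lt h; omega
      refine lt_of_le_of_ne (fun v hv c hc => hv c (hc.imp_right fun h => by omega)) fun e => ?_
      have h4 : (Pi.single b 1 : ZMod n → F) ∈ Fsp F s (A \ J) (pos s t) := fun c hc =>
        Pi.single_eq_of_ne (by
          rintro rfl
          rcases hc with hc | hc
          · exact hc (mem_sdiff.2 ⟨hb1, hb2⟩)
          · omega) _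
      rw [← e] at h4
      simpa using h4 b (Or.inr h3.2)
    · intro i _
      refine Submodule.disjoint_def.2 fun v hv hv' => funext fun c => ?_
      by_cases hc : c ∈ A \ J
      · exact hv c hc
      · exact hv' c (Or.inl hc)
  have hdec : ∑ y : ZMod n → Fin K → F,
      DeltaA.E k (S.R A J) (fun a => ψ (pair S J a (ext K y))) z = z := by
    simp only [DeltaA.E_apply]
    rw [sum_comm, sum_eq_single 1]
    · rw [← sum_smul, sum_char S (A := A) hF hψ (inv_mem (one_mem _)), inv_one, if_pos rfl, one_smul,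
        act_one]
    · intro u hu hne
      rw [← sum_smul, sum_char S hF hψ (inv_mem (mem_elems.1 hu)), if_neg (by simpa using hne),
        zero_smul]
    · intro h; exact absurd (mem_elems.2 (one_mem _)) h
  rw [← hdec, map_sum, ← sum_add_distrib]
  refine Bds.sum _ _ fun y _ => ?_
  rw [DeltaA.act_E (fun a ha b hb => by simp only [pair_mul S ha hb, AddChar.map_add_eq_mul])
    (fun a ha b hb => by simp only [pair_mul S ha hb, pair_mul S hb ha, add_comm]) ha]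
  by_cases h1 : ψ (pair S J a (ext K y)) = 1
  · rw [h1, one_smul, add_self2]; exact Bds.zero
  · have := bds_nontriv S hF hψ hK hJ hord (ext_van y) hO' ha h1 hz hb
    exact (this.smul _).add this

end Crest.Agent.R66
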