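import Crest.Agent.R66.Coset

/-! # Killing isotypic components of a cycle -/

set_option autoImplicit false

namespace Crest.Agent.R66

open Finset

namespace DeltaA
variable {k : Type} [Field k] {V : Type} [DecidableEq V] {Γ : Type} [Group Γ] [Fintype Γ]
  [MulAction Γ V]

variable (k) in
/-- Projector attached to a character `χ` of `N`. -/
noncomputable def E (N : Subgroup Γ) (χ : Γ → k) : (Finset V →₀ k) →ₗ[k] (Finset V →₀ k) :=
  ∑ u ∈ elems N, χ u⁻¹ • act k u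

theorem E_apply (N : Subgroup Γ) (χ : Γ → k) (z : Finset V →₀ k) :
    E k N χ z = ∑ u ∈ elems N, χ u⁻¹ • act k u z := by
  simp [E, LinearMap.sum_apply]

theorem bd_E (N : Subgroup Γ) (χ : Γ → k) (z : Finset V →₀ k) :
    bd k (E k N χ z) = E k N χ (bd k z) := by
  simp only [E_apply, map_sum, map_smul, bd_act]

theorem E_mem {N : Subgroup Γ} (χ : Γ → k) {X : Set (Finset V)}
    (hX : ∀ g ∈ N, ∀ σ ∈ X, σ.image (fun v => g • v) ∈ X) {m : ℕ} {z : Finset V →₀ k}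
    (hz : z ∈ Ch k X m) : E k N χ z ∈ Ch k X m := by
  rw [E_apply]
  exact Submodule.sum_mem _ fun u hu => Submodule.smul_mem _ _
    (act_mem_Ch u hz (hX u (mem_elems.1 hu)))

theorem E_act {N : Subgroup Γ} {χ : Γ → k} (hχ : ∀ a ∈ N, ∀ b ∈ N, χ (a * b) = χ a * χ b)
    {a : Γ} (ha : a ∈ N) (z : Finset V →₀ k) : E k N χ (act k a z) = χ a • E k N χ z := by
  rw [E_apply, E_apply, smul_sum]
  refine sum_nbij' (fun u => u * a) (fun u => u * a⁻¹) (fun u hu => ?_) (fun u hu => ?_)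
    (fun u _ => by simp) (fun u _ => by simp) (fun u hu => ?_)
  · exact mem_elems.2 (N.mul_mem (mem_elems.1 hu) ha)
  · exact mem_elems.2 (N.mul_mem (mem_elems.1 hu) (N.inv_mem ha))
  · rw [← act_mul, smul_smul, ← hχ a ha _ (N.inv_mem (N.mul_mem (mem_elems.1 hu) ha))]
    simp

theorem act_E {N : Subgroup Γ} {χ : Γ → k} (hχ : ∀ a ∈ N, ∀ b ∈ N, χ (a * b) = χ a * χ b)
    (hc : ∀ a ∈ N, ∀ b ∈ N, χ (a * b) = χ (b * a))
    {a : Γ} (ha : a ∈ N) (z : Finset V →₀ k) : act k a (E k N χ z) = χ a • E k N χ z := by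
  rw [E_apply, smul_sum, map_sum]
  refine sum_nbij' (fun u => a * u) (fun u => a⁻¹ * u) (fun u hu => ?_) (fun u hu => ?_)
    (fun u _ => by simp) (fun u _ => by simp) (fun u hu => ?_)
  · exact mem_elems.2 (N.mul_mem ha (mem_elems.1 hu))
  · exact mem_elems.2 (N.mul_mem (N.inv_mem ha) (mem_elems.1 hu))
  · have h1 := N.inv_mem (N.mul_mem ha (mem_elems.1 hu))
    rw [map_smul, ← act_mul, smul_smul, ← hχ a ha _ h1, hc a ha _ h1]
    simp

theorem E_single_eq_zero {N : Subgroup Γ} {χ : Γ → k}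
    (hχ : ∀ a ∈ N, ∀ b ∈ N, χ (a * b) = χ a * χ b) {a : Γ} (ha : a ∈ N) {σ : Finset V}
    (hσ : σ.image (fun v => a • v) = σ) (h1 : χ a ≠ 1) (c : k) :
    E k N χ (Finsupp.single σ c) = 0 := by
  have := E_act (V := V) hχ ha (Finsupp.single σ c)
  rw [act_single, hσ] at this
  have h2 : (χ a - 1) • E k N χ (Finsupp.single σ c) = 0 := by
    rw [sub_smul, ← this, one_smul, sub_self]
  exact (smul_eq_zero.1 h2).resolve_left (sub_ne_zero.2 h1)

omit [Fintype Γ] in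
theorem act_apply (u : Γ) (c : Finset V →₀ k) (τ : Finset V) :
    act k u c τ = c (τ.image (fun v => u⁻¹ • v)) := by
  have h : τ = (τ.image (fun v => u⁻¹ • v)).image (fun v => u • v) := by
    rw [image_image]; simp [Function.comp_def]
  conv_lhs => rw [h]
  exact Finsupp.mapDomain_apply (image_injective (MulAction.injective u)) _ _

omit [Fintype Γ] in
theorem image_inv {u : Γ} {τ τ' : Finset V} (h : τ.image (fun v => u • v) = τ') :
    τ'.image (fun v => u⁻¹ • v) = τ := by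
  rw [← h, image_image]; simp [Function.comp_def]

/-- Stabiliser of a simplex inside `N`. -/
def stab (N : Subgroup Γ) (τ : Finset V) : Subgroup Γ where
  carrier := {u | u ∈ N ∧ τ.image (fun v => u • v) = τ}
  one_mem' := ⟨N.one_mem, by simp⟩
  mul_mem' := by
    rintro a b ⟨ha, ha'⟩ ⟨hb, hb'⟩
    refine ⟨N.mul_mem ha hb, ?_⟩
    conv_rhs => rw [← ha', ← hb']
    rw [image_image]; simp [Function.comp_def, mul_smul]
  inv_mem' := by
    rintro a ⟨ha, ha'⟩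
    exact ⟨N.inv_mem ha, image_inv ha'⟩

theorem E_apply_apply [CharP k 2] (hodd : ∀ H : Subgroup Γ, Odd (Nat.card H)) {N : Subgroup Γ}
    {χ : Γ → k} {Xb : Set (Finset V)}
    (huniq : ∀ u ∈ N, ∀ τ ∈ Xb, τ.image (fun v => u • v) ∈ Xb → τ.image (fun v => u • v) = τ)
    {c : Finset V →₀ k} (hc : ∀ σ ∈ c.support, σ ∈ Xb) {τ : Finset V} (hτ : τ ∈ Xb)
    (htriv : ∀ a ∈ N, τ.image (fun v => a • v) = τ → χ a = 1) : E k N χ c τ = c τ := by
  classical
  rw [E_apply, Finsupp.finsetSum_apply]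
  have h1 : ∀ u ∈ elems N, (χ u⁻¹ • act k u c) τ = if u ∈ stab N τ then c τ else 0 := by
    intro u hu
    have hu' := N.inv_mem (mem_elems.1 hu)
    rw [Finsupp.smul_apply, act_apply]
    split_ifs with h
    · have h2 := ((stab N τ).inv_mem h).2
      rw [h2, htriv _ hu' h2, one_smul]
    · have : c (τ.image (fun v => u⁻¹ • v)) = 0 := by
        by_contra hne
        have h3 := huniq _ hu' τ hτ (hc _ (Finsupp.mem_support_iff.2 hne))
        exact h (by simpa using (stab N τ).inv_mem (⟨hu', h3⟩ : u⁻¹ ∈ stab N τ))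
      rw [this, smul_zero]
  rw [sum_congr rfl h1, ← sum_filter, sum_const]
  have h2 : (elems N).filter (· ∈ stab N τ) = elems (stab N τ) := by
    ext u
    simp only [mem_filter, mem_elems]
    exact ⟨fun h => h.2, fun h => ⟨h.1, h⟩⟩
  rw [h2, card_elems]
  obtain ⟨a, ha⟩ := hodd (stab N τ)
  rw [ha, add_smul, one_smul, mul_comm, mul_smul, two_smul, CharTwo.add_self_eq_zero, smul_zero,
    zero_add]

theorem bds_E [CharP k 2] (hodd : ∀ H : Subgroup Γ, Odd (Nat.card H)) {N : Subgroup Γ}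
    {χ : Γ → k} (hχ : ∀ a ∈ N, ∀ b ∈ N, χ (a * b) = χ a * χ b) {X Xb : Set (Finset V)}
    (hX : ∀ g ∈ N, ∀ σ ∈ X, σ.image (fun v => g • v) ∈ X) (hsub : Xb ⊆ X) (hdc : DC Xb)
    (hcov : ∀ σ ∈ X, ∃ a ∈ N, ∃ τ ∈ Xb, τ.image (fun v => a • v) = σ)
    (huniq : ∀ u ∈ N, ∀ τ ∈ Xb, τ.image (fun v => u • v) ∈ Xb → τ.image (fun v => u • v) = τ)
    (top : V → Prop)
    (h1 : ∀ τ ∈ Xb, ∀ a ∈ N, τ.image (fun v => a • v) = τ → χ a ≠ 1 → ∀ v ∈ τ, top v)
    (h2 : ∀ τ ∈ Xb, (∀ v ∈ τ, top v) → ∃ a ∈ N, τ.image (fun v => a • v) = τ ∧ χ a ≠ 1)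
    {m : ℕ}
    (hpush : ∀ c ∈ Ch k Xb m, (∀ τ ∈ (bd k c).support, ∀ v ∈ τ, top v) →
      ∃ w ∈ Ch k Xb (m + 1), ∀ τ ∈ (c + bd k w).support, ∀ v ∈ τ, top v)
    {z : Finset V →₀ k} (hz : z ∈ Ch k X m) (hb : bd k z = 0) : Bds k X m (E k N χ z) := by
  have hex : ∃ c ∈ Ch k Xb m, E k N χ c = E k N χ z := by
    have : E k N χ z ∈ (Ch k Xb m).map (E k N χ) := by
      refine map_mem_of_supp _ z _ fun σ hσ c => ?_
      obtain ⟨h3, h4⟩ := mem_Ch.1 hz σ hσ
      obtain ⟨a, ha, τ, hτ, rfl⟩ := hcov σ h3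
      rw [card_image_of_injective _ (MulAction.injective a)] at h4
      refine ⟨χ a • Finsupp.single τ c, Submodule.smul_mem _ _ (single_mem_Ch hτ h4 c), ?_⟩
      rw [map_smul, ← E_act hχ ha, act_single]
    exact this
  obtain ⟨c, hc, hE⟩ := hex
  have hbc : ∀ τ ∈ (bd k c).support, τ ∈ Xb := fun τ hτ => by
    obtain ⟨σ, hσ, v, _, rfl⟩ := exists_of_mem_supp_bd hτ
    exact hdc σ (mem_Ch.1 hc σ hσ).1 _ (erase_subset _ _)
  obtain ⟨w, hw, htop⟩ := hpush c hc fun τ hτ => by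
    by_contra hnot
    have := E_apply_apply (χ := χ) hodd huniq hbc (hbc τ hτ) fun a ha h => by
      by_contra hne
      exact hnot (h1 τ (hbc τ hτ) a ha h hne)
    rw [← bd_E, hE, bd_E, hb, map_zero] at this
    exact Finsupp.mem_support_iff.1 hτ this.symm
  have h0 : E k N χ (c + bd k w) = 0 := by
    rw [map_eq_sum]
    refine sum_eq_zero fun τ hτ => ?_
    obtain ⟨a, ha, h3, h4⟩ := h2 τ
      (mem_Ch.1 (Submodule.add_mem _ hc (bd_mem_Ch hdc hw)) τ hτ).1 (htop τ hτ)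
    exact E_single_eq_zero hχ ha h3 h4 _
  rw [map_add, hE, ← bd_E] at h0
  rw [eq_of_add_eq_zero2 h0]
  exact Bds.of_bd (E_mem χ hX (Ch_mono hsub hw))

end DeltaA

end Crest.Agent.R66
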