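import Crest.Agent.R66.Coset

/-! Row 66: dictionary between links of vertices and opposition complexes. -/

set_option autoImplicit false
set_option linter.unusedSectionVars false

namespace Crest.Agent.R66

open Finset Matrix

namespace Dict

variable {F G : Type} [Field F] [Group G] {n K : ℕ} [NeZero n]

lemma pos_lt (s a : ZMod n) : pos s a < n := ZMod.val_lt _

lemma add_pos (s a : ZMod n) : s + (pos s a : ZMod n) = a := by simp [pos]

lemma pos_inj {s a b : ZMod n} (h : pos s a = pos s b) : a = b := by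
  rw [← add_pos s a, h, add_pos]

lemma pos_add_self (s : ZMod n) {m : ℕ} (h : m < n) : pos s (s + (m : ZMod n)) = m := by
  simp [pos, ZMod.val_natCast, Nat.mod_eq_of_lt h]

lemma add_pos_sub {s a b : ZMod n} (h : pos s b ≤ pos s a) :
    b + ((pos s a - pos s b : ℕ) : ZMod n) = a := by
  rw [Nat.cast_sub h]; simp [pos]

lemma pos_of_le {s t b : ZMod n} (h : pos s t ≤ pos s b) : pos t b + pos s t = pos s b := by
  have := pos_lt s b
  conv_lhs => rw [← add_pos_sub h, pos_add_self t (by omega)]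
  omega

lemma pos_of_lt {s t b : ZMod n} (h : pos s b < pos s t) : pos t b + pos s t = n + pos s b := by
  have := pos_lt s t
  have e : b = t + ((n + pos s b - pos s t : ℕ) : ZMod n) := by
    rw [Nat.cast_sub (by omega)]; simp [pos]
  conv_lhs => rw [e, pos_add_self t (by omega)]
  omega

variable (S : Kap F n K G) (s : ZMod n) (A : Finset (ZMod n))

lemma pim_self (g : G) (a : ZMod n) : S.pim s g a a = 1 := by simp [Kap.pim, S.zero]

lemma pim_ne {g : G} {a b : ZMod n} (hab : a ≠ b) (h : S.pim s g a b ≠ 0) :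
    pos s b < pos s a ∧ S.κ g b (pos s a - pos s b) ≠ 0 := by
  unfold Kap.pim at h
  split_ifs at h with h1
  · exact ⟨lt_of_le_of_ne h1 fun e => hab (pos_inj e).symm, h⟩
  · exact absurd rfl h

lemma pim_one : S.pim s 1 = 1 := by
  ext a b
  by_cases h : a = b
  · rw [h, pim_self, one_apply_eq]
  · rw [one_apply_ne h]
    by_contra h0
    obtain ⟨h1, h2⟩ := pim_ne S s h h0
    exact h2 (S.one _ _ (by omega))

lemma pim_mul (hK : n ≤ K) (g g' : G) : S.pim s (g * g') = S.pim s g * S.pim s g' := by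
  ext a b
  rw [mul_apply]
  simp only [Kap.pim]
  have := pos_lt s a
  split_ifs with h
  · rw [S.mul _ _ _ _ (by omega), ← sum_filter_of_ne (s := univ)
      (p := fun c => pos s b ≤ pos s c ∧ pos s c ≤ pos s a) fun c _ hc =>
        ⟨of_not_not fun h => hc (by simp [h]), of_not_not fun h => hc (by simp [h])⟩]
    refine sum_nbij' (fun p => b + (p.2 : ZMod n)) (fun c => (pos s a - pos s c, pos s c - pos s b))
      (fun p hp => ?_) (fun c hc => ?_) (fun p hp => ?_) (fun c hc => ?_) (fun p hp => ?_)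
    · have := mem_antidiagonal.1 hp
      rw [mem_filter, Kap.pos_add s b _ (by omega)]
      exact ⟨mem_univ _, by omega, by omega⟩
    · have := (mem_filter.1 hc).2
      exact mem_antidiagonal.2 (by simp only; omega)
    · have := mem_antidiagonal.1 hp
      rw [Kap.pos_add s b _ (by omega)]
      ext <;> simp only <;> omega
    · exact add_pos_sub (mem_filter.1 hc).2.1
    · have := mem_antidiagonal.1 hp
      rw [Kap.pos_add s b _ (by omega), if_pos (by omega), if_pos (by omega)]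
      congr 2 <;> omega
  · refine (sum_eq_zero fun c _ => ?_).symm
    split_ifs with h1 h2 <;> first | omega | simp

/-- the linear map of `g` -/
noncomputable def lin (g : G) : (ZMod n → F) →ₗ[F] (ZMod n → F) := toLin' (S.pim s g)

lemma lin_apply (g : G) (v : ZMod n → F) (a : ZMod n) :
    lin S s g v a = ∑ b, S.pim s g a b * v b := rfl

lemma lin_mul (hK : n ≤ K) (g g' : G) (v : ZMod n → F) :
    lin S s (g * g') v = lin S s g (lin S s g' v) := by
  simp [lin, pim_mul S s hK]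

lemma lin_one (v : ZMod n → F) : lin S s 1 v = v := by simp [lin, pim_one]

lemma lin_E {t : ZMod n} {u : G} (hu : u ∈ S.U t) {v : ZMod n → F}
    (hv : v ∈ Esp F s (pos s t)) : lin S s u v ∈ Esp F s (pos s t) := fun a ha => by
  refine sum_eq_zero fun b _ => ?_
  by_contra h
  have h1 : pos s b < pos s t := not_le.1 fun hb => right_ne_zero_of_mul h (hv b hb)
  obtain ⟨h2, h3⟩ := pim_ne S s (fun e : a = b => by subst e; omega) (left_ne_zero_of_mul h)
  have h4 : pos t b + (pos s a - pos s b) < n := hu _ _ (by omega) h3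
  have := pos_of_lt h1
  omega

lemma map_E (hK : n ≤ K) {t : ZMod n} (g : G) {u : G} (hu : u ∈ S.U t) :
    (Esp F s (pos s t)).map (lin S s (g * u)) = (Esp F s (pos s t)).map (lin S s g) := by
  refine le_antisymm ?_ ?_ <;> rintro _ ⟨v, hv, rfl⟩
  · exact ⟨_, lin_E S s hu hv, (lin_mul S s hK g u v).symm⟩
  · exact ⟨_, lin_E S s (inv_mem hu) hv, by rw [← lin_mul S s hK, mul_inv_cancel_right]⟩

lemma lin_A {u : G} (hu : u ∈ S.P A) {v : ZMod n → F} (hv : v ∈ Asp F A) : lin S s u v = v := by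
  funext a
  rw [lin_apply, sum_eq_single a, pim_self, one_mul]
  · intro b _ hb
    by_contra h
    obtain ⟨h2, h3⟩ := pim_ne S s hb.symm (left_ne_zero_of_mul h)
    exact right_ne_zero_of_mul h (hv b (hu _ _ (by omega) h3).1)
  · simp

lemma lin_F {u : G} (hu : u ∈ S.P A) {m : ℕ} {v : ZMod n → F} (hv : v ∈ Fsp F s A m) :
    lin S s u v ∈ Fsp F s A m := fun a ha => by
  refine sum_eq_zero fun b _ => ?_
  by_contra h
  have h1 : ¬ (b ∉ A ∨ pos s b < m) := fun hb => right_ne_zero_of_mul h (hv b hb)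
  have hab : a ≠ b := fun e => h1 (e ▸ ha)
  obtain ⟨h2, h3⟩ := pim_ne S s hab (left_ne_zero_of_mul h)
  have h4 := (hu _ _ (by omega) h3).2
  rw [add_pos_sub h2.le] at h4
  rcases ha with ha | ha
  · exact ha h4
  · exact h1 (Or.inr (h2.trans ha))

lemma mem_phi {u : G} (hu : u ∈ S.P A) (t : ZMod n) (x : ZMod n → F) :
    x ∈ (S.phi s A t u).C ↔ ∃ v : ZMod n → F, (∀ a ∈ A, pos s t ≤ pos s a → v a = 0) ∧
      lin S s u v = x := by
  change x ∈ (Esp F s (pos s t)).map (lin S s u) ⊔ Asp F A ↔ _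
  rw [Submodule.mem_sup]
  constructor
  · rintro ⟨_, ⟨y, hy, rfl⟩, z, hz, rfl⟩
    exact ⟨y + z, fun a ha h => by rw [Pi.add_apply, hy a h, hz a ha, add_zero],
      by rw [map_add, lin_A S s A hu hz]⟩
  · rintro ⟨v, hv, rfl⟩
    have hz : (fun a => if a ∈ A then 0 else v a) ∈ Asp F A := fun a ha => if_pos ha
    refine ⟨_, ⟨fun a => if a ∈ A then v a else 0, fun a h => ?_, rfl⟩, _, hz, ?_⟩
    · simp only; split_ifs with ha; exacts [hv a ha h, rfl]
    · rw [← lin_A S s A hu hz, ← map_add]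
      congr 1
      funext a
      simp only [Pi.add_apply]
      split_ifs <;> simp

lemma Phi_vtx (hK : n ≤ K) (t : ZMod n) (g : G) : S.Phi s A (vtx S.U t g) = S.phi s A t g := by
  obtain ⟨u, hu⟩ := QuotientGroup.mk_out_eq_mul (S.U t) g
  change S.phi s A t (Quotient.out (g : G ⧸ S.U t)) = _
  rw [hu]
  exact OV.ext rfl (congrArg (· ⊔ Asp F A) (map_E S s hK g u.2))

lemma phi_inj (hK : n ≤ K) {u u' : G} (hu : u ∈ S.U s ⊓ S.P A) (hu' : u' ∈ S.U s ⊓ S.P A)
    {t t' : ZMod n} (h : S.phi s A t u = S.phi s A t' u') : vtx S.U t u = vtx S.U t' u' := by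
  obtain rfl : t = t' := pos_inj (congrArg OV.t h)
  refine vtx_eq_iff.2 ⟨rfl, fun b k hk hne => ?_⟩
  have hw := mul_mem (inv_mem hu) hu'
  have h1 : pos s b + k < n := hw.1 b k hk hne
  have h2 := (hw.2 b k hk hne).2
  rcases le_or_gt (pos s t) (pos s b) with hb | hb
  · have := pos_of_le hb; omega
  have h3 : lin S s u' (Pi.single b 1) ∈ (S.phi s A t u).C := by
    rw [h]
    exact (mem_phi S s A hu'.2 t _).2 ⟨_, fun a _ ha =>
      Pi.single_eq_of_ne (fun e : a = b => by subst e; omega) _, rfl⟩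
  obtain ⟨v, hv, e⟩ := (mem_phi S s A hu.2 t _).1 h3
  have h4 : lin S s (u⁻¹ * u') (Pi.single b 1) = v := by
    rw [lin_mul S s hK, ← e, ← lin_mul S s hK, inv_mul_cancel, lin_one]
  have h5 := congrFun h4 (b + (k : ZMod n))
  have h6 := Kap.pos_add s b k h1
  simp only [lin, toLin'_apply, mulVec_single_one, col_apply, Kap.pim, h6, Nat.le_add_right,
    if_true, Nat.add_sub_cancel_left] at h5
  have h7 : ¬ pos s t ≤ pos s (b + (k : ZMod n)) := fun h => hne (h5.trans (hv _ h2 h))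
  have := pos_of_lt hb
  omega

lemma phi_compl (hK : n ≤ K) {u : G} (hu : u ∈ S.P A) (t : ZMod n) :
    IsCompl (S.phi s A t u).C (Fsp F s A (pos s t)) := by
  constructor
  · refine Submodule.disjoint_def.2 fun x hx hx' => ?_
    obtain ⟨v, hv, rfl⟩ := (mem_phi S s A hu t _).1 hx
    have h1 := lin_F S s A (inv_mem hu) hx'
    rw [← lin_mul S s hK, inv_mul_cancel, lin_one] at h1
    have : v = 0 := funext fun a => by
      by_cases ha : a ∉ A ∨ pos s a < pos s t
      · exact h1 a ha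
      · push Not at ha
        exact hv a ha.1 ha.2
    rw [this, map_zero]
  · refine codisjoint_iff_le_sup.2 fun x _ => Submodule.mem_sup.2 ?_
    obtain ⟨v, rfl⟩ : ∃ v, lin S s u v = x :=
      ⟨lin S s u⁻¹ x, by rw [← lin_mul S s hK, mul_inv_cancel, lin_one]⟩
    refine ⟨_, (mem_phi S s A hu t _).2 ⟨fun a => if a ∉ A ∨ pos s a < pos s t then v a else 0,
      fun a ha h => if_neg (by simp [ha, h]), rfl⟩, _, lin_F S s A hu
      (v := fun a => if a ∉ A ∨ pos s a < pos s t then 0 else v a) (fun a ha => if_pos ha), ?_⟩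
    rw [← map_add]
    congr 1
    funext a
    simp only [Pi.add_apply]
    split_ifs <;> simp

lemma phi_surj (hK : n ≤ K) (σ : Finset (OV F (ZMod n → F)))
    (h : ∀ v ∈ σ, v.t < n ∧ IsCompl v.C (Fsp F s A v.t) ∧ Asp F A ≤ v.C) (hσ : IsCh σ) :
    ∃ u ∈ S.U s ⊓ S.P A, ∀ v ∈ σ, v = S.phi s A (s + (v.t : ZMod n)) u := by
  have h1 : ∀ b : ZMod n, ∃ y ∈ Fsp F s A (pos s b + 1), (b ∉ A → y = 0) ∧
      ∀ v ∈ σ, pos s b < v.t → Pi.single b 1 + y ∈ v.C := fun b => by
    by_cases hb : b ∈ A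
    swap
    · refine ⟨0, zero_mem _, fun _ => rfl, fun v hv _ => (h v hv).2.2 fun a ha => ?_⟩
      rw [add_zero, Pi.single_eq_of_ne fun e : a = b => hb (e ▸ ha)]
    rcases eq_empty_or_nonempty {v ∈ σ | pos s b < v.t} with h0 | h0
    · exact ⟨0, zero_mem _, fun _ => rfl, fun v hv hv' =>
        absurd (mem_filter.2 ⟨hv, hv'⟩) (h0 ▸ notMem_empty v)⟩
    obtain ⟨w, hw, hmin⟩ := exists_min_image _ OV.t h0
    obtain ⟨hw1, hw2⟩ := mem_filter.1 hw
    obtain ⟨x, hx, y, hy, e⟩ := Submodule.mem_sup.1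
      (codisjoint_iff_le_sup.1 (h w hw1).2.1.codisjoint (Submodule.mem_top (x := Pi.single b 1)))
    refine ⟨-y, neg_mem fun a ha => hy a (ha.imp_right fun _ => by omega), fun h => absurd hb h,
      fun v hv hv' => hσ w hw1 v hv (hmin v (mem_filter.2 ⟨hv, hv'⟩)) ?_⟩
    rwa [← e, add_neg_cancel_right]
  choose y hy1 hy2 hy3 using h1
  obtain ⟨g, hg⟩ := S.exH (fun b k => if pos s b + k < n then y b (b + (k : ZMod n)) else 0) (pos s)
    (fun b k hk hne => by
      rw [Kap.pos_add s b k (of_not_not fun h => hne (if_neg h))]; omega)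
  have hg' : ∀ b k, 1 ≤ k → S.κ g b k ≠ 0 → pos s b + k < n ∧ y b (b + (k : ZMod n)) ≠ 0 :=
    fun b k hk hne => by
      rw [hg b k hk (not_le.1 fun h => hne (S.ge _ _ _ h))] at hne
      have := of_not_not fun h => hne (if_neg h)
      exact ⟨this, by rwa [if_pos this] at hne⟩
  have hP : g ∈ S.P A := fun b k hk hne =>
    ⟨of_not_not fun h => (hg' b k hk hne).2 (by rw [hy2 b h]; rfl),
      of_not_not fun h => (hg' b k hk hne).2 (hy1 b _ (Or.inl h))⟩
  have hcol : ∀ b, lin S s g (Pi.single b 1) = Pi.single b 1 + y b := fun b => by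
    funext a
    simp only [lin, toLin'_apply, mulVec_single_one, col_apply, Pi.add_apply]
    rcases lt_trichotomy (pos s a) (pos s b) with hab | hab | hab
    · rw [Kap.pim, if_neg (by omega), Pi.single_eq_of_ne fun e : a = b => by subst e; omega,
        hy1 b a (Or.inr (by omega)), add_zero]
    · rw [pos_inj hab, pim_self, Pi.single_eq_same, hy1 b b (Or.inr (by omega)), add_zero]
    · have := pos_lt s a
      rw [Kap.pim, if_pos hab.le, hg _ _ (by omega) (by omega), if_pos (by omega),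
        add_pos_sub hab.le, Pi.single_eq_of_ne fun e : a = b => by subst e; omega, zero_add]
  refine ⟨g, ⟨fun b k hk hne => (hg' b k hk hne).1, hP⟩, fun v hv => ?_⟩
  obtain ⟨a1, a2, a3⟩ := h v hv
  have e := pos_add_self s a1
  have hc := phi_compl S s A hK hP (s + (v.t : ZMod n))
  rw [e] at hc
  refine OV.ext e.symm (eq_of_le_of_inf_le_of_le_sup (z := Fsp F s A v.t) ?_
    (by rw [a2.inf_eq_bot]; exact bot_le) (by rw [hc.sup_eq_top]; exact le_top)).symm
  refine sup_le ?_ a3
  rintro _ ⟨x, hx, rfl⟩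
  rw [e] at hx
  change lin S s g x ∈ _
  rw [← univ_sum_single x, map_sum]
  refine sum_mem fun b _ => ?_
  by_cases hb : pos s b < v.t
  · rw [← mul_one (x b), ← smul_eq_mul, Pi.single_smul, map_smul, hcol]
    exact Submodule.smul_mem _ _ (hy3 b v hv hb)
  · rw [hx b (not_lt.1 hb), Pi.single_zero, map_zero]
    exact zero_mem _

end Dict

open Dict in
theorem dictStmt : DictStmt := by
  intro F G _ _ n K _ S hK s A
  refine ⟨pim_one S s, pim_mul S s hK, Phi_vtx S s A hK,
    fun u hu u' hu' t t' h => phi_inj S s A hK hu hu' h, fun u hu t => phi_compl S s A hK hu t,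
    phi_surj S s A hK, fun k _ T A' B Y m hA h => Ac.of_iso (S.Phi s A) ?_ ?_ ?_ h⟩
  · rintro τ ⟨u, hu, h1, h2⟩
    refine ⟨fun w hw => ?_, fun w hw w' hw' hle => ?_⟩
    · obtain ⟨v, hv, rfl⟩ := mem_image.1 hw
      have h3 := h2 v hv
      obtain ⟨t, ht, rfl⟩ := mem_face.1 (h1 hv)
      rw [Phi_vtx S s A hK] at h3 ⊢
      exact ⟨mem_image_of_mem _ ht, phi_compl S s A hK hu.2 t, h3⟩
    · obtain ⟨v, hv, rfl⟩ := mem_image.1 hw
      obtain ⟨v', hv', rfl⟩ := mem_image.1 hw'
      obtain ⟨t, -, rfl⟩ := mem_face.1 (h1 hv)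
      obtain ⟨t', -, rfl⟩ := mem_face.1 (h1 hv')
      rw [Phi_vtx S s A hK, Phi_vtx S s A hK] at hle ⊢
      exact sup_le_sup_right (Submodule.map_mono (p := Esp F s (pos s t)) (p' := Esp F s (pos s t'))
        fun x hx a ha => hx a (le_trans hle ha)) _
  · rintro τ ⟨u, hu, h1, -⟩ τ' ⟨u', hu', h1', -⟩ v hv v' hv' e
    obtain ⟨t, -, rfl⟩ := mem_face.1 (h1 hv)
    obtain ⟨t', -, rfl⟩ := mem_face.1 (h1' hv')
    rw [Phi_vtx S s A hK, Phi_vtx S s A hK] at e
    exact phi_inj S s A hK hu hu' e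
  · rintro σ ⟨h1, h2⟩
    obtain ⟨u, hu, h3⟩ := phi_surj S s A hK σ (fun v hv => by
      obtain ⟨a1, a2, a3, -⟩ := h1 v hv
      obtain ⟨t, -, e⟩ := mem_image.1 a1
      exact ⟨e ▸ pos_lt s t, a2, hA.trans a3⟩) h2
    refine ⟨σ.image fun v => vtx S.U (s + (v.t : ZMod n)) u, ⟨u, hu, fun w hw => ?_,
      fun w hw => ?_⟩, ?_⟩
    · obtain ⟨v, hv, rfl⟩ := mem_image.1 hw
      obtain ⟨t, ht, e⟩ := mem_image.1 (h1 v hv).1
      exact mem_face.2 ⟨t, ht, by rw [← e, Dict.add_pos]⟩
    · obtain ⟨v, hv, rfl⟩ := mem_image.1 hw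
      rw [Phi_vtx S s A hK, ← h3 v hv]
      exact (h1 v hv).2.2
    · rw [image_image, image_congr (g := id) fun v hv => by
        simp only [Function.comp_apply, id]; rw [Phi_vtx S s A hK, ← h3 v hv], image_id]

end Crest.Agent.R66
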