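import Crest.Agent.R66.FinA

/-! Row 66, final step. -/

set_option autoImplicit false

namespace Crest.Agent.R66

open Finset Crest.CombinatoricsR.Cochain

namespace FinA

theorem core {G 𝒯 : Type} [Group G] [Fintype G] [Fintype 𝒯] [DecidableEq 𝒯]
    (U : 𝒯 → Subgroup G) (k : Type) [Field k] [Algebra (ZMod 2) k] (d M : ℕ) (hd1 : 1 ≤ d)
    (hd : d + 1 ≤ Fintype.card 𝒯) (hM : ∀ s, (elems (U s)).card ≤ M)
    (hA : ∀ m ≤ d, Ac k (Dl U ⊤ univ) m) (C : ℝ) (hC : 0 < C) (hCo : Cosys U (d + 1) C)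
    (N : ℕ) (hN : N * M ≤ Fintype.card G) :
    ∃ n : ℕ, ∃ T : Finset (Finset (Fin n)), N ≤ n ∧
      (∀ τ ∈ T, τ.card = d + 1) ∧
      (∀ v : Fin n, 1 ≤ vertexDegree T v ∧ vertexDegree T v ≤ 2 ^ Fintype.card 𝒯 * M) ∧
      (skeleton T).Connected ∧
      ∀ i : ℕ, i < d → ∀ f : Finset (Fin n) → ZMod 2,
        ∃ b : Finset (Fin n) → ZMod 2, IsCoboundaryClass i b ∧
          (1 / (2 ^ Fintype.card 𝒯 * M * C * M * 2 ^ (d + 1))) * cochainNorm d T i (f - b) ≤
            cochainNorm d T (i + 1) (coboundary i f) := by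
  classical
  have hfin : Finite (Vx U) := by unfold Vx; infer_instance
  let _ : Fintype (Vx U) := Fintype.ofFinite _
  let e : Vx U ≃ Fin (Fintype.card (Vx U)) := Fintype.equivFin _
  let x : 𝒯 → G → Fin (Fintype.card (Vx U)) := fun s g => e (vtx U s g)
  have hx : TV U x := fun s s' g g' => by
    simp only [x, e.apply_eq_iff_eq]; exact tv_vtx U s s' g g'
  have hsurj : ∀ v, ∃ s g, x s g = v := fun v => by
    obtain ⟨s, g, h⟩ := vtx_surj U (e.symm v)
    exact ⟨s, g, by simp [x, h]⟩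
  obtain ⟨s₀⟩ : Nonempty 𝒯 := Fintype.card_pos_iff.1 (by omega)
  have hM0 : 0 < M := lt_of_lt_of_le (card_pos.2 ⟨1, mem_elems.2 (U s₀).one_mem⟩) (hM s₀)
  refine ⟨_, tops x d, ?_, ?_, ?_, ?_, ?_⟩
  · have h1 := card_le_mul_card_image (f := x s₀) univ M (by
      intro v hv
      obtain ⟨g, -, rfl⟩ := mem_image.1 hv
      refine le_trans (card_le_card (t := (elems (U s₀)).image fun u => g * u) ?_)
        (card_image_le.trans (hM s₀))
      intro g' hg'
      exact mem_image.2 ⟨g⁻¹ * g', mem_elems.2 ((hx _ _ _ _).1 (mem_filter.1 hg').2.symm).2,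
        by simp⟩)
    have h2 : (univ.image (x s₀)).card ≤ Fintype.card (Vx U) :=
      (card_le_univ _).trans (Fintype.card_fin _).le
    rw [card_univ] at h1
    have h3 : N * M ≤ Fintype.card (Vx U) * M := by
      calc N * M ≤ M * (univ.image (x s₀)).card := hN.trans h1
        _ ≤ M * Fintype.card (Vx U) := Nat.mul_le_mul_left _ h2
        _ = _ := mul_comm _ _
    exact Nat.le_of_mul_le_mul_right h3 hM0
  · intro τ hτ
    obtain ⟨g, J, hJ, rfl⟩ := mem_tops.1 hτ
    rw [hx.card, hJ]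
  · intro v
    obtain ⟨s, g, rfl⟩ := hsurj v
    refine ⟨?_, deg_le hx hM d s g⟩
    obtain ⟨τ, h1, h2⟩ := exists_top (x := x) hd g (J := {s}) (by simp)
    exact card_pos.2 ⟨τ, mem_filter.2 ⟨h1, h2 (mem_image_of_mem _ (mem_singleton_self s))⟩⟩
  · have : Nonempty (Fin (Fintype.card (Vx U))) := ⟨x s₀ 1⟩
    refine ⟨fun u v => ?_⟩
    let χ : Fin (Fintype.card (Vx U)) → ZMod 2 := fun w =>
      if (skeleton (tops x d)).Reachable u w then 1 else 0
    obtain ⟨γ, hγ⟩ := dual' k e 1 (hA 1 hd1) (fun σ => ∑ w ∈ σ, χ w) (by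
      intro g J hJ
      obtain ⟨s, t, hst, rfl⟩ := card_eq_two.1 hJ
      have hadj : (skeleton (tops x d)).Adj (x s g) (x t g) := by
        obtain ⟨τ, h1, h2⟩ := exists_top (x := x) hd g (J := {s, t}) (by omega)
        exact ⟨fun h => hst (hx.inj g h), τ, h1, h2 (mem_image_of_mem _ (by simp)),
          h2 (mem_image_of_mem _ (by simp))⟩
      have hχ : χ (x s g) = χ (x t g) := by
        simp only [χ]
        exact if_congr ⟨fun h => h.trans hadj.reachable, fun h => h.trans hadj.symm.reachable⟩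
          rfl rfl
      rw [sum_pair hst, erase_insert (by simpa using hst), pair_comm,
        erase_insert (by simpa using hst.symm)]
      simp only [FF, image_singleton, sum_singleton]
      change χ (x t g) + χ (x s g) = 0
      rw [hχ, CharTwo.add_self_eq_zero])
    have h1 : ∀ w, χ w = γ ∅ := fun w => by
      obtain ⟨s, g, rfl⟩ := hsurj w
      have := hγ g {s} (by simp)
      simpa [FF] using this
    have h2 : χ v = 1 := by rw [h1 v, ← h1 u]; simp [χ]
    by_contra h3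
    simp [χ, h3] at h2
  · intro i hi f
    let φ : Finset 𝒯 → G → ZMod 2 := fun J g => f (FF x g J)
    have hinv : ∀ {J : Finset 𝒯} {u w : G}, w ∈ UI U (∅ ∪ J) → FF x (u * w) J = FF x u J := by
      intro J u w hw
      refine (hx.eq_iff.2 ⟨rfl, fun s hs => ?_⟩).symm
      rw [inv_mul_cancel_left]
      simp only [UI, empty_union, Subgroup.mem_iInf] at hw
      exact hw s hs
    obtain ⟨φ', h1, h2, h3⟩ := hCo (i + 1) (by omega) φ (fun J u _ w hw => by
      simp only [φ, hinv hw])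
    let f' : Finset (Fin (Fintype.card (Vx U))) → ZMod 2 := fun σ =>
      if h : ∃ p : Finset 𝒯 × G, FF x p.2 p.1 = σ then φ' h.choose.1 h.choose.2 else 0
    have hf' : ∀ g J, f' (FF x g J) = φ' J g := by
      intro g J
      have h : ∃ p : Finset 𝒯 × G, FF x p.2 p.1 = FF x g J := ⟨(J, g), rfl⟩
      simp only [f', dif_pos h]
      obtain ⟨h4, h5⟩ := hx.eq_iff.1 h.choose_spec
      have := h1 J h.choose.2 (by simp [UI]) (h.choose.2⁻¹ * g) (by
        simp only [UI, empty_union, Subgroup.mem_iInf]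
        intro s hs
        exact h5 s (by rw [h4]; exact hs))
      rw [mul_inv_cancel_left] at this
      rw [this, h4]
    obtain ⟨γ, hγ⟩ := dual' k e (i + 1) (hA _ (by omega)) f' (by
      intro g J hJ
      have := h2 J hJ g
      simp only [dl] at this
      rw [← this]
      exact sum_congr rfl fun s _ => hf' g _)
    have hb : ∃ b : Finset (Fin (Fintype.card (Vx U))) → ZMod 2, IsCoboundaryClass i b ∧
        ∀ g (J : Finset 𝒯), J.card = i + 1 → b (FF x g J) = φ' J g := by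
      rcases Nat.eq_zero_or_pos i with rfl | hi0
      · refine ⟨fun _ => γ ∅, Or.inl ⟨rfl, γ ∅, fun _ => rfl⟩, fun g J hJ => ?_⟩
        obtain ⟨s, rfl⟩ := card_eq_one.1 hJ
        rw [← hf', hγ g {s} hJ]
        simp [FF]
      · refine ⟨coboundary (i - 1) γ, Or.inr ⟨hi0, γ, rfl⟩, fun g J hJ => ?_⟩
        rw [← hf', hγ g J hJ, coboundary, sum_powersetCard _ _ (by rw [hx.card]; omega), hx.sum]
    obtain ⟨b, hb1, hb2⟩ := hb
    refine ⟨b, hb1, ?_⟩
    have h4 := wt_le hx hM d (i + 1) (by omega) (f - b) (φ + φ') (fun g J hJ => by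
      rw [Pi.sub_apply, hb2 g J hJ, CharTwo.sub_eq_add]; rfl)
    have h5 := le_wt hx hM d (i + 1 + 1) (by omega) (by omega) hd (coboundary i f) (dl φ)
      (fun g J hJ => by
        rw [coboundary, sum_powersetCard _ _ (by rw [hx.card]; omega), hx.sum]; rfl)
    rw [lnrm_eq, lnrm_eq, ← mul_div_assoc,
      div_le_div_iff_of_pos_right (by exact_mod_cast Fintype.card_pos)] at h3
    rw [norm_eq, norm_eq]
    have hT : (0 : ℝ) < (tops x d).card := by
      obtain ⟨τ, h, -⟩ := exists_top (x := x) hd 1 (J := ∅) (by simp)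
      exact_mod_cast card_pos.2 ⟨τ, h⟩
    have hc1 : (1 : ℝ) ≤ (d + 1).choose (i + 1) := by
      exact_mod_cast Nat.choose_pos (by omega)
    have hc2 : (0 : ℝ) < (d + 1).choose (i + 1 + 1) := by
      exact_mod_cast Nat.choose_pos (by omega)
    have hc3 : ((d + 1).choose (i + 1 + 1) : ℝ) ≤ 2 ^ (d + 1) := by
      exact_mod_cast Nat.choose_le_two_pow _ _
    have hM' : (0 : ℝ) < M := by exact_mod_cast hM0
    have h6 : (wt (tops x d) (i + 1) (f - b) : ℝ) ≤
        2 ^ Fintype.card 𝒯 * M * C * M * wt (tops x d) (i + 1 + 1) (coboundary i f) := by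
      have h4' : (wt (tops x d) (i + 1) (f - b) : ℝ) ≤
          2 ^ Fintype.card 𝒯 * M * (cntP (i + 1) (φ + φ')).card := by exact_mod_cast h4
      have h5' : ((cntP (i + 1 + 1) (dl φ)).card : ℝ) ≤
          M * wt (tops x d) (i + 1 + 1) (coboundary i f) := by exact_mod_cast h5
      calc _ ≤ _ := h4'
        _ ≤ 2 ^ Fintype.card 𝒯 * M * (C * (M * wt (tops x d) (i + 1 + 1) (coboundary i f))) := by
          gcongr
          exact h3.trans (by gcongr)
        _ = _ := by ring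
    set a : ℝ := (wt (tops x d) (i + 1) (f - b) : ℝ)
    set a' : ℝ := (wt (tops x d) (i + 1 + 1) (coboundary i f) : ℝ)
    have ha : 0 ≤ a := Nat.cast_nonneg _
    have ha' : 0 ≤ a' := Nat.cast_nonneg _
    set L : ℝ := 2 ^ Fintype.card 𝒯 * M * C * M
    have hL : 0 < L := by positivity
    calc 1 / (L * 2 ^ (d + 1)) * (a / (((d + 1).choose (i + 1) : ℝ) * (tops x d).card))
        ≤ 1 / (L * 2 ^ (d + 1)) * (L * a' / (1 * (tops x d).card)) := by gcongr
      _ = a' / (2 ^ (d + 1) * (tops x d).card) := by field_simp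
      _ ≤ _ := by gcongr

theorem card_U {F G : Type} [Field F] [Fintype F] [Group G] [Fintype G] {n K : ℕ} [NeZero n]
    (S : Kap F n K G) (s : ZMod n) : (elems (S.U s)).card ≤ (Fintype.card F ^ n) ^ n := by
  classical
  have h := card_le_card_of_injOn (s := elems (S.U s)) (t := (univ : Finset (ZMod n → Fin n → F)))
    (fun g b h => S.κ g b h) (fun _ _ => mem_coe.2 (mem_univ _)) (by
      intro g hg g' hg' h
      have hg1 := mem_elems.1 (mem_coe.1 hg)
      have hg2 := mem_elems.1 (mem_coe.1 hg')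
      refine S.ext _ _ fun b m => ?_
      by_cases hm : m < n
      · exact congrFun (congrFun h b) ⟨m, hm⟩
      · have h0 := NeZero.pos n
        have h1 : S.κ g b m = 0 := by
          by_contra hne
          have := S.mem_pat.1 hg1 b m (by omega) hne
          omega
        have h2 : S.κ g' b m = 0 := by
          by_contra hne
          have := S.mem_pat.1 hg2 b m (by omega) hne
          omega
        rw [h1, h2])
  simpa [ZMod.card] using h

theorem card_G {F G : Type} [Field F] [Group G] [Fintype G] {n K : ℕ} (hn : 2 ≤ n)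
    (S : Kap F n K G) (L : ℕ) (hK : n * (L + 2) ≤ K) : L ≤ Fintype.card G := by
  classical
  have : Fact (1 < n) := ⟨hn⟩
  have h : ∀ i : Fin L, ∃ g, ∀ b h, 1 ≤ h → h < K →
      S.κ g b h = if b = 0 ∧ h = 1 + n * i then 1 else 0 := fun i =>
    S.exH (fun b h => if b = 0 ∧ h = 1 + n * i then 1 else 0) (fun b => if b = 1 then 1 else 0) (by
      intro b h _ hne
      have h1 : b = 0 ∧ h = 1 + n * i := by
        by_contra hc
        exact hne (if_neg hc)
      obtain ⟨rfl, rfl⟩ := h1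
      simp)
  choose g hg using h
  have hinj : Function.Injective g := by
    intro i j hij
    have hlt : 1 + n * i < K := by
      have : n * i ≤ n * L := Nat.mul_le_mul_left _ i.2.le
      rw [mul_add] at hK
      omega
    have h1 := hg i 0 (1 + n * i) (by omega) hlt
    have h2 := hg j 0 (1 + n * i) (by omega) hlt
    rw [hij, h2, if_pos (⟨rfl, rfl⟩ : (0 : ZMod n) = 0 ∧ 1 + n * i = 1 + n * i)] at h1
    have h3 : (0 : ZMod n) = 0 ∧ 1 + n * (i : ℕ) = 1 + n * j := by
      by_contra hc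
      rw [if_neg hc] at h1
      exact zero_ne_one h1
    exact Fin.ext (Nat.eq_of_mul_eq_mul_left (by omega : 0 < n) (by omega))
  simpa using Fintype.card_le_of_injective g hinj

end FinA

open FinA in
theorem final_of (hG : GrpStmt) (hX : XStmt) (hD : D1Stmt) (hS : SpecStmt) (hL : LinkStmt)
    (d : ℕ) (hd : 3 ≤ d) :
    ∃ D : ℕ, ∃ ε : ℝ, 0 < ε ∧ ∀ N : ℕ, ∃ n : ℕ, ∃ T : Finset (Finset (Fin n)), N ≤ n ∧
      (∀ τ ∈ T, τ.card = d + 1) ∧
      (∀ v : Fin n, 1 ≤ Crest.CombinatoricsR.Cochain.vertexDegree T v ∧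
        Crest.CombinatoricsR.Cochain.vertexDegree T v ≤ D) ∧
      (Crest.CombinatoricsR.Cochain.skeleton T).Connected ∧
      ∀ i : ℕ, i < d → ∀ f : Finset (Fin n) → ZMod 2,
        ∃ b : Finset (Fin n) → ZMod 2, Crest.CombinatoricsR.Cochain.IsCoboundaryClass i b ∧
          ε * Crest.CombinatoricsR.Cochain.cochainNorm d T i (f - b) ≤
            Crest.CombinatoricsR.Cochain.cochainNorm d T (i + 1)
              (Crest.CombinatoricsR.Cochain.coboundary i f) := by
  obtain ⟨n₁, hn₁⟩ := hX d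
  obtain ⟨n₂, hn₂⟩ := hL (d + 1)
  obtain ⟨n, hn1, hn2, hn3⟩ : ∃ n, n₁ ≤ n ∧ n₂ ≤ n ∧ d + 3 ≤ n :=
    ⟨n₁ + n₂ + d + 3, by omega, by omega, by omega⟩
  have : NeZero n := ⟨by omega⟩
  obtain ⟨Kc, hKc, hL'⟩ := hn₂ n hn2
  obtain ⟨lam, hlam, ε, hε, hD'⟩ := hD n (d + 1) Kc hKc
  obtain ⟨q₁, hq₁⟩ := hS n (by omega) lam hlam
  obtain ⟨q₂, hq₂⟩ := hL' ε hε
  obtain ⟨p, hp1, hp⟩ := Nat.exists_infinite_primes (q₁ + q₂ + 3)
  have : Fact p.Prime := ⟨hp⟩
  obtain ⟨C, hC, hD''⟩ := hD' ((p ^ n) ^ n)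
  have hM : 0 < (p ^ n) ^ n := by have := hp.pos; positivity
  refine ⟨2 ^ n * (p ^ n) ^ n,
    1 / (2 ^ n * ((p ^ n) ^ n : ℕ) * C * ((p ^ n) ^ n : ℕ) * 2 ^ (d + 1)), by positivity,
    fun N => ?_⟩
  have hnK : n ≤ n * (N * (p ^ n) ^ n + 2) := Nat.le_mul_of_pos_right _ (by omega)
  obtain ⟨G, _, _, ⟨S⟩⟩ := hG (ZMod p) n (n * (N * (p ^ n) ^ n + 2)) (by omega)
  let ψ := AddChar.FiniteField.primitiveChar (ZMod p) (ZMod 2) (by
    rw [ZMod.ringChar_zmod_n, ZMod.ringChar_zmod_n]; omega)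
  have : CharP (CyclotomicField ψ.n (ZMod 2)) 2 :=
    charP_of_injective_algebraMap (algebraMap (ZMod 2) _).injective 2
  have hU : ∀ s, (elems (S.U s)).card ≤ (p ^ n) ^ n := fun s => by
    simpa [ZMod.card] using card_U S s
  have hcore := core S.U (CyclotomicField ψ.n (ZMod 2)) d ((p ^ n) ^ n) (by omega)
    (by rw [ZMod.card]; omega) hU
    (hn₁ (ZMod p) _ G n _ S ψ.char (by rw [ZMod.card]; exact hp.odd_of_ne_two (by omega)) ψ.prim
      hnK hn1) C hC
    (hD'' G (ZMod n) S.U (ZMod.card n) hU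
      (hq₁ (ZMod p) G _ S (by rw [ZMod.card]; omega) hnK)
      (hq₂ (ZMod p) G _ S (by rw [ZMod.card]; omega) hnK)) N
    (card_G (by omega) S _ le_rfl)
  rw [ZMod.card] at hcore
  exact hcore

end Crest.Agent.R66
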