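import Crest.Agent.R66.Defs
import Crest.Prelude.Def_Cochain

/-! Row 66, final step, part A: duality, typed faces, norm comparisons. -/

set_option autoImplicit false

namespace Crest.Agent.R66.FinA

open Finset Crest.CombinatoricsR.Cochain

theorem factor {K A B C : Type*} [Field K] [AddCommGroup A] [Module K A] [AddCommGroup B]
    [Module K B] [AddCommGroup C] [Module K C] (f : A →ₗ[K] B) (g : A →ₗ[K] C)
    (h : LinearMap.ker f ≤ LinearMap.ker g) : ∃ γ : B →ₗ[K] C, ∀ a, γ (f a) = g a := by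
  obtain ⟨γ, hγ⟩ := LinearMap.exists_extend
    (((LinearMap.ker f).liftQ g h).comp f.quotKerEquivRange.symm.toLinearMap)
  refine ⟨γ, fun a => ?_⟩
  have := LinearMap.congr_fun hγ ⟨f a, LinearMap.mem_range_self f a⟩
  simp only [LinearMap.comp_apply, Submodule.subtype_apply, LinearEquiv.coe_coe,
    LinearMap.quotKerEquivRange_symm_apply_image, Submodule.mkQ_apply, Submodule.liftQ_apply] at this
  exact this

theorem factor' {K A B C : Type*} [Field K] [AddCommGroup A] [Module K A] [AddCommGroup B]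
    [Module K B] [AddCommGroup C] [Module K C] (p : Submodule K A) (f : A →ₗ[K] B) (g : A →ₗ[K] C)
    (h : ∀ z ∈ p, f z = 0 → g z = 0) : ∃ γ : B →ₗ[K] C, ∀ a ∈ p, γ (f a) = g a := by
  obtain ⟨γ, hγ⟩ := factor (f.comp p.subtype) (g.comp p.subtype) fun z hz => h z.1 z.2 hz
  exact ⟨γ, fun a ha => hγ ⟨a, ha⟩⟩

theorem bd_single' (k : Type) [Field k] {V : Type} [DecidableEq V] (σ : Finset V) :
    bd k (Finsupp.single σ (1 : k)) = ∑ v ∈ σ, Finsupp.single (σ.erase v) (1 : k) := by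
  simp [bd]

/-- cocycles are coboundaries when cycles bound -/
theorem dual (k : Type) [Field k] [Algebra (ZMod 2) k] {V : Type} [DecidableEq V]
    (X : Set (Finset V)) (r : ℕ) (hA : Ac k X r) (h : Finset V → ZMod 2)
    (hc : ∀ τ ∈ X, τ.card = r + 1 → ∑ v ∈ τ, h (τ.erase v) = 0) :
    ∃ γ : Finset V → ZMod 2, ∀ σ ∈ X, σ.card = r → h σ = ∑ v ∈ σ, γ (σ.erase v) := by
  let Λ : (Finset V →₀ k) →ₗ[k] k :=
    Finsupp.linearCombination k fun σ => algebraMap (ZMod 2) k (h σ)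
  have hΛ : ∀ σ, Λ (Finsupp.single σ 1) = algebraMap (ZMod 2) k (h σ) := fun σ => by simp [Λ]
  have h1 : ∀ w ∈ Ch k X (r + 1), Λ (bd k w) = 0 := by
    intro w hw
    rw [Ch, Finsupp.supported_eq_span_single] at hw
    induction hw using Submodule.span_induction with
    | mem x hx =>
      obtain ⟨τ, ⟨hτ, hτ'⟩, rfl⟩ := hx
      rw [bd_single', map_sum]
      simp only [hΛ]
      rw [← map_sum, hc τ hτ hτ', map_zero]
    | zero => simp
    | add x y _ _ hx hy => rw [map_add, map_add, hx, hy, add_zero]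
    | smul c x _ hx => rw [map_smul, map_smul, hx, smul_zero]
  obtain ⟨Γ, hΓ⟩ := factor' (Ch k X r) (bd k) Λ (by
    intro z hz' hz
    obtain ⟨w, hw, hw'⟩ := hA z hz' hz
    rw [← hw', h1 w hw])
  obtain ⟨π, hπ⟩ := LinearMap.exists_leftInverse_of_injective (Algebra.linearMap (ZMod 2) k)
    (LinearMap.ker_eq_bot.2 (algebraMap (ZMod 2) k).injective)
  refine ⟨fun σ => π (Γ (Finsupp.single σ 1)), fun σ hσ hσ' => ?_⟩
  have h2 := hΓ (Finsupp.single σ 1) (Finsupp.single_mem_supported k _ (show σ ∈ {σ | σ ∈ X ∧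
    σ.card = r} from ⟨hσ, hσ'⟩))
  simp only [bd_single', hΛ, map_sum] at h2
  rw [← map_sum, h2]
  exact (LinearMap.congr_fun hπ (h σ)).symm

theorem sum_powersetCard {W M : Type*} [DecidableEq W] [AddCommMonoid M] (τ : Finset W) (r : ℕ)
    (hτ : τ.card = r + 1) (f : Finset W → M) :
    ∑ σ ∈ τ.powersetCard r, f σ = ∑ v ∈ τ, f (τ.erase v) := by
  have : τ.powersetCard r = τ.image τ.erase := by
    ext σ
    rw [mem_powersetCard, mem_image]
    constructor
    · rintro ⟨h1, h2⟩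
      have h3 : (τ \ σ).card = 1 := by rw [card_sdiff_of_subset h1]; omega
      obtain ⟨v, hv⟩ := card_eq_one.1 h3
      have hv' : v ∈ τ \ σ := hv ▸ mem_singleton_self v
      refine ⟨v, (mem_sdiff.1 hv').1, ?_⟩
      rw [← sdiff_singleton_eq_erase, ← hv, Finset.sdiff_sdiff_eq_self h1]
    · rintro ⟨v, hv, rfl⟩
      exact ⟨erase_subset _ _, by rw [card_erase_of_mem hv]; omega⟩
  rw [this, sum_image (erase_injOn τ)]

section typed

variable {G 𝒯 W : Type} [Group G] [DecidableEq W] {U : 𝒯 → Subgroup G} {x : 𝒯 → G → W}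

/-- typed vertex maps -/
def TV (U : 𝒯 → Subgroup G) (x : 𝒯 → G → W) : Prop :=
  ∀ s s' g g', x s g = x s' g' ↔ s = s' ∧ g⁻¹ * g' ∈ U s

/-- faces -/
def FF (x : 𝒯 → G → W) (g : G) (J : Finset 𝒯) : Finset W := J.image fun s => x s g

omit [DecidableEq W] in
theorem TV.inj (hx : TV U x) (g : G) : Function.Injective fun s => x s g :=
  fun _ _ h => ((hx _ _ _ _).1 h).1

theorem TV.card (hx : TV U x) (g : G) (J : Finset 𝒯) : (FF x g J).card = J.card :=
  card_image_of_injective _ (hx.inj g)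

theorem TV.sum [DecidableEq 𝒯] {M : Type*} [AddCommMonoid M] (hx : TV U x) (g : G) (J : Finset 𝒯)
    (f : Finset W → M) :
    ∑ v ∈ FF x g J, f ((FF x g J).erase v) = ∑ s ∈ J, f (FF x g (J.erase s)) := by
  rw [FF, sum_image fun a _ b _ h => hx.inj g h]
  exact sum_congr rfl fun s _ => by rw [FF, image_erase (hx.inj g)]

theorem TV.eq_iff (hx : TV U x) {g g' : G} {J J' : Finset 𝒯} :
    FF x g J = FF x g' J' ↔ J = J' ∧ ∀ s ∈ J, g⁻¹ * g' ∈ U s := by
  constructor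
  · intro h
    have h1 : ∀ s ∈ J, s ∈ J' ∧ g⁻¹ * g' ∈ U s := by
      intro s hs
      have : x s g ∈ FF x g' J' := h ▸ mem_image_of_mem _ hs
      obtain ⟨s', hs', he⟩ := mem_image.1 this
      obtain ⟨rfl, h2⟩ := (hx _ _ _ _).1 he.symm
      exact ⟨hs', h2⟩
    refine ⟨eq_of_subset_of_card_le (fun s hs => (h1 s hs).1) ?_, fun s hs => (h1 s hs).2⟩
    rw [← hx.card g J, h, hx.card]
  · rintro ⟨rfl, h⟩
    exact image_congr fun s hs => (hx _ _ _ _).2 ⟨rfl, h s hs⟩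

theorem tv_vtx (U : 𝒯 → Subgroup G) : TV U (vtx U) := by
  intro s s' g g'
  constructor
  · intro h
    have h1 : s = s' := congrArg Sigma.fst h
    subst h1
    refine ⟨rfl, QuotientGroup.eq.1 ?_⟩
    exact eq_of_heq (Sigma.mk.inj h).2
  · rintro ⟨rfl, h⟩
    exact congrArg (Sigma.mk s) (QuotientGroup.eq.2 h)

theorem vtx_surj (U : 𝒯 → Subgroup G) (v : Vx U) : ∃ s g, vtx U s g = v := by
  obtain ⟨s, q⟩ := v
  obtain ⟨g, rfl⟩ := QuotientGroup.mk_surjective q
  exact ⟨s, g, rfl⟩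

theorem mem_Dl [Fintype 𝒯] {σ : Finset (Vx U)} :
    σ ∈ Dl U ⊤ univ ↔ ∃ g J, σ = FF (vtx U) g J := by
  constructor
  · rintro ⟨g, -, h⟩
    obtain ⟨J, -, rfl⟩ := subset_image_iff.1 h
    exact ⟨g, J, rfl⟩
  · rintro ⟨g, J, rfl⟩
    exact ⟨g, trivial, image_subset_image (subset_univ J)⟩

/-- transported duality -/
theorem dual' (k : Type) [Field k] [Algebra (ZMod 2) k] [Fintype 𝒯] [DecidableEq 𝒯]
    (e : Vx U ≃ W) (r : ℕ) (hA : Ac k (Dl U ⊤ univ) r) (h : Finset W → ZMod 2)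
    (hc : ∀ g (J : Finset 𝒯), J.card = r + 1 →
      ∑ s ∈ J, h (FF (fun s g => e (vtx U s g)) g (J.erase s)) = 0) :
    ∃ γ : Finset W → ZMod 2, ∀ g (J : Finset 𝒯), J.card = r →
      h (FF (fun s g => e (vtx U s g)) g J) =
        ∑ s ∈ J, γ (FF (fun s g => e (vtx U s g)) g (J.erase s)) := by
  have h1 : ∀ g J, (FF (vtx U) g J).image e = FF (fun s g => e (vtx U s g)) g J := fun g J => by
    rw [FF, image_image]; rfl
  have h2 : ∀ g J, (FF (fun s g => e (vtx U s g)) g J).image e.symm = FF (vtx U) g J := fun g J => by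
    rw [← h1, image_image]; simp
  obtain ⟨γ, hγ⟩ := dual k _ r hA (fun σ => h (σ.image e)) (by
    intro τ hτ hτ'
    obtain ⟨g, J, rfl⟩ := mem_Dl.1 hτ
    rw [(tv_vtx U).card] at hτ'
    rw [(tv_vtx U).sum g J fun σ => h (σ.image e)]
    simp only [h1]
    exact hc g J hτ')
  refine ⟨fun σ => γ (σ.image e.symm), fun g J hJ => ?_⟩
  have := hγ _ (mem_Dl.2 ⟨g, J, rfl⟩) (by rw [(tv_vtx U).card, hJ])
  rw [(tv_vtx U).sum, h1] at this
  simp only [h2]
  exact this

end typed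

section norms

variable {G 𝒯 : Type} [Group G] [Fintype G] [Fintype 𝒯] [DecidableEq 𝒯] {n : ℕ}
  {U : 𝒯 → Subgroup G} {x : 𝒯 → G → Fin n}

theorem mem_elems {H : Subgroup G} {g : G} : g ∈ elems H ↔ g ∈ H := by simp [elems]

/-- the top faces -/
noncomputable def tops (x : 𝒯 → G → Fin n) (d : ℕ) : Finset (Finset (Fin n)) :=
  ((univ.powersetCard (d + 1)) ×ˢ (univ : Finset G)).image fun p => FF x p.2 p.1

omit [Group G] [DecidableEq 𝒯] in
theorem mem_tops {d : ℕ} {τ : Finset (Fin n)} :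
    τ ∈ tops x d ↔ ∃ g J, J.card = d + 1 ∧ FF x g J = τ := by
  simp only [tops, mem_image, mem_product, mem_powersetCard, subset_univ, true_and, mem_univ,
    and_true, Prod.exists]
  exact ⟨fun ⟨J, g, h⟩ => ⟨g, J, h⟩, fun ⟨g, J, h⟩ => ⟨J, g, h⟩⟩

omit [Group G] [DecidableEq 𝒯] in
theorem exists_top {d : ℕ} (hd : d + 1 ≤ Fintype.card 𝒯) (g : G) {J : Finset 𝒯}
    (hJ : J.card ≤ d + 1) : ∃ τ ∈ tops x d, FF x g J ⊆ τ := by
  obtain ⟨J', h1, -, h2⟩ := exists_subsuperset_card_eq (subset_univ J) hJ hd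
  exact ⟨_, mem_tops.2 ⟨g, J', h2, rfl⟩, image_subset_image h1⟩

omit [DecidableEq 𝒯] in
theorem deg_le (hx : TV U x) {M : ℕ} (hM : ∀ s, (elems (U s)).card ≤ M) (d : ℕ) (s : 𝒯) (g : G) :
    vertexDegree (tops x d) (x s g) ≤ 2 ^ Fintype.card 𝒯 * M := by
  have : (tops x d).filter (fun τ => x s g ∈ τ) ⊆
      ((univ : Finset (Finset 𝒯)) ×ˢ elems (U s)).image fun p => FF x (g * p.2) p.1 := by
    intro τ hτ
    obtain ⟨h1, h2⟩ := mem_filter.1 hτ
    obtain ⟨g', J, -, rfl⟩ := mem_tops.1 h1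
    obtain ⟨s', -, he⟩ := mem_image.1 h2
    refine mem_image.2 ⟨(J, g⁻¹ * g'), mem_product.2 ⟨mem_univ _, mem_elems.2 ?_⟩, by simp⟩
    exact ((hx _ _ _ _).1 he.symm).2
  refine (card_le_card this).trans (card_image_le.trans ?_)
  rw [card_product, card_univ, Fintype.card_finset]
  exact Nat.mul_le_mul_left _ (hM s)

/-- number of typed faces where the cochain is nonzero -/
noncomputable def cntP (r : ℕ) (φ : Finset 𝒯 → G → ZMod 2) : Finset (Finset 𝒯 × G) :=
  ((univ.powersetCard r) ×ˢ (univ : Finset G)).filter fun p => φ p.1 p.2 ≠ 0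

theorem lnrm_eq (r : ℕ) (φ : Finset 𝒯 → G → ZMod 2) :
    lnrm U ∅ r φ = (cntP r φ).card / Fintype.card G := by
  have h : elems (UI U ∅) = univ := by
    ext g; simp [mem_elems, UI]
  rw [lnrm, h, ← sum_div, compl_empty, card_univ, cntP, card_filter, sum_product]
  congr 1
  push_cast
  refine sum_congr rfl fun J _ => sum_congr rfl fun g _ => ?_
  by_cases h : φ J g = 0 <;> simp [ind, h]

/-- unnormalised weight -/
def wt (T : Finset (Finset (Fin n))) (r : ℕ) (f : Finset (Fin n) → ZMod 2) : ℕ :=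
  ∑ σ ∈ (univ.powersetCard r).filter (fun σ => f σ ≠ 0), (T.filter fun τ => σ ⊆ τ).card

theorem norm_eq (d : ℕ) (T : Finset (Finset (Fin n))) (i : ℕ) (f : Finset (Fin n) → ZMod 2) :
    cochainNorm d T i f = wt T (i + 1) f / (((d + 1).choose (i + 1) : ℝ) * T.card) := by
  simp only [cochainNorm, faceWeight, wt, ← sum_div]
  push_cast
  rfl

omit [DecidableEq 𝒯] in
theorem wt_le (hx : TV U x) {M : ℕ} (hM : ∀ s, (elems (U s)).card ≤ M) (d r : ℕ) (hr : 1 ≤ r)
    (f : Finset (Fin n) → ZMod 2) (φ : Finset 𝒯 → G → ZMod 2)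
    (hφ : ∀ g (J : Finset 𝒯), J.card = r → f (FF x g J) = φ J g) :
    wt (tops x d) r f ≤ 2 ^ Fintype.card 𝒯 * M * (cntP r φ).card := by
  have h1 : wt (tops x d) r f = ∑ σ ∈ ((univ.powersetCard r).filter (fun σ => f σ ≠ 0)).filter
      (fun σ => ((tops x d).filter fun τ => σ ⊆ τ).card ≠ 0),
      ((tops x d).filter fun τ => σ ⊆ τ).card := (sum_filter_ne_zero _).symm
  have h2 : ((univ.powersetCard r).filter (fun σ => f σ ≠ 0)).filter
      (fun σ => ((tops x d).filter fun τ => σ ⊆ τ).card ≠ 0) ⊆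
      (cntP r φ).image fun p => FF x p.2 p.1 := by
    intro σ hσ
    simp only [mem_filter, mem_powersetCard, subset_univ, true_and] at hσ
    obtain ⟨⟨h3, h4⟩, h5⟩ := hσ
    obtain ⟨τ, hτ⟩ := card_ne_zero.1 h5
    obtain ⟨h6, h7⟩ := mem_filter.1 hτ
    obtain ⟨g, J, -, rfl⟩ := mem_tops.1 h6
    obtain ⟨J', -, rfl⟩ := subset_image_iff.1 h7
    have h8 : J'.card = r := by rw [← hx.card g J']; exact h3
    refine mem_image.2 ⟨(J', g), ?_, rfl⟩
    simp only [cntP, mem_filter, mem_product, mem_powersetCard, subset_univ, true_and, mem_univ,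
      and_true]
    exact ⟨h8, by rw [← hφ g J' h8]; exact h4⟩
  rw [h1]
  refine (sum_le_sum_of_subset h2).trans ?_
  refine (sum_le_card_nsmul _ _ (2 ^ Fintype.card 𝒯 * M) ?_).trans ?_
  · intro σ hσ
    obtain ⟨⟨J, g⟩, hp, rfl⟩ := mem_image.1 hσ
    simp only [cntP, mem_filter, mem_product, mem_powersetCard] at hp
    obtain ⟨s, hs⟩ := card_pos.1 (show 0 < J.card by omega)
    refine le_trans (card_le_card ?_) (deg_le hx hM d s g)
    intro τ hτ
    exact mem_filter.2 ⟨(mem_filter.1 hτ).1, (mem_filter.1 hτ).2 (mem_image_of_mem _ hs)⟩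
  · rw [smul_eq_mul, mul_comm]
    exact Nat.mul_le_mul_left _ card_image_le

theorem le_wt (hx : TV U x) {M : ℕ} (hM : ∀ s, (elems (U s)).card ≤ M) (d r : ℕ) (hr : 1 ≤ r)
    (hr' : r ≤ d + 1) (hd : d + 1 ≤ Fintype.card 𝒯)
    (f : Finset (Fin n) → ZMod 2) (φ : Finset 𝒯 → G → ZMod 2)
    (hφ : ∀ g (J : Finset 𝒯), J.card = r → f (FF x g J) = φ J g) :
    (cntP r φ).card ≤ M * wt (tops x d) r f := by
  classical
  refine (card_le_mul_card_image (f := fun p : Finset 𝒯 × G => FF x p.2 p.1) _ M ?_).trans ?_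
  · intro σ hσ
    obtain ⟨⟨J, g⟩, hp, rfl⟩ := mem_image.1 hσ
    simp only [cntP, mem_filter, mem_product, mem_powersetCard] at hp
    obtain ⟨s, hs⟩ := card_pos.1 (show 0 < J.card by omega)
    refine le_trans (card_le_card (t := (elems (U s)).image fun u => (J, g * u)) ?_)
      (card_image_le.trans (hM s))
    rintro ⟨J', g'⟩ h
    obtain ⟨h1, h2⟩ := hx.eq_iff.1 (mem_filter.1 h).2.symm
    exact mem_image.2 ⟨g⁻¹ * g', mem_elems.2 (h2 s hs), Prod.ext h1 (by simp)⟩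
  · refine Nat.mul_le_mul_left _ ?_
    rw [card_eq_sum_ones, wt]
    refine le_trans (sum_le_sum (g := fun σ => ((tops x d).filter fun τ => σ ⊆ τ).card) ?_)
      (sum_le_sum_of_subset ?_)
    · intro σ hσ
      obtain ⟨⟨J, g⟩, hp, rfl⟩ := mem_image.1 hσ
      simp only [cntP, mem_filter, mem_product, mem_powersetCard] at hp
      obtain ⟨τ, h1, h2⟩ := exists_top (x := x) hd g (J := J) (by omega)
      exact card_pos.2 ⟨τ, mem_filter.2 ⟨h1, h2⟩⟩
    · intro σ hσ
      obtain ⟨⟨J, g⟩, hp, rfl⟩ := mem_image.1 hσ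
      simp only [cntP, mem_filter, mem_product, mem_powersetCard] at hp
      simp only [mem_filter, mem_powersetCard, subset_univ, true_and]
      exact ⟨by rw [hx.card]; exact hp.1.1.2, by rw [hφ g J hp.1.1.2]; exact hp.2⟩

end norms

end Crest.Agent.R66.FinA
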