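import Crest.Agent.R66.El

/-!
# Row 66: generation lemmas
-/

set_option autoImplicit false

namespace Crest.Agent.R66

open Finset

namespace Gen
open El
variable {F : Type} [Field F] {n K : ℕ} [NeZero n] {G : Type} [Group G] (S : Kap F n K G)

theorem comm_mem {H : Subgroup G} {b : ZMod n} {h₁ h₂ : ℕ} (c : F) (e₁ : (h₁ : ZMod n) ≠ 0)
    (e₂ : (h₂ : ZMod n) ≠ 0) (e₃ : ((h₁ + h₂ : ℕ) : ZMod n) ≠ 0)
    (m₁ : S.el (b + (h₂ : ZMod n)) h₁ c ∈ H) (m₂ : S.el b h₂ 1 ∈ H) : S.el b (h₁ + h₂) c ∈ H := by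
  have := (elStmt F G n K S).2.2.2 b h₁ c h₂ 1 e₁ e₂ e₃
  rw [mul_one] at this
  exact (H.mul_mem_cancel_left (H.mul_mem m₂ m₁)).1 (this ▸ H.mul_mem m₁ m₂)

theorem mem_UI {I : Finset (ZMod n)} {g : G} :
    g ∈ UI S.U I ↔ ∀ b h, 1 ≤ h → S.κ g b h ≠ 0 → ∀ s ∈ I, pos s b + h < n := by
  simp only [UI, Subgroup.mem_iInf]
  exact ⟨fun H b h h1 h2 s hs => H s hs b h h1 h2, fun H s hs b h h1 h2 => H b h h1 h2 s hs⟩

omit [NeZero n] in
theorem cast_ne {h : ℕ} (h1 : 1 ≤ h) (h2 : h < n) : (h : ZMod n) ≠ 0 := fun e =>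
  absurd (Nat.le_of_dvd h1 ((ZMod.natCast_eq_zero_iff _ _).1 e)) h2.not_ge

theorem pos_lt (s b : ZMod n) : pos s b < n := ZMod.val_lt _

omit [NeZero n] in
theorem pos_eq_zero {s b : ZMod n} : pos s b = 0 ↔ b = s := by
  rw [pos, ZMod.val_eq_zero, sub_eq_zero]

theorem add_sub_pos (s b : ZMod n) : b + ((n - pos s b : ℕ) : ZMod n) = s := by
  rw [Nat.cast_sub (pos_lt s b).le, pos]
  simp

theorem root (hn : 3 ≤ n) (I : Finset (ZMod n)) (h : ℕ) : ∀ (b : ZMod n) (c : F),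
    (h : ZMod n) ≠ 0 → (∀ s ∈ I, pos s b + h < n) →
    S.el b h c ∈ ⨆ t ∈ Iᶜ, UI S.U (univ.erase t) := by
  induction h using Nat.strong_induction_on with
  | _ h ih =>
    intro b c hh hI
    have key : ∀ h₁ h₂, h₁ + h₂ = h → (h₁ : ZMod n) ≠ 0 → (h₂ : ZMod n) ≠ 0 →
        S.el b h c ∈ ⨆ t ∈ Iᶜ, UI S.U (univ.erase t) := by
      rintro h₁ h₂ rfl e₁ e₂
      have := ne_zero e₁
      have := ne_zero e₂
      exact comm_mem S c e₁ e₂ hh (ih _ (by omega) _ _ e₁ fun s hs => by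
          have := hI s hs
          rw [Kap.pos_add s b h₂ (by omega)]; omega)
        (ih _ (by omega) _ _ e₂ fun s hs => by have := hI s hs; omega)
    have h0 := ne_zero hh
    by_cases h1 : h = 1
    · subst h1
      have e : ∀ s, ¬pos s b + 1 < n → s = b + (1 : ℕ) := fun s hs => by
        have := pos_lt s b
        rw [← add_sub_pos s b, show n - pos s b = 1 by omega]
      refine Subgroup.mem_iSup_of_mem (b + (1 : ℕ)) (Subgroup.mem_iSup_of_mem
        (mem_compl.2 fun H => h0 ?_) ((mem_UI S).2 fun b' h' a1 a2 s hs => ?_))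
      · have := hI _ H
        have h2 := Kap.pos_add _ _ _ this
        rw [pos_eq_zero.2 rfl] at h2
        omega
      · obtain ⟨rfl, rfl⟩ := supp S hh a1 a2
        exact by_contra fun H => ne_of_mem_erase hs (e s H)
    by_cases h2 : ((h - 1 : ℕ) : ZMod n) = 0
    · have h3 := Nat.le_of_dvd (by omega) ((ZMod.natCast_eq_zero_iff _ _).1 h2)
      refine key (h - 2) 2 (by omega) (fun e => ?_) (cast_ne (by omega) (by omega))
      rw [show h - 1 = h - 2 + 1 by omega, Nat.cast_add, e, zero_add] at h2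
      exact cast_ne le_rfl (by omega) h2
    · exact key (h - 1) 1 (by omega) h2 (cast_ne le_rfl (by omega))

theorem gen1 (hn : 3 ≤ n) (I : Finset (ZMod n)) :
    UI S.U I ≤ ⨆ t ∈ Iᶜ, UI S.U (univ.erase t) := by
  rcases I.eq_empty_or_nonempty with rfl | ⟨s₀, hs₀⟩
  · refine fun g _ => (Subgroup.closure_le _).2 ?_ (S.gen univ g (by simp))
    rintro x ⟨b, h, -, -, hh, H⟩
    rw [eq_el S hh H]
    exact root S hn _ h b _ hh (by simp)
  suffices H : ∀ d m, 1 ≤ m → K ≤ m + d → ∀ g ∈ UI S.U I,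
      (∀ b h, 1 ≤ h → h < m → S.κ g b h = 0) → g ∈ ⨆ t ∈ Iᶜ, UI S.U (univ.erase t) from
    fun g hg => H K 1 le_rfl (by omega) g hg fun b h h1 h2 => by omega
  intro d
  induction d with
  | zero =>
    intro m _ hK g _ h0
    rw [ext' S (g := g) (g' := 1) fun b h h1 h2 => by rw [h0 b h h1 (by omega), S.one b h h1]]
    exact one_mem _
  | succ d ih =>
    intro m hm hK
    suffices H : ∀ T : Finset (ZMod n), ∀ g ∈ UI S.U I, (∀ b h, 1 ≤ h → h < m → S.κ g b h = 0) →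
        (∀ b, b ∉ T → S.κ g b m = 0) → g ∈ ⨆ t ∈ Iᶜ, UI S.U (univ.erase t) from
      fun g hg h0 => H univ g hg h0 (by simp)
    intro T
    induction T using Finset.induction with
    | empty =>
      exact fun g hg h0 h1 => ih (m + 1) (by omega) (by omega) g hg fun b h h2 h3 =>
        (Nat.lt_succ_iff_lt_or_eq.1 h3).elim (h0 b h h2) fun e => e ▸ h1 b (by simp)
    | insert a T _ ihT =>
      intro g hg h0 h1
      by_cases e : S.κ g a m = 0
      · exact ihT g hg h0 fun b hb => if e' : b = a then e' ▸ e else h1 b (by simp [e', hb])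
      have h2 := (mem_UI S).1 hg a m hm e
      have hh : (m : ZMod n) ≠ 0 := cast_ne hm (by have := h2 _ hs₀; omega)
      have hK' : m < K := by_contra fun H => e (S.ge _ _ _ (not_lt.1 H))
      refine (Subgroup.mul_mem_cancel_right _ (root S hn I m a (-S.κ g a m) hh h2)).1
        (ihT _ (mul_mem hg ((mem_UI S).2 fun b' h' a1 a2 => ?_)) (fun b h a1 a2 => ?_)
          fun b hb => ?_)
      · obtain ⟨rfl, rfl⟩ := supp S hh a1 a2
        exact h2
      · rw [mul_el S _ _ _ hh _ (a2.trans hK'), h0 b h a1 a2, if_neg (by omega), add_zero]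
      · rw [mul_el S _ _ _ hh _ hK']
        by_cases e' : b = a
        · simp [e', S.zero]
        · simp [e', h1 b (by simp [e', hb])]

omit [NeZero n] in
theorem conj_R {A : Finset (ZMod n)} {j : ZMod n} {q r : G} (hq : q ∈ S.P A) (hq' : q ∈ S.col {j})
    (hj : j ∈ A) (hr : r ∈ S.R A {j}) : q * r * q⁻¹ ∈ S.R A {j} := by
  have h1 : r ∈ S.P A := fun b h a1 a2 =>
    ⟨(hr b h a1 a2).1, mem_singleton.1 (hr b h a1 a2).2.2 ▸ hj⟩
  have h2 : r ∈ S.col {j} := fun b h a1 a2 => (hr b h a1 a2).2.1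
  have h3 : ∀ b (h : ℕ), h < K → b + h ≠ j → S.κ (q * r) b h = S.κ q b h := fun b h hK e => by
    rw [mul' S _ _ _ hK, sum_eq_single 0 (fun k hk k0 => ?_) (by simp)]
    · simp [S.zero]
    by_contra hne
    have a1 := mem_singleton.1 (hr b k (by omega) (right_ne_zero_of_mul hne)).2.2
    have a2 : ¬1 ≤ h - k := fun H => hq' _ _ H (left_ne_zero_of_mul hne) (mem_singleton.2 a1)
    have := mem_range.1 hk
    exact e (by rwa [show h = k by omega])
  refine fun b h a1 a2 => ⟨((S.P A).mul_mem (mul_mem hq h1) (inv_mem hq) b h a1 a2).1,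
    (S.col {j}).mul_mem (mul_mem hq' h2) (inv_mem hq') b h a1 a2,
    mem_singleton.2 (by_contra fun e => a2 ?_)⟩
  rcases lt_or_ge h K with hK | hK
  swap
  · exact S.ge _ _ _ hK
  rw [← S.one b h a1, ← mul_inv_cancel q, mul' S _ _ _ hK, mul' S _ _ _ hK]
  refine sum_congr rfl fun k hk => ?_
  rw [h3 _ _ (by omega) (by
    rwa [add_assoc, ← Nat.cast_add, Nat.add_sub_cancel' (Nat.lt_succ_iff.1 (mem_range.1 hk))])]

omit [NeZero n] in
theorem conj_C {A : Finset (ZMod n)} {j : ZMod n} {q r : G} (hq : q ∈ S.P A) (hq' : q ∈ S.row {j})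
    (hj : j ∈ A) (hr : r ∈ S.C A {j}) : q⁻¹ * (r * q) ∈ S.C A {j} := by
  have h1 : r ∈ S.P A := fun b h a1 a2 =>
    ⟨mem_singleton.1 (hr b h a1 a2).1 ▸ hj, (hr b h a1 a2).2.1⟩
  have h2 : r ∈ S.row {j} := fun b h a1 a2 => (hr b h a1 a2).2.2
  have h3 : ∀ b (h : ℕ), h < K → b ≠ j → S.κ (r * q) b h = S.κ q b h := fun b h hK e => by
    rw [mul' S _ _ _ hK, sum_eq_single h (fun k hk k0 => ?_) (by simp)]
    · simp [S.zero]
    by_contra hne
    have := mem_range.1 hk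
    have a1 := (hr _ _ (by omega) (left_ne_zero_of_mul hne)).1
    rcases Nat.eq_zero_or_pos k with rfl | a2
    · exact e (by simpa using a1)
    · exact hq' _ _ a2 (right_ne_zero_of_mul hne) a1
  refine fun b h a1 a2 => ⟨mem_singleton.2 (by_contra fun e => a2 ?_),
    ((S.P A).mul_mem (inv_mem hq) (mul_mem h1 hq) b h a1 a2).2,
    (S.row {j}).mul_mem (inv_mem hq') (mul_mem h2 hq') b h a1 a2⟩
  rcases lt_or_ge h K with hK | hK
  swap
  · exact S.ge _ _ _ hK
  rw [← S.one b h a1, ← inv_mul_cancel q, mul' S _ _ _ hK, mul' S _ _ _ hK]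
  exact sum_congr rfl fun k hk => by rw [h3 _ _ (by have := mem_range.1 hk; omega) e]

theorem gen2 (A : Finset (ZMod n)) (j : ZMod n) (hj : j ∈ A) (g : G) (hg : g ∈ S.P A)
    (h0 : ∀ b h, 1 ≤ h → pos j b + h < n → S.κ g b h = 0) : g ∈ S.R A {j} ⊔ S.C A {j} := by
  have hL : S.U j ⊓ S.P (A.erase j) ≤ Subgroup.normalizer (S.R A {j} ⊔ S.C A {j} : Subgroup G) :=
    Subgroup.le_normalizer_iff.2 fun q hq => by
      have h1 : ∀ q ∈ S.P (A.erase j), q ∈ S.P A := fun q hq b h a1 a2 =>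
        ⟨mem_of_mem_erase (hq b h a1 a2).1, mem_of_mem_erase (hq b h a1 a2).2⟩
      refine (sup_le (fun r hr => ?_) fun r hr => ?_ : S.R A {j} ⊔ S.C A {j} ≤
        (S.R A {j} ⊔ S.C A {j}).comap (MulAut.conj q).toMonoidHom)
      · exact Subgroup.mem_sup_left (conj_R S (h1 q hq.2)
          (fun b h a1 a2 => by simpa using ne_of_mem_erase (hq.2 b h a1 a2).1) hj hr)
      · have h2 := (S.P (A.erase j)).inv_mem hq.2
        have := conj_C S (h1 _ h2)
          (fun b h a1 a2 => by simpa using ne_of_mem_erase (h2 b h a1 a2).2) hj hr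
        rw [inv_inv, ← mul_assoc] at this
        exact Subgroup.mem_sup_right this
  have h1 : g ∈ (S.R A {j} ⊔ S.C A {j}) ⊔ S.U j ⊓ S.P (A.erase j) := by
    refine (Subgroup.closure_le _).2 ?_ (S.gen A g hg)
    rintro x ⟨b, h, a1, a2, hh, H⟩
    rw [eq_el S hh H]
    by_cases e1 : b = j
    · exact Subgroup.mem_sup_left (Subgroup.mem_sup_right
        (mem_pat S _ hh ⟨by simp [e1], a2, by simpa [e1] using hh⟩))
    by_cases e2 : b + h = j
    · exact Subgroup.mem_sup_left (Subgroup.mem_sup_left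
        (mem_pat S _ hh ⟨a1, by simpa using e1, by simpa using e2⟩))
    by_cases e3 : pos j b + h < n
    · exact Subgroup.mem_sup_right ⟨mem_pat S _ hh e3,
        mem_pat S _ hh ⟨mem_erase.2 ⟨e1, a1⟩, mem_erase.2 ⟨e2, a2⟩⟩⟩
    have a3 := add_sub_pos j b
    have a4 := pos_lt j b
    have a5 := mt pos_eq_zero.1 e1
    obtain ⟨h₁, rfl⟩ : ∃ h₁, h = h₁ + (n - pos j b) := ⟨h - (n - pos j b), by omega⟩
    have a6 : (↑(n - pos j b) : ZMod n) ≠ 0 := cast_ne (by omega) (by omega)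
    rw [Nat.cast_add, add_comm (h₁ : ZMod n), ← add_assoc, a3] at a2 e2
    have a7 : (h₁ : ZMod n) ≠ 0 := by simpa using e2
    refine Subgroup.mem_sup_left (comm_mem S _ a7 a6 hh (Subgroup.mem_sup_right ?_)
      (Subgroup.mem_sup_left (mem_pat S _ a6 ⟨a1, by simpa using e1, by simpa using a3⟩)))
    rw [a3]
    exact mem_pat S _ a7 ⟨by simp, a2, by simpa using a7⟩
  obtain ⟨ν, hν, l, hl, rfl⟩ := (Subgroup.coe_mul_of_right_le_normalizer_left _ _ hL).subset h1
  let M := S.pat (fun b h => b = j ∨ n ≤ pos j b + h) fun b h₁ h₂ _ _ h3 _ =>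
    h3.imp_right fun _ => by omega
  have h2 : S.R A {j} ⊔ S.C A {j} ≤ M := sup_le
    (fun r hr b h a1 a2 => Or.inr (by_contra fun H => by
      have := Kap.pos_add j b h (not_le.1 H)
      rw [mem_singleton.1 (hr b h a1 a2).2.2, pos_eq_zero.2 rfl] at this
      omega))
    fun r hr b h a1 a2 => Or.inl (mem_singleton.1 (hr b h a1 a2).1)
  have h3 : l ∈ M := (M.mul_mem_cancel_left (h2 hν)).1
    fun b h a1 a2 => Or.inr (by_contra fun H => a2 (h0 b h a1 (not_le.1 H)))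
  have h4 : l = 1 := ext' S fun b h a1 _ => by
    rw [S.one b h a1]
    by_contra a2
    exact (h3 b h a1 a2).elim (ne_of_mem_erase (hl.2 b h a1 a2).1) (hl.1 b h a1 a2).not_ge
  simpa [h4] using hν

end Gen

theorem genStmt : GenStmt := fun _ _ _ _ _ _ _ S => ⟨Gen.gen1 S, Gen.gen2 S⟩

end Crest.Agent.R66
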