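import Crest.Agent.R66.GrpA

/-!
Row 66: the group exists (graded matrices over `F⟦X⟧ / X^K`).
-/

set_option autoImplicit false
set_option linter.unusedSectionVars false

namespace Crest.Agent.R66

open Finset PowerSeries

namespace Grp

/-- truncated power series -/
abbrev R (F : Type) [Field F] (K : ℕ) : Type := F⟦X⟧ ⧸ Ideal.span {(X : F⟦X⟧) ^ K}

variable {F : Type} [Field F] {K : ℕ}

/-- the projection -/
noncomputable abbrev pr : F⟦X⟧ →+* R F K := Ideal.Quotient.mk _

/-- coefficients -/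
noncomputable def co (h : ℕ) (r : R F K) : F := if h < K then coeff h (Quotient.out r) else 0

theorem pr_eq {f g : F⟦X⟧} : (pr f : R F K) = pr g ↔ ∀ h < K, coeff h f = coeff h g := by
  rw [Ideal.Quotient.eq, Ideal.mem_span_singleton, X_pow_dvd_iff]
  simp [sub_eq_zero]

theorem co_pr (h : ℕ) (f : F⟦X⟧) : co h (pr f : R F K) = if h < K then coeff h f else 0 := by
  unfold co
  split_ifs with hK
  · exact pr_eq.1 (Quotient.out_eq _) h hK
  · rfl

theorem co_ge {h : ℕ} (hK : K ≤ h) (r : R F K) : co h r = 0 := if_neg (by omega)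

theorem co_ext {r s : R F K} (h : ∀ h, co h r = co h s) : r = s := by
  obtain ⟨f, rfl⟩ := Ideal.Quotient.mk_surjective r
  obtain ⟨g, rfl⟩ := Ideal.Quotient.mk_surjective s
  refine pr_eq.2 fun k hk => ?_
  simpa [co_pr, hk] using h k

theorem co_add (h : ℕ) (r s : R F K) : co h (r + s) = co h r + co h s := by
  obtain ⟨f, rfl⟩ := Ideal.Quotient.mk_surjective r
  obtain ⟨g, rfl⟩ := Ideal.Quotient.mk_surjective s
  rw [← map_add, co_pr, co_pr, co_pr]
  split_ifs <;> simp

theorem co_zero (h : ℕ) : co h (0 : R F K) = 0 := by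
  rw [← map_zero pr, co_pr]; simp

theorem co_one (h : ℕ) : co h (1 : R F K) = if h < K ∧ h = 0 then 1 else 0 := by
  rw [← map_one pr, co_pr, coeff_one]
  split_ifs <;> simp_all

/-- coefficients, additively -/
noncomputable def coA (h : ℕ) : R F K →+ F := ⟨⟨co h, co_zero h⟩, co_add h⟩

theorem co_sum {ι : Type} (h : ℕ) (s : Finset ι) (f : ι → R F K) :
    co h (∑ i ∈ s, f i) = ∑ i ∈ s, co h (f i) := map_sum (coA h) f s

theorem co_mul {h : ℕ} (hK : h < K) (r s : R F K) :
    co h (r * s) = ∑ p ∈ antidiagonal h, co p.1 r * co p.2 s := by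
  obtain ⟨f, rfl⟩ := Ideal.Quotient.mk_surjective r
  obtain ⟨g, rfl⟩ := Ideal.Quotient.mk_surjective s
  rw [← map_mul, co_pr, if_pos hK, coeff_mul]
  refine sum_congr rfl fun p hp => ?_
  have : p.1 + p.2 = h := mem_antidiagonal.1 hp
  rw [co_pr, co_pr, if_pos (by omega), if_pos (by omega)]

/-- constant term -/
noncomputable def co0 (hK : 1 ≤ K) : R F K →+* F where
  toFun := co 0
  map_one' := by rw [co_one, if_pos ⟨hK, rfl⟩]
  map_mul' r s := by rw [co_mul hK]; simp
  map_zero' := co_zero 0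
  map_add' := co_add 0

instance [Finite F] : Finite (R F K) :=
  Finite.of_injective (fun (r : R F K) (h : Fin K) => co h r) fun r s e => co_ext fun h => by
    rcases Nat.lt_or_ge h K with hK | hK
    · exact congrFun e ⟨h, hK⟩
    · rw [co_ge hK, co_ge hK]

variable {n : ℕ}

/-- homogeneous elements -/
def Gr (c : ZMod n) : AddSubgroup (R F K) where
  carrier := {r | ∀ h, co h r ≠ 0 → (h : ZMod n) = c}
  zero_mem' := fun h e => absurd (co_zero h) e
  add_mem' := fun {r s} hr hs h e => by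
    rw [co_add] at e
    by_cases h1 : co h r = 0
    · exact hs h fun h2 => e (by rw [h1, h2, add_zero])
    · exact hr h h1
  neg_mem' := fun {r} hr h e => hr h fun h1 => e ((map_neg (coA h) r).trans (neg_eq_zero.2 h1))

theorem Gr_mul {c d : ZMod n} {r s : R F K} (hr : r ∈ Gr c) (hs : s ∈ Gr d) :
    r * s ∈ Gr (c + d) := fun h e => by
  have hK : h < K := by
    by_contra hc
    exact e (co_ge (not_lt.1 hc) _)
  rw [co_mul hK] at e
  obtain ⟨p, hp, e'⟩ := exists_ne_zero_of_sum_ne_zero e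
  have : p.1 + p.2 = h := mem_antidiagonal.1 hp
  rw [← this, Nat.cast_add, hr _ (left_ne_zero_of_mul e'), hs _ (right_ne_zero_of_mul e')]

theorem Gr_one : (1 : R F K) ∈ Gr (0 : ZMod n) := fun h e => by
  rw [co_one] at e
  obtain rfl : h = 0 := by
    by_contra hc
    exact e (if_neg fun h' => hc h'.2)
  simp

theorem Gr_prod {ι : Type} (s : Finset ι) (c : ι → ZMod n) (r : ι → R F K)
    (h : ∀ i, r i ∈ Gr (c i)) : ∏ i ∈ s, r i ∈ Gr (∑ i ∈ s, c i) := by
  classical
  induction s using Finset.induction_on with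
  | empty => simpa using Gr_one
  | insert i s hi ih => rw [prod_insert hi, sum_insert hi]; exact Gr_mul (h i) ih

variable [NeZero n]

/-- graded matrices with unipotent constant term -/
def Gm (F : Type) [Field F] (n K : ℕ) [NeZero n] (hK : 1 ≤ K) :
    Submonoid (Matrix (ZMod n) (ZMod n) (R F K)) where
  carrier := {g | (∀ a b, g a b ∈ Gr (a - b)) ∧ g.map (co0 hK) = 1}
  one_mem' := ⟨fun a b => by
    rw [Matrix.one_apply]
    split_ifs with h
    · rw [h, sub_self]; exact Gr_one
    · exact zero_mem _, by simp⟩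
  mul_mem' := fun {g g'} hg hg' => ⟨fun a b => by
    rw [Matrix.mul_apply]
    exact sum_mem fun j _ => by simpa using Gr_mul (hg.1 a j) (hg'.1 j b), by
    rw [Matrix.map_mul, hg.2, hg'.2, one_mul]⟩

theorem mem_Gm {hK : 1 ≤ K} {g : Matrix (ZMod n) (ZMod n) (R F K)}
    (h1 : ∀ a b, g a b ∈ Gr (a - b)) (h2 : ∀ a, co 0 (g a a) = 1) : g ∈ Gm F n K hK := by
  refine ⟨h1, Matrix.ext fun a b => ?_⟩
  rw [Matrix.one_apply]
  split_ifs with h
  · subst h; exact h2 a
  · by_contra hc
    exact h (sub_eq_zero.1 (by simpa using (h1 a b 0 hc).symm))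

theorem Gm_diag {hK : 1 ≤ K} {g : Matrix (ZMod n) (ZMod n) (R F K)} (hg : g ∈ Gm F n K hK)
    (a : ZMod n) : co 0 (g a a) = 1 := by
  have := congrFun (congrFun hg.2 a) a
  rwa [Matrix.one_apply_eq] at this

theorem det_Gr {g : Matrix (ZMod n) (ZMod n) (R F K)} (hg : ∀ a b, g a b ∈ Gr (a - b)) :
    g.det ∈ Gr (0 : ZMod n) := by
  rw [Matrix.det_apply]
  refine sum_mem fun σ _ => ?_
  have h := Gr_prod univ _ _ fun i => hg (σ i) i
  rw [sum_sub_distrib, Equiv.sum_comp σ fun i => i, sub_self] at h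
  exact zsmul_mem h _

/-- the matrix with prescribed coefficients -/
noncomputable def M (c : ZMod n → ℕ → F) : Matrix (ZMod n) (ZMod n) (R F K) := Matrix.of fun a b =>
  pr (mk fun h => if (h : ZMod n) = a - b then (if h = 0 then 1 else c b h) else 0)

theorem co_M (c : ZMod n → ℕ → F) (a b : ZMod n) (h : ℕ) : co h ((M c : Matrix _ _ (R F K)) a b) =
    if h < K then (if (h : ZMod n) = a - b then (if h = 0 then 1 else c b h) else 0) else 0 := by
  rw [M, Matrix.of_apply, co_pr, coeff_mk]

theorem M_mem (hK : 1 ≤ K) (c : ZMod n → ℕ → F) : M c ∈ Gm F n K hK :=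
  mem_Gm (fun a b h e => by
    by_contra hc
    exact e (by rw [co_M, if_neg hc, ite_self])) fun a => by
    rw [co_M, if_pos (by omega)]; simp

theorem co_M' (c : ZMod n → ℕ → F) (b : ZMod n) {h : ℕ} (h1 : 1 ≤ h) (h2 : h < K) :
    co h ((M c : Matrix _ _ (R F K)) (b + h) b) = c b h := by
  rw [co_M, if_pos h2, if_pos (by ring), if_neg (by omega)]

theorem det_M (c : ZMod n → ℕ → F) (φ : ZMod n → ℕ)
    (H : ∀ b h, 1 ≤ h → c b h ≠ 0 → φ b < φ (b + (h : ZMod n))) :
    (M c : Matrix _ _ (R F K)).det = 1 := by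
  have h1 : ∀ a b, ¬ φ b < φ a → (M c : Matrix _ _ (R F K)) a b = if a = b then 1 else 0 := by
    intro a b hab
    refine co_ext fun h => ?_
    rw [co_M, apply_ite (co h), co_one, co_zero]
    rcases Nat.eq_zero_or_pos h with rfl | h0
    · by_cases h2 : a = b
      · simp [h2]
      · simp [h2, eq_comm (a := (0 : ZMod n)), sub_eq_zero]
    · have h3 : (h : ZMod n) = a - b → c b h = 0 := fun e => by
        by_contra hc
        have := H b h h0 hc
        rw [e, add_sub_cancel] at this
        exact hab this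
      simp only [h0.ne', if_false, and_false, ite_self]
      split_ifs with h4 h5
      · exact h3 h5
      · rfl
      · rfl
  rw [Matrix.det_apply, sum_eq_single 1]
  · simp [h1 _ _ (lt_irrefl _)]
  · intro σ _ hσ
    have : ∃ i, σ i ≠ i ∧ ¬ φ i < φ (σ i) := by
      by_contra hc
      push Not at hc
      obtain ⟨j, hj⟩ : ∃ j, σ j ≠ j := by
        by_contra h
        push Not at h
        exact hσ (Equiv.ext h)
      have h2 : ∑ i, φ i < ∑ i, φ (σ i) := sum_lt_sum (fun i _ => by
        by_cases h : σ i = i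
        · rw [h]
        · exact (hc i h).le) ⟨j, mem_univ _, hc j hj⟩
      rw [Equiv.sum_comp σ φ] at h2
      exact lt_irrefl _ h2
    obtain ⟨i, h2, h3⟩ := this
    rw [prod_eq_zero (mem_univ i) (by rw [h1 _ _ h3, if_neg h2]), smul_zero]
  · simp

variable [Finite F]

/-- the group -/
def G (F : Type) [Field F] [Finite F] (n K : ℕ) [NeZero n] (hK : 1 ≤ K) :
    Subgroup (Matrix.SpecialLinearGroup (ZMod n) (R F K)) :=
  let P : Submonoid (Matrix.SpecialLinearGroup (ZMod n) (R F K)) :=
    { carrier := {g | g.1 ∈ Gm F n K hK}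
      one_mem' := (Gm F n K hK).one_mem
      mul_mem' := fun hg hg' => (Gm F n K hK).mul_mem hg hg' }
  { P with inv_mem' := GrpA.inv_mem_of_finite P }

theorem ex_inv (hK : 1 ≤ K) {d : R F K} (h1 : d ∈ Gr (0 : ZMod n)) (h2 : co 0 d = 1) :
    ∃ u, u * d = 1 ∧ u ∈ Gr (0 : ZMod n) ∧ co 0 u = 1 := by
  have hu : IsUnit d := by
    obtain ⟨f, rfl⟩ := Ideal.Quotient.mk_surjective d
    rw [co_pr, if_pos (by omega), coeff_zero_eq_constantCoeff_apply] at h2
    exact (isUnit_iff_constantCoeff.2 (h2 ▸ isUnit_one)).map _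
  obtain ⟨v, rfl⟩ := hu
  obtain ⟨k, hk, e⟩ := isOfFinOrder_iff_pow_eq_one.1 (isOfFinOrder_of_finite v)
  refine ⟨(v : R F K) ^ (k - 1), ?_, ?_, ?_⟩
  · rw [← pow_succ, Nat.sub_add_cancel hk, ← Units.val_pow_eq_pow_val, e, Units.val_one]
  · simpa using Gr_prod (range (k - 1)) (fun _ => (0 : ZMod n)) _ fun _ => h1
  · exact (map_pow (co0 hK) _ _).trans (by rw [show co0 hK (v : R F K) = 1 from h2, one_pow])

theorem trace_zero {g : Matrix (ZMod n) (ZMod n) (R F K)} {m : ℕ} (h1 : 1 ≤ m) (hm : m < K)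
    (hd : g.det = 1) (h : ∀ a b, ∀ k < m, co k ((g - 1) a b) = 0) : ∑ b, co m (g b b) = 0 := by
  have e : ∀ a b, ∃ f : F⟦X⟧, (g - 1) a b = pr (X ^ m) * pr f := fun a b => by
    obtain ⟨f, hf⟩ := Ideal.Quotient.mk_surjective ((g - 1) a b)
    obtain ⟨f', rfl⟩ : X ^ m ∣ f := X_pow_dvd_iff.2 fun k hk => by
      have := h a b k hk
      rwa [← hf, co_pr, if_pos (by omega)] at this
    exact ⟨f', by rw [← hf, map_mul]⟩
  choose f hf using e
  have e1 : g = 1 + (pr (X ^ m) : R F K) • Matrix.of fun a b => pr (f a b) := by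
    rw [← sub_eq_iff_eq_add']
    exact Matrix.ext hf
  have e2 := congrArg (co m) hd
  rw [e1, Matrix.det_one_add_smul] at e2
  obtain ⟨z, hz⟩ := Ideal.Quotient.mk_surjective
    ((Matrix.det (1 + (Polynomial.X : Polynomial (R F K)) •
      (Matrix.of fun a b => (pr (f a b) : R F K)).map Polynomial.C)).divX.divX.eval (pr (X ^ m)))
  rw [← hz, co_add, co_add, ← map_pow, ← map_mul, ← pow_mul, co_pr _ (z * _), coeff_mul_X_pow',
    if_neg (show ¬ m * 2 ≤ m by omega), ite_self, add_zero, add_eq_left, Matrix.trace, sum_mul,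
    co_sum] at e2
  rw [← e2]
  refine sum_congr rfl fun b _ => ?_
  rw [e1, Matrix.add_apply, co_add, Matrix.one_apply_eq, co_one, if_neg (by omega), zero_add,
    mul_comm]
  rfl

/-- the data -/
noncomputable def pre (hK : 1 ≤ K) : GrpA.Pre F n K (G F n K hK) where
  κ g b h := co h (g.1.1 (b + h) b)
  ext g g' e := Subtype.ext <| Subtype.ext <| Matrix.ext fun a b => co_ext fun h => by
    by_cases hh : (h : ZMod n) = a - b
    · have := e b h
      rwa [hh, add_sub_cancel] at this
    · rw [not_not.1 (mt (g.2.1 a b h) hh), not_not.1 (mt (g'.2.1 a b h) hh)]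
  zero g b := by simpa using Gm_diag g.2 b
  ge g b h hh := co_ge hh _
  one b h hh := by
    change co h ((1 : Matrix _ _ (R F K)) _ _) = 0
    rw [Matrix.one_apply, apply_ite (co h), co_one, co_zero,
      if_neg (show ¬ (h < K ∧ h = 0) by omega), ite_self]
  mul g g' b h hh := by
    change co h ((g.1.1 * g'.1.1) _ _) = _
    rw [Matrix.mul_apply, co_sum]
    simp only [co_mul hh]
    rw [sum_comm]
    refine sum_congr rfl fun p hp => ?_
    have e : p.1 + p.2 = h := mem_antidiagonal.1 hp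
    rw [sum_eq_single (b + (p.2 : ZMod n))]
    · rw [← e, Nat.cast_add, add_comm (p.1 : ZMod n), add_assoc]
    · intro j _ hj
      rw [not_not.1 (mt (g'.2.1 j b p.2) fun e' => hj (by rw [e', add_sub_cancel])), mul_zero]
    · simp
  exH c φ H := ⟨⟨⟨M c, det_M c φ H⟩, M_mem hK c⟩, fun b h h1 h2 => co_M' c b h1 h2⟩
  tr u m h1 hm h0 l := by
    rw [finsum_eq_sum_of_fintype, h0]
    simp only [add_zero]
    refine trace_zero h1 hm u.1.2 fun a b k hk => ?_
    have e : co k ((u.1.1 - 1) a b) = co k (u.1.1 a b) - co k ((1 : Matrix _ _ (R F K)) a b) :=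
      map_sub (coA k) _ _
    rw [e, sub_eq_zero]
    rcases Nat.eq_zero_or_pos k with rfl | k0
    · have := congrFun (congrFun (u.2.2.trans (Gm F n K hK).one_mem.2.symm) a) b
      exact this
    · rw [Matrix.one_apply, apply_ite (co k), co_one, co_zero,
        if_neg (show ¬ (k < K ∧ k = 0) by omega), ite_self]
      by_contra hc
      have := l b k k0 hk
      rw [u.2.1 a b k hc, add_sub_cancel] at this
      exact hc this

theorem exC (hK : 1 ≤ K) (c : ZMod n → ℕ → F) (a : ZMod n) :
    ∃ g, (∀ b h, b ≠ a → 1 ≤ h → h < K → (pre hK).κ g b h = c b h) ∧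
      ∀ h, (pre hK).κ g a h ≠ 0 → (h : ZMod n) = 0 := by
  have hM := M_mem hK fun b h => if b = a then 0 else c b h
  have h1 := fun b h => co_M' (K := K) (fun b h => if b = a then 0 else c b h) b (h := h)
  generalize M (K := K) (fun b h => if b = a then 0 else c b h) = N at hM h1
  have h2 : co 0 N.det = 1 := by
    have := (co0 hK).map_det N
    rw [RingHom.mapMatrix_apply, hM.2, Matrix.det_one] at this
    exact this
  obtain ⟨u, e1, e2, e3⟩ := ex_inv hK (det_Gr hM.1) h2
  have hD : Matrix.diagonal (fun b => if b = a then u else 1) ∈ Gm F n K hK := by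
    refine mem_Gm (fun i j => ?_) fun i => ?_
    · rw [Matrix.diagonal_apply]
      split_ifs with h h'
      · rw [h, sub_self]; exact e2
      · rw [h, sub_self]; exact Gr_one
      · exact zero_mem _
    · rw [Matrix.diagonal_apply_eq]
      split_ifs
      · exact e3
      · exact map_one (co0 hK)
  refine ⟨⟨⟨N * Matrix.diagonal fun b => if b = a then u else 1, ?_⟩, mul_mem hM hD⟩,
    fun b h hb p q => ?_, fun h e => ?_⟩
  · rw [Matrix.det_mul, Matrix.det_diagonal, prod_ite_eq', if_pos (mem_univ _), mul_comm, e1]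
  · change co h ((N * Matrix.diagonal _ : Matrix _ _ (R F K)) _ _) = _
    rw [Matrix.mul_diagonal, if_neg hb, mul_one, h1 b h p q, if_neg hb]
  · by_contra hc
    apply e
    change co h ((N * Matrix.diagonal _ : Matrix _ _ (R F K)) _ _) = _
    have : N (a + h) a = 0 := co_ext fun k => by
      rw [co_zero]
      by_contra hk
      have e4 := hM.1 _ _ k hk
      rw [add_sub_cancel_left] at e4
      have k1 : 1 ≤ k := Nat.pos_of_ne_zero fun k0 => hc (by rw [← e4, k0, Nat.cast_zero])
      have k2 : k < K := by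
        by_contra h'
        exact hk (co_ge (not_lt.1 h') _)
      have := h1 a k k1 k2
      rw [if_pos rfl, e4] at this
      exact hk this
    rw [Matrix.mul_diagonal, this, zero_mul, co_zero]

theorem rev (hK : 1 ≤ K) (c : ZMod n) (g : G F n K hK) :
    ∃ g', ∀ b h, (pre hK).κ g' b h = (pre hK).κ g (c - b - (h : ZMod n)) h := by
  refine ⟨⟨⟨g.1.1.transpose.submatrix (Equiv.subLeft c) (Equiv.subLeft c), ?_⟩,
    mem_Gm (fun a b => ?_) fun a => Gm_diag g.2 _⟩, fun b h => ?_⟩
  · rw [Matrix.det_submatrix_equiv_self, Matrix.det_transpose, g.1.2]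
  · have := g.2.1 (c - b) (c - a)
    rwa [sub_sub_sub_cancel_left] at this
  · change co h (g.1.1 (c - b) (c - (b + h))) = co h (g.1.1 (c - b - h + h) (c - b - h))
    rw [sub_add_cancel, sub_sub]

end Grp

open Grp in
theorem grpStmt : GrpStmt := by
  intro F _ _ n K _ hK
  exact ⟨G F n K hK, inferInstance, Fintype.ofFinite _, ⟨{
    κ := (pre hK).κ
    ext := (pre hK).ext
    zero := (pre hK).zero
    ge := (pre hK).ge
    one := (pre hK).one
    mul := (pre hK).mul
    exH := (pre hK).exH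
    exC := exC hK
    gen := (pre hK).gen
    rev := rev hK }⟩⟩

end Crest.Agent.R66
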