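import Crest.Agent.R66.Defs

/-!
Row 66: generation by elementary elements, from the trace condition (induction on the degree).
-/

set_option autoImplicit false

namespace Crest.Agent.R66.GrpA

open Finset

/-- `Kap` without generation, with the trace condition. -/
structure Pre (F : Type) [Field F] (n K : ℕ) (G : Type) [Group G] where
  κ : G → ZMod n → ℕ → F
  ext : ∀ g g', (∀ b h, κ g b h = κ g' b h) → g = g'
  zero : ∀ g b, κ g b 0 = 1
  ge : ∀ g b h, K ≤ h → κ g b h = 0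
  one : ∀ b h, 1 ≤ h → κ 1 b h = 0
  mul : ∀ g g' b h, h < K →
    κ (g * g') b h = ∑ p ∈ antidiagonal h, κ g (b + (p.2 : ZMod n)) p.1 * κ g' b p.2
  exH : ∀ (c : ZMod n → ℕ → F) (φ : ZMod n → ℕ),
    (∀ b h, 1 ≤ h → c b h ≠ 0 → φ b < φ (b + (h : ZMod n))) →
    ∃ g, ∀ b h, 1 ≤ h → h < K → κ g b h = c b h
  tr : ∀ u m, 1 ≤ m → m < K → (m : ZMod n) = 0 → (∀ b h, 1 ≤ h → h < m → κ u b h = 0) →
    ∑ᶠ b, κ u b m = 0

theorem inv_mem_of_finite {G : Type} [Group G] [Finite G] (P : Submonoid G) {g : G} (hg : g ∈ P) :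
    g⁻¹ ∈ P :=
  Submonoid.powers_le.2 hg (mem_powers_iff_mem_zpowers.2 (inv_mem (Subgroup.mem_zpowers g)))

namespace Pre
variable {F : Type} [Field F] {n K : ℕ} {G : Type} [Group G] (S : Pre F n K G)

/-- no terms of degree `< m` -/
def Lw (m : ℕ) (u : G) : Prop := ∀ b h, 1 ≤ h → h < m → S.κ u b h = 0

theorem mul_low (g : G) {u : G} {m : ℕ} (hu : S.Lw m u) (h1 : 1 ≤ m) (hm : m < K) (b : ZMod n) :
    S.κ (g * u) b m = S.κ g b m + S.κ u b m := by
  rw [S.mul _ _ _ _ hm, sum_eq_add_of_mem (m, 0) (0, m) (by simp) (by simp)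
    (by simp; omega)]
  · simp [S.zero]
  · rintro ⟨p, q⟩ hp ⟨h2, h3⟩
    rw [HasAntidiagonal.mem_antidiagonal] at hp
    simp only [ne_eq, Prod.mk.injEq] at h2 h3 hp
    rw [hu b q (by omega) (by omega), mul_zero]

theorem low_of (g u : G) (m : ℕ) (hm : m ≤ K)
    (h : ∀ b h, 1 ≤ h → h < m → S.κ (g * u) b h = S.κ g b h) : S.Lw m u := by
  induction m with
  | zero => exact fun b h _ h0 => absurd h0 (Nat.not_lt_zero _)
  | succ m ih =>
    have h1 := ih (by omega) fun b k h1 h2 => h b k h1 (by omega)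
    intro b k hk1 hk2
    rcases Nat.lt_or_ge k m with h3 | h3
    · exact h1 b k hk1 h3
    · obtain rfl : k = m := by omega
      have := h b k hk1 hk2
      rwa [S.mul_low g h1 hk1 (by omega), add_eq_left] at this

/-- `x` is the elementary element `1 + c · (b, h)`. -/
def El (x : G) (b : ZMod n) (h : ℕ) (c : F) : Prop :=
  ∀ b' h', 1 ≤ h' → h' < K → S.κ x b' h' = if b' = b ∧ h' = h then c else 0

theorem ex_el (b : ZMod n) (h : ℕ) (c : F) (hh : (h : ZMod n) ≠ 0) : ∃ x, S.El x b h c := by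
  refine S.exH (fun b' h' => if b' = b ∧ h' = h then c else 0)
    (fun z => if z = b + h then 1 else 0) fun b' h' _ hc => ?_
  obtain ⟨rfl, rfl⟩ : b' = b ∧ h' = h := by
    by_contra h0
    exact hc (if_neg h0)
  simp [hh]

theorem el_mul {x y : G} {b₁ b₂ : ZMod n} {h₁ h₂ : ℕ} {c₁ c₂ : F} (hx : S.El x b₁ h₁ c₁)
    (hy : S.El y b₂ h₂ c₂) (p₁ : 1 ≤ h₁) (p₂ : 1 ≤ h₂) (e : b₂ + h₂ = b₁) (b : ZMod n) (h : ℕ)
    (h1 : 1 ≤ h) (hK : h < K) :
    S.κ (x * y) b h = S.κ x b h + S.κ y b h + if b = b₂ ∧ h₁ + h₂ = h then c₁ * c₂ else 0 := by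
  have key : ∀ p ∈ antidiagonal h, S.κ x (b + (p.2 : ZMod n)) p.1 * S.κ y b p.2 =
      (if p = (h, 0) then S.κ x b h else 0) + (if p = (0, h) then S.κ y b h else 0) +
        if p = (h₁, h₂) then (if b = b₂ then c₁ * c₂ else 0) else 0 := by
    rintro ⟨p, q⟩ hp
    rw [HasAntidiagonal.mem_antidiagonal] at hp
    simp only [Prod.mk.injEq] at hp ⊢
    rcases Nat.eq_zero_or_pos q with rfl | hq
    · rw [if_pos ⟨by omega, rfl⟩, if_neg (by omega), if_neg (by omega)]
      obtain rfl : p = h := by omega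
      simp [S.zero]
    rcases Nat.eq_zero_or_pos p with rfl | hp'
    · rw [if_neg (by omega), if_pos ⟨rfl, by omega⟩, if_neg (by omega)]
      obtain rfl : q = h := by omega
      simp [S.zero]
    rw [if_neg (by omega), if_neg (by omega), hx _ _ hp' (by omega), hy _ _ hq (by omega)]
    by_cases h2 : b = b₂ ∧ q = h₂
    · obtain ⟨rfl, rfl⟩ := h2
      simp [e]
    · rw [if_neg h2, mul_zero]
      split_ifs with h3 h4
      · exact absurd ⟨h4, h3.2⟩ h2
      · simp
      · simp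
  rw [S.mul _ _ _ _ hK, sum_congr rfl key, sum_add_distrib, sum_add_distrib, sum_ite_eq',
    sum_ite_eq', sum_ite_eq', if_pos (by simp), if_pos (by simp)]
  congr 1
  simp only [HasAntidiagonal.mem_antidiagonal]
  split_ifs <;> simp_all

/-- elements supported on `A` -/
def P [Finite G] (A : Finset (ZMod n)) : Subgroup G :=
  let P₀ : Submonoid G :=
    { carrier := {g | ∀ b h, 1 ≤ h → S.κ g b h ≠ 0 → b ∈ A ∧ b + (h : ZMod n) ∈ A}
      one_mem' := fun b h hh hne => absurd (S.one b h hh) hne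
      mul_mem' := by
        intro g g' hg hg' b h hh hne
        have hK : h < K := by
          by_contra hc
          exact hne (S.ge _ _ _ (not_lt.1 hc))
        rw [S.mul g g' b h hK] at hne
        obtain ⟨⟨p, q⟩, hp, hne'⟩ := Finset.exists_ne_zero_of_sum_ne_zero hne
        obtain rfl : p + q = h := mem_antidiagonal.1 hp
        have h1 := left_ne_zero_of_mul hne'
        have h2 := right_ne_zero_of_mul hne'
        have e : b + ((p + q : ℕ) : ZMod n) = b + q + p := by push_cast; ring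
        rw [e]
        rcases Nat.eq_zero_or_pos q with rfl | h0
        · simpa using hg _ _ (by omega) h1
        · rcases Nat.eq_zero_or_pos p with rfl | h0'
          · simpa using hg' _ _ h0 h2
          · exact ⟨(hg' _ _ h0 h2).1, (hg _ _ h0' h1).2⟩ }
  { P₀ with inv_mem' := inv_mem_of_finite P₀ }

/-- the subgroup generated by the elementary elements -/
def H (A : Finset (ZMod n)) : Subgroup G :=
  Subgroup.closure {x | ∃ b, ∃ h : ℕ, b ∈ A ∧ b + (h : ZMod n) ∈ A ∧ (h : ZMod n) ≠ 0 ∧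
      ∀ b' h', 1 ≤ h' → S.κ x b' h' ≠ 0 → b' = b ∧ h' = h}

theorem H_le [Finite G] (A : Finset (ZMod n)) : S.H A ≤ S.P A := by
  refine (Subgroup.closure_le _).2 ?_
  rintro x ⟨b, h, h1, h2, -, h3⟩ b' h' p q
  obtain ⟨rfl, rfl⟩ := h3 b' h' p q
  exact ⟨h1, h2⟩

theorem el_mem {A : Finset (ZMod n)} {x : G} {b : ZMod n} {h : ℕ} {c : F} (hx : S.El x b h c)
    (h1 : b ∈ A) (h2 : b + (h : ZMod n) ∈ A) (h3 : (h : ZMod n) ≠ 0) : x ∈ S.H A := by
  refine Subgroup.subset_closure ⟨b, h, h1, h2, h3, fun b' h' p q => ?_⟩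
  by_contra h0
  rcases Nat.lt_or_ge h' K with hK | hK
  · exact q ((hx b' h' p hK).trans (if_neg h0))
  · exact q (S.ge _ _ _ hK)

/-- leading terms of generated elements -/
def T (A : Finset (ZMod n)) {m : ℕ} (h1 : 1 ≤ m) (hm : m < K) : AddSubmonoid (ZMod n → F) where
  carrier := {v | ∃ y ∈ S.H A, S.Lw m y ∧ ∀ b, S.κ y b m = v b}
  zero_mem' := ⟨1, one_mem _, fun b h p _ => S.one b h p, fun b => S.one b m h1⟩
  add_mem' := by
    rintro v w ⟨x, hx, lx, ex⟩ ⟨y, hy, ly, ey⟩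
    refine ⟨x * y, mul_mem hx hy, fun b h p q => ?_, fun b => ?_⟩
    · rw [S.mul_low x (fun b' h' p' q' => ly b' h' p' (q'.trans q)) p (q.trans hm), lx b h p q,
        ly b h p q, add_zero]
    · rw [S.mul_low x ly h1 hm, ex, ey, Pi.add_apply]

theorem single_mem {A : Finset (ZMod n)} {m : ℕ} (h1 : 1 ≤ m) (hm : m < K) (b : ZMod n) (c : F)
    (h0 : (m : ZMod n) ≠ 0) (hb : b ∈ A) (hb' : b + (m : ZMod n) ∈ A) :
    Pi.single b c ∈ S.T A h1 hm := by
  obtain ⟨x, hx⟩ := S.ex_el b m c h0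
  refine ⟨x, S.el_mem hx hb hb' h0, fun b' h p q => ?_, fun b' => ?_⟩
  · rw [hx b' h p (q.trans hm), if_neg (by omega)]
  · rw [hx b' m h1 hm, Pi.single_apply]
    simp

theorem comm_mem [NeZero n] {A : Finset (ZMod n)} {m : ℕ} (h1 : 1 ≤ m) (hm : m < K)
    (a b : ZMod n) (c : F) (h0 : (m : ZMod n) = 0) (ha : a ∈ A) (hb : b ∈ A) :
    Pi.single b c - Pi.single a c ∈ S.T A h1 hm := by
  rcases eq_or_ne a b with rfl | hab
  · rw [sub_self]; exact zero_mem _
  have hn : n ≤ m := Nat.le_of_dvd h1 ((ZMod.natCast_eq_zero_iff m n).1 h0)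
  have hv := ZMod.val_lt (b - a)
  have hv0 : (b - a).val ≠ 0 := fun h => hab (sub_eq_zero.1 ((ZMod.val_eq_zero _).1 h)).symm
  have e1 : (((b - a).val : ℕ) : ZMod n) = b - a := ZMod.natCast_zmod_val _
  have e2 : ((m - (b - a).val : ℕ) : ZMod n) = a - b := by
    rw [Nat.cast_sub (by omega), e1, h0]; ring
  have n1 : (((b - a).val : ℕ) : ZMod n) ≠ 0 := by rw [e1]; exact sub_ne_zero.2 hab.symm
  have n2 : ((m - (b - a).val : ℕ) : ZMod n) ≠ 0 := by rw [e2]; exact sub_ne_zero.2 hab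
  have f1 : a + (((b - a).val : ℕ) : ZMod n) = b := by rw [e1]; ring
  have f2 : b + ((m - (b - a).val : ℕ) : ZMod n) = a := by rw [e2]; ring
  obtain ⟨x, hx⟩ := S.ex_el a _ c n1
  obtain ⟨y, hy⟩ := S.ex_el b _ 1 n2
  have mx := S.el_mem hx ha (f1.symm ▸ hb) n1
  have my := S.el_mem hy hb (f2.symm ▸ ha) n2
  have k1 := S.el_mul hx hy (by omega) (by omega) f2
  have k2 := S.el_mul hy hx (by omega) (by omega) f1
  have e : y * x * ((y * x)⁻¹ * (x * y)) = x * y := mul_inv_cancel_left _ _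
  have l : S.Lw m ((y * x)⁻¹ * (x * y)) := S.low_of (y * x) _ m hm.le fun b' h p q => by
    rw [e, k1 b' h p (q.trans hm), k2 b' h p (q.trans hm), if_neg (by omega), if_neg (by omega)]
    ring
  refine ⟨_, mul_mem (inv_mem (mul_mem my mx)) (mul_mem mx my), l, fun b' => ?_⟩
  have k := S.mul_low (y * x) l h1 hm b'
  rw [e, k1 b' m h1 hm, k2 b' m h1 hm] at k
  have g1 : (b - a).val + (m - (b - a).val) = m := by omega
  have g2 : (m - (b - a).val) + (b - a).val = m := by omega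
  simp only [g1, g2, and_true, mul_one, one_mul] at k
  rw [Pi.sub_apply, Pi.single_apply, Pi.single_apply]
  linear_combination -k

theorem lead_mem [NeZero n] [Finite G] {A : Finset (ZMod n)} {m : ℕ} (h1 : 1 ≤ m) (hm : m < K)
    {u : G} (hu : u ∈ S.P A) (l : S.Lw m u) : (fun b => S.κ u b m) ∈ S.T A h1 hm := by
  by_cases h0 : (m : ZMod n) = 0
  · by_cases hz : ∀ b, S.κ u b m = 0
    · rw [funext hz]; exact zero_mem _
    push Not at hz
    obtain ⟨a, ha⟩ := hz
    have ht := S.tr u m h1 hm h0 l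
    rw [finsum_eq_sum_of_fintype] at ht
    have e : (fun b => S.κ u b m) =
        ∑ b, (Pi.single b (S.κ u b m) - Pi.single a (S.κ u b m) : ZMod n → F) := by
      rw [sum_sub_distrib, univ_sum_single]
      ext z
      simp only [Pi.sub_apply, Finset.sum_apply, Pi.single_apply]
      split_ifs <;> simp [ht]
    rw [e]
    refine sum_mem fun b _ => ?_
    by_cases hb : S.κ u b m = 0
    · simp [hb]
    · exact S.comm_mem h1 hm a b _ h0 (hu a m h1 ha).1 (hu b m h1 hb).1
  · rw [← univ_sum_single fun b => S.κ u b m]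
    refine sum_mem fun b _ => ?_
    by_cases hb : S.κ u b m = 0
    · simp [hb]
    · exact S.single_mem h1 hm b _ h0 (hu b m h1 hb).1 (hu b m h1 hb).2

theorem gen [NeZero n] [Finite G] (A : Finset (ZMod n)) (g : G) (hg : g ∈ S.P A) : g ∈ S.H A := by
  have key : ∀ m ≤ K, ∃ x ∈ S.H A, ∀ b h, 1 ≤ h → h < m → S.κ g b h = S.κ x b h := by
    intro m hm
    induction m with
    | zero => exact ⟨1, one_mem _, fun b h _ h0 => absurd h0 (Nat.not_lt_zero _)⟩
    | succ m ih =>
      obtain ⟨x, hx, ex⟩ := ih (by omega)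
      rcases Nat.eq_zero_or_pos m with rfl | h1
      · exact ⟨x, hx, fun b h p q => by omega⟩
      have e : x * (x⁻¹ * g) = g := mul_inv_cancel_left _ _
      have l : S.Lw m (x⁻¹ * g) := S.low_of x _ m (by omega) (by rw [e]; exact ex)
      obtain ⟨y, hy, ly, ey⟩ := S.lead_mem h1 hm (mul_mem (inv_mem (S.H_le A hx)) hg) l
      refine ⟨x * y, mul_mem hx hy, fun b h p q => ?_⟩
      rcases Nat.lt_or_ge h m with h2 | h2
      · rw [S.mul_low x (fun b' h' p' q' => ly b' h' p' (q'.trans h2)) p (by omega), ly b h p h2,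
          add_zero, ex b h p h2]
      · obtain rfl : h = m := by omega
        rw [S.mul_low x ly p hm, ey, ← S.mul_low x l p hm, e]
  obtain ⟨x, hx, ex⟩ := key K le_rfl
  obtain rfl : g = x := S.ext _ _ fun b h => by
    rcases Nat.eq_zero_or_pos h with rfl | p
    · rw [S.zero, S.zero]
    rcases Nat.lt_or_ge h K with q | q
    · exact ex b h p q
    · rw [S.ge _ _ _ q, S.ge _ _ _ q]
  exact hx

end Pre

end Crest.Agent.R66.GrpA
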