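import Crest.Agent.R66.LinkA

/-! Row 66, link expansion. -/

set_option autoImplicit false

namespace Crest.Agent.R66

open Finset

namespace Link

theorem ind_nonneg (x : ZMod 2) : 0 ≤ ind x := by unfold ind; split_ifs <;> norm_num

theorem ind_le_one (x : ZMod 2) : ind x ≤ 1 := by unfold ind; split_ifs <;> norm_num

theorem big {Γ U B : Type} [Fintype Γ] [Fintype U] [Fintype B] (θ : U × B → Γ)
    (hθ : Function.Injective θ) (f : Γ → ℝ) (g : U → ℝ) (h0 : ∀ γ, 0 ≤ f γ) (h1 : ∀ γ, f γ ≤ 1)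
    (hfg : ∀ u b, f (θ (u, b)) = g u) :
    Fintype.card B * ∑ u, g u ≤ ∑ γ, f γ ∧ ∑ γ, f γ ≤ Fintype.card B * ∑ u, g u +
      (Fintype.card Γ - Fintype.card U * Fintype.card B) := by
  classical
  have h2 : ∑ γ ∈ univ.image θ, f γ = Fintype.card B * ∑ u, g u := by
    rw [sum_image fun x _ y _ h => hθ h, Fintype.sum_prod_type, mul_sum]
    refine sum_congr rfl fun u _ => ?_
    simp [hfg]
  have h3 : ∑ γ ∈ (univ.image θ)ᶜ, f γ ≤ Fintype.card Γ - Fintype.card U * Fintype.card B := by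
    refine (sum_le_card_nsmul _ _ 1 fun γ _ => h1 γ).trans (le_of_eq ?_)
    rw [nsmul_eq_mul, mul_one, card_compl, Nat.cast_sub (card_le_univ _),
      card_image_of_injective _ hθ, card_univ, Fintype.card_prod, Nat.cast_mul]
  have h4 : 0 ≤ ∑ γ ∈ (univ.image θ)ᶜ, f γ := sum_nonneg fun γ _ => h0 γ
  rw [← sum_add_sum_compl (univ.image θ) f, h2]
  constructor <;> linarith

theorem sum_elems {G : Type} [Group G] [Fintype G] (H : Subgroup G) [Fintype H] (f : G → ℝ) :
    ∑ u ∈ elems H, f u = ∑ u : H, f u :=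
  sum_subtype _ (fun x => by simp [elems]) f

theorem card_elems {G : Type} [Group G] [Fintype G] (H : Subgroup G) [Fintype H] :
    ((elems H).card : ℝ) = Fintype.card H := by
  have := sum_elems H fun _ => 1
  simpa using this

theorem exists_q (n : ℕ) {ε : ℝ} (hε : 0 < ε) :
    ∃ q₀ : ℕ, ∀ q : ℕ, q₀ ≤ q → (q : ℝ) ^ n ≤ (1 + ε) * ((q - 1 : ℕ) : ℝ) ^ n := by
  have h1 : Filter.Tendsto (fun q : ℕ => (1 + ε) * (1 - (q : ℝ)⁻¹) ^ n) Filter.atTop
      (nhds ((1 + ε) * (1 - 0) ^ n)) :=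
    ((tendsto_const_nhds.sub tendsto_inv_atTop_nhds_zero_nat).pow n).const_mul _
  have h2 := h1.eventually (lt_mem_nhds (show (1 : ℝ) < (1 + ε) * (1 - 0) ^ n by simpa using hε))
  obtain ⟨q₀, hq⟩ := Filter.eventually_atTop.1 h2
  refine ⟨q₀ + 1, fun q hq' => ?_⟩
  have h3 := (hq q (by omega)).le
  have h4 : (0 : ℝ) < q := by exact_mod_cast (by omega : 0 < q)
  rw [Nat.cast_sub (by omega), Nat.cast_one]
  have h5 : ((q : ℝ) - 1) = q * (1 - (q : ℝ)⁻¹) := by field_simp
  rw [h5, mul_pow]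
  have := mul_le_mul_of_nonneg_left h3 (pow_nonneg h4.le n)
  linarith

section main
variable {F G : Type} [Field F] [Group G] {n K : ℕ} [NeZero n] (S : Kap F n K G)

theorem mem_UI {I : Finset (ZMod n)} {g : G} : g ∈ UI S.U I ↔ ∀ t ∈ I, g ∈ S.U t := by
  simp [UI, Subgroup.mem_iInf]

theorem vtx_eq {t : ZMod n} {u u' : G} : vtx S.U t u = vtx S.U t u' ↔ u⁻¹ * u' ∈ S.U t := by
  rw [← QuotientGroup.eq]
  constructor
  · intro h
    exact eq_of_heq (Sigma.mk.inj h).2
  · intro h
    unfold vtx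
    rw [h]

theorem eq_one_of {g : G} (h : ∀ t, g ∈ S.U t) : g = 1 := by
  refine S.ext _ _ fun b k => ?_
  rcases Nat.eq_zero_or_pos k with rfl | hk
  · rw [S.zero, S.zero]
  · rw [S.one b k hk]
    by_contra hne
    have h1 : pos (b + 1) b + k < n := h (b + 1) b k hk hne
    have h2 := pos_lt b (b + 1)
    have h3 := pos_change b (b + 1) b
    rw [pos_self] at h3
    have h4 : pos b (b + 1) ≤ 1 := by
      unfold pos
      rw [add_sub_cancel_left, ZMod.val_one_eq_one_mod]
      exact Nat.mod_le _ _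
    have h5 : n = 1 ∨ pos b (b + 1) = 1 := by
      by_cases hn : n = 1
      · exact Or.inl hn
      · right
        have : 1 < n := by have := NeZero.ne n; omega
        simpa using pos_add_nat b this
    split_ifs at h3 <;> omega

/-- the representation by unitriangular matrices -/
noncomputable def piE (s : ZMod n) (h1 : S.pim s 1 = 1)
    (hm : ∀ g g', S.pim s (g * g') = S.pim s g * S.pim s g') :
    G →* ((ZMod n → F) ≃ₗ[F] (ZMod n → F)) where
  toFun u := LinearEquiv.ofLinear (Matrix.toLin' (S.pim s u)) (Matrix.toLin' (S.pim s u⁻¹))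
    (by rw [← Matrix.toLin'_mul, ← hm, mul_inv_cancel, h1, Matrix.toLin'_one])
    (by rw [← Matrix.toLin'_mul, ← hm, inv_mul_cancel, h1, Matrix.toLin'_one])
  map_one' := by ext; simp [h1]
  map_mul' u v := by ext; simp [hm]

theorem piE_smul (s : ZMod n) (h1 : S.pim s 1 = 1)
    (hm : ∀ g g', S.pim s (g * g') = S.pim s g * S.pim s g') (u : G) (t : ZMod n) :
    piE S s h1 hm u • ee F s t = S.phi s univ t u := by
  have : Asp F (univ : Finset (ZMod n)) = ⊥ :=
    eq_bot_iff.2 fun v hv => funext fun a => hv a (mem_univ a)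
  refine OV.ext rfl ?_
  rw [Kap.phi, this, sup_bot_eq]
  rfl

end main

theorem core (hD : DictStmt) (hS : SymStmt) {F G : Type} [Field F] [Fintype F] [Group G]
    [Fintype G] {n K : ℕ} [NeZero n] (S : Kap F n K G) (hK : n ≤ K) (s : ZMod n)
    (I : Finset (ZMod n)) (hs : s ∈ I) (r k K₀ : ℕ) (hr : r ≤ k)
    (c : Finset (OV F (ZMod n → F)) → (Finset (OV F (ZMod n → F)) →₀ ZMod 2))
    (hc : ∀ σ ∈ Bcx n (Esp F s) ((I.erase s).image (pos s)), σ.card ≤ k →
      c σ ∈ Ch (ZMod 2) (Bcx n (Esp F s) ((I.erase s).image (pos s))) (σ.card + 1) ∧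
      (c σ).support.card ≤ K₀ ∧
      bd (ZMod 2) (c σ) + ∑ v ∈ σ, c (σ.erase v) = Finsupp.single σ 1)
    {ε : ℝ} (hε : 0 ≤ ε)
    (hq : (Fintype.card F : ℝ) ^ n ≤ (1 + ε) * ((Fintype.card F - 1 : ℕ) : ℝ) ^ n)
    (η : Finset (ZMod n) → G → ZMod 2) (hη : LInv S.U I η) :
    ∃ η', LInv S.U I η' ∧ lnrm S.U I r (η + dl η') ≤
      2 ^ n * K₀ * lnrm S.U I (r + 1) (dl η) + 2 ^ n * K₀ * 2 ^ n * ε := by
  classical
  obtain ⟨h1, hm, hPhi, hinj, -⟩ := hD F G n K S hK s univ
  have hP : ∀ u : G, u ∈ S.P univ := fun u b h _ _ => ⟨mem_univ _, mem_univ _⟩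
  have hU : ∀ u ∈ UI S.U I, u ∈ S.U s ⊓ S.P univ := fun u hu => ⟨(mem_UI S).1 hu s hs, hP u⟩
  have hphi : ∀ t u w, w ∈ S.U t → S.phi s univ t (u * w) = S.phi s univ t u := by
    intro t u w hw
    rw [← hPhi, ← hPhi, (vtx_eq S (u := u) (u' := u * w)).2 (by simpa using hw)]
  set π := piE S s h1 hm with hπ
  have hπe : ∀ u t, π u • ee F s t = S.phi s univ t u := piE_smul S s h1 hm
  have hphi1 : ∀ t, S.phi s univ t 1 = ee F s t := fun t => by rw [← hπe, map_one, one_smul]
  have hphiinj : ∀ u, Function.Injective fun t => S.phi s univ t u :=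
    fun u _ _ h => pos_inj s (congrArg OV.t h)
  let _ : Fintype (Gam F s (I.erase s)) := Fintype.ofFinite _
  let _ : Fintype (Gam F s univ) := Fintype.ofFinite _
  let _ : Fintype (UI S.U I) := Fintype.ofFinite _
  -- the big cell
  have hθm : ∀ x : UI S.U I × Gam F s univ, π x.1 * x.2.1 ∈ Gam F s (I.erase s) := by
    intro x
    refine mem_Gam.2 fun t ht => ?_
    rw [mul_smul, mem_Gam.1 x.2.2 t (mem_univ t), hπe, ← hphi1,
      ← hphi t 1 x.1.1 ((mem_UI S).1 x.1.2 t (mem_of_mem_erase ht)), one_mul]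
  let θ : UI S.U I × Gam F s univ → Gam F s (I.erase s) := fun x => ⟨_, hθm x⟩
  have hθe : ∀ u b t, θ (u, b) • ee F s t = S.phi s univ t u := by
    intro u b t
    change (π u * b.1) • ee F s t = _
    rw [mul_smul, mem_Gam.1 b.2 t (mem_univ t), hπe]
  have hθ : Function.Injective θ := by
    rintro ⟨u, b⟩ ⟨u', b'⟩ h
    have h2 : u = u' := by
      refine Subtype.ext (inv_mul_eq_one.1 (eq_one_of S fun t => (vtx_eq S).1 ?_))
      refine hinj _ (hU _ u.2) _ (hU _ u'.2) t t ?_
      rw [← hθe u b, ← hθe u' b', h]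
    subst h2
    have h3 : π u * b.1 = π u * b'.1 := congrArg Subtype.val h
    rw [Subtype.ext (mul_left_cancel h3)]
  -- the cochain
  let h : Finset (OV F (ZMod n → F)) → ZMod 2 := fun ρ =>
    if H : ∃ x : UI S.U I × Finset (ZMod n), ρ = x.2.image (fun t => S.phi s univ t x.1) then
      η H.choose.2 H.choose.1 else 0
  have hh : ∀ (u : UI S.U I) (J : Finset (ZMod n)),
      h (J.image fun t => S.phi s univ t u) = η J u := by
    intro u J
    have H : ∃ x : UI S.U I × Finset (ZMod n),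
        (J.image fun t => S.phi s univ t u) = x.2.image (fun t => S.phi s univ t x.1) :=
      ⟨(u, J), rfl⟩
    simp only [h, dif_pos H]
    have h2 := H.choose_spec
    generalize H.choose = x at h2 ⊢
    obtain ⟨u', J'⟩ := x
    dsimp only at h2 ⊢
    have h3 : ∀ t ∈ J, t ∈ J' ∧ S.phi s univ t u = S.phi s univ t u' := by
      intro t ht
      have h4 := mem_image_of_mem (fun t => S.phi s univ t u) ht
      rw [h2] at h4
      obtain ⟨t', ht', h5⟩ := mem_image.1 h4
      have h6 : t' = t := pos_inj s (congrArg OV.t h5)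
      subst h6
      exact ⟨ht', h5.symm⟩
    have h4 : J = J' := by
      refine eq_of_subset_of_card_le (fun t ht => (h3 t ht).1) ?_
      rw [← card_image_of_injective J (hphiinj u), h2, card_image_of_injective J' (hphiinj u')]
    subst h4
    have h5 : (u : G)⁻¹ * u' ∈ UI S.U (I ∪ J) := by
      refine (mem_UI S).2 fun t ht => ?_
      rcases mem_union.1 ht with ht | ht
      · exact (mem_UI S).1 (mul_mem (inv_mem u.2) u'.2) t ht
      · exact (vtx_eq S).1 (hinj _ (hU _ u.2) _ (hU _ u'.2) t t (h3 t ht).2)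
    have h6 := hη J u u.2 _ h5
    rwa [mul_inv_cancel_left] at h6
  obtain ⟨h', hh'⟩ := hS (Gam F s (I.erase s)) (OV F (ZMod n → F)) (ZMod n) Iᶜ (ee F s) r K₀ c
    (fun γ J hJ hJr => by
      have h2 := fc_mem s I hs γ J hJ
      have h3 : (J.image fun t => γ • ee F s t).card = J.card :=
        card_image_of_injective _ (smul_ee_inj s γ.1)
      obtain ⟨h4, h5, h6⟩ := hc _ h2 (by omega)
      refine ⟨fun ρ hρ => ?_, h5, h6⟩
      obtain ⟨h7, h8⟩ := (Finsupp.mem_supported _ _).1 h4 hρ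
      obtain ⟨g, J', hJ', h9, h10⟩ := exists_fc s I ρ h7
      exact ⟨g, J', hJ', by omega, h10⟩) h
  let η' : Finset (ZMod n) → G → ZMod 2 := fun J u => h' (J.image fun t => S.phi s univ t u)
  refine ⟨η', fun J u _ w hw => ?_, ?_⟩
  · simp only [η']
    congr 1
    exact image_congr fun t ht => hphi t u w ((mem_UI S).1 hw t (mem_union_right _ ht))
  have hsum : ∀ (f : Finset (OV F (ZMod n → F)) → ZMod 2) (u : G) (J : Finset (ZMod n)),
      ∑ v ∈ J.image (fun t => S.phi s univ t u), f ((J.image fun t => S.phi s univ t u).erase v) =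
        ∑ t ∈ J, f ((J.erase t).image fun t => S.phi s univ t u) := by
    intro f u J
    rw [sum_image fun x _ y _ hxy => hphiinj u hxy]
    refine sum_congr rfl fun t _ => ?_
    rw [image_erase (hphiinj u)]
  set Uc : ℝ := (Fintype.card (UI S.U I) : ℝ) with hUc
  set Bc : ℝ := (Fintype.card (Gam F s univ) : ℝ) with hBc
  set Γc : ℝ := (Fintype.card (Gam F s (I.erase s)) : ℝ) with hΓc
  have hU0 : 0 < Uc := by rw [hUc]; exact_mod_cast Fintype.card_pos
  have hB0 : 0 < Bc := by rw [hBc]; exact_mod_cast Fintype.card_pos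
  have hL : Uc * Bc * lnrm S.U I r (η + dl η') ≤
      ∑ J ∈ Iᶜ.powersetCard r, ∑ γ : Gam F s (I.erase s),
        ind (h (J.image fun t => γ • ee F s t) + ∑ v ∈ J.image (fun t => γ • ee F s t),
          h' ((J.image fun t => γ • ee F s t).erase v)) := by
    rw [lnrm, mul_sum]
    refine sum_le_sum fun J _ => ?_
    rw [sum_elems, card_elems, ← hUc]
    refine le_trans (le_of_eq ?_) (big θ hθ _ (fun u => ind ((η + dl η') J u))
      (fun _ => ind_nonneg _) (fun _ => ind_le_one _) fun u b => ?_).1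
    · rw [← hBc]; field_simp
    · simp only [hθe, hh, hsum]
      rfl
  have hR : ∑ J ∈ Iᶜ.powersetCard (r + 1), ∑ γ : Gam F s (I.erase s),
        ind (∑ v ∈ J.image (fun t => γ • ee F s t), h ((J.image fun t => γ • ee F s t).erase v)) ≤
      Uc * Bc * lnrm S.U I (r + 1) (dl η) + 2 ^ n * (ε * (Uc * Bc)) := by
    have hcount : Γc - Uc * Bc ≤ ε * (Uc * Bc) := by
      have c1 := card_Gam_le (F := F) s (I.erase s)
      have c2 := card_Bor_ge (F := F) s
      have c3 := card_UI_ge S hK s I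
      rw [Nat.card_eq_fintype_card, Nat.card_eq_fintype_card (α := F)] at c1
      rw [Nat.card_eq_fintype_card, Nat.card_eq_fintype_card (α := Gam F s univ)] at c2
      rw [Nat.card_eq_fintype_card, Nat.card_eq_fintype_card (α := UI S.U I)] at c3
      have d1 : Γc ≤ (Fintype.card F : ℝ) ^ Nat.card (Low s (I.erase s)) *
          ((Fintype.card F : ℝ) ^ n * (Fintype.card F : ℝ) ^ Nat.card (Up s)) := by
        rw [hΓc]; exact_mod_cast c1
      have d2 : ((Fintype.card F - 1 : ℕ) : ℝ) ^ n * (Fintype.card F : ℝ) ^ Nat.card (Up s) ≤ Bc := by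
        rw [hBc]; exact_mod_cast c2
      have d3 : (Fintype.card F : ℝ) ^ Nat.card (Low s (I.erase s)) ≤ Uc := by
        rw [hUc]; exact_mod_cast c3
      have d4 : (Fintype.card F : ℝ) ^ n * (Fintype.card F : ℝ) ^ Nat.card (Up s) ≤ (1 + ε) * Bc :=
        calc _ ≤ (1 + ε) * ((Fintype.card F - 1 : ℕ) : ℝ) ^ n *
              (Fintype.card F : ℝ) ^ Nat.card (Up s) :=
            mul_le_mul_of_nonneg_right hq (by positivity)
          _ ≤ _ := by rw [mul_assoc]; exact mul_le_mul_of_nonneg_left d2 (by positivity)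
      have d5 := d1.trans (mul_le_mul d3 d4 (by positivity) hU0.le)
      linarith
    have hcard : ((Iᶜ.powersetCard (r + 1)).card : ℝ) ≤ 2 ^ n := by
      have : (Iᶜ.powersetCard (r + 1)).card ≤ 2 ^ n := by
        refine (card_le_univ _).trans ?_
        simp
      exact_mod_cast this
    calc _ ≤ ∑ J ∈ Iᶜ.powersetCard (r + 1),
          (Uc * Bc * ((∑ u ∈ elems (UI S.U I), ind (dl η J u)) / (elems (UI S.U I)).card) +
            ε * (Uc * Bc)) := by
          refine sum_le_sum fun J _ => ?_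
          rw [sum_elems, card_elems, ← hUc]
          refine le_trans (big θ hθ _ (fun u => ind (dl η J u))
            (fun _ => ind_nonneg _) (fun _ => ind_le_one _) fun u b => ?_).2
            (add_le_add (le_of_eq ?_) hcount)
          · simp only [hθe, hh, hsum]
            rfl
          · rw [← hBc]; field_simp
      _ ≤ _ := by
          rw [sum_add_distrib, ← mul_sum, sum_const, nsmul_eq_mul, lnrm]
          exact add_le_add le_rfl (mul_le_mul_of_nonneg_right hcard (by positivity))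
  have hT : (2 : ℝ) ^ (Iᶜ).card * K₀ ≤ 2 ^ n * K₀ := by
    refine mul_le_mul_of_nonneg_right (pow_le_pow_right₀ one_le_two ?_) (Nat.cast_nonneg _)
    simpa using card_le_univ Iᶜ
  have hfin := hL.trans (hh'.trans (mul_le_mul hT hR
    (sum_nonneg fun _ _ => sum_nonneg fun _ _ => ind_nonneg _) (by positivity)))
  refine le_of_mul_le_mul_left (hfin.trans (le_of_eq ?_)) (mul_pos hU0 hB0)
  ring

end Link

open Link in
theorem linkStmt_of (hD : DictStmt) (hC : ConeStmt) (hS : SymStmt) : LinkStmt := by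
  intro k
  obtain ⟨K₀, n₀, hC⟩ := hC k k
  refine ⟨n₀, fun n _ hn => ⟨2 ^ n * K₀ + 1, by positivity, fun ε hε => ?_⟩⟩
  have hpos : (0 : ℝ) < 2 ^ n * K₀ * 2 ^ n + 1 := by positivity
  obtain ⟨q₀, hq₀⟩ := exists_q n (div_pos hε hpos)
  refine ⟨q₀, fun F G _ _ _ _ K S hq hK I hI hIk r hr η hη => ?_⟩
  obtain ⟨s, hs⟩ := hI
  obtain ⟨c, hc⟩ := hC n hn F (ZMod n → F) (by simp) (Esp F s) (Esp_mono s) (finrank_Esp s)
    ((I.erase s).image (pos s)) (card_image_le.trans ((card_erase_le).trans hIk))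
  obtain ⟨η', h1, h2⟩ := core hD hS S hK s I hs r k K₀ hr c hc (div_pos hε hpos).le (hq₀ _ hq) η hη
  refine ⟨η', h1, h2.trans (add_le_add ?_ ?_)⟩
  · refine mul_le_mul_of_nonneg_right (le_add_of_nonneg_right zero_le_one) ?_
    exact sum_nonneg fun _ _ => div_nonneg (sum_nonneg fun _ _ => ind_nonneg _) (Nat.cast_nonneg _)
  · rw [mul_div_assoc', div_le_iff₀ hpos]
    nlinarith

end Crest.Agent.R66
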