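import Crest.Agent.R66.Defs

/-! Row 66, link expansion: linear algebra and counting. -/

set_option autoImplicit false

namespace Crest.Agent.R66.Link

open Finset

section pos
variable {n : ℕ} [NeZero n]

theorem pos_lt (s a : ZMod n) : pos s a < n := ZMod.val_lt _

theorem add_pos (s a : ZMod n) : s + (pos s a : ZMod n) = a := by
  simp [pos]

theorem pos_inj (s : ZMod n) : Function.Injective (pos s) := fun a b h => by
  rw [← add_pos s a, h, add_pos]

omit [NeZero n] in
theorem pos_add_nat (s : ZMod n) {i : ℕ} (hi : i < n) : pos s (s + (i : ZMod n)) = i := by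
  simp [pos, ZMod.val_natCast, Nat.mod_eq_of_lt hi]

omit [NeZero n] in
theorem pos_self (s : ZMod n) : pos s s = 0 := by simp [pos]

theorem pos_pos {s t : ZMod n} (h : t ≠ s) : 0 < pos s t := by
  rcases Nat.eq_zero_or_pos (pos s t) with h0 | h0
  · exact absurd (pos_inj s (h0.trans (pos_self s).symm)) h
  · exact h0

theorem pos_change (s t b : ZMod n) :
    pos t b = if pos s t ≤ pos s b then pos s b - pos s t else n + pos s b - pos s t := by
  have hb := pos_lt s b
  have ht := pos_lt s t
  split_ifs with h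
  · have : b = t + ((pos s b - pos s t : ℕ) : ZMod n) := by
      rw [Nat.cast_sub h]
      conv_lhs => rw [← add_pos s b]
      conv_rhs => rw [← add_pos s t]
      simp only [add_pos]
      simp [pos]
    conv_lhs => rw [this]
    exact pos_add_nat t (by omega)
  · have : b = t + ((n + pos s b - pos s t : ℕ) : ZMod n) := by
      rw [Nat.cast_sub (by omega), Nat.cast_add]
      simp [pos]
    conv_lhs => rw [this]
    exact pos_add_nat t (by omega)

theorem add_sub_pos (s : ZMod n) {a b : ZMod n} (h : pos s b ≤ pos s a) :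
    b + ((pos s a - pos s b : ℕ) : ZMod n) = a := by
  rw [Nat.cast_sub h]
  simp [pos]

/-- positions as an equivalence with `Fin n` -/
def posE (s : ZMod n) : ZMod n ≃ Fin n where
  toFun a := ⟨pos s a, pos_lt s a⟩
  invFun i := s + ((i : ℕ) : ZMod n)
  left_inv a := add_pos s a
  right_inv i := Fin.ext (pos_add_nat s i.2)

end pos

section flag
variable {F : Type} [Field F] {n : ℕ} [NeZero n]

omit [NeZero n] in
theorem mem_Esp {s : ZMod n} {m : ℕ} {v : ZMod n → F} :
    v ∈ Esp F s m ↔ ∀ a, m ≤ pos s a → v a = 0 := Iff.rfl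

omit [NeZero n] in
theorem Esp_mono (s : ZMod n) : Monotone (Esp F s) :=
  fun _ _ h _ hv a ha => hv a (h.trans ha)

theorem finrank_Esp (s : ZMod n) (m : ℕ) (hm : m ≤ n) : Module.finrank F (Esp F s m) = m := by
  have h1 : Esp F s m = Submodule.span F (Set.range fun i : Fin m =>
      Pi.basisFun F (ZMod n) (s + ((i : ℕ) : ZMod n))) := by
    have : (Set.range fun i : Fin m => Pi.basisFun F (ZMod n) (s + ((i : ℕ) : ZMod n))) =
        Pi.basisFun F (ZMod n) '' {a | pos s a < m} := by
      ext x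
      constructor
      · rintro ⟨i, rfl⟩
        exact ⟨_, by simp [pos_add_nat s (i.2.trans_le hm)], rfl⟩
      · rintro ⟨a, ha, rfl⟩
        exact ⟨⟨pos s a, ha⟩, by simp [add_pos]⟩
    rw [this]
    ext v
    rw [Module.Basis.mem_span_image, mem_Esp]
    constructor
    · intro h a ha
      by_contra hc
      simp [h a (not_lt.1 hc)] at ha
    · intro h a ha
      by_contra hc
      exact absurd (h (by simpa using hc)) (not_lt.2 ha)
  rw [h1, finrank_span_eq_card, Fintype.card_fin]
  refine (Pi.basisFun F (ZMod n)).linearIndependent.comp _ fun i j hij => ?_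
  have := congrArg (pos s) hij
  rw [pos_add_nat s (i.2.trans_le hm), pos_add_nat s (j.2.trans_le hm)] at this
  exact Fin.ext this

theorem exists_adapted {W : Type} [AddCommGroup W] [Module F W] [FiniteDimensional F W]
    (σ : Finset (OV F W)) (hσ : IsCh σ) (hd : ∀ v ∈ σ, Module.finrank F v.C = v.t) :
    ∀ a ≤ Module.finrank F W, ∃ b : Fin a → W, LinearIndependent F b ∧
      ∀ v ∈ σ, ∀ i : Fin a, (i : ℕ) < v.t → b i ∈ v.C := by
  intro a
  induction a with
  | zero => intro _; exact ⟨Fin.elim0, linearIndependent_empty_type, fun _ _ i => i.elim0⟩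
  | succ a ih =>
    intro ha
    obtain ⟨b, hb, hb'⟩ := ih (by omega)
    obtain ⟨C, hC, hC'⟩ : ∃ C : Submodule F W, a < Module.finrank F C ∧
        ∀ v ∈ σ, a < v.t → C ≤ v.C := by
      by_cases h : (σ.filter fun v => a < v.t).Nonempty
      · obtain ⟨v, hv, hmin⟩ := Finset.exists_min_image _ (fun v => v.t) h
        rw [mem_filter] at hv
        refine ⟨v.C, by rw [hd v hv.1]; exact hv.2, fun w hw hw' => ?_⟩
        exact hσ v hv.1 w hw (hmin w (mem_filter.2 ⟨hw, hw'⟩))
      · refine ⟨⊤, by rw [finrank_top]; omega, fun v hv hv' => ?_⟩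
        exact absurd ⟨v, mem_filter.2 ⟨hv, hv'⟩⟩ h
    have : ¬ C ≤ Submodule.span F (Set.range b) := fun hle => by
      have h1 := Submodule.finrank_mono hle
      rw [finrank_span_eq_card hb, Fintype.card_fin] at h1
      omega
    obtain ⟨x, hx, hx'⟩ := SetLike.not_le_iff_exists.1 this
    refine ⟨Fin.snoc b x, linearIndependent_finSnoc.2 ⟨hb, hx'⟩, fun v hv i hi => ?_⟩
    induction i using Fin.lastCases with
    | last => rw [Fin.snoc_last]; exact hC' v hv (by simpa using hi) hx
    | cast i => rw [Fin.snoc_castSucc]; exact hb' v hv i (by simpa using hi)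

theorem exists_flag (s : ZMod n) (σ : Finset (OV F (ZMod n → F))) (hσ : IsCh σ)
    (hd : ∀ v ∈ σ, Module.finrank F v.C = v.t) :
    ∃ g : (ZMod n → F) ≃ₗ[F] (ZMod n → F), ∀ v ∈ σ,
      (Esp F s v.t).map (g : (ZMod n → F) →ₗ[F] (ZMod n → F)) = v.C := by
  have hW : Module.finrank F (ZMod n → F) = n := by simp
  obtain ⟨b, hb, hb'⟩ := exists_adapted σ hσ hd n hW.ge
  have hb2 : LinearIndependent F (b ∘ posE s) := hb.comp _ (posE s).injective
  let B := basisOfLinearIndependentOfCardEqFinrank' _ hb2 (by simp)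
  refine ⟨(Pi.basisFun F (ZMod n)).equiv B (Equiv.refl _), fun v hv => ?_⟩
  have hvn : v.t ≤ n := by
    rw [← hd v hv]; exact (Submodule.finrank_le _).trans hW.le
  refine Submodule.eq_of_le_of_finrank_eq ?_ ?_
  · rintro _ ⟨x, hx, rfl⟩
    rw [← (Pi.basisFun F (ZMod n)).sum_repr x, map_sum]
    refine Submodule.sum_mem _ fun a _ => ?_
    rw [map_smul]
    by_cases ha : pos s a < v.t
    · refine Submodule.smul_mem _ _ ?_
      rw [LinearEquiv.coe_coe, Module.Basis.equiv_apply]
      simpa [B] using hb' v hv (posE s a) ha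
    · have : x a = 0 := hx a (not_lt.1 ha)
      simp [this]
  · rw [LinearEquiv.finrank_map_eq, finrank_Esp s _ hvn, hd v hv]

end flag

section act
variable {F W : Type} [Field F] [AddCommGroup W] [Module F W]

/-- linear automorphisms act on typed subspaces -/
scoped instance actOV : MulAction (W ≃ₗ[F] W) (OV F W) where
  smul g v := ⟨v.t, v.C.map (g : W →ₗ[F] W)⟩
  one_smul _ := OV.ext rfl (Submodule.map_id _)
  mul_smul g h v := OV.ext rfl (Submodule.map_comp (h : W →ₗ[F] W) (g : W →ₗ[F] W) v.C)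

theorem smul_t (g : W ≃ₗ[F] W) (v : OV F W) : (g • v).t = v.t := rfl

theorem smul_C (g : W ≃ₗ[F] W) (v : OV F W) : (g • v).C = v.C.map (g : W →ₗ[F] W) := rfl

end act

section gam
variable (F : Type) [Field F] {n : ℕ} [NeZero n]

/-- standard flag -/
def ee (s : ZMod n) (t : ZMod n) : OV F (ZMod n → F) := ⟨pos s t, Esp F s (pos s t)⟩

/-- stabiliser of part of the standard flag -/
def Gam (s : ZMod n) (T : Finset (ZMod n)) : Subgroup ((ZMod n → F) ≃ₗ[F] (ZMod n → F)) :=
  ⨅ t ∈ T, MulAction.stabilizer _ (ee F s t)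

variable {F}

omit [NeZero n] in
theorem mem_Gam {s : ZMod n} {T : Finset (ZMod n)} {g : (ZMod n → F) ≃ₗ[F] (ZMod n → F)} :
    g ∈ Gam F s T ↔ ∀ t ∈ T, g • ee F s t = ee F s t := by
  simp [Gam, Subgroup.mem_iInf]

instance [Finite F] : Finite ((ZMod n → F) ≃ₗ[F] (ZMod n → F)) :=
  Finite.of_injective _ DFunLike.coe_injective

theorem smul_ee_inj (s : ZMod n) (g : (ZMod n → F) ≃ₗ[F] (ZMod n → F)) :
    Function.Injective fun t => g • ee F s t := fun _ _ h => pos_inj s (congrArg OV.t h)

theorem fc_mem (s : ZMod n) (I : Finset (ZMod n)) (hs : s ∈ I) (g : Gam F s (I.erase s))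
    (J : Finset (ZMod n)) (hJ : J ⊆ Iᶜ) :
    J.image (fun t => g • ee F s t) ∈ Bcx n (Esp F s) ((I.erase s).image (pos s)) := by
  constructor
  · intro v hv
    obtain ⟨t, ht, rfl⟩ := mem_image.1 hv
    have htI : t ∉ I := mem_compl.1 (hJ ht)
    refine ⟨pos_pos fun h => htI (h ▸ hs), pos_lt s t, fun h => ?_, ?_, fun m hm => ?_⟩
    · obtain ⟨t', ht', h⟩ := mem_image.1 h
      exact htI (pos_inj s h ▸ mem_of_mem_erase ht')
    · exact (LinearEquiv.finrank_map_eq _ _).trans (finrank_Esp s _ (pos_lt s t).le)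
    · obtain ⟨t', ht', rfl⟩ := mem_image.1 hm
      have h1 : (Esp F s (pos s t')).map
          ((g : (ZMod n → F) ≃ₗ[F] (ZMod n → F)) : (ZMod n → F) →ₗ[F] (ZMod n → F)) =
          Esp F s (pos s t') := congrArg OV.C (mem_Gam.1 g.2 t' ht')
      constructor
      · intro h
        rw [← h1]
        exact Submodule.map_mono (Esp_mono s h)
      · intro h
        rw [← h1]
        exact Submodule.map_mono (Esp_mono s h)
  · intro v hv w hw h
    obtain ⟨t, -, rfl⟩ := mem_image.1 hv
    obtain ⟨t', -, rfl⟩ := mem_image.1 hw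
    exact Submodule.map_mono (Esp_mono s h)

theorem exists_fc (s : ZMod n) (I : Finset (ZMod n))
    (ρ : Finset (OV F (ZMod n → F))) (hρ : ρ ∈ Bcx n (Esp F s) ((I.erase s).image (pos s))) :
    ∃ g : Gam F s (I.erase s), ∃ J ⊆ Iᶜ, J.card = ρ.card ∧ ρ = J.image fun t => g • ee F s t := by
  obtain ⟨h1, h2⟩ := hρ
  obtain ⟨g, hg⟩ := exists_flag s (ρ ∪ (I.erase s).image (ee F s)) (by
    intro v hv w hw h
    rcases mem_union.1 hv with hv | hv <;> rcases mem_union.1 hw with hw | hw
    · exact h2 v hv w hw h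
    · obtain ⟨t, ht, rfl⟩ := mem_image.1 hw
      exact ((h1 v hv).2.2.2.2 _ (mem_image_of_mem _ ht)).2 h
    · obtain ⟨t, ht, rfl⟩ := mem_image.1 hv
      exact ((h1 w hw).2.2.2.2 _ (mem_image_of_mem _ ht)).1 h
    · obtain ⟨t, ht, rfl⟩ := mem_image.1 hv
      obtain ⟨t', ht', rfl⟩ := mem_image.1 hw
      exact Esp_mono s h) (by
    intro v hv
    rcases mem_union.1 hv with hv | hv
    · exact (h1 v hv).2.2.2.1
    · obtain ⟨t, ht, rfl⟩ := mem_image.1 hv
      exact finrank_Esp s _ (pos_lt s t).le)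
  have hgm : g ∈ Gam F s (I.erase s) := mem_Gam.2 fun t ht =>
    OV.ext rfl (hg _ (mem_union_right _ (mem_image_of_mem _ ht)))
  have key : ∀ v ∈ ρ, g • ee F s (s + (v.t : ZMod n)) = v := fun v hv => by
    have h3 := pos_add_nat s (h1 v hv).2.1
    refine OV.ext h3 ?_
    rw [smul_C, ee]
    simp only [h3]
    exact hg v (mem_union_left _ hv)
  have hρ : ρ = (ρ.image fun v => s + (v.t : ZMod n)).image fun t => g • ee F s t := by
    rw [image_image]
    conv_lhs => rw [← image_id (s := ρ)]
    exact image_congr fun v hv => (key v hv).symm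
  refine ⟨⟨g, hgm⟩, ρ.image fun v => s + (v.t : ZMod n), fun t ht => ?_, ?_, hρ⟩
  · obtain ⟨v, hv, rfl⟩ := mem_image.1 ht
    have h3 := pos_add_nat s (h1 v hv).2.1
    rw [mem_compl]
    intro hI
    refine (h1 v hv).2.2.1 (mem_image.2 ⟨_, mem_erase.2 ⟨fun h => ?_, hI⟩, h3⟩)
    rw [h, pos_self] at h3
    have := (h1 v hv).1
    omega
  · conv_rhs => rw [hρ]
    exact (card_image_of_injective _ (smul_ee_inj s g)).symm

/-- allowed entries strictly below the diagonal -/
def Low (s : ZMod n) (T : Finset (ZMod n)) : Type :=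
  {p : ZMod n × ZMod n // pos s p.2 < pos s p.1 ∧
    ∀ t ∈ T, ¬ (pos s p.2 < pos s t ∧ pos s t ≤ pos s p.1)}

/-- entries strictly above the diagonal -/
def Up (s : ZMod n) : Type := {p : ZMod n × ZMod n // pos s p.1 < pos s p.2}

instance (s : ZMod n) (T : Finset (ZMod n)) : Finite (Low s T) := Subtype.finite

instance (s : ZMod n) : Finite (Up s) := Subtype.finite

theorem card_Gam_le [Finite F] (s : ZMod n) (T : Finset (ZMod n)) :
    Nat.card (Gam F s T) ≤
      Nat.card F ^ Nat.card (Low s T) * (Nat.card F ^ n * Nat.card F ^ Nat.card (Up s)) := by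
  let M : Gam F s T → ZMod n → ZMod n → F := fun g a b => g.1 (Pi.single b 1) a
  have := Nat.card_le_card_of_injective
    (fun g : Gam F s T => ((fun p : Low s T => M g p.1.1 p.1.2, fun a : ZMod n => M g a a,
      fun p : Up s => M g p.1.1 p.1.2) : (Low s T → F) × (ZMod n → F) × (Up s → F))) (by
    intro g g' h
    simp only [Prod.mk.injEq] at h
    obtain ⟨h1, h2, h3⟩ := h
    have hz : ∀ g : Gam F s T, ∀ a b, ∀ t ∈ T, pos s b < pos s t → pos s t ≤ pos s a →
        M g a b = 0 := by
      intro g a b t ht hb ha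
      have h4 : (Esp F s (pos s t)).map
          ((g : (ZMod n → F) ≃ₗ[F] (ZMod n → F)) : (ZMod n → F) →ₗ[F] (ZMod n → F)) =
          Esp F s (pos s t) := congrArg OV.C (mem_Gam.1 g.2 t ht)
      have h5 : (Pi.single b 1 : ZMod n → F) ∈ Esp F s (pos s t) := fun c hc =>
        Pi.single_eq_of_ne (fun h => by rw [h] at hc; omega) _
      have h6 := Submodule.mem_map_of_mem
        (f := ((g : (ZMod n → F) ≃ₗ[F] (ZMod n → F)) : (ZMod n → F) →ₗ[F] (ZMod n → F))) h5
      rw [h4] at h6
      exact h6 a ha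
    have hM : ∀ a b, M g a b = M g' a b := by
      intro a b
      rcases lt_trichotomy (pos s b) (pos s a) with h | h | h
      · by_cases hc : ∀ t ∈ T, ¬ (pos s b < pos s t ∧ pos s t ≤ pos s a)
        · exact congrFun h1 ⟨(a, b), h, hc⟩
        · push Not at hc
          obtain ⟨t, ht, hb, ha⟩ := hc
          rw [hz g a b t ht hb ha, hz g' a b t ht hb ha]
      · rw [pos_inj s h]; exact congrFun h2 a
      · exact congrFun h3 ⟨(a, b), h⟩
    refine Subtype.ext (LinearEquiv.toLinearMap_injective ((Pi.basisFun F (ZMod n)).ext fun b => ?_))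
    funext a
    simpa using hM a b)
  simpa [Nat.card_prod, Nat.card_fun] using this

theorem card_Bor_ge [Finite F] (s : ZMod n) :
    (Nat.card F - 1) ^ n * Nat.card F ^ Nat.card (Up s) ≤ Nat.card (Gam F s univ) := by
  classical
  let M : (ZMod n → Fˣ) × (Up s → F) → Matrix (ZMod n) (ZMod n) F := fun x a b =>
    if a = b then (x.1 a : F) else if h : pos s a < pos s b then x.2 ⟨(a, b), h⟩ else 0
  have hM0 : ∀ x a b, pos s b < pos s a → M x a b = 0 := by
    intro x a b h
    have h1 : a ≠ b := fun h' => by rw [h'] at h; omega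
    simp only [M, if_neg h1, dif_neg (not_lt.2 h.le)]
  have hdet : ∀ x, IsUnit (M x).det := by
    intro x
    let _ : LinearOrder (ZMod n) := LinearOrder.lift' (pos s) (pos_inj s)
    rw [Matrix.det_of_isUpperTriangular (M := M x) (fun a b h => hM0 x a b h)]
    refine IsUnit.prod_iff.2 fun a _ => ?_
    simp [M]
  let g : (ZMod n → Fˣ) × (Up s → F) → ((ZMod n → F) ≃ₗ[F] (ZMod n → F)) := fun x =>
    (M x).toLinearEquiv (Pi.basisFun F (ZMod n)) (hdet x)
  have hg : ∀ x v, g x v = (M x).mulVec v := fun x v => by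
    simp [g, Matrix.toLin_eq_toLin']
  have hgm : ∀ x, g x ∈ Gam F s univ := fun x => mem_Gam.2 fun t _ => by
    refine OV.ext rfl (Submodule.eq_of_le_of_finrank_eq ?_ (LinearEquiv.finrank_map_eq _ _))
    rintro _ ⟨v, hv, rfl⟩ a ha
    rw [LinearEquiv.coe_coe, hg, Matrix.mulVec, dotProduct]
    refine sum_eq_zero fun b _ => ?_
    by_cases hb : pos s b < pos s t
    · rw [hM0 x a b (hb.trans_le ha), zero_mul]
    · rw [hv b (not_lt.1 hb), mul_zero]
  have := Nat.card_le_card_of_injective (fun x => (⟨g x, hgm x⟩ : Gam F s univ)) (by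
    intro x y h
    have h1 : g x = g y := congrArg Subtype.val h
    have h2 : ∀ a b, M x a b = M y a b := fun a b => by
      have := congrFun (congrArg (fun e : (ZMod n → F) ≃ₗ[F] (ZMod n → F) => e (Pi.single b 1)) h1) a
      simpa [hg] using this
    refine Prod.ext (funext fun a => Units.ext ?_) (funext fun p => ?_)
    · simpa [M] using h2 a a
    · have h3 : p.1.1 ≠ p.1.2 := fun h' => by have := p.2; rw [h'] at this; omega
      simpa [M, h3, p.2] using h2 p.1.1 p.1.2)
  simpa [Nat.card_prod, Nat.card_fun, Nat.card_units] using this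

end gam

theorem card_UI_ge {F : Type} [Field F] [Finite F] {n K : ℕ} [NeZero n] {G : Type} [Group G]
    [Finite G] (S : Kap F n K G) (hK : n ≤ K) (s : ZMod n) (I : Finset (ZMod n)) :
    Nat.card F ^ Nat.card (Low s (I.erase s)) ≤ Nat.card (UI S.U I) := by
  classical
  have := Nat.card_le_card_of_surjective
    (fun u : UI S.U I => fun p : Low s (I.erase s) =>
      S.κ u.1 p.1.2 (pos s p.1.1 - pos s p.1.2)) (by
    intro x
    let c : ZMod n → ℕ → F := fun b h =>
      if H : pos s b + h < n ∧ (pos s b < pos s (b + (h : ZMod n)) ∧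
        ∀ t ∈ I.erase s, ¬ (pos s b < pos s t ∧ pos s t ≤ pos s (b + (h : ZMod n)))) then
        x ⟨(b + (h : ZMod n), b), H.2⟩ else 0
    have hc : ∀ b h, c b h ≠ 0 → pos s b + h < n ∧ (pos s b < pos s (b + (h : ZMod n)) ∧
        ∀ t ∈ I.erase s, ¬ (pos s b < pos s t ∧ pos s t ≤ pos s (b + (h : ZMod n)))) := by
      intro b h hne
      by_contra H
      exact hne (dif_neg H)
    obtain ⟨g, hg⟩ := S.exH c (pos s) fun b h _ hne => (hc b h hne).2.1
    refine ⟨⟨g, ?_⟩, funext fun p => ?_⟩
    · simp only [UI, Subgroup.mem_iInf]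
      intro t ht b h hh hne
      have hK' : h < K := by
        by_contra H
        exact hne (S.ge _ _ _ (not_lt.1 H))
      rw [hg b h hh hK'] at hne
      obtain ⟨h1, -, h3⟩ := hc b h hne
      by_cases hts : t = s
      · rw [hts]; exact h1
      · have h4 := h3 t (mem_erase.2 ⟨hts, ht⟩)
        rw [Kap.pos_add s b h h1] at h4
        have h5 := pos_lt s t
        rw [pos_change s t b]
        split_ifs with h6 <;> omega
    · obtain ⟨⟨a, b⟩, h1, h2⟩ := p
      have h3 := pos_lt s a
      have h4 := add_sub_pos s h1.le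
      dsimp only at h1 h2 h4 ⊢
      rw [hg b _ (by omega) (by omega)]
      have H : pos s b + (pos s a - pos s b) < n ∧
          (pos s b < pos s (b + ((pos s a - pos s b : ℕ) : ZMod n)) ∧ ∀ t ∈ I.erase s,
            ¬ (pos s b < pos s t ∧ pos s t ≤ pos s (b + ((pos s a - pos s b : ℕ) : ZMod n)))) := by
        rw [h4]; exact ⟨by omega, h1, h2⟩
      simp only [c, dif_pos H]
      congr 1
      exact Subtype.ext (Prod.ext h4 rfl))
  simpa [Nat.card_fun] using this

end Crest.Agent.R66.Link
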