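import Crest.Agent.R66.OAux

/-!
Row 66: the opposition complexes are highly acyclic.
-/

set_option autoImplicit false

namespace Crest.Agent.R66

open Finset

namespace O

section cx
variable {F W : Type} [Field F] [AddCommGroup W] [Module F W]
variable {Fl : ℕ → Submodule F W} {A B Y : Submodule F W} {T : Finset ℕ}

theorem dc_Ocx : DC (Ocx Fl A B Y T) := fun _ hσ _ h =>
  ⟨fun v hv => hσ.1 v (h hv), fun v hv w hw => hσ.2 v (h hv) w (h hw)⟩

theorem Ocx_mono {S : Finset ℕ} (h : S ⊆ T) : Ocx Fl A B Y S ⊆ Ocx Fl A B Y T := fun _ hσ =>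
  ⟨fun v hv => ⟨h (hσ.1 v hv).1, (hσ.1 v hv).2⟩, hσ.2⟩

theorem gl_empty {S : Finset ℕ} (h : S ⊆ T) :
    gl (Ocx Fl A B Y T) (fun v => v.t ∉ S) ∅ = Ocx Fl A B Y S := by
  ext τ
  simp only [gl, union_empty, Set.mem_ofPred_eq, not_not]
  exact ⟨fun h1 => ⟨fun v hv => ⟨h1.1 v hv, (h1.2.1 v hv).2⟩, h1.2.2⟩,
    fun h1 => ⟨fun v hv => (h1.1 v hv).1, Ocx_mono h h1⟩⟩

theorem gl_up {S : Finset ℕ} (h : S ⊆ T) (hS : ∀ t ∈ T, t ∉ S → ∀ s ∈ S, t < s)
    {x : Finset (OV F W)} (hx : x ∈ Ocx Fl A B Y T) (hb : ∀ v ∈ x, v.t ∉ S) {u : OV F W}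
    (hu : u ∈ x) (hmax : ∀ v ∈ x, v.t ≤ u.t) :
    gl (Ocx Fl A B Y T) (fun v => v.t ∉ S) x = Ocx Fl u.C B Y S := by
  ext τ
  simp only [gl, Set.mem_ofPred_eq, not_not]
  constructor
  · rintro ⟨h1, h2, h3⟩
    refine ⟨fun v hv => ?_, fun v hv w hw => h3 v (mem_union_left _ hv) w (mem_union_left _ hw)⟩
    obtain ⟨-, a2, -, a4, a5⟩ := h2 v (mem_union_left _ hv)
    exact ⟨h1 v hv, a2, h3 u (mem_union_right _ hu) v (mem_union_left _ hv)
      (hS _ (hx.1 u hu).1 (hb u hu) _ (h1 v hv)).le, a4, a5⟩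
  · rintro ⟨h1, h2⟩
    refine ⟨fun v hv => (h1 v hv).1, fun v hv => ?_, fun v hv w hw hvw => ?_⟩
    · rcases mem_union.1 hv with hv | hv
      · obtain ⟨a1, a2, a3, a4, a5⟩ := h1 v hv
        exact ⟨h a1, a2, (hx.1 u hu).2.2.1.trans a3, a4, a5⟩
      · exact hx.1 v hv
    · rcases mem_union.1 hv with hv | hv <;> rcases mem_union.1 hw with hw | hw
      · exact h2 v hv w hw hvw
      · exact absurd (hS _ (hx.1 w hw).1 (hb w hw) _ (h1 v hv).1) (not_lt.2 hvw)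
      · exact (hx.2 v hv u hu (hmax v hv)).trans (h1 w hw).2.2.1
      · exact hx.2 v hv w hw hvw

/-- simplices whose low vertices lie in `K` -/
def Xp (Fl : ℕ → Submodule F W) (A B Y : Submodule F W) (T S Tl : Finset ℕ) (K : Submodule F W) :
    Set (Finset (OV F W)) :=
  {σ | σ ∈ Ocx Fl A B Y T ∧ ∀ v ∈ σ, v.t ∈ S ∨ (v.t ∈ Tl ∧ v.C ≤ K)}

theorem dc_Xp {S Tl : Finset ℕ} {K : Submodule F W} : DC (Xp Fl A B Y T S Tl K) :=
  fun σ hσ τ h => ⟨dc_Ocx σ hσ.1 τ h, fun v hv => hσ.2 v (h hv)⟩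

theorem gl_down {S Tl : Finset ℕ} {K : Submodule F W} (h : Tl ⊆ T)
    (hS : ∀ t ∈ Tl, ∀ s ∈ S, t < s) {x : Finset (OV F W)} (hx : x ∈ Xp Fl A B Y T S Tl K)
    (hb : ∀ v ∈ x, v.t ∈ S) {u : OV F W} (hu : u ∈ x) (hmin : ∀ v ∈ x, u.t ≤ v.t) :
    gl (Xp Fl A B Y T S Tl K) (fun v => v.t ∈ S) x = Ocx Fl A (u.C ⊓ K) Y Tl := by
  ext τ
  simp only [gl, Set.mem_ofPred_eq]
  constructor
  · rintro ⟨h1, ⟨h2, h3⟩, h4⟩
    refine ⟨fun v hv => ?_, fun v hv w hw => h3 v (mem_union_left _ hv) w (mem_union_left _ hw)⟩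
    obtain ⟨-, a2, a3, -, a5⟩ := h2 v (mem_union_left _ hv)
    obtain ⟨b1, b2⟩ := (h4 v (mem_union_left _ hv)).resolve_left (h1 v hv)
    exact ⟨b1, a2, a3, le_inf (h3 v (mem_union_left _ hv) u (mem_union_right _ hu)
      (hS _ b1 _ (hb u hu)).le) b2, a5⟩
  · rintro ⟨h1, h2⟩
    refine ⟨fun v hv hv' => lt_irrefl _ (hS _ (h1 v hv).1 _ hv'),
      ⟨fun v hv => ?_, fun v hv w hw hvw => ?_⟩, fun v hv => ?_⟩
    · rcases mem_union.1 hv with hv | hv
      · obtain ⟨a1, a2, a3, a4, a5⟩ := h1 v hv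
        exact ⟨h a1, a2, a3, (a4.trans inf_le_left).trans (hx.1.1 u hu).2.2.2.1, a5⟩
      · exact hx.1.1 v hv
    · rcases mem_union.1 hv with hv | hv <;> rcases mem_union.1 hw with hw | hw
      · exact h2 v hv w hw hvw
      · exact ((h1 v hv).2.2.2.1.trans inf_le_left).trans (hx.1.2 u hu w hw (hmin w hw))
      · exact absurd (hS _ (h1 w hw).1 _ (hb v hv)) (not_lt.2 hvw)
      · exact hx.1.2 v hv w hw hvw
    · rcases mem_union.1 hv with hv | hv
      · exact Or.inr ⟨(h1 v hv).1, (h1 v hv).2.2.2.1.trans inf_le_right⟩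
      · exact hx.2 v hv

theorem tv_Ocx {Wd R : Submodule F W} (hR : R ≤ Wd) (hA : A ≤ Wd) (hY : Y ≤ Wd) (hB : R ≤ B)
    (hT : ∀ i ∈ T, R ≤ Fl i ∨ Fl i ≤ Wd) {ν : W →ₗ[F] W} (h : ν ∈ Nil Wd R) :
    ∀ σ ∈ Ocx Fl A B Y T, Set.InjOn (tv ν) σ ∧ σ.image (tv ν) ∈ Ocx Fl A B Y T := by
  intro σ hσ
  refine ⟨(tv_inj hR h).injOn, fun v hv => ?_, fun v hv w hw hvw => ?_⟩
  · obtain ⟨v, hv', rfl⟩ := mem_image.1 hv
    obtain ⟨a1, a2, a3, a4, a5⟩ := hσ.1 v hv'
    exact ⟨a1, tv_compl hR h (hT _ a1) a2, (tv_ge h hA).2 a3, tv_le h hB a4,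
      fun h' => a5 ((tv_ge h hY).1 h')⟩
  · obtain ⟨v, hv', rfl⟩ := mem_image.1 hv
    obtain ⟨w, hw', rfl⟩ := mem_image.1 hw
    exact tv_mono ν (hσ.2 v hv' w hw' hvw)

theorem anti (hFl : ∀ i ∈ T, ∀ j ∈ T, i < j → Fl j < Fl i) {i j : ℕ} (hi : i ∈ T) (hj : j ∈ T)
    (h : i ≤ j) : Fl j ≤ Fl i := by
  rcases h.lt_or_eq with h | rfl
  · exact (hFl i hi j hj h).le
  · exact le_rfl

open Module in
theorem rank_drop [FiniteDimensional F W] (hFl : ∀ i ∈ T, ∀ j ∈ T, i < j → Fl j < Fl i) {i j : ℕ}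
    (hi : i ∈ T) (hj : j ∈ T) (hij : i ≤ j) :
    finrank F (Fl j) + (T.filter (· < j)).card ≤ finrank F (Fl i) + (T.filter (· < i)).card := by
  have h1 : (T.filter (fun t => t < j ∧ ¬ t < i)).card ≤
      (Ioc (finrank F (Fl j)) (finrank F (Fl i))).card := by
    refine card_le_card_of_injOn (fun t => finrank F (Fl t)) (fun t ht => ?_) fun t ht t' ht' e => ?_
    · simp only [coe_filter, Set.mem_ofPred_eq] at ht
      simp only [coe_Ioc, Set.mem_Ioc]
      exact ⟨Submodule.finrank_lt_finrank_of_lt (hFl t ht.1 j hj ht.2.1),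
        Submodule.finrank_mono (anti hFl hi ht.1 (not_lt.1 ht.2.2))⟩
    · simp only [coe_filter, Set.mem_ofPred_eq] at ht ht'
      rcases lt_trichotomy t t' with h | h | h
      · exact absurd e (Submodule.finrank_lt_finrank_of_lt (hFl t ht.1 t' ht'.1 h)).ne'
      · exact h
      · exact absurd e (Submodule.finrank_lt_finrank_of_lt (hFl t' ht'.1 t ht.1 h)).ne
  have h2 := card_filter_add_card_filter_not (s := T.filter (· < j)) (· < i)
  rw [filter_filter, filter_filter] at h2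
  have h3 : (T.filter (fun t => t < j ∧ t < i)).card ≤ (T.filter (· < i)).card :=
    card_le_card (monotone_filter_right _ fun _ _ h => h.2)
  have h4 := Submodule.finrank_mono (anti hFl hi hj hij)
  rw [Nat.card_Ioc] at h1
  omega

end cx

/-- the number of types needed -/
def rho (y : ℕ) : ℕ → ℕ
  | 0 => 2
  | m + 1 => 2 * rho y m + y

theorem two_le_rho (y m : ℕ) : 2 ≤ rho y m := by
  induction m with
  | zero => exact le_rfl
  | succ m ih => unfold rho; omega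

section main
variable {F k W : Type} [Field F] [Field k] [CharP k 2] [AddCommGroup W] [Module F W]
  [FiniteDimensional F W]

/-- the statement for fixed parameters -/
def St (F k W : Type) [Field F] [Field k] [AddCommGroup W] [Module F W] (y m : ℕ) : Prop :=
  ∀ (Fl : ℕ → Submodule F W) (A B Y : Submodule F W) (T : Finset ℕ),
    rho y m ≤ T.card → (∀ i ∈ T, ∀ j ∈ T, i < j → Fl j < Fl i) →
    (∀ i ∈ T, Disjoint A (Fl i)) → (∀ i ∈ T, Codisjoint B (Fl i)) → A ≤ B → ¬ Y ≤ A →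
    Module.finrank F Y ≤ y → ∀ m' ≤ m, Ac k (Ocx Fl A B Y T) m'

omit [CharP k 2] [FiniteDimensional F W] in
theorem st_zero (y : ℕ) : St F k W y 0 := by
  intro Fl A B Y T hT hFl hA hB hAB hY _ m' hm'
  obtain rfl : m' = 0 := by omega
  obtain ⟨i, hi, j, hj, hij⟩ : ∃ i ∈ T, ∃ j ∈ T, i < j := by
    obtain ⟨i, hi, j, hj, hij⟩ := one_lt_card.1 (show 1 < T.card from hT)
    rcases lt_or_gt_of_ne hij with h | h
    · exact ⟨i, hi, j, hj, h⟩
    · exact ⟨j, hj, i, hi, h⟩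
  obtain ⟨C, h1, h2, h3, h4⟩ := exists_vertex (hFl i hi j hj hij) (hA i hi) (hB j hj) hAB hY
  refine Ac_zero ⟨i, C⟩ ⟨fun v hv => ?_, fun v hv w hw _ => ?_⟩
  · rw [mem_singleton.1 hv]; exact ⟨hi, h1, h2, h3, h4⟩
  · rw [mem_singleton.1 hv, mem_singleton.1 hw]

omit [FiniteDimensional F W] in
/-- the norm trick -/
theorem norm_trick [Fintype F] [FiniteDimensional F W] (hF : Odd (Fintype.card F))
    {Wd R : Submodule F W} (hR : R ≤ Wd) {X L : Set (Finset (OV F W))} {m : ℕ}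
    (hX : ∀ ν ∈ Nil Wd R, ∀ σ ∈ X, Set.InjOn (tv ν) σ ∧ σ.image (tv ν) ∈ X)
    (ρ : OV F W → OV F W) (hρ : ∀ σ ∈ L, ∃ ν ∈ Nil Wd R, ∀ v ∈ σ, tv ν (ρ v) = v)
    {z : Finset (OV F W) →₀ k} (hz : z ∈ Ch k L m)
    (h1 : ∀ ν ∈ Nil Wd R, Bds k X m (mp k (tv ν) z + z)) (h2 : Bds k X m (mp k ρ z)) :
    Bds k X m z := by
  have : Finite (Nil Wd R) := Module.finite_of_finite F
  let : Fintype (Nil Wd R) := Fintype.ofFinite _
  have hodd : Odd (Fintype.card (Nil Wd R)) := by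
    rw [Module.card_eq_pow_finrank (K := F)]
    exact hF.pow
  have e1 : ∑ ν : Nil Wd R, mp k (tv ν.1) z = ∑ ν : Nil Wd R, mp k (tv ν.1) (mp k ρ z) := by
    refine Ch_ind (p := fun z => ∑ ν : Nil Wd R, mp k (tv ν.1) z =
      ∑ ν : Nil Wd R, mp k (tv ν.1) (mp k ρ z)) (by simp) (fun a b ha hb => ?_)
      (fun σ hσ _ c => ?_) hz
    · simp only [map_add, sum_add_distrib, ha, hb]
    · obtain ⟨ν₀, h0, h3⟩ := hρ σ hσ
      refine Fintype.sum_equiv (Equiv.addRight (⟨ν₀, h0⟩ : Nil Wd R)) _ _ fun ν => ?_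
      simp only [mp_single, image_image, Equiv.coe_addRight, Submodule.coe_add]
      congr 1
      refine image_congr fun v hv => ?_
      simp only [Function.comp_apply]
      rw [tv_add hR ν.2 h0, h3 v hv]
  have e2 : ∑ _ν : Nil Wd R, z = z := by
    obtain ⟨r, hr⟩ := hodd
    rw [sum_const, card_univ, hr, add_nsmul, one_nsmul, two_mul, add_nsmul, add_self, zero_add]
  have h3 := Bds_add (Bds_sum (univ : Finset (Nil Wd R)) fun ν _ => h1 ν.1 ν.2)
    (Bds_sum (univ : Finset (Nil Wd R)) fun ν _ => Bds_mp (hX ν.1 ν.2) h2)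
  rwa [sum_add_distrib, e2, ← e1, add_right_comm, add_self, zero_add] at h3

open Module in
theorem st_succ (hP : PushStmt) [Fintype F] (hF : Odd (Fintype.card F)) (y m : ℕ)
    (ih : St F k W y m) : St F k W y (m + 1) := by
  intro Fl A B Y T hT hFl hA hB hAB hY hy m' hm'
  have hr : rho y (m + 1) = 2 * rho y m + y := rfl
  have h2r := two_le_rho y m
  rcases Nat.lt_or_eq_of_le hm' with hlt | rfl
  · exact ih Fl A B Y T (by omega) hFl hA hB hAB hY hy m' (by omega)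
  -- splitting the types
  obtain ⟨i, hi, hci⟩ := exists_rank T (n := rho y m - 1) (by omega)
  obtain ⟨j, hj, hcj⟩ := exists_rank T (n := rho y m + y) (by omega)
  have hij : i < j := by
    by_contra hc
    have := card_le_card (monotone_filter_right T (p := (· < j)) (q := (· < i))
      fun _ _ h => lt_of_lt_of_le h (not_lt.1 hc))
    omega
  have hdrop := rank_drop hFl hi hj hij.le
  set S := T.filter (fun t => ¬ t < j) with hSdef
  set Tl := insert i (T.filter (· < i)) with hTl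
  have hScard : rho y m ≤ S.card := by
    have : (T.filter (· < j)).card + S.card = T.card :=
      card_filter_add_card_filter_not (s := T) (· < j)
    omega
  have hTlcard : rho y m ≤ Tl.card := by
    rw [hTl, card_insert_of_notMem (by simp)]
    omega
  have hST : S ⊆ T := filter_subset _ _
  have hTlT : Tl ⊆ T := insert_subset hi (filter_subset _ _)
  have hSj : ∀ s ∈ S, j ≤ s := fun s hs => not_lt.1 (mem_filter.1 hs).2
  have hTli : ∀ t ∈ Tl, t ≤ i := fun t ht => by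
    rcases mem_insert.1 ht with rfl | ht
    · exact le_rfl
    · exact (mem_filter.1 ht).2.le
  have hup : ∀ t ∈ T, t ∉ S → ∀ s ∈ S, t < s := fun t ht hn s hs => by
    have : t < j := by
      by_contra hc
      exact hn (mem_filter.2 ⟨ht, hc⟩)
    exact this.trans_le (hSj s hs)
  have hlow : ∀ t ∈ Tl, ∀ s ∈ S, t < s := fun t ht s hs =>
    ((hTli t ht).trans_lt hij).trans_le (hSj s hs)
  -- the subspaces
  set Wd := Fl j ⊔ A ⊔ Y with hWd
  set R := Fl j ⊓ B with hRdef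
  have hjW : Fl j ≤ Wd := le_sup_of_le_left le_sup_left
  have hAW : A ≤ Wd := le_sup_of_le_left le_sup_right
  have hYW : Y ≤ Wd := le_sup_right
  have hR : R ≤ Wd := inf_le_left.trans hjW
  have hdim : finrank F Wd ≤ finrank F (Fl j) + finrank F A + y :=
    (finrank_sup_le _ _).trans (add_le_add (finrank_sup_le _ _) hy)
  have hBW : Codisjoint B Wd := (hB j hj).mono_right hjW
  have hX : ∀ ν ∈ Nil Wd R, ∀ σ ∈ Ocx Fl A B Y T,
      Set.InjOn (tv ν) σ ∧ σ.image (tv ν) ∈ Ocx Fl A B Y T := fun ν hν =>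
    tv_Ocx hR hAW hYW inf_le_right (fun t ht => by
      rcases le_total t j with h | h
      · exact Or.inl (inf_le_left.trans (anti hFl ht hj h))
      · exact Or.inr ((anti hFl hj ht h).trans hjW)) hν
  -- step 1
  intro z₀ hz₀ hb₀
  obtain ⟨w₀, hw₀, hz⟩ := hP k (OV F W) (Ocx Fl A B Y T) (fun v => v.t ∉ S) (m + 1) dc_Ocx
    (fun x hx hne hbad r hr => by
      obtain ⟨u, hu, hmax⟩ := exists_max_image x (·.t) hne
      rw [gl_up hST hup hx hbad hu hmax]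
      obtain ⟨a1, a2, -, a4, a5⟩ := hx.1 u hu
      have := card_pos.2 hne
      exact ih Fl u.C B Y S hScard (fun a ha b hb => hFl a (hST ha) b (hST hb))
        (fun s hs => a2.disjoint.mono_right (hFl _ a1 s (hST hs) (hup _ a1 (hbad u hu) s hs)).le)
        (fun s hs => hB s (hST hs)) a4 a5 hy r (by omega))
    z₀ hz₀ (by simp [hb₀])
  rw [gl_empty hST] at hz
  set z := z₀ + bd k w₀ with hzdef
  have hb : bd k z = 0 := by rw [hzdef, map_add, hb₀, bd_bd, add_zero]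
  suffices h : Bds k (Ocx Fl A B Y T) (m + 1) z by
    have := Bds_add h ⟨w₀, hw₀, rfl⟩
    rwa [hzdef, add_assoc, add_self, add_zero] at this
  -- step 2
  have good : ∀ φ : W →ₗ[F] F, (∀ x ∈ Wd, φ x = 0) → (∃ f ∈ Fl i, φ f ≠ 0) → ∀ w ∈ R,
      Bds k (Ocx Fl A B Y T) (m + 1) (mp k (tv (φ.smulRight w)) z + z) := by
    rintro φ hφ ⟨f, hf, hf0⟩ w hw
    have hν : φ.smulRight w ∈ Nil Wd R :=
      ⟨fun x hx => by simp [hφ x hx], fun x => R.smul_mem _ hw⟩
    obtain ⟨w₁, hw₁, hz₁⟩ := hP k (OV F W) (Xp Fl A B Y T S Tl (LinearMap.ker φ))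
      (fun v => v.t ∈ S) (m + 1) dc_Xp
      (fun x hx hne hbad r hr => by
        obtain ⟨u, hu, hmin⟩ := exists_min_image x (·.t) hne
        rw [gl_down hTlT hlow hx hbad hu hmin]
        obtain ⟨a1, a2, a3, -, -⟩ := hx.1.1 u hu
        have := card_pos.2 hne
        have huj : Fl u.t ≤ Fl j := anti hFl hj a1 (hSj _ (hbad u hu))
        have hji : Fl j ≤ Fl i := anti hFl hi hj hij.le
        refine ih Fl A (u.C ⊓ LinearMap.ker φ) Y Tl hTlcard
          (fun a ha b hb => hFl a (hTlT ha) b (hTlT hb)) (fun s hs => hA s (hTlT hs))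
          (fun s hs => Codisjoint.mono_right (anti hFl (hTlT hs) hi (hTli s hs)) ?_)
          (le_inf a3 fun a ha => hφ a (hAW ha)) hY hy r (by omega)
        rw [Submodule.codisjoint_iff_exists_add_eq]
        intro x
        obtain ⟨c, p, hc, hp, e⟩ := Submodule.codisjoint_iff_exists_add_eq.1 a2.codisjoint x
        obtain ⟨c₁, p₁, hc₁, hp₁, e₁⟩ := Submodule.codisjoint_iff_exists_add_eq.1 a2.codisjoint f
        have h1 : φ c₁ ≠ 0 := by
          rw [← e₁, map_add, hφ p₁ (hjW (huj hp₁)), add_zero] at hf0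
          exact hf0
        have h2 : c₁ ∈ Fl i := by
          rw [← eq_sub_iff_add_eq] at e₁
          rw [e₁]
          exact (Fl i).sub_mem hf (hji (huj hp₁))
        refine ⟨c - (φ c / φ c₁) • c₁, (φ c / φ c₁) • c₁ + p,
          ⟨u.C.sub_mem hc (u.C.smul_mem _ hc₁), ?_⟩,
          (Fl i).add_mem ((Fl i).smul_mem _ h2) (hji (huj hp)), by rw [← e]; abel⟩
        simp [h1])
      z (Ch_mono (X' := Xp Fl A B Y T S Tl (LinearMap.ker φ))
        (fun σ hσ => And.intro (Ocx_mono hST hσ) fun v hv => Or.inl (hσ.1 v hv).1) hz)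
      (by simp [hb])
    have hfix := mp_fix (f := tv (φ.smulRight w)) (fun σ hσ v hv => tv_fix hR hν fun x hx => by
      have h1 := hσ.2.2 v (mem_union_left _ hv)
      have h2 : φ x = 0 := (h1.resolve_left (hσ.1 v hv)).2 hx
      simp [h2]) hz₁
    have hw₂ : w₁ ∈ Ch k (Ocx Fl A B Y T) (m + 1 + 1) := Ch_mono (fun σ hσ => hσ.1) hw₁
    refine ⟨mp k (tv (φ.smulRight w)) w₁ + w₁, add_mem (mp_mem (hX _ hν) hw₂) hw₂, ?_⟩
    rw [map_add, bd_mp (fun σ hσ => (hX _ hν σ hσ).1) hw₂]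
    rw [map_add] at hfix
    have e1 : mp k (tv (φ.smulRight w)) (bd k w₁) =
        z + bd k w₁ + mp k (tv (φ.smulRight w)) z := by
      rw [← hfix, add_right_comm, add_self, zero_add]
    rw [e1, add_right_comm, add_assoc z, add_self, add_zero, add_comm]
  have hadd : ∀ a ∈ Nil Wd R, ∀ b ∈ Nil Wd R,
      Bds k (Ocx Fl A B Y T) (m + 1) (mp k (tv a) z + z) →
      Bds k (Ocx Fl A B Y T) (m + 1) (mp k (tv b) z + z) →
      Bds k (Ocx Fl A B Y T) (m + 1) (mp k (tv (a + b)) z + z) := by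
    intro a ha b hb' h1 h2
    have h3 := Bds_add (Bds_mp (hX a ha) h2) h1
    rw [map_add, mp_mp, add_assoc, ← add_assoc (mp k (tv a) z), add_self, zero_add] at h3
    have : tv (a + b) = tv a ∘ tv b := funext (tv_add hR ha hb')
    rwa [this]
  obtain ⟨φ₁, f₁, hf₁, hφ₁, hφ₁'⟩ : ∃ (φ : W →ₗ[F] F) (f : W), f ∈ Fl i ∧ φ f = 1 ∧
      ∀ x ∈ Wd, φ x = 0 := by
    have : ¬ Fl i ≤ Wd := fun h => by
      have e1 := Submodule.finrank_sup_add_finrank_inf_eq A (Fl i)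
      rw [(hA i hi).eq_bot, finrank_bot] at e1
      have e2 := Submodule.finrank_mono (sup_le hAW h)
      omega
    obtain ⟨f, hf, hf'⟩ := SetLike.not_le_iff_exists.1 this
    obtain ⟨φ, h1, h2⟩ := exists_fun hf'
    exact ⟨φ, f, hf, h1, h2⟩
  have all : ∀ ν ∈ Nil Wd R, Bds k (Ocx Fl A B Y T) (m + 1) (mp k (tv ν) z + z) := by
    intro ν hν
    refine Nil_ind (p := fun ν => Bds k (Ocx Fl A B Y T) (m + 1) (mp k (tv ν) z + z)) ?_ hadd
      (fun φ hφ w hw => ?_) hν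
    · rw [mp_fix (fun _ _ v _ => tv_zero v) hz, add_self]
      exact Bds_zero _ _
    · by_cases h : φ f₁ = 0
      · have e : φ.smulRight w = (φ + φ₁).smulRight w + (-φ₁).smulRight w := by
          ext x; simp [add_smul]
        have k1 : ∀ x ∈ Wd, (φ + φ₁) x = 0 := fun x hx => by simp [hφ x hx, hφ₁' x hx]
        have k2 : ∀ x ∈ Wd, (-φ₁) x = 0 := fun x hx => by simp [hφ₁' x hx]
        rw [e]
        exact hadd _ ⟨fun x hx => by rw [LinearMap.smulRight_apply, k1 x hx, zero_smul],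
            fun x => R.smul_mem _ hw⟩
          _ ⟨fun x hx => by rw [LinearMap.smulRight_apply, k2 x hx, zero_smul],
            fun x => R.smul_mem _ hw⟩
          (good _ k1 ⟨f₁, hf₁, by simp [h, hφ₁]⟩ w hw) (good _ k2 ⟨f₁, hf₁, by simp [hφ₁]⟩ w hw)
      · exact good φ hφ ⟨f₁, hf₁, h⟩ w hw
  -- step 3
  obtain ⟨D, hD, hAD, hDB, hDW⟩ := exists_apex (Wd := Wd) (hA i hi) (hB i hi) hBW hAB hAW
    (by omega)
  obtain ⟨E, hE, hEB, hDE⟩ := exists_E hBW hAD hDB hDW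
  let ρ : OV F W → OV F W := fun v => ⟨v.t, E ⊔ (v.C ⊓ Wd)⟩
  have hρ : ∀ σ ∈ Ocx Fl A B Y S, ∃ ν ∈ Nil Wd R, ∀ v ∈ σ, tv ν (ρ v) = v := by
    intro σ hσ
    rcases σ.eq_empty_or_nonempty with rfl | hne
    · exact ⟨0, zero_mem _, by simp⟩
    obtain ⟨u, hu, hmin⟩ := exists_min_image σ (·.t) hne
    obtain ⟨a1, a2, -, a4, -⟩ := hσ.1 u hu
    obtain ⟨ν, hν, h⟩ := exists_undo (R := R) hE hEB a2 a4
      (inf_le_inf_right _ (anti hFl hj (hST a1) (hSj _ a1))) hR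
    exact ⟨ν, hν, fun v hv => h v (hσ.2 u hu v hv (hmin v hv))⟩
  refine norm_trick hF hR hX ρ hρ hz all ?_
  have hL : ∀ σ ∈ Ocx Fl A B Y S, Set.InjOn ρ σ ∧
      σ.image ρ ∈ {τ | τ ∈ Ocx Fl A B Y T ∧ ∀ v ∈ τ, i < v.t ∧ D ≤ v.C} := by
    intro σ hσ
    obtain ⟨ν, hν, h⟩ := hρ σ hσ
    have h' : ∀ v ∈ σ, ρ v = tv (-ν) v := fun v hv => by
      conv_rhs => rw [← h v hv, ← tv_add hR (neg_mem hν) hν, neg_add_cancel, tv_zero]
    refine ⟨fun v hv w hw e => by rw [← h v hv, e, h w hw], ?_, fun v hv => ?_⟩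
    · rw [image_congr (g := tv (-ν)) h']
      exact (hX _ (neg_mem hν) σ (Ocx_mono hST hσ)).2
    · obtain ⟨v, hv', rfl⟩ := mem_image.1 hv
      obtain ⟨a1, -, a3, -, -⟩ := hσ.1 v hv'
      exact ⟨hij.trans_le (hSj _ a1), hDE.trans (sup_le_sup_left (le_inf a3 hAW) _)⟩
  refine Bds_cone (⟨i, D⟩ : OV F W) (fun τ hτ => And.intro (fun h => lt_irrefl _ (hτ.2 _ h).1)
    (And.intro (fun v hv => ?_) fun v hv w hw hvw => ?_)) (mp_mem hL hz)
    (by rw [bd_mp (fun σ hσ => (hL σ hσ).1) hz, hb, map_zero])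
  · rcases mem_insert.1 hv with rfl | hv
    · exact ⟨hi, hD, hAD, hDB, fun h => hY (hDW ▸ le_inf h hYW)⟩
    · exact hτ.1.1 v hv
  · rcases mem_insert.1 hv with rfl | hv <;> rcases mem_insert.1 hw with rfl | hw
    · exact le_rfl
    · exact (hτ.2 w hw).2
    · exact absurd (hτ.2 v hv).1 (not_lt.2 hvw)
    · exact hτ.1.2 v hv w hw hvw

end main

end O

theorem oStmt_of (hP : PushStmt) : OStmt := by
  intro m y
  refine ⟨O.rho y m, fun F k W _ _ _ _ _ _ _ hF => ?_⟩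
  induction m with
  | zero => exact O.st_zero y
  | succ m ih => exact O.st_succ hP hF y m ih

end Crest.Agent.R66
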