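import Crest.Agent.R66.Defs

/-!
Row 66: chain and linear algebra lemmas for the opposition complexes.
-/

set_option autoImplicit false

namespace Crest.Agent.R66.O

open Finset

section chains
variable {k : Type} [Field k] {V : Type} [DecidableEq V]

theorem bd_single (σ : Finset V) (c : k) :
    bd k (Finsupp.single σ c) = ∑ v ∈ σ, Finsupp.single (σ.erase v) c := by
  unfold bd
  rw [Finsupp.linearCombination_single, Finset.smul_sum]
  simp

omit [DecidableEq V] in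
theorem mp_single {V' : Type} [DecidableEq V'] (f : V → V') (σ : Finset V) (c : k) :
    mp k f (Finsupp.single σ c) = Finsupp.single (σ.image f) c := by
  unfold mp
  simp

omit [DecidableEq V] in
theorem add_self [CharP k 2] (z : Finset V →₀ k) : z + z = 0 := by
  ext σ
  simp [CharTwo.add_self_eq_zero]

theorem sum_sym {M ι : Type} [AddCommGroup M] [DecidableEq ι] (h2 : ∀ x : M, x + x = 0)
    (G : ι → ι → M) (hs : ∀ a b, G a b = G b a) (s : Finset ι) :
    ∑ a ∈ s, ∑ b ∈ s.erase a, G a b = 0 := by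
  have key : ∑ a ∈ s, ∑ b ∈ s, (if b = a then 0 else G a b) = 0 := by
    induction s using Finset.induction_on with
    | empty => simp
    | insert c s hc ih =>
      simp only [sum_insert hc, sum_add_distrib, if_true, zero_add, ih, add_zero]
      have : ∑ a ∈ s, (if c = a then 0 else G a c) = ∑ a ∈ s, (if a = c then 0 else G c a) :=
        sum_congr rfl fun a _ => by rw [hs a c]; simp only [eq_comm]
      rw [this, h2]
  rw [← key]
  refine sum_congr rfl fun a ha => ?_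
  rw [← add_sum_erase s _ ha, if_pos rfl, zero_add]
  exact sum_congr rfl fun b hb => (if_neg (ne_of_mem_erase hb)).symm

theorem bd_bd [CharP k 2] (z : Finset V →₀ k) : bd k (bd k z) = 0 := by
  induction z using Finsupp.induction_linear with
  | zero => simp
  | add f g hf hg => simp [hf, hg]
  | single σ c =>
    rw [bd_single, map_sum]
    simp only [bd_single]
    exact sum_sym add_self (fun a b => Finsupp.single ((σ.erase a).erase b) c)
      (fun a b => by rw [erase_right_comm]) σ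

omit [DecidableEq V] in
theorem Ch_ind {X : Set (Finset V)} {m : ℕ} {p : (Finset V →₀ k) → Prop} (h0 : p 0)
    (ha : ∀ a b, p a → p b → p (a + b))
    (hs : ∀ σ ∈ X, σ.card = m → ∀ c, p (Finsupp.single σ c)) {z : Finset V →₀ k}
    (hz : z ∈ Ch k X m) : p z := by
  rw [← Finsupp.sum_single z]
  refine Finset.sum_induction _ p ha h0 fun σ hσ => ?_
  have := (Finsupp.mem_supported k z).1 hz hσ
  exact hs σ this.1 this.2 _

omit [DecidableEq V] in
theorem single_mem {X : Set (Finset V)} {m : ℕ} {σ : Finset V} (h : σ ∈ X) (hm : σ.card = m)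
    (c : k) : Finsupp.single σ c ∈ Ch k X m :=
  Finsupp.single_mem_supported k c ⟨h, hm⟩

omit [DecidableEq V] in
theorem Ch_mono {X X' : Set (Finset V)} (h : X ⊆ X') {m : ℕ} {z : Finset V →₀ k}
    (hz : z ∈ Ch k X m) : z ∈ Ch k X' m :=
  Finsupp.supported_mono (s := {σ | σ ∈ X ∧ σ.card = m}) (t := {σ | σ ∈ X' ∧ σ.card = m})
    (fun _ hσ => ⟨h hσ.1, hσ.2⟩) hz

omit [DecidableEq V] in
theorem mp_mem {V' : Type} [DecidableEq V'] {X : Set (Finset V)} {X' : Set (Finset V')}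
    {f : V → V'} (h : ∀ σ ∈ X, Set.InjOn f σ ∧ σ.image f ∈ X') {m : ℕ} {z : Finset V →₀ k}
    (hz : z ∈ Ch k X m) : mp k f z ∈ Ch k X' m := by
  refine Ch_ind (p := fun z => mp k f z ∈ Ch k X' m) (by simp) (fun a b ha hb => ?_)
    (fun σ hσ hm c => ?_) hz
  · rw [map_add]; exact add_mem ha hb
  · rw [mp_single]
    exact single_mem (h σ hσ).2 (by rw [card_image_of_injOn (h σ hσ).1, hm]) c

theorem bd_mp {V' : Type} [DecidableEq V'] {X : Set (Finset V)}
    {f : V → V'} (h : ∀ σ ∈ X, Set.InjOn f σ) {m : ℕ} {z : Finset V →₀ k}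
    (hz : z ∈ Ch k X m) : bd k (mp k f z) = mp k f (bd k z) := by
  refine Ch_ind (p := fun z => bd k (mp k f z) = mp k f (bd k z)) (by simp) (fun a b ha hb => ?_)
    (fun σ hσ _ c => ?_) hz
  · simp only [map_add, ha, hb]
  · rw [mp_single, bd_single, bd_single, map_sum, sum_image (h σ hσ)]
    refine sum_congr rfl fun v hv => ?_
    rw [mp_single]
    congr 1
    ext u
    simp only [mem_erase, mem_image]
    constructor
    · rintro ⟨h1, w, hw, rfl⟩
      exact ⟨w, ⟨fun e => h1 (by rw [e]), hw⟩, rfl⟩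
    · rintro ⟨w, ⟨h1, hw⟩, rfl⟩
      exact ⟨fun e => h1 (h σ hσ hw hv e), w, hw, rfl⟩

theorem Bds_zero (X : Set (Finset V)) (m : ℕ) : Bds k X m 0 := ⟨0, zero_mem _, map_zero _⟩

theorem Bds_add {X : Set (Finset V)} {m : ℕ} {a b : Finset V →₀ k} (ha : Bds k X m a)
    (hb : Bds k X m b) : Bds k X m (a + b) := by
  obtain ⟨w, hw, rfl⟩ := ha
  obtain ⟨w', hw', rfl⟩ := hb
  exact ⟨w + w', add_mem hw hw', map_add _ _ _⟩

theorem Bds_sum {X : Set (Finset V)} {m : ℕ} {ι : Type} (s : Finset ι) {a : ι → Finset V →₀ k}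
    (h : ∀ i ∈ s, Bds k X m (a i)) : Bds k X m (∑ i ∈ s, a i) :=
  Finset.sum_induction _ _ (fun _ _ => Bds_add) (Bds_zero X m) h

theorem Bds_mp {X : Set (Finset V)} {f : V → V} (h : ∀ σ ∈ X, Set.InjOn f σ ∧ σ.image f ∈ X)
    {m : ℕ} {z : Finset V →₀ k} (hz : Bds k X m z) : Bds k X m (mp k f z) := by
  obtain ⟨w, hw, rfl⟩ := hz
  exact ⟨_, mp_mem h hw, bd_mp (fun σ hσ => (h σ hσ).1) hw⟩

theorem Bds_cone [CharP k 2] {X L : Set (Finset V)} (a : V)
    (h : ∀ σ ∈ L, a ∉ σ ∧ insert a σ ∈ X) {m : ℕ} {z : Finset V →₀ k} (hz : z ∈ Ch k L m)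
    (hb : bd k z = 0) : Bds k X m z := by
  let c : (Finset V →₀ k) →ₗ[k] (Finset V →₀ k) := Finsupp.lmapDomain k k (insert a)
  have hc : ∀ σ (r : k), c (Finsupp.single σ r) = Finsupp.single (insert a σ) r := fun σ r => by
    simp [c]
  have key : c z ∈ Ch k X (m + 1) ∧ bd k (c z) = z + c (bd k z) := by
    refine Ch_ind (p := fun z => c z ∈ Ch k X (m + 1) ∧ bd k (c z) = z + c (bd k z)) (by simp)
      (fun u v hu hv => ⟨by rw [map_add]; exact add_mem hu.1 hv.1, ?_⟩) (fun σ hσ hm r => ?_) hz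
    · simp only [map_add, hu.2, hv.2]; abel
    · obtain ⟨h1, h2⟩ := h σ hσ
      refine ⟨by rw [hc]; exact single_mem h2 (by rw [card_insert_of_notMem h1, hm]) r, ?_⟩
      rw [hc, bd_single, bd_single, sum_insert h1, erase_insert h1, map_sum]
      congr 1
      refine sum_congr rfl fun v hv => ?_
      rw [hc, erase_insert_of_ne (a := a) (b := v) (fun e => h1 (e ▸ hv))]
  exact ⟨_, key.1, by rw [key.2, hb, map_zero, add_zero]⟩

theorem mp_mp (f g : V → V) (z : Finset V →₀ k) : mp k f (mp k g z) = mp k (f ∘ g) z := by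
  induction z using Finsupp.induction_linear with
  | zero => simp
  | add a b ha hb => simp only [map_add, ha, hb]
  | single σ c => simp only [mp_single, image_image]

theorem mp_fix {X : Set (Finset V)} {f : V → V} (h : ∀ σ ∈ X, ∀ v ∈ σ, f v = v) {m : ℕ}
    {z : Finset V →₀ k} (hz : z ∈ Ch k X m) : mp k f z = z := by
  refine Ch_ind (p := fun z => mp k f z = z) (by simp) (fun a b ha hb => ?_)
    (fun σ hσ _ c => ?_) hz
  · simp only [map_add, ha, hb]
  · rw [mp_single, image_congr (g := id) (fun v hv => h σ hσ v hv), image_id]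

theorem Ac_zero {X : Set (Finset V)} (v : V) (hv : ({v} : Finset V) ∈ X) : Ac k X 0 := by
  intro z hz _
  refine Ch_ind (p := fun z => Bds k X 0 z) (Bds_zero _ _) (fun _ _ => Bds_add)
    (fun σ _ hm c => ?_) hz
  refine ⟨_, single_mem hv (by simp) c, ?_⟩
  rw [bd_single, card_eq_zero.1 hm]
  simp

end chains

section lin
variable {F W : Type} [Field F] [AddCommGroup W] [Module F W]

theorem exists_compl_between {A B P : Submodule F W} (hA : Disjoint A P) (hB : Codisjoint B P)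
    (hAB : A ≤ B) : ∃ C, IsCompl C P ∧ A ≤ C ∧ C ≤ B := by
  obtain ⟨C, h1, h2⟩ := IsModularLattice.exists_inf_eq_and_sup_eq (a := A) (b := A ⊔ (P ⊓ B))
    (c := B) le_sup_left (sup_le hAB inf_le_right)
  have hAC : A ≤ C := h1 ▸ inf_le_right
  have hCB : C ≤ B := h2 ▸ le_sup_right
  refine ⟨C, ⟨?_, ?_⟩, hAC, hCB⟩
  · rw [disjoint_iff_inf_le]
    refine le_trans ?_ hA.le_bot
    refine le_inf ?_ inf_le_right
    rw [← h1]
    exact le_inf (le_sup_of_le_right (le_inf inf_le_right (inf_le_left.trans hCB))) inf_le_left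
  · rw [codisjoint_iff_le_sup]
    refine hB.top_le.trans (sup_le ?_ le_sup_right)
    rw [← h2]
    exact sup_le (sup_le (le_sup_of_le_left hAC) (le_sup_of_le_right inf_le_left)) le_sup_left

/-- square-zero maps killing `Wd` with values in `R` -/
def Nil (Wd R : Submodule F W) : Submodule F (W →ₗ[F] W) where
  carrier := {ν | (∀ x ∈ Wd, ν x = 0) ∧ ∀ x, ν x ∈ R}
  zero_mem' := ⟨fun _ _ => rfl, fun _ => R.zero_mem⟩
  add_mem' := fun ha hb => ⟨fun x hx => by simp [ha.1 x hx, hb.1 x hx],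
    fun x => R.add_mem (ha.2 x) (hb.2 x)⟩
  smul_mem' := fun c _ ha => ⟨fun x hx => by simp [ha.1 x hx], fun x => R.smul_mem c (ha.2 x)⟩

/-- the transvection `1 + ν` on typed subspaces -/
def tv (ν : W →ₗ[F] W) (v : OV F W) : OV F W := ⟨v.t, v.C.comap (LinearMap.id - ν)⟩

theorem mem_tv {ν : W →ₗ[F] W} {v : OV F W} {x : W} : x ∈ (tv ν v).C ↔ x - ν x ∈ v.C := Iff.rfl

theorem tv_t (ν : W →ₗ[F] W) (v : OV F W) : (tv ν v).t = v.t := rfl

theorem tv_zero (v : OV F W) : tv 0 v = v := by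
  ext x
  · rfl
  · rw [mem_tv]; simp

variable {Wd R : Submodule F W}

theorem tv_add (hR : R ≤ Wd) {ν ν' : W →ₗ[F] W} (h : ν ∈ Nil Wd R) (h' : ν' ∈ Nil Wd R)
    (v : OV F W) : tv (ν + ν') v = tv ν (tv ν' v) := by
  ext x
  · rfl
  · rw [mem_tv, mem_tv, mem_tv, map_sub, h'.1 _ (hR (h.2 x)), sub_zero, LinearMap.add_apply,
      sub_sub]

theorem tv_inj (hR : R ≤ Wd) {ν : W →ₗ[F] W} (h : ν ∈ Nil Wd R) :
    Function.Injective (tv ν : OV F W → OV F W) := by
  intro v w e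
  have := congrArg (tv (-ν)) e
  rwa [← tv_add hR (neg_mem h) h, ← tv_add hR (neg_mem h) h, neg_add_cancel, tv_zero,
    tv_zero] at this

theorem tv_compl (hR : R ≤ Wd) {ν : W →ₗ[F] W} (h : ν ∈ Nil Wd R) {v : OV F W}
    {P : Submodule F W} (hP : R ≤ P ∨ P ≤ Wd) (hc : IsCompl v.C P) : IsCompl (tv ν v).C P := by
  have hνP : ∀ p ∈ P, ν p ∈ P := fun p hp => by
    rcases hP with hP | hP
    · exact hP (h.2 p)
    · rw [h.1 p (hP hp)]; exact P.zero_mem
  constructor
  · rw [Submodule.disjoint_def]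
    intro x hx hxP
    have h1 : x - ν x = 0 :=
      Submodule.disjoint_def.1 hc.disjoint _ hx (P.sub_mem hxP (hνP x hxP))
    have h2 : x = ν x := sub_eq_zero.1 h1
    have h3 : x ∈ Wd := h2 ▸ hR (h.2 x)
    rw [h2, h.1 x h3]
  · rw [Submodule.codisjoint_iff_exists_add_eq]
    intro x
    obtain ⟨c, p, hc', hp, e⟩ := Submodule.codisjoint_iff_exists_add_eq.1 hc.codisjoint (x - ν x)
    refine ⟨c + ν c, p + ν p, ?_, P.add_mem hp (hνP p hp), ?_⟩
    · rw [mem_tv, map_add, h.1 _ (hR (h.2 c))]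
      simpa using hc'
    · have e2 := congrArg ν e
      rw [map_add, map_sub, h.1 _ (hR (h.2 x)), sub_zero] at e2
      rw [add_add_add_comm, e, e2, sub_add_cancel]

theorem tv_ge {ν : W →ₗ[F] W} (h : ν ∈ Nil Wd R) {v : OV F W} {A : Submodule F W} (hA : A ≤ Wd) :
    A ≤ (tv ν v).C ↔ A ≤ v.C := by
  constructor
  · intro h1 x hx
    have := mem_tv.1 (h1 hx)
    rwa [h.1 x (hA hx), sub_zero] at this
  · intro h1 x hx
    rw [mem_tv, h.1 x (hA hx), sub_zero]
    exact h1 hx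

theorem tv_le {ν : W →ₗ[F] W} (h : ν ∈ Nil Wd R) {v : OV F W} {B : Submodule F W} (hB : R ≤ B)
    (h1 : v.C ≤ B) : (tv ν v).C ≤ B := fun x hx => by
  have := B.add_mem (h1 (mem_tv.1 hx)) (hB (h.2 x))
  rwa [sub_add_cancel] at this

theorem tv_mono (ν : W →ₗ[F] W) {v w : OV F W} (h : v.C ≤ w.C) : (tv ν v).C ≤ (tv ν w).C :=
  fun _ hx => h hx

theorem tv_fix (hR : R ≤ Wd) {ν : W →ₗ[F] W} (h : ν ∈ Nil Wd R) {v : OV F W}
    (h1 : ∀ x ∈ v.C, ν x = 0) : tv ν v = v := by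
  ext x
  · rfl
  · rw [mem_tv]
    constructor
    · intro hx
      have := h1 _ hx
      rw [map_sub, h.1 _ (hR (h.2 x)), sub_zero] at this
      rwa [this, sub_zero] at hx
    · intro hx
      rwa [h1 x hx, sub_zero]

theorem exists_fun {P : Submodule F W} {x : W} (hx : x ∉ P) :
    ∃ φ : W →ₗ[F] F, φ x = 1 ∧ ∀ p ∈ P, φ p = 0 := by
  obtain ⟨f, h1, h2⟩ := P.exists_le_ker_of_notMem hx
  refine ⟨(f x)⁻¹ • f, by simp [h1], fun p hp => ?_⟩
  have : f p = 0 := h2 hp
  simp [this]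

/-- a vertex exists -/
theorem exists_vertex {A B Y P P' : Submodule F W} (hP : P' < P) (hA : Disjoint A P)
    (hB : Codisjoint B P') (hAB : A ≤ B) (hY : ¬ Y ≤ A) :
    ∃ C, IsCompl C P ∧ A ≤ C ∧ C ≤ B ∧ ¬ Y ≤ C := by
  obtain ⟨C, hC, hAC, hCB⟩ := exists_compl_between hA (hB.mono_right hP.le) hAB
  by_cases hYC : Y ≤ C
  swap
  · exact ⟨C, hC, hAC, hCB, hYC⟩
  obtain ⟨y, hy, hyA⟩ := SetLike.not_le_iff_exists.1 hY
  have hy' : y ∉ A ⊔ P := fun h => by
    obtain ⟨a, ha, p, hp, e⟩ := Submodule.mem_sup.1 h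
    have : p = 0 := Submodule.disjoint_def.1 hC.disjoint p
      (by rw [← eq_sub_iff_add_eq'] at e; rw [e]; exact C.sub_mem (hYC hy) (hAC ha)) hp
    rw [this, add_zero] at e
    exact hyA (e ▸ ha)
  obtain ⟨φ, h1, h2⟩ := exists_fun hy'
  obtain ⟨f, hf, hf'⟩ := SetLike.exists_of_lt hP
  obtain ⟨b, p, hb, hp, e⟩ := Submodule.codisjoint_iff_exists_add_eq.1 hB f
  have hbP : b ∈ P := by
    rw [← eq_sub_iff_add_eq] at e; rw [e]; exact P.sub_mem hf (hP.le hp)
  have hb0 : b ≠ 0 := fun h => hf' (by rw [← e, h, zero_add]; exact hp)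
  have hν : φ.smulRight b ∈ Nil (A ⊔ P) (B ⊓ P) :=
    ⟨fun x hx => by simp [h2 x hx], fun x => Submodule.smul_mem _ _ ⟨hb, hbP⟩⟩
  have hR : B ⊓ P ≤ A ⊔ P := le_sup_of_le_right inf_le_right
  refine ⟨(tv (φ.smulRight b) ⟨0, C⟩).C, tv_compl hR hν (Or.inl inf_le_right) hC,
    (tv_ge hν le_sup_left).2 hAC, tv_le hν inf_le_left hCB, fun h => hb0 ?_⟩
  have h3 : y - b ∈ C := by simpa [h1] using mem_tv.1 (h hy)
  refine Submodule.disjoint_def.1 hC.disjoint b ?_ hbP
  have := C.sub_mem (hYC hy) h3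
  rwa [sub_sub_cancel] at this

variable [FiniteDimensional F W]

open Module in
theorem finrank_sup_le (P Q : Submodule F W) :
    finrank F (P ⊔ Q : Submodule F W) ≤ finrank F P + finrank F Q :=
  Submodule.finrank_add_le_finrank_add_finrank P Q

open Module in
/-- the apex -/
theorem exists_apex {A B P : Submodule F W} (hA : Disjoint A P) (hB : Codisjoint B P)
    (hB' : Codisjoint B Wd) (hAB : A ≤ B) (hAW : A ≤ Wd)
    (hd : finrank F Wd ≤ finrank F A + finrank F P) :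
    ∃ D, IsCompl D P ∧ A ≤ D ∧ D ≤ B ∧ D ⊓ Wd = A := by
  obtain ⟨D, ⟨h1, h2, h3, h4⟩, hmax⟩ := set_has_maximal_iff_noetherian.2
    (inferInstance : IsNoetherian F W) {D | A ≤ D ∧ D ≤ B ∧ Disjoint D P ∧ D ⊓ Wd = A}
    ⟨A, le_rfl, hAB, hA, inf_eq_left.2 hAW⟩
  refine ⟨D, ⟨h3, ?_⟩, h1, h2, h4⟩
  by_contra hne
  have n1 : ¬ B ≤ D ⊔ P := fun h => hne (by
    rw [codisjoint_iff_le_sup]; exact hB.top_le.trans (sup_le h le_sup_right))
  have n2 : ¬ B ≤ D ⊔ Wd := fun h => by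
    have e1 : D ⊔ Wd = ⊤ := top_le_iff.1 (hB'.top_le.trans (sup_le h le_sup_right))
    have e2 := Submodule.finrank_sup_add_finrank_inf_eq D Wd
    rw [e1, h4, finrank_top] at e2
    have e3 := Submodule.finrank_sup_add_finrank_inf_eq D P
    rw [h3.eq_bot, finrank_bot] at e3
    have e4 : finrank F (D ⊔ P : Submodule F W) < finrank F W :=
      Submodule.finrank_lt (fun h => hne (codisjoint_iff.2 h))
    omega
  obtain ⟨b, hb, hb1, hb2⟩ : ∃ b ∈ B, b ∉ D ⊔ P ∧ b ∉ D ⊔ Wd := by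
    obtain ⟨b1, h5, h6⟩ := SetLike.not_le_iff_exists.1 n1
    obtain ⟨b2, h7, h8⟩ := SetLike.not_le_iff_exists.1 n2
    by_cases c1 : b1 ∈ D ⊔ Wd
    swap
    · exact ⟨b1, h5, h6, c1⟩
    by_cases c2 : b2 ∈ D ⊔ P
    swap
    · exact ⟨b2, h7, c2, h8⟩
    exact ⟨b1 + b2, B.add_mem h5 h7, fun h => h6 ((Submodule.add_mem_iff_left _ c2).1 h),
      fun h => h8 ((Submodule.add_mem_iff_right _ c1).1 h)⟩
  have key : ∀ Q : Submodule F W, b ∉ D ⊔ Q → ∀ x ∈ D ⊔ F ∙ b, x ∈ Q → x ∈ D := by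
    intro Q hQ x hx hxQ
    obtain ⟨d, hd, s, hs, rfl⟩ := Submodule.mem_sup.1 hx
    obtain ⟨c, rfl⟩ := Submodule.mem_span_singleton.1 hs
    by_cases hc : c = 0
    · simpa [hc] using hd
    · exfalso
      apply hQ
      have : c • b ∈ D ⊔ Q := by
        have := (D ⊔ Q).sub_mem (Submodule.mem_sup_right hxQ) (Submodule.mem_sup_left hd)
        rwa [add_sub_cancel_left] at this
      exact (Submodule.smul_mem_iff _ hc).1 this
  refine hmax (D ⊔ F ∙ b) ⟨le_sup_of_le_left h1,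
    sup_le h2 ((Submodule.span_singleton_le_iff_mem _ _).2 hb), ?_, ?_⟩ ?_
  · rw [Submodule.disjoint_def]
    exact fun x hx hxP => Submodule.disjoint_def.1 h3 x (key P hb1 x hx hxP) hxP
  · refine le_antisymm (fun x hx => ?_) (le_inf (le_sup_of_le_left h1) hAW)
    rw [← h4]
    exact ⟨key Wd hb2 x hx.1 hx.2, hx.2⟩
  · refine lt_of_le_of_ne le_sup_left fun e => hb1 ?_
    exact Submodule.mem_sup_left (e ▸ Submodule.mem_sup_right (Submodule.mem_span_singleton_self b))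

omit [FiniteDimensional F W] in
theorem exists_E {A B D : Submodule F W} (hB' : Codisjoint B Wd) (hAD : A ≤ D) (hDB : D ≤ B)
    (hD : D ⊓ Wd = A) : ∃ E, IsCompl E Wd ∧ E ≤ B ∧ D ≤ E ⊔ A := by
  obtain ⟨D1, h1, h2⟩ := IsModularLattice.exists_inf_eq_and_sup_eq (a := ⊥) (b := A) (c := D)
    bot_le hAD
  have h3 : D1 ≤ D := h2 ▸ le_sup_right
  obtain ⟨E, hE, h4, h5⟩ := exists_compl_between (A := D1) (B := B) (P := Wd) (by
    rw [disjoint_iff_inf_le, ← h1, ← hD]
    exact le_inf (inf_le_inf_right _ h3) inf_le_left) hB' (h3.trans hDB)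
  exact ⟨E, hE, h5, by rw [← h2]; exact sup_le le_sup_right (le_sup_of_le_left h4)⟩

omit [FiniteDimensional F W] in
/-- the retraction is undone by one transvection along a chain -/
theorem exists_undo {B E C₀ P : Submodule F W} (hE : IsCompl E Wd) (hEB : E ≤ B)
    (hC : IsCompl C₀ P) (hCB : C₀ ≤ B) (hP : P ⊓ B ≤ R) (hR : R ≤ Wd) :
    ∃ ν ∈ Nil Wd R, ∀ v : OV F W, C₀ ≤ v.C → tv ν ⟨v.t, E ⊔ (v.C ⊓ Wd)⟩ = v := by
  have dec : ∀ x : W, ∃ e ∈ E, ∃ c ∈ C₀, ∃ p ∈ P, c + p = e ∧ x - e ∈ Wd ∧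
      (P.subtype ∘ₗ Submodule.projectionOnto P C₀ hC.symm ∘ₗ E.subtype ∘ₗ
        Submodule.projectionOnto E Wd hE) x = p := by
    intro x
    obtain ⟨e, w, he, hw, rfl⟩ := Submodule.codisjoint_iff_exists_add_eq.1 hE.codisjoint x
    obtain ⟨c, p, hc, hp, rfl⟩ := Submodule.codisjoint_iff_exists_add_eq.1 hC.codisjoint e
    refine ⟨_, he, c, hc, p, hp, rfl, by simpa using hw, ?_⟩
    have e1 : Submodule.projectionOnto E Wd hE (c + p + w) = ⟨c + p, he⟩ := by
      rw [map_add, Submodule.projectionOnto_apply_right hE ⟨w, hw⟩, add_zero]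
      exact Submodule.projectionOnto_apply_left hE ⟨c + p, he⟩
    have e2 : Submodule.projectionOnto P C₀ hC.symm (c + p) = ⟨p, hp⟩ := by
      rw [map_add, Submodule.projectionOnto_apply_right hC.symm ⟨c, hc⟩, zero_add]
      exact Submodule.projectionOnto_apply_left hC.symm ⟨p, hp⟩
    simp only [LinearMap.comp_apply, e1, Submodule.subtype_apply, e2]
  set μ := P.subtype ∘ₗ Submodule.projectionOnto P C₀ hC.symm ∘ₗ E.subtype ∘ₗ
        Submodule.projectionOnto E Wd hE with hμ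
  have hpR : ∀ e ∈ E, ∀ c ∈ C₀, ∀ p ∈ P, c + p = e → p ∈ R := fun e he c hc p hp h =>
    hP ⟨hp, by rw [← eq_sub_iff_add_eq'] at h; rw [h]; exact B.sub_mem (hEB he) (hCB hc)⟩
  have hν : μ ∈ Nil Wd R := by
    refine ⟨fun x hx => ?_, fun x => ?_⟩
    · simp only [hμ, LinearMap.comp_apply, Submodule.projectionOnto_apply_right hE ⟨x, hx⟩,
        map_zero]
    · obtain ⟨e, he, c, hc, p, hp, h1, -, h3⟩ := dec x
      rw [h3]; exact hpR e he c hc p hp h1
  refine ⟨-μ, neg_mem hν, fun v hv => ?_⟩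
  ext x
  · rfl
  · rw [mem_tv, LinearMap.neg_apply, sub_neg_eq_add]
    obtain ⟨e, he, c, hc, p, hp, h1, h2, h3⟩ := dec x
    have hpW : p ∈ Wd := hR (hpR e he c hc p hp h1)
    rw [h3]
    constructor
    · intro h
      obtain ⟨e', he', w, hw, h4⟩ := Submodule.mem_sup.1 h
      have h5 : e' - e = 0 := by
        refine Submodule.disjoint_def.1 hE.disjoint _ (E.sub_mem he' he) ?_
        have : e' - e = (x - e) + p - w := by rw [← eq_sub_iff_add_eq] at h4; rw [h4]; abel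
        rw [this]
        exact Wd.sub_mem (Wd.add_mem h2 hpW) hw.2
      have h6 : x = c + w := by
        rw [sub_eq_zero.1 h5, ← h1] at h4
        have : x = c + p + w - p := by rw [h4]; abel
        rw [this]; abel
      rw [h6]
      exact v.C.add_mem (hv hc) hw.1
    · intro h
      have h7 : x + p = e + (x - c) := by rw [← h1]; abel
      rw [h7]
      refine Submodule.add_mem_sup he ⟨v.C.sub_mem h (hv hc), ?_⟩
      have : x - c = (x - e) + p := by rw [← h1]; abel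
      rw [this]
      exact Wd.add_mem h2 hpW

/-- rank one maps generate -/
theorem Nil_ind {p : (W →ₗ[F] W) → Prop} (h0 : p 0)
    (ha : ∀ a ∈ Nil Wd R, ∀ b ∈ Nil Wd R, p a → p b → p (a + b))
    (h1 : ∀ φ : W →ₗ[F] F, (∀ x ∈ Wd, φ x = 0) → ∀ w ∈ R, p (φ.smulRight w))
    {ν : W →ₗ[F] W} (hν : ν ∈ Nil Wd R) : p ν := by
  let b := Module.finBasis F R
  let ν' : W →ₗ[F] R := ν.codRestrict R hν.2
  have e : ν = ∑ i, ((b.coord i) ∘ₗ ν').smulRight (b i : W) := by
    ext x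
    have := congrArg Subtype.val (b.sum_repr (ν' x))
    simp only [LinearMap.coe_sum, Finset.sum_apply, LinearMap.smulRight_apply,
      LinearMap.comp_apply, Module.Basis.coord_apply]
    rw [Submodule.coe_sum] at this
    exact this.symm
  have hk : ∀ i, ∀ x ∈ Wd, ((b.coord i) ∘ₗ ν') x = 0 := fun i x hx => by
    have : ν' x = 0 := Subtype.ext (hν.1 x hx)
    simp [this]
  rw [e]
  refine (Finset.sum_induction _ (fun a => a ∈ Nil Wd R ∧ p a) (fun a b ha' hb' =>
    ⟨add_mem ha'.1 hb'.1, ha a ha'.1 b hb'.1 ha'.2 hb'.2⟩) ⟨zero_mem _, h0⟩ fun i _ => ?_).2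
  exact ⟨⟨fun x hx => by rw [LinearMap.smulRight_apply, hk i x hx, zero_smul],
    fun x => R.smul_mem _ (b i).2⟩, h1 _ (hk i) _ (b i).2⟩

end lin

theorem exists_rank (T : Finset ℕ) {n : ℕ} (h : n < T.card) :
    ∃ t ∈ T, (T.filter (· < t)).card = n := by
  refine ⟨T.orderEmbOfFin rfl ⟨n, h⟩, T.orderEmbOfFin_mem _ _, ?_⟩
  have : T.filter (· < T.orderEmbOfFin rfl ⟨n, h⟩) =
      (Finset.Iio (⟨n, h⟩ : Fin T.card)).image (T.orderEmbOfFin rfl) := by
    ext t
    simp only [mem_filter, mem_image, mem_Iio]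
    constructor
    · rintro ⟨h1, h2⟩
      have : t ∈ Set.range (T.orderEmbOfFin rfl) := by rw [range_orderEmbOfFin]; exact h1
      obtain ⟨i, rfl⟩ := this
      exact ⟨i, (T.orderEmbOfFin rfl).lt_iff_lt.1 h2, rfl⟩
    · rintro ⟨i, hi, rfl⟩
      exact ⟨T.orderEmbOfFin_mem _ _, (T.orderEmbOfFin rfl).lt_iff_lt.2 hi⟩
  rw [this, card_image_of_injective _ (T.orderEmbOfFin rfl).injective, Fin.card_Iio]

end Crest.Agent.R66.O
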