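import Crest.Agent.R66.Defs

/-!
Row 66: the spectral estimate (Garland's method).
-/

set_option autoImplicit false
set_option linter.unusedSectionVars false

namespace Crest.Agent.R66

open Finset
open scoped RealInnerProductSpace

namespace SpA

section abstract
variable {E : Type} [NormedAddCommGroup E] [InnerProductSpace ℝ E]

lemma avg_inner {G F : Type} [Group G] [AddCommGroup F] [Fintype F] (R : G → E →ₗ[ℝ] E)
    (hm : ∀ a b v, R (a * b) v = R a (R b v)) (hi : ∀ a u v, ⟪R a u, R a v⟫ = ⟪u, v⟫)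
    (z : F → G) (hz : ∀ c c', z c * z c' = z (c + c')) (β : E) :
    ⟪∑ e, R (z e) β, ∑ e, R (z e) β⟫ = Fintype.card F * ⟪β, ∑ e, R (z e) β⟫ := by
  have h : ∀ d, R (z d) (∑ e, R (z e) β) = ∑ e, R (z e) β := fun d => by
    simp only [map_sum, ← hm, hz]
    exact Fintype.sum_equiv (Equiv.addLeft d) _ _ fun _ => rfl
  rw [sum_inner]
  calc _ = ∑ _d : F, ⟪β, ∑ e, R (z e) β⟫ := Finset.sum_congr rfl fun d _ => by
        conv_lhs => rw [← h d, hi]
    _ = _ := by simp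

lemma heis {G F : Type} [Group G] [Field F] [Fintype F] (R : G → E →ₗ[ℝ] E)
    (hm : ∀ a b v, R (a * b) v = R a (R b v)) (hi : ∀ a u v, ⟪R a u, R a v⟫ = ⟪u, v⟫)
    (h1 : ∀ v, R 1 v = v) (x x' z : F → G) (hx : ∀ c c', x c * x c' = x (c + c'))
    (hz : ∀ c c', z c * z c' = z (c + c')) (hzx' : ∀ e c, x' c * z e = z e * x' c)
    (hrel : ∀ c c', x' c' * x c = x c * z (c * c') * x' c') {α β : E}
    (hα : ∀ c, R (x c) α = α) (hβ : ∀ c, R (x' c) β = β)
    (ho : ∀ y, (∀ c, R (x c) y = y) → (∀ c, R (x' c) y = y) → ⟪β, y⟫ = 0) :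
    Fintype.card F * ⟪α, β⟫ ^ 2 ≤ ‖α‖ ^ 2 * ‖β‖ ^ 2 := by
  classical
  have hq : (0 : ℝ) < Fintype.card F := by exact_mod_cast Fintype.card_pos
  have x0 : x 0 = 1 := by
    have := hx 0 0
    rwa [add_zero, mul_eq_left] at this
  have a1 : ∀ c c', ⟪β, R (x c) β⟫ = ⟪β, R (x c * z (c * c')) β⟫ := fun c c' => by
    rw [← hi (x' c'), hβ, ← hm, hrel, hm, hβ]
  have a2 : ∀ c, c ≠ 0 →
      Fintype.card F * ⟪β, R (x c) β⟫ = ∑ e, ⟪β, R (x c * z e) β⟫ := fun c hc => by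
    rw [← Fintype.sum_equiv (Equiv.mulLeft₀ c hc) (fun c' => ⟪β, R (x c) β⟫) _ fun c' => a1 c c']
    simp
  have a3 : ∑ c, ∑ e, ⟪β, R (x c * z e) β⟫ = 0 := by
    simp only [← inner_sum]
    refine ho _ (fun d => ?_) fun d => ?_
    · simp only [map_sum, ← hm, ← mul_assoc, hx]
      exact Fintype.sum_equiv (Equiv.addLeft d) _ _ fun _ => rfl
    · simp only [map_sum, ← hm]
      refine Finset.sum_congr rfl fun c _ => ?_
      refine Fintype.sum_equiv (Equiv.addLeft (c * d)) _ _ fun e => ?_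
      rw [← mul_assoc, hrel, mul_assoc, hzx', ← mul_assoc, mul_assoc (x c), hz, hm, hβ]
      rfl
  have a4 : 0 ≤ ∑ e, ⟪β, R (x 0 * z e) β⟫ := by
    simp only [x0, one_mul, ← inner_sum]
    have := avg_inner R hm hi z hz β
    exact nonneg_of_mul_nonneg_right (this ▸ real_inner_self_nonneg) hq |>.trans_eq rfl
  have a5 : ∑ c, ⟪β, R (x c) β⟫ ≤ ‖β‖ ^ 2 := by
    rw [← Finset.add_sum_erase _ _ (mem_univ 0)] at a3 ⊢
    rw [← Finset.sum_congr rfl fun c hc => a2 c (ne_of_mem_erase hc), ← Finset.mul_sum] at a3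
    rw [x0, h1, real_inner_self_eq_norm_sq]
    have : ∑ c ∈ univ.erase 0, ⟪β, R (x c) β⟫ ≤ 0 := by
      by_contra h
      have := mul_pos hq (not_le.mp h)
      linarith
    linarith
  have b1 := avg_inner R hm hi x hx β
  rw [real_inner_self_eq_norm_sq, inner_sum] at b1
  have b2 : ⟪α, ∑ c, R (x c) β⟫ = Fintype.card F * ⟪α, β⟫ := by
    rw [inner_sum]
    calc _ = ∑ _c : F, ⟪α, β⟫ := Finset.sum_congr rfl fun c _ => by
          conv_lhs => rw [← hα c, hi]
      _ = _ := by simp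
  have b3 : ⟪α, ∑ c, R (x c) β⟫ ^ 2 ≤ ‖α‖ ^ 2 * ‖∑ c, R (x c) β‖ ^ 2 := by
    rw [← mul_pow, ← sq_abs]
    exact pow_le_pow_left₀ (abs_nonneg _) (abs_real_inner_le_norm _ _) 2
  rw [b2, b1] at b3
  refine le_of_mul_le_mul_left ?_ hq
  calc _ = (Fintype.card F * ⟪α, β⟫) ^ 2 := by ring
    _ ≤ ‖α‖ ^ 2 * (Fintype.card F * ‖β‖ ^ 2) := b3.trans (by gcongr)
    _ = _ := by ring

variable [FiniteDimensional ℝ E]

lemma pair (V W : Submodule ℝ E) {γ : ℝ} (h0 : 0 ≤ γ) (h1 : γ ≤ 1 / 2)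
    (h : ∀ α ∈ V, ∀ β ∈ W, β ∈ (V ⊓ W)ᗮ → |⟪α, β⟫| ≤ γ * (‖α‖ * ‖β‖)) (x : E) :
    -(4 * γ) * (‖Vᗮ.starProjection x‖ ^ 2 + ‖Wᗮ.starProjection x‖ ^ 2) ≤
      ⟪Vᗮ.starProjection x, Wᗮ.starProjection x⟫ := by
  set y := (V ⊓ W)ᗮ.starProjection x with hy
  have hyo : y ∈ (V ⊓ W)ᗮ := Submodule.starProjection_apply_mem _ _
  have e : ∀ U : Submodule ℝ E, V ⊓ W ≤ U → Uᗮ.starProjection x = y - U.starProjection y := by
    intro U hU
    have h2 : U.starProjection ((V ⊓ W).starProjection x) = (V ⊓ W).starProjection x :=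
      Submodule.starProjection_eq_self_iff.mpr (hU (Submodule.starProjection_apply_mem _ _))
    rw [hy, Submodule.starProjection_orthogonal_val, Submodule.starProjection_orthogonal_val,
      map_sub, h2]
    abel
  rw [e V inf_le_left, e W inf_le_right]
  set α := V.starProjection y
  set β := W.starProjection y
  have hα : ⟪y, α⟫ = ‖α‖ ^ 2 := by
    rw [← real_inner_self_eq_norm_sq]
    have := Submodule.starProjection_inner_eq_zero (K := V) y α
      (Submodule.starProjection_apply_mem _ _)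
    rwa [inner_sub_left, sub_eq_zero] at this
  have hβ : ⟪y, β⟫ = ‖β‖ ^ 2 := by
    rw [← real_inner_self_eq_norm_sq]
    have := Submodule.starProjection_inner_eq_zero (K := W) y β
      (Submodule.starProjection_apply_mem _ _)
    rwa [inner_sub_left, sub_eq_zero] at this
  have hβo : β ∈ (V ⊓ W)ᗮ := by
    intro w hw
    have h2 := Submodule.starProjection_inner_eq_zero (K := W) y w hw.2
    rw [inner_sub_left, sub_eq_zero, real_inner_comm, hyo w hw, real_inner_comm] at h2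
    exact h2.symm
  have k := abs_le.mp (h α (Submodule.starProjection_apply_mem _ _) β
    (Submodule.starProjection_apply_mem _ _) hβo)
  have k2 : γ * (‖α‖ * ‖β‖) ≤ γ * ((‖α‖ ^ 2 + ‖β‖ ^ 2) / 2) :=
    mul_le_mul_of_nonneg_left (by nlinarith [sq_nonneg (‖α‖ - ‖β‖)]) h0
  have k3 : 0 ≤ ‖(1 + γ) • y - (α + β)‖ ^ 2 := sq_nonneg _
  rw [norm_sub_sq_real, norm_add_sq_real, real_inner_smul_left, inner_add_right, hα, hβ,
    norm_smul, Real.norm_of_nonneg (by linarith), mul_pow] at k3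
  have k4 : ‖α‖ ^ 2 + ‖β‖ ^ 2 ≤ (1 + γ) * ‖y‖ ^ 2 := by
    refine le_of_mul_le_mul_left ?_ (show 0 < 1 + γ by linarith)
    nlinarith
  rw [norm_sub_sq_real, norm_sub_sq_real, inner_sub_left, inner_sub_right, inner_sub_right, hα,
    hβ, real_inner_comm y α, hα, real_inner_self_eq_norm_sq]
  set a := ‖α‖ ^ 2
  set b := ‖β‖ ^ 2
  set X := ‖y‖ ^ 2
  have hX : 0 ≤ X := sq_nonneg _
  have k5 : γ * (a + b) ≤ γ * ((1 + γ) * X) := mul_le_mul_of_nonneg_left k4 h0
  have k6 : γ * (γ * X) ≤ γ * (1 / 2 * X) := by gcongr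
  have k7 : 0 ≤ γ * X := mul_nonneg h0 hX
  nlinarith

lemma garland {ι : Type} (T : Finset ι) (V : ι → Submodule ℝ E) {γ : ℝ} (h0 : 0 ≤ γ)
    (h1 : γ ≤ 1 / 2) (h2 : 8 * γ * T.card ≤ 1)
    (h : ∀ t t', t ≠ t' → ∀ α ∈ V t, ∀ β ∈ V t', β ∈ (V t ⊓ V t')ᗮ →
      |⟪α, β⟫| ≤ γ * (‖α‖ * ‖β‖))
    (b : E) (hb : ∀ y, (∀ t ∈ T, y ∈ V t) → ⟪y, b⟫ = 0) :
    (1 - 8 * γ * T.card) * ‖b‖ ^ 2 ≤ ∑ t ∈ T, ‖(V t)ᗮ.starProjection b‖ ^ 2 := by
  classical
  let q : ι → E →L[ℝ] E := fun t => (V t)ᗮ.starProjection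
  have hq : ∀ t u v, ⟪q t u, v⟫ = ⟪q t u, q t v⟫ := fun t u v => by
    have := Submodule.starProjection_inner_eq_zero (K := (V t)ᗮ) v (q t u)
      (Submodule.starProjection_apply_mem _ _)
    rw [inner_sub_left, sub_eq_zero, real_inner_comm] at this
    rw [this, real_inner_comm]
  let L : E →ₗ[ℝ] E := ∑ t ∈ T, (q t : E →ₗ[ℝ] E)
  have hL : ∀ u, L u = ∑ t ∈ T, q t u := fun u => by simp [L]
  have hLi : ∀ u v, ⟪L u, v⟫ = ∑ t ∈ T, ⟪q t u, q t v⟫ := fun u v => by
    simp only [hL, sum_inner, hq _ u v]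
  have hs : L.IsSymmetric := fun u v => by
    rw [hLi, real_inner_comm, hLi]
    exact Finset.sum_congr rfl fun _ _ => real_inner_comm _ _
  obtain ⟨x, hx⟩ : b ∈ LinearMap.range L := by
    rw [← Submodule.orthogonal_orthogonal (LinearMap.range L), hs.orthogonal_range]
    intro y hy
    refine hb y fun t ht => ?_
    have e := hLi y y
    rw [LinearMap.mem_ker.mp hy, inner_zero_left, eq_comm,
      Finset.sum_eq_zero_iff_of_nonneg fun _ _ => real_inner_self_nonneg] at e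
    have := (Submodule.starProjection_apply_eq_zero_iff _).mp (inner_self_eq_zero.mp (e t ht))
    rwa [Submodule.orthogonal_orthogonal] at this
  set μ := 1 - 8 * γ * T.card with hμ
  have hμ0 : 0 ≤ μ := by linarith
  have c1 : μ * ∑ t ∈ T, ‖q t x‖ ^ 2 ≤ ‖b‖ ^ 2 := by
    rw [← hx, ← real_inner_self_eq_norm_sq, hL, sum_inner]
    simp only [inner_sum]
    calc _ = ∑ t ∈ T, ∑ t' ∈ T, ((if t = t' then ‖q t x‖ ^ 2 else 0) +
          -(4 * γ) * (‖q t x‖ ^ 2 + ‖q t' x‖ ^ 2)) := by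
          simp only [Finset.sum_add_distrib, Finset.sum_ite_eq, ← Finset.mul_sum,
            Finset.sum_const, nsmul_eq_mul]
          rw [Finset.sum_congr rfl fun t ht => if_pos ht, hμ]
          ring
      _ ≤ _ := by
          refine Finset.sum_le_sum fun t _ => Finset.sum_le_sum fun t' _ => ?_
          split_ifs with htt
          · subst htt
            rw [real_inner_self_eq_norm_sq]
            nlinarith [sq_nonneg ‖q t x‖]
          · rw [zero_add]
            exact pair (V t) (V t') h0 h1 (h t t' htt) x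
  have c2 : 2 * μ * ‖b‖ ^ 2 ≤ μ * (μ * ∑ t ∈ T, ‖q t x‖ ^ 2) + ∑ t ∈ T, ‖q t b‖ ^ 2 := by
    conv_lhs => rw [← real_inner_self_eq_norm_sq]; enter [2, 2]; rw [← hx]
    rw [hLi]
    simp only [Finset.mul_sum, ← Finset.sum_add_distrib]
    refine Finset.sum_le_sum fun t _ => ?_
    have := sq_nonneg ‖μ • q t x - q t b‖
    rw [norm_sub_sq_real, real_inner_smul_left, norm_smul, Real.norm_of_nonneg hμ0] at this
    nlinarith
  have := mul_le_mul_of_nonneg_left c1 hμ0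
  change _ ≤ ∑ t ∈ T, ‖q t b‖ ^ 2
  linarith

end abstract

section group
variable {G : Type} [Group G] [Fintype G]

/-- Right translation. -/
noncomputable def Rt (x : G) : EuclideanSpace ℝ G →ₗ[ℝ] EuclideanSpace ℝ G where
  toFun a := WithLp.toLp 2 fun g => a (g * x)
  map_add' _ _ := rfl
  map_smul' _ _ := rfl

@[simp] lemma Rt_apply (x : G) (a : EuclideanSpace ℝ G) (g : G) : Rt x a g = a (g * x) := rfl

lemma Rt_mul (x y : G) (a : EuclideanSpace ℝ G) : Rt (x * y) a = Rt x (Rt y a) := by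
  ext g
  simp [mul_assoc]

lemma Rt_one (a : EuclideanSpace ℝ G) : Rt 1 a = a := by
  ext g
  simp

lemma Rt_inner (x : G) (a b : EuclideanSpace ℝ G) : ⟪Rt x a, Rt x b⟫ = ⟪a, b⟫ := by
  simp only [PiLp.inner_apply]
  exact Fintype.sum_equiv (Equiv.mulRight x) _ _ fun _ => rfl

/-- Invariant functions. -/
noncomputable def Iv (H : Subgroup G) : Submodule ℝ (EuclideanSpace ℝ G) where
  carrier := {a | ∀ x ∈ H, Rt x a = a}
  zero_mem' x _ := map_zero _
  add_mem' ha hb x hx := by rw [map_add, ha x hx, hb x hx]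
  smul_mem' c a ha x hx := by rw [map_smul, ha x hx]

lemma Iv_anti {H H' : Subgroup G} (h : H ≤ H') : Iv H' ≤ Iv H := fun _ ha x hx => ha x (h hx)

/-- The stabiliser of a function. -/
def stab (a : EuclideanSpace ℝ G) : Subgroup G where
  carrier := {x | Rt x a = a}
  one_mem' := Rt_one a
  mul_mem' {x y} hx hy := by
    change Rt (x * y) a = a
    rw [Rt_mul, hy, hx]
  inv_mem' {x} hx := by
    change Rt x⁻¹ a = a
    conv_lhs => rw [← hx, ← Rt_mul, inv_mul_cancel, Rt_one]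

lemma mem_elems {H : Subgroup G} {x : G} : x ∈ elems H ↔ x ∈ H := by simp [elems]

lemma avg_eq (H : Subgroup G) (a : G → ℝ) :
    WithLp.toLp 2 (avg H a) = (Iv H).starProjection (WithLp.toLp 2 a) := by
  have hc : ((elems H).card : ℝ) ≠ 0 := by
    exact_mod_cast (Finset.card_pos.mpr ⟨1, mem_elems.mpr H.one_mem⟩).ne'
  have e : WithLp.toLp 2 (avg H a) =
      ((elems H).card : ℝ)⁻¹ • ∑ u ∈ elems H, Rt u (WithLp.toLp 2 a) := by
    ext g
    simp [avg, div_eq_inv_mul]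
  symm
  rw [e]
  refine Submodule.eq_starProjection_of_mem_of_inner_eq_zero (fun x hx => ?_) fun w hw => ?_
  · rw [map_smul, map_sum]
    congr 1
    simp only [← Rt_mul]
    refine Finset.sum_equiv (Equiv.mulLeft x) (fun u => ?_) fun _ _ => rfl
    simp only [mem_elems, Equiv.coe_mulLeft]
    exact (H.mul_mem_cancel_left hx).symm
  · rw [inner_sub_left, real_inner_smul_left, sum_inner,
      Finset.sum_congr rfl fun u hu => show ⟪Rt u (WithLp.toLp 2 a), w⟫ = ⟪WithLp.toLp 2 a, w⟫ by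
        conv_lhs => rw [← hw u (mem_elems.mp hu), Rt_inner]]
    rw [Finset.sum_const, nsmul_eq_mul, ← mul_assoc, inv_mul_cancel₀ hc, one_mul, sub_self]

end group

section kap
variable {F G : Type} [Field F] [Group G] {n K : ℕ} [NeZero n] (S : Kap F n K G)

lemma ne_zero {n : ℕ} (hn : 3 ≤ n) {h : ℕ} (h0 : 0 < h) (h2 : h ≤ 2) : (h : ZMod n) ≠ 0 := by
  rw [Ne, ZMod.natCast_eq_zero_iff]
  exact fun hd => absurd (Nat.le_of_dvd h0 hd) (by omega)

lemma val_neg {n : ℕ} [NeZero n] (hn : 3 ≤ n) {h : ℕ} (h0 : 0 < h) (h2 : h ≤ 2) :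
    (-(h : ZMod n)).val = n - h := by
  rw [ZMod.neg_val, if_neg (ne_zero hn h0 h2), ZMod.val_natCast, Nat.mod_eq_of_lt (by omega)]

lemma mem_X (hE : ElStmt) (hn : 3 ≤ n) (t : ZMod n) (g : G) :
    g ∈ UI S.U (univ.erase t) ↔ ∃ c, g = S.el (t - 1) 1 c := by
  have h1 := ne_zero hn one_pos one_le_two
  have e := (hE F G n K S).1
  have hm : g ∈ UI S.U (univ.erase t) ↔
      ∀ s, s ≠ t → ∀ b h, 1 ≤ h → S.κ g b h ≠ 0 → pos s b + h < n := by
    simp only [UI, Subgroup.mem_iInf, mem_erase, mem_univ, and_true]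
    rfl
  rw [hm]
  constructor
  · intro hg
    refine ⟨S.κ g (t - 1) 1, S.ext _ _ fun b h => ?_⟩
    rcases Nat.eq_zero_or_pos h with rfl | h0
    · rw [S.zero, S.zero]
    rcases le_or_gt K h with hK | hK
    · rw [S.ge _ _ _ hK, S.ge _ _ _ hK]
    rw [e _ _ _ h1 b h h0 hK]
    split_ifs with hb
    · rw [hb.1, hb.2]
    · by_contra hne
      have hb1 : b + 1 = t := by
        by_contra hc
        have := hg _ hc b h h0 hne
        rw [pos, show b - (b + 1) = -((1 : ℕ) : ZMod n) by push_cast; ring,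
          val_neg hn one_pos one_le_two] at this
        omega
      have hb2 : b + 2 ≠ t := fun hc => h1 (by
        rw [← hb1] at hc
        push_cast
        linear_combination hc)
      have := hg _ hb2 b h h0 hne
      rw [pos, show b - (b + 2) = -((2 : ℕ) : ZMod n) by push_cast; ring,
        val_neg hn two_pos le_rfl] at this
      exact hb ⟨by rw [← hb1]; ring, by omega⟩
  · rintro ⟨c, rfl⟩ s hs b h h0 hne
    have hK : h < K := by
      by_contra hc
      exact hne (S.ge _ _ _ (not_lt.mp hc))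
    rw [e _ _ _ h1 b h h0 hK] at hne
    obtain ⟨rfl, rfl⟩ : b = t - 1 ∧ h = 1 := by
      by_contra hc
      exact hne (if_neg hc)
    have h2 : pos s (t - 1) < n := ZMod.val_lt _
    have h3 : pos s (t - 1) ≠ n - 1 := fun hc => hs (by
      rw [pos, ← val_neg hn one_pos one_le_two] at hc
      have := ZMod.val_injective n hc
      push_cast at this
      linear_combination -this)
    omega

lemma pair_X [Fintype F] [Fintype G] (hE : ElStmt) (hn : 3 ≤ n) {t t' : ZMod n}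
    {α β : EuclideanSpace ℝ G} (hα : α ∈ Iv (UI S.U (univ.erase t)))
    (hβ : β ∈ Iv (UI S.U (univ.erase t')))
    (ho : β ∈ (Iv (UI S.U (univ.erase t)) ⊓ Iv (UI S.U (univ.erase t')))ᗮ) :
    Fintype.card F * ⟪α, β⟫ ^ 2 ≤ ‖α‖ ^ 2 * ‖β‖ ^ 2 := by
  have h1 := ne_zero hn one_pos one_le_two
  have h2 := ne_zero hn two_pos le_rfl
  obtain ⟨-, e2, e3, e4⟩ := hE F G n K S
  have hI : ∀ (t : ZMod n) (a : EuclideanSpace ℝ G), a ∈ Iv (UI S.U (univ.erase t)) ↔
      ∀ c, Rt (S.el (t - 1) 1 c) a = a := fun t a =>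
    ⟨fun h c => h _ ((mem_X S hE hn t _).mpr ⟨c, rfl⟩), fun h x hx => by
      obtain ⟨c, rfl⟩ := (mem_X S hE hn t _).mp hx
      exact h c⟩
  have key : ∀ z : F → G, (∀ c c', z c * z c' = z (c + c')) →
      (∀ e c, S.el (t' - 1) 1 c * z e = z e * S.el (t' - 1) 1 c) →
      (∀ c c', S.el (t' - 1) 1 c' * S.el (t - 1) 1 c =
        S.el (t - 1) 1 c * z (c * c') * S.el (t' - 1) 1 c') →
      Fintype.card F * ⟪α, β⟫ ^ 2 ≤ ‖α‖ ^ 2 * ‖β‖ ^ 2 := fun z a b c =>
    heis Rt Rt_mul Rt_inner Rt_one _ _ z (fun c c' => e2 _ _ c c' h1) a b c ((hI t α).mp hα)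
      ((hI t' β).mp hβ) fun y hy hy' => by
        rw [real_inner_comm]
        exact ho y ⟨(hI t y).mpr hy, (hI t' y).mpr hy'⟩
  have n1 : ∀ b : ZMod n, b + ((1 : ℕ) : ZMod n) ≠ b := fun b h => h1 (add_eq_left.mp h)
  have n2 : ∀ b : ZMod n, b + ((2 : ℕ) : ZMod n) ≠ b := fun b h => h2 (add_eq_left.mp h)
  by_cases c1 : t' - 1 = t - 1 + ((1 : ℕ) : ZMod n)
  · have hz : ∀ e c, S.el (t' - 1) 1 c * S.el (t - 1) 2 e = S.el (t - 1) 2 e * S.el (t' - 1) 1 c :=
      fun e c => e3 _ _ _ _ _ _ h1 h2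
        (fun h => n2 (t - 1) (by rw [c1] at h; push_cast at h ⊢; linear_combination h))
        (fun h => n1 (t - 1) (by rw [c1] at h; push_cast at h ⊢; linear_combination h))
    refine key (fun e => S.el (t - 1) 2 e) (fun c c' => e2 _ _ c c' h2) hz fun c c' => ?_
    rw [mul_assoc, ← hz, ← mul_assoc, c1, mul_comm c c']
    exact e4 _ 1 c' 1 c h1 h1 h2
  by_cases c2 : t - 1 = t' - 1 + ((1 : ℕ) : ZMod n)
  · have hz : ∀ e c, S.el (t' - 1) 1 c * S.el (t' - 1) 2 e =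
        S.el (t' - 1) 2 e * S.el (t' - 1) 1 c :=
      fun e c => e3 _ _ _ _ _ _ h1 h2 (n1 _) (n2 _)
    refine key (fun e => S.el (t' - 1) 2 (-e)) (fun c c' => by rw [e2 _ _ _ _ h2, neg_add])
      (fun e c => hz _ c) fun c c' => ?_
    have z0 : S.el (t' - 1) 2 0 = 1 := by
      have := e2 (t' - 1) 2 0 0 h2
      rwa [add_zero, mul_eq_left] at this
    have := e4 (t' - 1) 1 c 1 c' h1 h1 h2
    rw [← c2, one_add_one_eq_two] at this
    rw [mul_assoc, ← hz, ← mul_assoc, this, mul_assoc, e2 _ _ _ _ h2, add_neg_cancel, z0, mul_one]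
  · refine key (fun _ => 1) (fun _ _ => mul_one _) (fun _ _ => by simp) fun c c' => ?_
    rw [mul_one]
    exact e3 _ _ _ _ _ _ h1 h1 (Ne.symm c2) (Ne.symm c1)

end kap

end SpA

open SpA in
theorem specStmt_of (hE : ElStmt) (hG : GenStmt) : SpecStmt := by
  intro n _ hn lam hlam
  have hn' : (3 : ℝ) ≤ n := by exact_mod_cast hn
  obtain ⟨γ, h0, h1, h2⟩ : ∃ γ : ℝ, 0 < γ ∧ 8 * γ * n ≤ 1 ∧ 8 * γ * n ≤ lam := by
    refine ⟨min 1 lam / (8 * n), by positivity, ?_, ?_⟩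
    · rw [show 8 * (min 1 lam / (8 * n)) * n = min 1 lam by field_simp]
      exact min_le_left _ _
    · rw [show 8 * (min 1 lam / (8 * n)) * n = min 1 lam by field_simp]
      exact min_le_right _ _
  refine ⟨⌈(γ ^ 2)⁻¹⌉₊, fun F G _ _ _ _ K S hq _ I s hs a ha => ?_⟩
  have hq' : 1 ≤ Fintype.card F * γ ^ 2 := by
    rw [← div_le_iff₀ (by positivity), one_div]
    exact (Nat.le_ceil _).trans (by exact_mod_cast hq)
  set a' : EuclideanSpace ℝ G := WithLp.toLp 2 a with ha'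
  set V : ZMod n → Submodule ℝ (EuclideanSpace ℝ G) := fun t => Iv (UI S.U (univ.erase t))
  have UIanti : ∀ {J J' : Finset (ZMod n)}, J ⊆ J' → UI S.U J' ≤ UI S.U J := fun h =>
    le_iInf₂ fun t ht => iInf₂_le t (h ht)
  have haV : a' ∈ V s := fun x hx => by
    ext g
    exact ha g x hx
  have hle : Iv (UI S.U (I.erase s)) ≤ Iv (UI S.U I) := Iv_anti (UIanti (erase_subset s I))
  set b := (Iv (UI S.U I)).starProjection a' - (Iv (UI S.U (I.erase s))).starProjection a'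
    with hb
  have hb1 : b ∈ Iv (UI S.U I) := sub_mem (Submodule.starProjection_apply_mem _ _)
    (hle (Submodule.starProjection_apply_mem _ _))
  have hb2 : ∀ y ∈ Iv (UI S.U (I.erase s)), ⟪b, y⟫ = 0 := fun y hy => by
    have e1 := Submodule.starProjection_inner_eq_zero (K := Iv (UI S.U I)) a' y (hle hy)
    have e2 := Submodule.starProjection_inner_eq_zero (K := Iv (UI S.U (I.erase s))) a' y hy
    rw [inner_sub_left] at e1 e2
    rw [hb, inner_sub_left]
    linarith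
  have hcard : (((I.erase s)ᶜ).card : ℝ) ≤ n := by
    exact_mod_cast (card_le_univ _).trans_eq (ZMod.card n)
  have hT : 8 * γ * ((I.erase s)ᶜ).card ≤ 8 * γ * n := by gcongr
  have gar := garland (I.erase s)ᶜ V h0.le (by nlinarith) (hT.trans h1)
    (fun t t' _ α hα β hβ ho => by
      have := pair_X S hE hn hα hβ ho
      refine abs_le_of_sq_le_sq ?_ (by positivity)
      have h3 : 0 ≤ ⟪α, β⟫ ^ 2 := sq_nonneg _
      calc ⟪α, β⟫ ^ 2 ≤ Fintype.card F * γ ^ 2 * ⟪α, β⟫ ^ 2 := le_mul_of_one_le_left h3 hq'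
        _ = γ ^ 2 * (Fintype.card F * ⟪α, β⟫ ^ 2) := by ring
        _ ≤ γ ^ 2 * (‖α‖ ^ 2 * ‖β‖ ^ 2) := by gcongr
        _ = _ := by ring) b
    fun y hy => by
      rw [real_inner_comm]
      refine hb2 y fun x hx => ?_
      have : ⨆ t ∈ (I.erase s)ᶜ, UI S.U (univ.erase t) ≤ stab y :=
        iSup₂_le fun t ht x hx => hy t ht x hx
      exact this ((hG F G n K S).1 hn _ hx)
  rw [Finset.sum_eq_single s (fun t ht hts => ?_) (fun h => absurd (by simp) h)] at gar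
  swap
  · have : b ∈ V t := Iv_anti (UIanti fun u hu => mem_erase.mpr ⟨fun e => ?_, mem_univ _⟩) hb1
    · rw [(Submodule.starProjection_apply_eq_zero_iff _).mpr
        (Submodule.le_orthogonal_orthogonal _ this)]
      simp
    · subst e
      exact mem_compl.mp ht (mem_erase.mpr ⟨hts, hu⟩)
  have p1 := Submodule.norm_sq_eq_add_norm_sq_starProjection b (V s)
  have p2 : ‖(V s).starProjection b‖ ^ 2 ≤ lam * ‖b‖ ^ 2 := by
    have : 8 * γ * ((I.erase s)ᶜ).card * ‖b‖ ^ 2 ≤ lam * ‖b‖ ^ 2 := by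
      gcongr
      exact hT.trans h2
    linarith
  have p3 : ‖b‖ ^ 2 = ⟪(V s).starProjection b, a'⟫ := by
    have e1 := Submodule.starProjection_inner_eq_zero (K := V s) b a' haV
    have e2 := Submodule.starProjection_inner_eq_zero (K := Iv (UI S.U I)) a' b hb1
    have e3 := hb2 _ (Submodule.starProjection_apply_mem _ a')
    rw [inner_sub_left] at e1 e2
    rw [← real_inner_self_eq_norm_sq]
    conv_lhs => enter [3]; rw [hb]
    rw [inner_sub_right, e3, real_inner_comm]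
    rw [real_inner_comm] at e1
    linarith
  have p4 : ‖b‖ ^ 2 ≤ lam * ‖a'‖ ^ 2 := by
    have c := real_inner_le_norm ((V s).starProjection b) a'
    rw [← p3] at c
    rcases (sq_nonneg ‖b‖).eq_or_lt with h | h
    · rw [← h]; positivity
    · refine le_of_mul_le_mul_left ?_ h
      calc ‖b‖ ^ 2 * ‖b‖ ^ 2 = (‖b‖ ^ 2) ^ 2 := by ring
        _ ≤ (‖(V s).starProjection b‖ * ‖a'‖) ^ 2 := by gcongr
        _ ≤ lam * ‖b‖ ^ 2 * ‖a'‖ ^ 2 := by rw [mul_pow]; gcongr
        _ = _ := by ring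
  rw [hb, ha', ← avg_eq, ← avg_eq, EuclideanSpace.real_norm_sq_eq,
    EuclideanSpace.real_norm_sq_eq] at p4
  exact p4

end Crest.Agent.R66
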