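import Crest.Agent.R66.Coset

/-!
Row 66: symmetrising a bounded cone over a group.
-/

set_option autoImplicit false

namespace Crest.Agent.R66

open Finset

theorem symStmt : SymStmt := by
  intro Γ W 𝒯 _ _ _ _ _ T₀ e r K₀ c hc h
  let σ : Γ → Finset 𝒯 → Finset W := fun γ J => J.image fun t => γ • e t
  have hσ : ∀ g γ J, (σ γ J).image (fun w => g • w) = σ (g * γ) J := fun g γ J => by
    simp only [σ, image_image]
    exact image_congr fun t _ => (mul_smul g γ (e t)).symm
  have inj : ∀ (g : Γ) (ρ : Finset W), Set.InjOn (fun w : W => g • w) ρ := fun g _ =>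
    (MulAction.injective g).injOn
  let δ : Finset W → ZMod 2 := fun ρ => ∑ v ∈ ρ, h (ρ.erase v)
  let L : Γ → (Finset W →₀ ZMod 2) →ₗ[ZMod 2] ZMod 2 := fun g =>
    Finsupp.linearCombination (ZMod 2) fun ρ => h (ρ.image fun w => g • w)
  have hL : ∀ g ρ a, L g (Finsupp.single ρ a) = a * h (ρ.image fun w => g • w) := fun g ρ a => by
    simp [L]
  let h' : Γ → Finset W → ZMod 2 := fun g τ => L g (c (τ.image fun w => g⁻¹ • w))
  set S := ∑ J ∈ T₀.powersetCard (r + 1), ∑ γ : Γ, ind (δ (σ γ J)) with hS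
  have key : ∀ J ∈ T₀.powersetCard r, ∀ γ : Γ,
      ∑ g : Γ, ind (h (σ (g * γ) J) + ∑ v ∈ σ (g * γ) J, h' g ((σ (g * γ) J).erase v)) ≤
        K₀ * S := by
    intro J hJ γ
    obtain ⟨hJ1, hJ2⟩ := mem_powersetCard.mp hJ
    obtain ⟨c1, c2, c3⟩ := hc γ J hJ1 hJ2.le
    change bd (ZMod 2) (c (σ γ J)) + ∑ v ∈ σ γ J, c ((σ γ J).erase v) =
      Finsupp.single (σ γ J) 1 at c3
    have e1 : ∀ g : Γ, h (σ (g * γ) J) + ∑ v ∈ σ (g * γ) J, h' g ((σ (g * γ) J).erase v) =
        ∑ ρ ∈ (c (σ γ J)).support, c (σ γ J) ρ * δ (ρ.image fun w => g • w) := by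
      intro g
      have a1 : ∑ v ∈ σ (g * γ) J, h' g ((σ (g * γ) J).erase v) =
          L g (∑ v ∈ σ γ J, c ((σ γ J).erase v)) := by
        rw [← hσ, sum_image (inj g _), map_sum]
        refine sum_congr rfl fun v hv => ?_
        simp only [h']
        rw [← image_erase_of_injOn (inj g _) hv, image_image]
        congr 2
        exact (image_congr (g := id) fun w _ => inv_smul_smul g w).trans image_id
      have a2 : h (σ (g * γ) J) = L g (Finsupp.single (σ γ J) 1) := by
        rw [hL, one_mul, hσ]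
      rw [a1, a2, ← map_add, ← c3, add_add_cancel2,
        show L g (bd (ZMod 2) (c (σ γ J))) = ((L g).comp (bd (ZMod 2))) (c (σ γ J)) from rfl,
        map_eq_sum]
      refine sum_congr rfl fun ρ _ => ?_
      rw [LinearMap.comp_apply, bd_single, map_sum]
      simp only [hL, δ]
      rw [sum_image (inj g _), mul_sum]
      exact sum_congr rfl fun v hv => by rw [image_erase_of_injOn (inj g _) hv]
    calc _ ≤ ∑ g : Γ, ∑ ρ ∈ (c (σ γ J)).support, ind (δ (ρ.image fun w => g • w)) := by
          refine sum_le_sum fun g _ => ?_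
          rw [e1]
          refine (ind_sum_le _ _).trans (sum_le_sum fun ρ _ => ?_)
          by_cases h0 : δ (ρ.image fun w => g • w) = 0
          · rw [h0, mul_zero]
          · exact (ind_le_one _).trans_eq (if_neg h0).symm
      _ ≤ ∑ _ρ ∈ (c (σ γ J)).support, S := by
          rw [sum_comm]
          refine sum_le_sum fun ρ hρ => ?_
          obtain ⟨γ', J', h1, h2, rfl⟩ := c1 ρ hρ
          calc _ = ∑ g : Γ, ind (δ (σ g J')) :=
                Fintype.sum_equiv (Equiv.mulRight γ') _ _ fun g => by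
                  rw [Equiv.coe_mulRight, ← hσ]
            _ ≤ S := single_le_sum (f := fun J => ∑ γ : Γ, ind (δ (σ γ J)))
                (fun _ _ => sum_nonneg fun _ _ => ind_nonneg _)
                (mem_powersetCard.mpr ⟨h1, h2.trans (by rw [hJ2])⟩)
      _ ≤ _ := by
          rw [sum_const, nsmul_eq_mul]
          exact mul_le_mul_of_nonneg_right (by exact_mod_cast c2)
            (sum_nonneg fun _ _ => sum_nonneg fun _ _ => ind_nonneg _)
  have hS0 : 0 ≤ S := sum_nonneg fun _ _ => sum_nonneg fun _ _ => ind_nonneg _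
  have tot : ∑ g : Γ, ∑ J ∈ T₀.powersetCard r, ∑ γ : Γ,
      ind (h (σ γ J) + ∑ v ∈ σ γ J, h' g ((σ γ J).erase v)) ≤
      ∑ _g : Γ, 2 ^ T₀.card * K₀ * S := by
    calc _ = ∑ J ∈ T₀.powersetCard r, ∑ γ : Γ, ∑ g : Γ,
          ind (h (σ (g * γ) J) + ∑ v ∈ σ (g * γ) J, h' g ((σ (g * γ) J).erase v)) := by
          rw [sum_comm]
          refine sum_congr rfl fun J _ => ?_
          rw [sum_comm (f := fun γ g => ind (h (σ (g * γ) J) +
            ∑ v ∈ σ (g * γ) J, h' g ((σ (g * γ) J).erase v)))]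
          exact sum_congr rfl fun g _ =>
            (Fintype.sum_equiv (Equiv.mulLeft g) _ _ fun _ => rfl).symm
      _ ≤ ∑ J ∈ T₀.powersetCard r, ∑ _γ : Γ, K₀ * S :=
          sum_le_sum fun J hJ => sum_le_sum fun γ _ => key J hJ γ
      _ ≤ _ := by
          rw [sum_comm]
          refine sum_le_sum fun _ _ => ?_
          rw [sum_const, nsmul_eq_mul, mul_assoc]
          refine mul_le_mul_of_nonneg_right ?_ (by positivity)
          rw [card_powersetCard]
          exact_mod_cast Nat.choose_le_two_pow _ _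
  obtain ⟨g, -, hg⟩ := exists_le_of_sum_le univ_nonempty tot
  exact ⟨h' g, hg⟩

end Crest.Agent.R66
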