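import Crest.Agent.R66.Coset

/-!
Row 66: the dual statement for one row, by the reversal automorphism.
-/

set_option autoImplicit false

namespace Crest.Agent.R66

open Finset

namespace ThA

variable {F G : Type} [Field F] [Group G] {n K : ℕ} (S : Kap F n K G)

theorem exists_theta (c : ZMod n) : ∃ θ : G →* G, (∀ g, θ (θ g) = g) ∧
    ∀ g b h, S.κ (θ g) b h = S.κ g⁻¹ (c - b - (h : ZMod n)) h := by
  choose τ hτ using S.rev c
  have hm : ∀ g g', τ (g * g') = τ g' * τ g := fun g g' => S.ext' fun b h _ hK => by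
    rw [hτ, S.mul _ _ _ _ hK, S.mul _ _ _ _ hK, ← Finset.Nat.sum_antidiagonal_swap]
    refine sum_congr rfl fun p hp => ?_
    rw [hτ, hτ, mul_comm, ← mem_antidiagonal.mp hp]
    simp only [Prod.fst_swap, Prod.snd_swap]
    congr 2 <;> (push_cast; ring)
  have hi : ∀ g, τ (τ g) = g := fun g => S.ext _ _ fun b h => by
    rw [hτ, hτ]
    congr 1
    ring
  let θ : G →* G := MonoidHom.mk' (fun g => τ g⁻¹) fun g g' => by rw [mul_inv_rev, hm]
  refine ⟨θ, fun g => ?_, fun g b h => hτ _ _ _⟩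
  change τ (θ g)⁻¹ = g
  rw [← map_inv]
  change τ (τ g⁻¹⁻¹) = g
  rw [hi, inv_inv]

theorem val_neg_cast [NeZero n] {m : ℕ} (h0 : 1 ≤ m) (hm : m ≤ n) :
    (-(m : ZMod n)).val = n - m := by
  have : -(m : ZMod n) = ((n - m : ℕ) : ZMod n) := by
    rw [Nat.cast_sub hm, ZMod.natCast_self, zero_sub]
  rw [this, ZMod.val_natCast, Nat.mod_eq_of_lt (by omega)]

end ThA

open ThA in
theorem deltaCStmt_of (h : DeltaStmt) : DeltaCStmt := by
  intro m
  obtain ⟨ρ, h⟩ := h m 1
  refine ⟨ρ, fun F k G _ _ _ _ _ _ n K _ S ψ hF hψ hK A I j hj hI harc m' hm' z hz hbd a ha => ?_⟩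
  obtain ⟨θ, hθ, hκ⟩ := exists_theta S (j - 1)
  have pat : ∀ {Pa Pa' : ZMod n → ℕ → Prop} {hP : Kap.Closed Pa} {hP' : Kap.Closed Pa'},
      (∀ b (h : ℕ), Pa (j - 1 - b - h) h → Pa' b h) → ∀ g ∈ S.pat Pa hP, θ g ∈ S.pat Pa' hP' :=
    fun H g hg b h h1 hne => H b h (inv_mem hg _ h h1 (by rwa [hκ] at hne))
  have hU : ∀ s, ∀ g ∈ S.U s, θ g ∈ S.U (j - s) := fun s => pat fun b h H => by
    have e : b - (j - s) = -((pos s (j - 1 - b - h) + h + 1 : ℕ) : ZMod n) := by
      push_cast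
      rw [cast_pos]
      ring
    rw [pos, e, val_neg_cast (by omega) (by omega)]
    omega
  let f : Vx S.U → Vx S.U := fun v => vtx S.U (j - v.1) (θ (Quotient.out v.2))
  have hf : ∀ s g, f (vtx S.U s g) = vtx S.U (j - s) (θ g) := fun s g => by
    refine vtx_eq_iff.mpr ⟨rfl, ?_⟩
    rw [← map_inv, ← map_mul]
    exact hU s _ (vtx_eq_iff.mp (vtx_out (vtx S.U s g))).2
  have ev : ∀ v : Vx S.U, ∃ s g, v = vtx S.U s g := fun v => ⟨_, exists_vtx v⟩
  have hff : ∀ v, f (f v) = v := fun v => by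
    obtain ⟨s, g, rfl⟩ := ev v
    rw [hf s g, hf (j - s), hθ, sub_sub_cancel]
  have finj : Function.Injective f := Function.LeftInverse.injective hff
  have hfa : ∀ v, f (θ a • f v) = a • v := fun v => by
    obtain ⟨s, g, rfl⟩ := ev v
    rw [hf s g, smul_vtx, hf (j - s), smul_vtx, map_mul, hθ, hθ, sub_sub_cancel]
  have hface : ∀ g J, (face S.U g J).image f = face S.U (θ g) (J.image (j - ·)) := fun g J => by
    unfold face
    rw [image_image, image_image]
    exact image_congr fun s _ => hf s g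
  have hDl : ∀ {Q Q' : Subgroup G} {J : Finset (ZMod n)}, (∀ g ∈ Q, θ g ∈ Q') →
      ∀ σ ∈ Dl S.U Q J, σ.image f ∈ Dl S.U Q' (J.image (j - ·)) ∧ Set.InjOn f σ :=
    fun H σ ⟨g, hg, hσ⟩ => ⟨⟨θ g, H g hg, hface g _ ▸ image_subset_image hσ⟩, finj.injOn⟩
  set A' := A.image (j - 1 - ·) with hA'
  have mA : ∀ b, b ∈ A' ↔ j - 1 - b ∈ A := fun b => by
    simp only [hA', mem_image]
    exact ⟨fun ⟨x, hx, e⟩ => by rwa [← e, sub_sub_cancel], fun hb => ⟨_, hb, sub_sub_cancel _ _⟩⟩
  have q1 : ∀ g ∈ S.P A ⊓ S.row {j}, θ g ∈ S.P A' ⊓ S.col {-1} := fun g hg =>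
    ⟨pat (fun b h H => ⟨(mA _).mpr (by simpa using H.2), (mA _).mpr (by
        rw [← sub_sub]; exact H.1)⟩) g hg.1,
      pat (fun b h H hb => H (by rw [mem_singleton] at hb ⊢; rw [hb]; ring)) g hg.2⟩
  have q2 : ∀ g ∈ S.P A' ⊓ S.col {-1}, θ g ∈ S.P A ⊓ S.row {j} := fun g hg =>
    ⟨pat (fun b h H => ⟨by simpa using (mA _).mp H.2, by
        have := (mA _).mp H.1
        rwa [sub_sub (j - 1) b, sub_sub_cancel] at this⟩) g hg.1,
      pat (fun b h H hb => H (by
        rw [mem_singleton] at hb ⊢; linear_combination -hb)) g hg.2⟩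
  have q3 : θ a ∈ S.R A' {-1} := pat (fun b h H => ⟨(mA _).mpr (by simpa using H.2.1),
      fun hb => H.2.2 (by rw [mem_singleton] at hb ⊢; rw [hb]; ring), by
        have := mem_singleton.mp H.1
        rw [mem_singleton]
        linear_combination -this⟩) a ha
  have hII : (I.image (j - ·)).image (j - ·) = I := by
    rw [image_image]
    exact (image_congr (g := id) fun s _ => sub_sub_cancel j s).trans image_id
  have H := h F k G n K S ψ hF hψ hK A' {-1} (I.image (j - ·))
    (singleton_subset_iff.mpr ((mA _).mpr (by simpa using hj))) (by simp)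
    (by rwa [card_image_of_injective _ sub_right_injective])
    (fun s _ x hx => by
      have := val_neg_cast (n := n) le_rfl (NeZero.one_le)
      rw [mem_singleton.mp hx, ← Nat.cast_one, this]
      have := ZMod.val_lt s
      omega)
    (fun s₁ h₁ s₂ h₂ hne => by
      obtain ⟨s, hs, rfl⟩ := mem_image.mp h₁
      obtain ⟨s', hs', rfl⟩ := mem_image.mp h₂
      obtain ⟨x, hx, hxj, hlt⟩ := harc s' hs' s hs fun e => hne (by rw [e])
      refine ⟨j - 1 - x, (mA _).mpr (by simpa using hx), fun e => hxj (by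
        linear_combination -(mem_singleton.mp e)), ?_⟩
      have e1 : pos (j - s) (j - s') = pos s' s := by
        unfold pos
        congr 1
        ring
      have e2 : j - 1 - x = j - s + ((pos s' s - (pos s' x + 1) : ℕ) : ZMod n) := by
        rw [Nat.cast_sub hlt]
        push_cast
        rw [cast_pos, cast_pos]
        ring
      have := pos_lt s' s
      rw [e1, e2, pos_add_nat _ (by omega)]
      omega)
    m' hm' (mp k f z) (mp_mem_Ch' hz (hDl q1)) (by rw [bd_mp fun _ _ => finj.injOn, hbd, map_zero])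
    (θ a) q3
  have H' := H.map (hDl q2)
  rw [hII, map_add, act, mp_mp, mp_mp, mp_mp, show f ∘ f = id from funext hff,
    mp_eq_self' (f := id) fun _ _ _ _ => rfl] at H'
  have e : (f ∘ fun v => θ a • v) ∘ f = fun v => a • v := funext hfa
  rw [e] at H'
  exact H'

end Crest.Agent.R66
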